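/-
Row 34 (S0045, S0046), Step 5 (a)-(d) of the proof in finding #1707, in an abstract linear space.
Kovari-Sos-Turan is replaced by a first moment argument.
-/
import Mathlib

set_option autoImplicit false
set_option linter.unusedSectionVars false

open Finset

namespace Crest.Agent.Ryser.RichLine

open scoped Classical

/-- A linear space: every two distinct points have a unique join; there is a partition of the
points by "part lines". -/
structure Plane (Pt : Type*) (Ln : Type*) where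
  I : Pt → Ln → Prop
  join : Pt → Pt → Ln
  join_left : ∀ {p p' : Pt}, p ≠ p' → I p (join p p')
  join_right : ∀ {p p' : Pt}, p ≠ p' → I p' (join p p')
  unique : ∀ {p p' : Pt} {l : Ln}, p ≠ p' → I p l → I p' l → l = join p p'
  partLine : Pt → Ln
  mem_part : ∀ p, I p (partLine p)
  part_unique : ∀ {p p' : Pt}, I p' (partLine p) → partLine p' = partLine p

variable {Pt Ln : Type*} [Fintype Pt] [Fintype Ln] (P : Plane Pt Ln)

/-- Number of points of `S` on the line `l`. -/
noncomputable def x (S : Finset Pt) (l : Ln) : ℕ := (S.filter (fun p => P.I p l)).card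

/-- Generic pair: all joins are distinct and no three joins are concurrent outside `U ∪ V`. -/
def Generic (U V : Finset Pt) : Prop :=
  (∀ u₁ ∈ U, ∀ u₂ ∈ U, ∀ v₁ ∈ V, ∀ v₂ ∈ V,
      P.join u₁ v₁ = P.join u₂ v₂ → u₁ = u₂ ∧ v₁ = v₂) ∧
  (∀ Q, Q ∉ U → Q ∉ V → ((U ×ˢ V).filter (fun uv => P.I Q (P.join uv.1 uv.2))).card ≤ 2)

variable {P}

lemma line_inter {l l' : Ln} {p p' : Pt} (h : l ≠ l') (h1 : P.I p l) (h2 : P.I p' l)
    (h3 : P.I p l') (h4 : P.I p' l') : p = p' := by
  by_contra hne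
  exact h ((P.unique hne h1 h2).trans (P.unique hne h3 h4).symm)

lemma generic_empty (U : Finset Pt) : Generic P U ∅ := by
  constructor
  · intro _ _ _ _ _ hv; simp at hv
  · intro Q _ _; simp

/-- One step of the greedy construction. -/
lemma generic_insert {U V : Finset Pt} {v : Pt} (hG : Generic P U V)
    (hvU : v ∉ U)
    (h1 : ∀ u ∈ U, ∀ u' ∈ U, u ≠ u' → ¬ P.I v (P.join u u'))
    (h2 : ∀ u ∈ U, ∀ v' ∈ V, ¬ P.I v (P.join u v'))
    (h3 : ∀ u ∈ U, ∀ Q, Q ∉ U → Q ∉ V →
      2 ≤ ((U ×ˢ V).filter (fun uv => P.I Q (P.join uv.1 uv.2))).card → ¬ P.I v (P.join u Q)) :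
    Generic P U (insert v V) := by
  have hne : ∀ u ∈ U, u ≠ v := fun u hu h => hvU (h ▸ hu)
  have hinj : ∀ u₁ ∈ U, ∀ u₂ ∈ U, ∀ v₁ ∈ insert v V, ∀ v₂ ∈ insert v V,
      P.join u₁ v₁ = P.join u₂ v₂ → u₁ = u₂ ∧ v₁ = v₂ := by
    intro u₁ hu₁ u₂ hu₂ v₁ hv₁ v₂ hv₂ hj
    rw [mem_insert] at hv₁ hv₂
    rcases hv₁ with e₁ | hv₁ <;> rcases hv₂ with e₂ | hv₂
    · rw [e₁, e₂] at hj ⊢
      refine ⟨?_, rfl⟩
      by_contra hu
      have hl : P.join u₁ v = P.join u₁ u₂ :=
        P.unique hu (P.join_left (hne u₁ hu₁)) (hj ▸ P.join_left (hne u₂ hu₂))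
      exact h1 u₁ hu₁ u₂ hu₂ hu (hl ▸ P.join_right (hne u₁ hu₁))
    · rw [e₁] at hj
      exact absurd (hj ▸ P.join_right (hne u₁ hu₁)) (h2 u₂ hu₂ v₂ hv₂)
    · rw [e₂] at hj
      exact absurd (hj.symm ▸ P.join_right (hne u₂ hu₂)) (h2 u₁ hu₁ v₁ hv₁)
    · exact hG.1 u₁ hu₁ u₂ hu₂ v₁ hv₁ v₂ hv₂ hj
  refine ⟨hinj, ?_⟩
  intro Q hQU hQV
  rw [mem_insert, not_or] at hQV
  obtain ⟨hQv, hQV⟩ := hQV
  -- split pairs
  set A := (U ×ˢ V).filter (fun uv => P.I Q (P.join uv.1 uv.2)) with hA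
  set B := U.filter (fun u => P.I Q (P.join u v)) with hB
  have hAle : A.card ≤ 2 := hG.2 Q hQU hQV
  have hBle : B.card ≤ 1 := by
    rw [card_le_one]
    intro u hu u' hu'
    rw [hB, mem_filter] at hu hu'
    have e1 : P.join u v = P.join Q v := P.unique hQv hu.2 (P.join_right (hne u hu.1))
    have e2 : P.join u' v = P.join Q v := P.unique hQv hu'.2 (P.join_right (hne u' hu'.1))
    exact (hinj u hu.1 u' hu'.1 v (mem_insert_self _ _) v (mem_insert_self _ _)
      (e1.trans e2.symm)).1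
  have hsub : (U ×ˢ insert v V).filter (fun uv => P.I Q (P.join uv.1 uv.2)) ⊆
      A ∪ B.image (fun u => (u, v)) := by
    intro ⟨a, b⟩ hab
    rw [mem_filter, mem_product, mem_insert] at hab
    obtain ⟨⟨ha, hb⟩, hq⟩ := hab
    rw [mem_union]
    rcases hb with rfl | hb
    · right
      exact mem_image.2 ⟨a, by rw [hB, mem_filter]; exact ⟨ha, hq⟩, rfl⟩
    · left
      rw [hA, mem_filter, mem_product]; exact ⟨⟨ha, hb⟩, hq⟩
  by_cases hA2 : 2 ≤ A.card
  · -- then `B` is empty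
    have hBe : B = ∅ := by
      rw [eq_empty_iff_forall_notMem]
      intro u hu
      rw [hB, mem_filter] at hu
      have huQ : u ≠ Q := fun h => hQU (h ▸ hu.1)
      have hl : P.join u v = P.join u Q :=
        P.unique huQ (P.join_left (hne u hu.1)) hu.2
      exact h3 u hu.1 Q hQU hQV hA2 (hl ▸ P.join_right (hne u hu.1))
    have : (U ×ˢ insert v V).filter (fun uv => P.I Q (P.join uv.1 uv.2)) ⊆ A := by
      intro y hy
      have := hsub hy
      rw [hBe] at this
      simpa using this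
    exact (card_le_card this).trans hAle
  · have h4 := card_le_card hsub
    have h5 := card_union_le A (B.image (fun u => (u, v)))
    have h6 : (B.image (fun u => (u, v))).card ≤ B.card := card_image_le
    omega

/-- The set of points off `U ∪ V` on two joins has size at most `(|U||V|)^2`. -/
lemma card_Qset_le {U V : Finset Pt} (hG : Generic P U V) :
    ((univ : Finset Pt).filter (fun Q => Q ∉ U ∧ Q ∉ V ∧
      2 ≤ ((U ×ˢ V).filter (fun uv => P.I Q (P.join uv.1 uv.2))).card)).card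
      ≤ (U.card * V.card) ^ 2 := by
  set W := U ×ˢ V with hW
  have hsub : (univ : Finset Pt).filter (fun Q => Q ∉ U ∧ Q ∉ V ∧
      2 ≤ (W.filter (fun uv => P.I Q (P.join uv.1 uv.2))).card) ⊆
      (W.offDiag).biUnion (fun pp => (univ : Finset Pt).filter
        (fun Q => P.I Q (P.join pp.1.1 pp.1.2) ∧ P.I Q (P.join pp.2.1 pp.2.2))) := by
    intro Q hQ
    rw [mem_filter] at hQ
    obtain ⟨-, -, -, h2⟩ := hQ
    obtain ⟨a, ha, b, hb, hab⟩ := one_lt_card.1 (by omega :
      1 < (W.filter (fun uv => P.I Q (P.join uv.1 uv.2))).card)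
    rw [mem_filter] at ha hb
    rw [mem_biUnion]
    exact ⟨(a, b), by rw [mem_offDiag]; exact ⟨ha.1, hb.1, hab⟩,
      by rw [mem_filter]; exact ⟨mem_univ _, ha.2, hb.2⟩⟩
  have h1 : ∀ pp ∈ W.offDiag, ((univ : Finset Pt).filter
        (fun Q => P.I Q (P.join pp.1.1 pp.1.2) ∧ P.I Q (P.join pp.2.1 pp.2.2))).card ≤ 1 := by
    intro pp hpp
    rw [mem_offDiag] at hpp
    rw [card_le_one]
    intro Q hQ Q' hQ'
    rw [mem_filter] at hQ hQ'
    have hl : P.join pp.1.1 pp.1.2 ≠ P.join pp.2.1 pp.2.2 := by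
      intro he
      have ha := mem_product.1 hpp.1
      have hb := mem_product.1 hpp.2.1
      have := hG.1 _ ha.1 _ hb.1 _ ha.2 _ hb.2 he
      exact hpp.2.2 (Prod.ext this.1 this.2)
    exact line_inter hl hQ.2.1 hQ'.2.1 hQ.2.2 hQ'.2.2
  calc _ ≤ _ := card_le_card hsub
    _ ≤ ∑ pp ∈ W.offDiag, ((univ : Finset Pt).filter
        (fun Q => P.I Q (P.join pp.1.1 pp.1.2) ∧ P.I Q (P.join pp.2.1 pp.2.2))).card :=
        card_biUnion_le
    _ ≤ ∑ _pp ∈ W.offDiag, 1 := sum_le_sum h1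
    _ = W.offDiag.card := by simp
    _ ≤ W.card * W.card := by rw [offDiag_card]; omega
    _ = (U.card * V.card) ^ 2 := by rw [hW, card_product]; ring

/-- Greedy construction of a generic pair. -/
theorem exists_generic {U V₀ : Finset Pt} {w c : ℕ} (hU : U.card = w) (hdisj : Disjoint U V₀)
    (hc : ∀ l, (∃ u ∈ U, P.I u l) → x P V₀ l ≤ c)
    (hsize : w + (2 * w ^ 2 + w ^ 5) * c < V₀.card) :
    ∃ V ⊆ V₀, V.card = w ∧ Generic P U V := by
  suffices H : ∀ k ≤ w, ∃ V ⊆ V₀, V.card = k ∧ Generic P U V from H w le_rfl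
  intro k
  induction k with
  | zero => exact fun _ => ⟨∅, empty_subset _, rfl, generic_empty U⟩
  | succ k ih =>
    intro hk
    obtain ⟨V, hVV₀, hVk, hG⟩ := ih (by omega)
    have hUV : ∀ u ∈ U, ∀ v ∈ V₀, u ≠ v := fun u hu v hv h =>
      (disjoint_left.1 hdisj hu) (h ▸ hv)
    set F1 := ((U ×ˢ U).filter (fun a => a.1 ≠ a.2)).image (fun a => P.join a.1 a.2) with hF1
    set F2 := (U ×ˢ V).image (fun a => P.join a.1 a.2) with hF2
    set Qs := (univ : Finset Pt).filter (fun Q => Q ∉ U ∧ Q ∉ V ∧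
      2 ≤ ((U ×ˢ V).filter (fun uv => P.I Q (P.join uv.1 uv.2))).card) with hQs
    set F3 := (U ×ˢ Qs).image (fun a => P.join a.1 a.2) with hF3
    set Forb := F1 ∪ F2 ∪ F3 with hForb
    have hthrough : ∀ l ∈ Forb, ∃ u ∈ U, P.I u l := by
      intro l hl
      rw [hForb, mem_union, mem_union] at hl
      rcases hl with (hl | hl) | hl
      · obtain ⟨a, ha, rfl⟩ := mem_image.1 hl
        rw [mem_filter, mem_product] at ha
        exact ⟨a.1, ha.1.1, P.join_left ha.2⟩
      · obtain ⟨a, ha, rfl⟩ := mem_image.1 hl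
        rw [mem_product] at ha
        exact ⟨a.1, ha.1, P.join_left (hUV _ ha.1 _ (hVV₀ ha.2))⟩
      · obtain ⟨a, ha, rfl⟩ := mem_image.1 hl
        rw [mem_product, hQs, mem_filter] at ha
        refine ⟨a.1, ha.1, P.join_left ?_⟩
        intro h
        exact ha.2.2.1 (h ▸ ha.1)
    have hF1c : F1.card ≤ w ^ 2 := by
      calc F1.card ≤ ((U ×ˢ U).filter (fun a => a.1 ≠ a.2)).card := card_image_le
        _ ≤ (U ×ˢ U).card := card_le_card (filter_subset _ _)
        _ = w ^ 2 := by rw [card_product, hU]; ring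
    have hF2c : F2.card ≤ w ^ 2 := by
      calc F2.card ≤ (U ×ˢ V).card := card_image_le
        _ = w * k := by rw [card_product, hU, hVk]
        _ ≤ w * w := Nat.mul_le_mul_left _ (by omega)
        _ = w ^ 2 := by ring
    have hF3c : F3.card ≤ w ^ 5 := by
      have hQc : Qs.card ≤ (w * k) ^ 2 := by
        have := card_Qset_le hG
        rwa [hU, hVk] at this
      calc F3.card ≤ (U ×ˢ Qs).card := card_image_le
        _ = w * Qs.card := by rw [card_product, hU]
        _ ≤ w * (w * k) ^ 2 := Nat.mul_le_mul_left _ hQc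
        _ ≤ w * (w * w) ^ 2 := by
            apply Nat.mul_le_mul_left
            apply Nat.pow_le_pow_left
            exact Nat.mul_le_mul_left _ (by omega)
        _ = w ^ 5 := by ring
    have hForbc : Forb.card ≤ 2 * w ^ 2 + w ^ 5 := by
      have h1 := card_union_le (F1 ∪ F2) F3
      have h2 := card_union_le F1 F2
      rw [hForb]; omega
    -- a point of `V₀` avoiding everything
    have hex : ∃ v ∈ V₀, v ∉ V ∧ ∀ l ∈ Forb, ¬ P.I v l := by
      by_contra hno
      push Not at hno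
      have hsub : V₀ ⊆ V ∪ Forb.biUnion (fun l => V₀.filter (fun p => P.I p l)) := by
        intro v hv
        by_cases hvV : v ∈ V
        · exact mem_union_left _ hvV
        · obtain ⟨l, hl, hvl⟩ := hno v hv hvV
          refine mem_union_right _ (mem_biUnion.2 ⟨l, hl, ?_⟩)
          rw [mem_filter]; exact ⟨hv, hvl⟩
      have h1 := card_le_card hsub
      have h2 := card_union_le V (Forb.biUnion (fun l => V₀.filter (fun p => P.I p l)))
      have h3 : (Forb.biUnion (fun l => V₀.filter (fun p => P.I p l))).card ≤ Forb.card * c := by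
        calc _ ≤ ∑ l ∈ Forb, (V₀.filter (fun p => P.I p l)).card := card_biUnion_le
          _ ≤ ∑ _l ∈ Forb, c := sum_le_sum (fun l hl => hc l (hthrough l hl))
          _ = Forb.card * c := by simp
      have h4 : Forb.card * c ≤ (2 * w ^ 2 + w ^ 5) * c := Nat.mul_le_mul_right _ hForbc
      omega
    obtain ⟨v, hv, hvV, hvF⟩ := hex
    refine ⟨insert v V, insert_subset hv hVV₀, ?_, ?_⟩
    · rw [card_insert_of_notMem hvV, hVk]
    · apply generic_insert hG (fun h => hUV v h v hv rfl)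
      · intro u hu u' hu' huu
        apply hvF
        rw [hForb, mem_union, mem_union]
        left; left
        exact mem_image.2 ⟨(u, u'), by rw [mem_filter, mem_product]; exact ⟨⟨hu, hu'⟩, huu⟩, rfl⟩
      · intro u hu v' hv'
        apply hvF
        rw [hForb, mem_union, mem_union]
        left; right
        exact mem_image.2 ⟨(u, v'), by rw [mem_product]; exact ⟨hu, hv'⟩, rfl⟩
      · intro u hu Q hQU hQV h2
        apply hvF
        rw [hForb, mem_union]
        right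
        refine mem_image.2 ⟨(u, Q), ?_, rfl⟩
        rw [mem_product, hQs, mem_filter]
        exact ⟨hu, mem_univ _, hQU, hQV, h2⟩

/-- Markov: few elements have large `d`. -/
lemma markov_half {α : Type*} (S : Finset α) (d : α → ℕ) (D : ℕ)
    (h : ∑ s ∈ S, d s ≤ D) :
    2 * (S.filter (fun s => 2 * D < d s * S.card)).card ≤ S.card := by
  set B := S.filter (fun s => 2 * D < d s * S.card) with hB
  have h1 : B.card * (2 * D + 1) ≤ ∑ s ∈ B, d s * S.card := by
    rw [← smul_eq_mul, ← sum_const]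
    apply sum_le_sum
    intro s hs
    rw [hB, mem_filter] at hs
    omega
  have h2 : ∑ s ∈ B, d s * S.card ≤ D * S.card := by
    rw [← sum_mul]
    apply Nat.mul_le_mul_right
    exact (sum_le_sum_of_subset (filter_subset _ _)).trans h
  rcases Nat.eq_zero_or_pos D with hD | hD
  · subst hD
    have : B.card ≤ 0 := by nlinarith
    omega
  · have h3 : 2 * B.card * D ≤ S.card * D := by nlinarith
    have := Nat.le_of_mul_le_mul_right h3 hD
    exact this


lemma x_mono {V S : Finset Pt} (h : V ⊆ S) (l : Ln) : x P V l ≤ x P S l :=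
  card_le_card (filter_subset_filter _ h)

/-- The graph of step 5(a). -/
def Adj (P : Plane Pt Ln) (S : Finset Pt) (R : Finset Ln) (X₀ : ℕ) (s s' : Pt) : Prop :=
  P.partLine s ≠ P.partLine s' ∧ P.join s s' ∉ R ∧ x P S (P.join s s') ≤ X₀

/-- The grid property G2, restricted to subsets of `S`. -/
def Grid (P : Plane Pt Ln) (S : Finset Pt) (R : Finset Ln) (w : ℕ) : Prop :=
  ∀ U V : Finset Pt, U ⊆ S → V ⊆ S → U.card = w → V.card = w → Generic P U V →
    (∀ u ∈ U, ∀ v ∈ V, P.partLine u ≠ P.partLine v) → ∃ u ∈ U, ∃ v ∈ V, P.join u v ∈ R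

lemma ne_of_part_ne {a b : Pt} (h : P.partLine a ≠ P.partLine b) : a ≠ b := by
  rintro rfl; exact h rfl

/-- Step 5(a): the graph has no `K_{w,W}`. -/
theorem card_common_le {S : Finset Pt} {R : Finset Ln} {w X₀ : ℕ} (hG2 : Grid P S R w)
    {U V₀ : Finset Pt} (hUS : U ⊆ S) (hV : V₀ ⊆ S) (hU : U.card = w)
    (hadj : ∀ u ∈ U, ∀ v ∈ V₀, Adj P S R X₀ u v) :
    V₀.card ≤ w + (2 * w ^ 2 + w ^ 5) * X₀ := by
  by_contra hcon
  rw [not_le] at hcon
  have hdisj : Disjoint U V₀ := by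
    rw [disjoint_left]
    intro a ha hb
    exact (hadj a ha a hb).1 rfl
  have hc : ∀ l, (∃ u ∈ U, P.I u l) → x P V₀ l ≤ X₀ := by
    rintro l ⟨u, hu, hul⟩
    by_cases h : ∃ v ∈ V₀, P.I v l
    · obtain ⟨v, hv, hvl⟩ := h
      have hA := hadj u hu v hv
      have hl : l = P.join u v := P.unique (ne_of_part_ne hA.1) hul hvl
      calc x P V₀ l ≤ x P S l := x_mono hV l
        _ ≤ X₀ := hl ▸ hA.2.2
    · have : x P V₀ l = 0 := by
        unfold x
        rw [card_eq_zero, filter_eq_empty_iff]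
        intro v hv hvl
        exact h ⟨v, hv, hvl⟩
      omega
  obtain ⟨V, hVV, hVc, hGen⟩ := exists_generic hU hdisj hc hcon
  obtain ⟨u, hu, v, hv, hj⟩ := hG2 U V hUS (hVV.trans hV) hU hVc hGen
    (fun u hu v hv => (hadj u hu v (hVV hv)).1)
  exact (hadj u hu v (hVV hv)).2.1 hj

/-- Ordered non-adjacent pairs. -/
noncomputable def nonAdj (P : Plane Pt Ln) (S : Finset Pt) (R : Finset Ln) (X₀ : ℕ) : ℕ :=
  ((S ×ˢ S).filter (fun a => ¬ Adj P S R X₀ a.1 a.2)).card

/-- First moment replacing Kovari-Sos-Turan: there are many non-adjacent pairs. -/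
theorem many_nonAdj {S : Finset Pt} {R : Finset Ln} {w X₀ : ℕ} (hG2 : Grid P S R w)
    (hn2 : 2 * w ≤ S.card) (hn1 : 4 * (w + (2 * w ^ 2 + w ^ 5) * X₀) < 3 * S.card) :
    S.card ^ 2 < 8 * w * nonAdj P S R X₀ := by
  by_contra hcon
  rw [not_lt] at hcon
  set N := nonAdj P S R X₀ with hN
  set n := S.card with hn
  have hnpos : 0 < n := by omega
  let d : Pt → ℕ := fun s => (S.filter (fun s' => ¬ Adj P S R X₀ s s')).card
  have hsum : ∑ s ∈ S, d s = N := by
    simp only [hN, nonAdj, d, card_filter]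
    rw [sum_product]
  have hmk := markov_half S d N hsum.le
  have hT : w ≤ (S.filter (fun s => ¬ 2 * N < d s * S.card)).card := by
    have := card_filter_add_card_filter_not (s := S) (fun s => 2 * N < d s * S.card)
    omega
  obtain ⟨U, hUT, hUc⟩ := exists_subset_card_eq hT
  have hUS : U ⊆ S := hUT.trans (filter_subset _ _)
  set V₀ := S.filter (fun s' => ∀ u ∈ U, Adj P S R X₀ u s') with hV₀
  have hcov : S ⊆ V₀ ∪ U.biUnion (fun u => S.filter (fun s' => ¬ Adj P S R X₀ u s')) := by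
    intro s hs
    by_cases h : ∀ u ∈ U, Adj P S R X₀ u s
    · exact mem_union_left _ (by rw [hV₀, mem_filter]; exact ⟨hs, h⟩)
    · push Not at h
      obtain ⟨u, hu, hus⟩ := h
      exact mem_union_right _ (mem_biUnion.2 ⟨u, hu, by rw [mem_filter]; exact ⟨hs, hus⟩⟩)
  have h1 : n ≤ V₀.card + ∑ u ∈ U, d u := by
    calc n ≤ _ := card_le_card hcov
      _ ≤ _ := card_union_le _ _
      _ ≤ _ := Nat.add_le_add_left card_biUnion_le _
  have h2 : (∑ u ∈ U, d u) * n ≤ w * (2 * N) := by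
    rw [sum_mul]
    calc ∑ u ∈ U, d u * n ≤ ∑ _u ∈ U, 2 * N := by
          apply sum_le_sum
          intro u hu
          have := (mem_filter.1 (hUT hu)).2
          rw [not_lt] at this
          exact this
      _ = w * (2 * N) := by simp [hUc]
  have h3 : 4 * (∑ u ∈ U, d u) ≤ n := by
    have : 4 * (∑ u ∈ U, d u) * n ≤ n * n := by nlinarith
    have h4 : 4 * (∑ u ∈ U, d u) * n ≤ n * n := this
    exact Nat.le_of_mul_le_mul_right h4 hnpos
  have h5 : V₀.card ≤ w + (2 * w ^ 2 + w ^ 5) * X₀ :=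
    card_common_le hG2 hUS (filter_subset _ _) hUc
      (fun u hu v hv => (mem_filter.1 hv).2 u hu)
  omega

/-- Pairs on a given set of lines. -/
lemma pairs_on_lines (S : Finset Pt) (L : Finset Ln) :
    ((S ×ˢ S).filter (fun a => a.1 ≠ a.2 ∧ P.join a.1 a.2 ∈ L)).card
      ≤ ∑ l ∈ L, x P S l * (x P S l - 1) := by
  have hsub : (S ×ˢ S).filter (fun a => a.1 ≠ a.2 ∧ P.join a.1 a.2 ∈ L) ⊆
      L.biUnion (fun l => (S.filter (fun p => P.I p l)).offDiag) := by
    intro a ha
    rw [mem_filter, mem_product] at ha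
    obtain ⟨⟨h1, h2⟩, hne, hl⟩ := ha
    refine mem_biUnion.2 ⟨_, hl, ?_⟩
    rw [mem_offDiag, mem_filter, mem_filter]
    exact ⟨⟨h1, P.join_left hne⟩, ⟨h2, P.join_right hne⟩, hne⟩
  calc _ ≤ _ := card_le_card hsub
    _ ≤ _ := card_biUnion_le
    _ = _ := by
      apply sum_congr rfl
      intro l _
      rw [offDiag_card, Nat.mul_sub_one]
      rfl

/-- Step 5(b): accounting of non-adjacent pairs. `Rich` is the sum over rich lines. -/
theorem nonAdj_le {S : Finset Pt} {R : Finset Ln} {X₀ B : ℕ}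
    (hB : ∑ L ∈ R, (x P S L - 1) ≤ B) :
    nonAdj P S R X₀ ≤ S.card + S.card * X₀ + X₀ * B +
      ∑ l ∈ (univ : Finset Ln).filter (fun l => X₀ < x P S l), x P S l ^ 2 := by
  set Di := (S ×ˢ S).filter (fun a => a.1 = a.2) with hDi
  set A := (S ×ˢ S).filter (fun a => a.1 ≠ a.2 ∧ P.partLine a.1 = P.partLine a.2 ∧
    x P S (P.join a.1 a.2) ≤ X₀) with hA
  set RR := R.filter (fun l => x P S l ≤ X₀) with hRR
  set C := (S ×ˢ S).filter (fun a => a.1 ≠ a.2 ∧ P.join a.1 a.2 ∈ RR) with hC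
  set RL := (univ : Finset Ln).filter (fun l => X₀ < x P S l) with hRL
  set D := (S ×ˢ S).filter (fun a => a.1 ≠ a.2 ∧ P.join a.1 a.2 ∈ RL) with hD
  have hsub : (S ×ˢ S).filter (fun a => ¬ Adj P S R X₀ a.1 a.2) ⊆ Di ∪ A ∪ C ∪ D := by
    intro a ha
    rw [mem_filter] at ha
    obtain ⟨hmem, hna⟩ := ha
    by_cases h1 : a.1 = a.2
    · simp only [mem_union]; left; left; left
      rw [hDi, mem_filter]; exact ⟨hmem, h1⟩
    by_cases h2 : X₀ < x P S (P.join a.1 a.2)
    · simp only [mem_union]; right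
      rw [hD, mem_filter]; exact ⟨hmem, h1, by rw [hRL, mem_filter]; exact ⟨mem_univ _, h2⟩⟩
    rw [not_lt] at h2
    by_cases h3 : P.partLine a.1 = P.partLine a.2
    · simp only [mem_union]; left; left; right
      rw [hA, mem_filter]; exact ⟨hmem, h1, h3, h2⟩
    · simp only [mem_union]; left; right
      rw [hC, mem_filter]
      refine ⟨hmem, h1, ?_⟩
      rw [hRR, mem_filter]
      refine ⟨?_, h2⟩
      by_contra h4
      exact hna ⟨h3, h4, h2⟩
  have hDi_c : Di.card ≤ S.card := by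
    have : Di ⊆ S.image (fun s => (s, s)) := by
      intro a ha
      rw [hDi, mem_filter, mem_product] at ha
      exact mem_image.2 ⟨a.1, ha.1.1, Prod.ext rfl ha.2⟩
    exact (card_le_card this).trans card_image_le
  have hA_c : A.card ≤ X₀ * S.card := by
    apply card_le_mul_card_image_of_maps_to (f := Prod.fst)
    · intro a ha
      rw [hA, mem_filter, mem_product] at ha
      exact ha.1.1
    · intro b _
      by_cases hne : ({a ∈ A | a.1 = b}).Nonempty
      · obtain ⟨a0, ha0⟩ := hne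
        rw [mem_filter, hA, mem_filter, mem_product] at ha0
        obtain ⟨⟨⟨h1, h2⟩, h3, h4, h5⟩, rfl⟩ := ha0
        have hl : P.join a0.1 a0.2 = P.partLine a0.1 := by
          have hon : P.I a0.2 (P.partLine a0.1) := h4 ▸ P.mem_part a0.2
          exact (P.unique h3 (P.mem_part _) hon).symm
        have hx : x P S (P.partLine a0.1) ≤ X₀ := hl ▸ h5
        refine le_trans ?_ hx
        unfold x
        apply card_le_card_of_injOn (fun a => a.2)
        · intro a ha
          simp only [mem_coe, mem_filter, hA, mem_product] at ha ⊢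
          obtain ⟨⟨⟨h6, h7⟩, h8, h9, h10⟩, h11⟩ := ha
          refine ⟨h7, ?_⟩
          rw [← h11, h9]
          exact P.mem_part _
        · intro a ha a' ha' he
          simp only [mem_coe, mem_filter] at ha ha'
          exact Prod.ext (ha.2.trans ha'.2.symm) he
      · rw [not_nonempty_iff_eq_empty] at hne
        rw [hne]; simp
  have hC_c : C.card ≤ X₀ * B := by
    calc C.card ≤ ∑ l ∈ RR, x P S l * (x P S l - 1) := pairs_on_lines S RR
      _ ≤ ∑ l ∈ RR, X₀ * (x P S l - 1) := by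
          apply sum_le_sum
          intro l hl
          rw [hRR, mem_filter] at hl
          exact Nat.mul_le_mul_right _ hl.2
      _ = X₀ * ∑ l ∈ RR, (x P S l - 1) := by rw [mul_sum]
      _ ≤ X₀ * ∑ l ∈ R, (x P S l - 1) := by
          apply Nat.mul_le_mul_left
          exact sum_le_sum_of_subset (filter_subset _ _)
      _ ≤ X₀ * B := Nat.mul_le_mul_left _ hB
  have hD_c : D.card ≤ ∑ l ∈ RL, x P S l ^ 2 := by
    calc D.card ≤ ∑ l ∈ RL, x P S l * (x P S l - 1) := pairs_on_lines S RL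
      _ ≤ ∑ l ∈ RL, x P S l ^ 2 := by
          apply sum_le_sum
          intro l _
          rw [sq]
          exact Nat.mul_le_mul_left _ (Nat.sub_le _ _)
  have h0 : nonAdj P S R X₀ ≤ (Di ∪ A ∪ C ∪ D).card := card_le_card hsub
  have h1 := card_union_le (Di ∪ A ∪ C) D
  have h2 := card_union_le (Di ∪ A) C
  have h3 := card_union_le Di A
  have h4 : X₀ * S.card = S.card * X₀ := Nat.mul_comm _ _
  omega

/-- Lines with many points carry few incidences. -/
theorem sum_big_lines (S : Finset Pt) {X : ℕ} (hX0 : 1 ≤ X) (hX : 2 * S.card ≤ X ^ 2) :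
    ∑ l ∈ (univ : Finset Ln).filter (fun l => X ≤ x P S l), x P S l ≤ 2 * S.card := by
  set T := (univ : Finset Ln).filter (fun l => X ≤ x P S l) with hT
  set J := ∑ l ∈ T, x P S l with hJ
  set n := S.card with hn
  let deg : Pt → ℕ := fun p => (T.filter (fun l => P.I p l)).card
  have hsum : ∑ p ∈ S, deg p = J := by
    have := sum_card_bipartiteAbove_eq_sum_card_bipartiteBelow (s := S) (t := T)
      (fun p l => P.I p l)
    simpa [bipartiteAbove, bipartiteBelow, hJ, x] using this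
  have hCS : J ^ 2 ≤ n * ∑ p ∈ S, deg p ^ 2 := by
    rw [← hsum]
    exact sq_sum_le_card_mul_sum_sq
  have hdeg2 : ∑ p ∈ S, deg p ^ 2 ≤ J + T.card ^ 2 := by
    have h1 : ∀ p, deg p ^ 2 = ∑ l ∈ T, ∑ l' ∈ T,
        (if P.I p l ∧ P.I p l' then 1 else 0) := by
      intro p
      have : deg p = ∑ l ∈ T, (if P.I p l then 1 else 0) := by
        simp only [deg, card_filter]
      rw [sq, this, sum_mul_sum]
      apply sum_congr rfl; intro l _
      apply sum_congr rfl; intro l' _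
      by_cases h : P.I p l <;> by_cases h' : P.I p l' <;> simp [h, h']
    simp only [h1]
    rw [sum_comm]
    have h2 : ∀ l ∈ T, ∑ p ∈ S, ∑ l' ∈ T, (if P.I p l ∧ P.I p l' then 1 else 0)
        ≤ x P S l + T.card := by
      intro l hl
      rw [sum_comm]
      have h3 : ∀ l' ∈ T, ∑ p ∈ S, (if P.I p l ∧ P.I p l' then 1 else 0)
          ≤ (if l' = l then x P S l else 0) + 1 := by
        intro l' _
        by_cases hll : l' = l
        · subst hll
          simp only [and_self, if_true]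
          rw [← card_filter]
          unfold x
          omega
        · simp only [hll, if_false, zero_add]
          rw [← card_filter, card_le_one]
          intro a ha b hb
          rw [mem_filter] at ha hb
          exact line_inter (Ne.symm hll) ha.2.1 hb.2.1 ha.2.2 hb.2.2
      calc _ ≤ ∑ l' ∈ T, ((if l' = l then x P S l else 0) + 1) := sum_le_sum h3
        _ = x P S l + T.card := by
            rw [sum_add_distrib, sum_ite_eq' T l]
            simp [hl]
    calc _ ≤ ∑ l ∈ T, (x P S l + T.card) := sum_le_sum h2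
      _ = J + T.card ^ 2 := by
          rw [sum_add_distrib, sum_const, smul_eq_mul, sq]
  have hTX : T.card * X ≤ J := by
    rw [← smul_eq_mul]
    apply card_nsmul_le_sum
    intro l hl
    rw [hT, mem_filter] at hl
    exact hl.2
  have hXpos : 0 < X ^ 2 := by positivity
  -- J^2 X^2 ≤ n J X^2 + n J^2
  have h5 : J ^ 2 * X ^ 2 ≤ n * J * X ^ 2 + n * J ^ 2 := by
    have h6 : J ^ 2 ≤ n * (J + T.card ^ 2) := hCS.trans (Nat.mul_le_mul_left _ hdeg2)
    have h7 : (T.card * X) ^ 2 ≤ J ^ 2 := Nat.pow_le_pow_left hTX 2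
    calc J ^ 2 * X ^ 2 ≤ n * (J + T.card ^ 2) * X ^ 2 := Nat.mul_le_mul_right _ h6
      _ = n * J * X ^ 2 + n * (T.card * X) ^ 2 := by ring
      _ ≤ n * J * X ^ 2 + n * J ^ 2 := by
          apply Nat.add_le_add_left
          exact Nat.mul_le_mul_left _ h7
  have h8 : 2 * n * J ^ 2 ≤ X ^ 2 * J ^ 2 := Nat.mul_le_mul_right _ hX
  have h9 : J ^ 2 * X ^ 2 ≤ 2 * n * J * X ^ 2 := by nlinarith
  have h10 : J ^ 2 ≤ 2 * n * J := by
    have : J ^ 2 * X ^ 2 ≤ (2 * n * J) * X ^ 2 := h9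
    exact Nat.le_of_mul_le_mul_right this hXpos
  rcases Nat.eq_zero_or_pos J with h0 | hpos
  · rw [h0]; omega
  · have : J * J ≤ (2 * n) * J := by nlinarith
    exact Nat.le_of_mul_le_mul_right this hpos


/-- Dyadic bound for the rich sum (steps 5(b),(c)). -/
theorem rich_le {S : Finset Pt} {X₀ Z K r q : ℕ} (hX₀ : 1 ≤ X₀)
    (hno : ∀ l, x P S l < Z)
    (hIT : ∀ X, X₀ ≤ X → X ^ 2 ≤ 4 * q →
      ((univ : Finset Ln).filter (fun l => X ≤ x P S l ∧ x P S l < 2 * X)).card * X ^ 2 * K ≤ q ^ 2)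
    (hr1 : (X₀ * 2 ^ r) ^ 2 ≤ 4 * q) (hr2 : 4 * q < (X₀ * 2 ^ (r + 1)) ^ 2)
    (hnq : S.card ≤ q) :
    K * ∑ l ∈ (univ : Finset Ln).filter (fun l => X₀ < x P S l), x P S l ^ 2
      ≤ K * (2 * S.card * Z) + 4 * (r + 1) * q ^ 2 := by
  set Xb := X₀ * 2 ^ (r + 1) with hXb
  set RL := (univ : Finset Ln).filter (fun l => X₀ < x P S l) with hRL
  set Bg := (univ : Finset Ln).filter (fun l => Xb ≤ x P S l) with hBg
  set Md := RL.filter (fun l => x P S l < Xb) with hMd
  have hsplit : ∑ l ∈ RL, x P S l ^ 2 ≤ ∑ l ∈ Bg, x P S l ^ 2 + ∑ l ∈ Md, x P S l ^ 2 := by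
    have hsub : RL ⊆ Bg ∪ Md := by
      intro l hl
      by_cases h : x P S l < Xb
      · exact mem_union_right _ (by rw [hMd, mem_filter]; exact ⟨hl, h⟩)
      · exact mem_union_left _ (by rw [hBg, mem_filter]; exact ⟨mem_univ _, not_lt.1 h⟩)
    have h0 := sum_union_inter (s₁ := Bg) (s₂ := Md) (f := fun l => x P S l ^ 2)
    have h1 : ∑ l ∈ RL, x P S l ^ 2 ≤ ∑ l ∈ Bg ∪ Md, x P S l ^ 2 := sum_le_sum_of_subset hsub
    omega
  have hbig : ∑ l ∈ Bg, x P S l ^ 2 ≤ 2 * S.card * Z := by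
    have hXbpos : 1 ≤ Xb := by
      rw [hXb]; exact Nat.mul_pos hX₀ (by positivity)
    have h2 : 2 * S.card ≤ Xb ^ 2 := by omega
    have h3 := sum_big_lines (P := P) (Ln := Ln) S hXbpos h2
    calc ∑ l ∈ Bg, x P S l ^ 2 ≤ ∑ l ∈ Bg, x P S l * Z := by
          apply sum_le_sum
          intro l _
          rw [sq]
          exact Nat.mul_le_mul_left _ (hno l).le
      _ = (∑ l ∈ Bg, x P S l) * Z := by rw [sum_mul]
      _ ≤ 2 * S.card * Z := Nat.mul_le_mul_right _ h3
  -- dyadic pieces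
  let Xi : ℕ → ℕ := fun i => X₀ * 2 ^ i
  have hmid : ∑ l ∈ Md, x P S l ^ 2 ≤ ∑ i ∈ range (r + 1),
      ((univ : Finset Ln).filter (fun l => Xi i ≤ x P S l ∧ x P S l < 2 * Xi i)).card * (4 * Xi i ^ 2) := by
    have hpt : ∀ l ∈ Md, x P S l ^ 2 ≤ ∑ i ∈ range (r + 1),
        (if Xi i ≤ x P S l ∧ x P S l < 2 * Xi i then 4 * Xi i ^ 2 else 0) := by
      intro l hl
      rw [hMd, mem_filter, hRL, mem_filter] at hl
      obtain ⟨⟨-, h1⟩, h2⟩ := hl
      set v := x P S l / X₀ with hv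
      have hv1 : 1 ≤ v := by
        rw [hv]; exact (Nat.one_le_div_iff (by omega)).2 h1.le
      set i := Nat.log 2 v with hi
      have h3 : 2 ^ i ≤ v := Nat.pow_log_le_self 2 (by omega)
      have h4 : v < 2 ^ (i + 1) := Nat.lt_pow_succ_log_self (by norm_num) v
      have h5 : Xi i ≤ x P S l := by
        show X₀ * 2 ^ i ≤ x P S l
        calc X₀ * 2 ^ i ≤ X₀ * v := Nat.mul_le_mul_left _ h3
          _ ≤ x P S l := Nat.mul_div_le _ _
      have h6 : x P S l < X₀ * 2 ^ (i + 1) := by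
        have := (Nat.div_lt_iff_lt_mul (by omega : 0 < X₀)).1 h4
        rwa [Nat.mul_comm] at this
      have h7 : i ≤ r := by
        have h8 : v < 2 ^ (r + 1) := by
          rw [hv]
          apply (Nat.div_lt_iff_lt_mul (by omega : 0 < X₀)).2
          rw [Nat.mul_comm]; exact h2
        have := Nat.log_lt_of_lt_pow (by omega) h8
        omega
      have h6' : x P S l < 2 * Xi i := by
        show x P S l < 2 * (X₀ * 2 ^ i)
        have : X₀ * 2 ^ (i + 1) = 2 * (X₀ * 2 ^ i) := by ring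
        omega
      have h9 : x P S l ^ 2 ≤ 4 * Xi i ^ 2 := by
        have h10 : x P S l ≤ 2 * Xi i := by
          show x P S l ≤ 2 * (X₀ * 2 ^ i)
          have : X₀ * 2 ^ (i + 1) = 2 * (X₀ * 2 ^ i) := by ring
          omega
        calc x P S l ^ 2 ≤ (2 * Xi i) ^ 2 := Nat.pow_le_pow_left h10 2
          _ = 4 * Xi i ^ 2 := by ring
      calc x P S l ^ 2 ≤ (if Xi i ≤ x P S l ∧ x P S l < 2 * Xi i then 4 * Xi i ^ 2 else 0) := by
            rw [if_pos ⟨h5, h6'⟩]; exact h9
        _ ≤ _ := single_le_sum (f := fun i => if Xi i ≤ x P S l ∧ x P S l < 2 * Xi i then 4 * Xi i ^ 2 else 0)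
            (fun _ _ => Nat.zero_le _) (mem_range.2 (by omega))
    calc _ ≤ ∑ l ∈ Md, ∑ i ∈ range (r + 1), (if Xi i ≤ x P S l ∧ x P S l < 2 * Xi i then 4 * Xi i ^ 2 else 0) :=
          sum_le_sum hpt
      _ ≤ ∑ l ∈ (univ : Finset Ln), ∑ i ∈ range (r + 1),
            (if Xi i ≤ x P S l ∧ x P S l < 2 * Xi i then 4 * Xi i ^ 2 else 0) :=
          sum_le_sum_of_subset (subset_univ _)
      _ = _ := by
          rw [sum_comm]
          apply sum_congr rfl
          intro i _
          rw [← sum_filter, sum_const, smul_eq_mul]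
  have hmidK : K * ∑ i ∈ range (r + 1),
      ((univ : Finset Ln).filter (fun l => Xi i ≤ x P S l ∧ x P S l < 2 * Xi i)).card * (4 * Xi i ^ 2)
      ≤ 4 * (r + 1) * q ^ 2 := by
    rw [mul_sum]
    calc _ ≤ ∑ _i ∈ range (r + 1), 4 * q ^ 2 := by
          apply sum_le_sum
          intro i hi
          rw [mem_range] at hi
          have hXi1 : X₀ ≤ Xi i := Nat.le_mul_of_pos_right _ (by positivity)
          have hXi2 : Xi i ^ 2 ≤ 4 * q := by
            refine le_trans (Nat.pow_le_pow_left ?_ 2) hr1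
            exact Nat.mul_le_mul_left _ (Nat.pow_le_pow_right (by norm_num) (by omega))
          have := hIT (Xi i) hXi1 hXi2
          calc K * (((univ : Finset Ln).filter (fun l => Xi i ≤ x P S l ∧ x P S l < 2 * Xi i)).card * (4 * Xi i ^ 2))
              = 4 * (((univ : Finset Ln).filter (fun l => Xi i ≤ x P S l ∧ x P S l < 2 * Xi i)).card * Xi i ^ 2 * K) := by
                ring
            _ ≤ 4 * q ^ 2 := Nat.mul_le_mul_left _ this
      _ = 4 * (r + 1) * q ^ 2 := by simp; ring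
  calc K * ∑ l ∈ RL, x P S l ^ 2
      ≤ K * (2 * S.card * Z + ∑ i ∈ range (r + 1),
        ((univ : Finset Ln).filter (fun l => Xi i ≤ x P S l ∧ x P S l < 2 * Xi i)).card * (4 * Xi i ^ 2)) :=
        Nat.mul_le_mul_left _ (hsplit.trans (Nat.add_le_add hbig hmid))
    _ = K * (2 * S.card * Z) + K * ∑ i ∈ range (r + 1),
        ((univ : Finset Ln).filter (fun l => Xi i ≤ x P S l ∧ x P S l < 2 * Xi i)).card * (4 * Xi i ^ 2) := by ring
    _ ≤ _ := Nat.add_le_add_left hmidK _

/-- Step 5(c): there is a line with at least `Z` points. -/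
theorem exists_rich_line {S : Finset Pt} {R : Finset Ln} {w X₀ Z K r B q : ℕ} (hX₀ : 1 ≤ X₀)
    (hG2 : Grid P S R w) (hB : ∑ L ∈ R, (x P S L - 1) ≤ B)
    (hIT : ∀ X, X₀ ≤ X → X ^ 2 ≤ 4 * q →
      ((univ : Finset Ln).filter (fun l => X ≤ x P S l ∧ x P S l < 2 * X)).card * X ^ 2 * K ≤ q ^ 2)
    (hr1 : (X₀ * 2 ^ r) ^ 2 ≤ 4 * q) (hr2 : 4 * q < (X₀ * 2 ^ (r + 1)) ^ 2)
    (hnq : S.card ≤ q)
    (hn2 : 2 * w ≤ S.card) (hn1 : 4 * (w + (2 * w ^ 2 + w ^ 5) * X₀) < 3 * S.card)
    (hn3 : 16 * w * (S.card + S.card * X₀ + X₀ * B) ≤ S.card ^ 2)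
    (hn4 : 16 * w * (K * (2 * S.card * Z) + 4 * (r + 1) * q ^ 2) ≤ S.card ^ 2 * K) :
    ∃ m, Z ≤ x P S m := by
  by_contra hcon
  push Not at hcon
  have h1 := many_nonAdj (X₀ := X₀) hG2 hn2 hn1
  have h2 := nonAdj_le (X₀ := X₀) hB
  have h3 := rich_le hX₀ hcon hIT hr1 hr2 hnq
  set Rich := ∑ l ∈ (univ : Finset Ln).filter (fun l => X₀ < x P S l), x P S l ^ 2 with hRich
  set A := S.card + S.card * X₀ + X₀ * B with hA
  set n2 := S.card ^ 2 with hn2'
  have h4 : 8 * w * nonAdj P S R X₀ ≤ 8 * w * (A + Rich) := Nat.mul_le_mul_left _ h2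
  have h5 : n2 < 16 * w * Rich := by
    have : 8 * w * (A + Rich) = 8 * w * A + 8 * w * Rich := by ring
    have h6 : 16 * w * A = 2 * (8 * w * A) := by ring
    have h7 : 16 * w * Rich = 2 * (8 * w * Rich) := by ring
    omega
  have h8 : n2 * K < 16 * w * Rich * K ∨ K = 0 := by
    rcases Nat.eq_zero_or_pos K with h | h
    · right; exact h
    · left; exact Nat.mul_lt_mul_of_pos_right h5 h
  rcases h8 with h8 | h8
  · have h9 : 16 * w * Rich * K = 16 * w * (K * Rich) := by ring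
    have h10 : 16 * w * (K * Rich) ≤ 16 * w * (K * (2 * S.card * Z) + 4 * (r + 1) * q ^ 2) :=
      Nat.mul_le_mul_left _ h3
    omega
  · subst h8
    -- degenerate: K = 0 forces q = 0 or w = 0 by `hn4`
    have hq : 16 * w * (4 * (r + 1) * q ^ 2) = 0 := by
      have : 16 * w * (0 * (2 * S.card * Z) + 4 * (r + 1) * q ^ 2) ≤ n2 * 0 := hn4
      simp only [mul_zero, zero_mul, zero_add, nonpos_iff_eq_zero] at this
      exact this
    have hw0 : w = 0 ∨ q = 0 := by
      have hpos : 0 < 4 * (r + 1) := by positivity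
      rcases Nat.eq_zero_or_pos w with h | h
      · left; exact h
      · right
        by_contra hq0
        have : 0 < 16 * w * (4 * (r + 1) * q ^ 2) := by positivity
        omega
    rcases hw0 with h | h
    · subst h
      -- `w = 0`: grid gives an element of the empty set
      obtain ⟨u, hu, -⟩ := hG2 ∅ ∅ (empty_subset _) (empty_subset _) rfl rfl (generic_empty _)
        (fun u hu => by simp at hu)
      simp at hu
    · subst h
      have hS : S.card = 0 := by omega
      have h5' : n2 = 0 := by rw [hn2', hS]; norm_num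
      -- then `A = 0` side: `X₀ * 2^r` bound contradicts `hr1`
      have hXp : 0 < (X₀ * 2 ^ r) ^ 2 := by positivity
      omega

/-- Step 5(d): points off a rich line are few. -/
theorem near_line {S : Finset Pt} {R : Finset Ln} {w Z B : ℕ} (hw : 1 ≤ w) {m : Ln}
    (hG2 : Grid P S R w) (hB : ∑ L ∈ R, (x P S L - 1) ≤ B) (hZm : Z ≤ x P S m)
    (hZ : 4 * (w + 2 * w ^ 2 + w ^ 5) + 4 * w < 3 * Z)
    (h1 : 2 * w ≤ (S.filter (fun p => ¬ P.I p m)).card)
    (h2 : 8 * w * B ≤ (S.filter (fun p => ¬ P.I p m)).card * Z) : False := by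
  set S2 := S.filter (fun p => ¬ P.I p m) with hS2
  set Y := S.filter (fun p => P.I p m) with hY
  have hYc : Y.card = x P S m := rfl
  have hS2S : S2 ⊆ S := filter_subset _ _
  have hYS : Y ⊆ S := filter_subset _ _
  have hnotm : ∀ s ∈ S2, ¬ P.I s m := fun s hs => (mem_filter.1 hs).2
  have honm : ∀ y ∈ Y, P.I y m := fun y hy => (mem_filter.1 hy).2
  have hne : ∀ s ∈ S2, ∀ y ∈ Y, s ≠ y := fun s hs y hy h => hnotm s hs (h ▸ honm y hy)
  let rr : Pt → ℕ := fun s => (Y.filter (fun y => P.join s y ∈ R)).card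
  -- total number of retained pairs
  have hrr : ∑ s ∈ S2, rr s ≤ B := by
    have e1 : ∑ s ∈ S2, rr s = ((S2 ×ˢ Y).filter (fun a => P.join a.1 a.2 ∈ R)).card := by
      simp only [rr, card_filter]
      rw [sum_product]
    rw [e1]
    refine le_trans ?_ hB
    rw [card_eq_sum_card_fiberwise (s := (S2 ×ˢ Y).filter (fun a => P.join a.1 a.2 ∈ R))
      (f := fun a : Pt × Pt => P.join a.1 a.2) (t := R)
      (fun a ha => (mem_filter.1 ha).2)]
    apply sum_le_sum
    intro L _
    by_cases hf : ({a ∈ (S2 ×ˢ Y).filter (fun a => P.join a.1 a.2 ∈ R) |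
        P.join a.1 a.2 = L}).Nonempty
    · obtain ⟨a0, ha0⟩ := hf
      rw [mem_filter, mem_filter, mem_product] at ha0
      obtain ⟨⟨⟨h01, h02⟩, -⟩, h03⟩ := ha0
      have hy0L : P.I a0.2 L := h03 ▸ P.join_right (hne _ h01 _ h02)
      have hs0L : P.I a0.1 L := h03 ▸ P.join_left (hne _ h01 _ h02)
      have hLm : L ≠ m := fun h => hnotm _ h01 (h ▸ hs0L)
      have hc : x P S L - 1 = ((S.filter (fun p => P.I p L)).erase a0.2).card := by
        rw [card_erase_of_mem (by rw [mem_filter]; exact ⟨hYS h02, hy0L⟩)]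
        rfl
      rw [hc]
      apply card_le_card_of_injOn (fun a => a.1)
      · intro a ha
        simp only [mem_coe, mem_filter, mem_product, mem_erase] at ha ⊢
        obtain ⟨⟨⟨h11, h12⟩, -⟩, h13⟩ := ha
        have hsL : P.I a.1 L := h13 ▸ P.join_left (hne _ h11 _ h12)
        have hyL : P.I a.2 L := h13 ▸ P.join_right (hne _ h11 _ h12)
        have hyy : a.2 = a0.2 := line_inter hLm hyL hy0L (honm _ h12) (honm _ h02)
        exact ⟨fun h => hne _ h11 _ h12 (h.trans hyy.symm), hS2S h11, hsL⟩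
      · intro a ha a' ha' he
        simp only [mem_coe, mem_filter, mem_product] at ha ha'
        obtain ⟨⟨⟨h11, h12⟩, -⟩, h13⟩ := ha
        obtain ⟨⟨⟨h21, h22⟩, -⟩, h23⟩ := ha'
        have hyL : P.I a.2 L := h13 ▸ P.join_right (hne _ h11 _ h12)
        have hyL' : P.I a'.2 L := h23 ▸ P.join_right (hne _ h21 _ h22)
        have : a.2 = a'.2 := line_inter hLm hyL hyL' (honm _ h12) (honm _ h22)
        exact Prod.ext he this
    · rw [not_nonempty_iff_eq_empty] at hf
      rw [hf]; simp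
  have hmk := markov_half S2 rr B hrr
  have hT : w ≤ (S2.filter (fun s => ¬ 2 * B < rr s * S2.card)).card := by
    have := card_filter_add_card_filter_not (s := S2) (fun s => 2 * B < rr s * S2.card)
    omega
  obtain ⟨U, hUT, hUc⟩ := exists_subset_card_eq hT
  have hUS2 : U ⊆ S2 := hUT.trans (filter_subset _ _)
  set Y' := Y.filter (fun y => ∀ u ∈ U, P.partLine u ≠ P.partLine y ∧ P.join u y ∉ R) with hY'
  have hcov : Y ⊆ Y' ∪ U.biUnion (fun u => (Y.filter (fun y => P.partLine u = P.partLine y)) ∪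
      (Y.filter (fun y => P.join u y ∈ R))) := by
    intro y hy
    by_cases h : ∀ u ∈ U, P.partLine u ≠ P.partLine y ∧ P.join u y ∉ R
    · exact mem_union_left _ (by rw [hY', mem_filter]; exact ⟨hy, h⟩)
    · push Not at h
      obtain ⟨u, hu, hu2⟩ := h
      refine mem_union_right _ (mem_biUnion.2 ⟨u, hu, ?_⟩)
      by_cases h3 : P.partLine u = P.partLine y
      · exact mem_union_left _ (by rw [mem_filter]; exact ⟨hy, h3⟩)
      · exact mem_union_right _ (by rw [mem_filter]; exact ⟨hy, hu2 h3⟩)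
  have hpart : ∀ u ∈ U, (Y.filter (fun y => P.partLine u = P.partLine y)).card ≤ 1 := by
    intro u hu
    rw [card_le_one]
    intro a ha b hb
    rw [mem_filter] at ha hb
    have hlm : P.partLine u ≠ m := fun h => hnotm u (hUS2 hu) (h ▸ P.mem_part u)
    have ha' : P.I a (P.partLine u) := ha.2 ▸ P.mem_part a
    have hb' : P.I b (P.partLine u) := hb.2 ▸ P.mem_part b
    exact line_inter hlm ha' hb' (honm _ ha.1) (honm _ hb.1)
  have hbound : Y.card ≤ Y'.card + (w + ∑ u ∈ U, rr u) := by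
    calc Y.card ≤ _ := card_le_card hcov
      _ ≤ _ := card_union_le _ _
      _ ≤ Y'.card + ∑ u ∈ U, ((Y.filter (fun y => P.partLine u = P.partLine y)) ∪
            (Y.filter (fun y => P.join u y ∈ R))).card :=
          Nat.add_le_add_left card_biUnion_le _
      _ ≤ Y'.card + ∑ u ∈ U, (1 + rr u) := by
          apply Nat.add_le_add_left
          apply sum_le_sum
          intro u hu
          exact (card_union_le _ _).trans (Nat.add_le_add_right (hpart u hu) _)
      _ = Y'.card + (w + ∑ u ∈ U, rr u) := by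
          rw [sum_add_distrib]; simp [hUc]
  have hS2pos : 0 < S2.card := by omega
  have h3 : 4 * ∑ u ∈ U, rr u ≤ Z := by
    have h4 : (∑ u ∈ U, rr u) * S2.card ≤ w * (2 * B) := by
      rw [sum_mul]
      calc ∑ u ∈ U, rr u * S2.card ≤ ∑ _u ∈ U, 2 * B := by
            apply sum_le_sum
            intro u hu
            have := (mem_filter.1 (hUT hu)).2
            rw [not_lt] at this
            exact this
        _ = w * (2 * B) := by simp [hUc]
    have h5 : (4 * ∑ u ∈ U, rr u) * S2.card ≤ Z * S2.card := by nlinarith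
    exact Nat.le_of_mul_le_mul_right h5 hS2pos
  have hsize : w + (2 * w ^ 2 + w ^ 5) * 1 < Y'.card := by
    have : (2 * w ^ 2 + w ^ 5) * 1 = 2 * w ^ 2 + w ^ 5 := by ring
    omega
  have hdisj : Disjoint U Y' := by
    rw [disjoint_left]
    intro a ha hb
    exact hnotm a (hUS2 ha) (honm a (mem_filter.1 hb).1)
  have hc : ∀ l, (∃ u ∈ U, P.I u l) → x P Y' l ≤ 1 := by
    rintro l ⟨u, hu, hul⟩
    have hlm : l ≠ m := fun h => hnotm u (hUS2 hu) (h ▸ hul)
    unfold x
    rw [card_le_one]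
    intro a ha b hb
    rw [mem_filter] at ha hb
    exact line_inter hlm ha.2 hb.2 (honm _ (mem_filter.1 ha.1).1) (honm _ (mem_filter.1 hb.1).1)
  obtain ⟨V, hVV, hVc, hGen⟩ := exists_generic hUc hdisj hc hsize
  have hV'prop : ∀ v ∈ V, ∀ u ∈ U, P.partLine u ≠ P.partLine v ∧ P.join u v ∉ R :=
    fun v hv => (mem_filter.1 (hVV hv)).2
  obtain ⟨u, hu, v, hv, hj⟩ := hG2 U V (hUS2.trans hS2S)
    (hVV.trans ((filter_subset _ _).trans hYS)) hUc hVc hGen
    (fun u hu v hv => (hV'prop v hv u hu).1)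
  exact (hV'prop v hv u hu).2 hj

/-- Main theorem: steps 5(a)-(d) of #1707. -/
theorem exists_near_line {S : Finset Pt} {R : Finset Ln} {w X₀ Z K r B q : ℕ}
    (hw : 1 ≤ w) (hX₀ : 1 ≤ X₀)
    (hG2 : Grid P S R w) (hB : ∑ L ∈ R, (x P S L - 1) ≤ B)
    (hIT : ∀ X, X₀ ≤ X → X ^ 2 ≤ 4 * q →
      ((univ : Finset Ln).filter (fun l => X ≤ x P S l ∧ x P S l < 2 * X)).card * X ^ 2 * K ≤ q ^ 2)
    (hr1 : (X₀ * 2 ^ r) ^ 2 ≤ 4 * q) (hr2 : 4 * q < (X₀ * 2 ^ (r + 1)) ^ 2)
    (hnq : S.card ≤ q)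
    (hn2 : 2 * w ≤ S.card) (hn1 : 4 * (w + (2 * w ^ 2 + w ^ 5) * X₀) < 3 * S.card)
    (hn3 : 16 * w * (S.card + S.card * X₀ + X₀ * B) ≤ S.card ^ 2)
    (hn4 : 16 * w * (K * (2 * S.card * Z) + 4 * (r + 1) * q ^ 2) ≤ S.card ^ 2 * K)
    (hZ : 4 * (w + 2 * w ^ 2 + w ^ 5) + 4 * w < 3 * Z) :
    ∃ m, Z ≤ x P S m ∧ ((S.filter (fun p => ¬ P.I p m)).card < 2 * w ∨
      (S.filter (fun p => ¬ P.I p m)).card * Z < 8 * w * B) := by
  obtain ⟨m, hm⟩ := exists_rich_line hX₀ hG2 hB hIT hr1 hr2 hnq hn2 hn1 hn3 hn4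
  refine ⟨m, hm, ?_⟩
  by_contra hcon
  push Not at hcon
  exact near_line hw hG2 hB hm hZ hcon.1 hcon.2

end Crest.Agent.Ryser.RichLine
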