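import Mathlib
import Crest.Agent.Lib.Ryser.RichLine

/-!
Row 34. RIGIDITY CHAIN in an abstract partial linear space (Step 5 (a)-(d) of finding #1707).
`S1` covers the retained lines `R`, with small total excess; no large grid of `S1` has all its joins
outside `R`; no Baer-like configuration (hypothesis `hIT`). Conclusion: all of `S1` but `M^9 √q` points
lies on one line.  No KST needed: a graph with few non-edges has `w` vertices with many common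
neighbours, by averaging.
-/

set_option autoImplicit false
set_option linter.unusedSectionVars false

noncomputable section

open Finset

namespace Crest.Agent.Ryser

/-- An abstract partial linear space in which any two points are joined. -/
structure IncStr (P L : Type) where
  Inc : P → L → Prop
  uniq : ∀ {p p' l l'}, p ≠ p' → Inc p l → Inc p' l → Inc p l' → Inc p' l' → l = l'
  join : ∀ p p', p ≠ p' → ∃ l, Inc p l ∧ Inc p' l

variable {P L : Type} [Fintype P] [Fintype L] [DecidableEq P] [DecidableEq L]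

open Classical in
/-- The number of points of `S` on `l`. -/
def IncStr.x (I : IncStr P L) (S : Finset P) (l : L) : ℕ := #(S.filter fun s => I.Inc s l)

/-- General position of a grid `U × V`, with respect to the lines `Par` (the lines through `O`):
`U, V` disjoint; no join in `Par`; the `|U||V|` joins are distinct; any point outside `U ∪ V` is on at
most two joins. -/
def IncStr.GP (I : IncStr P L) (Par : Finset L) (U V : Finset P) : Prop :=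
  Disjoint U V ∧
  (∀ u ∈ U, ∀ v ∈ V, ∀ l, I.Inc u l → I.Inc v l → l ∉ Par) ∧
  (∀ u ∈ U, ∀ v ∈ V, ∀ u' ∈ U, ∀ v' ∈ V, ∀ l, I.Inc u l → I.Inc v l → I.Inc u' l → I.Inc v' l →
    u = u' ∧ v = v') ∧
  (∀ p, p ∉ U → p ∉ V → ∀ T : Finset (P × P), (∀ e ∈ T, e.1 ∈ U ∧ e.2 ∈ V ∧ ∃ l, I.Inc e.1 l ∧ I.Inc e.2 l ∧ I.Inc p l) →
    #T ≤ 2)


namespace ChainAux

open RichLine

variable (I : IncStr P L) (Par : Finset L)

open Classical in
/-- The abstract structure `I` as a `RichLine.Plane`: lines `L ⊕ P`, where `inr p` is a virtual line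
containing only `p`, used as the part line of a point on no line of `Par`. -/
def plane [Nonempty L] (hParU : ∀ s, ∀ l ∈ Par, ∀ l' ∈ Par, I.Inc s l → I.Inc s l' → l = l') :
    RichLine.Plane P (L ⊕ P) where
  I p l := match l with
    | .inl l => I.Inc p l
    | .inr a => p = a
  join p p' := if h : p ≠ p' then .inl (I.join p p' h).choose else .inl (Classical.arbitrary L)
  join_left := by
    intro p p' h
    simp only [dif_pos h]
    exact (I.join p p' h).choose_spec.1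
  join_right := by
    intro p p' h
    simp only [dif_pos h]
    exact (I.join p p' h).choose_spec.2
  unique := by
    intro p p' l h h1 h2
    simp only [dif_pos h]
    cases l with
    | inl l =>
      congr 1
      exact I.uniq h h1 h2 (I.join p p' h).choose_spec.1 (I.join p p' h).choose_spec.2
    | inr a =>
      exact absurd (show p = p' from (show p = a from h1).trans (show p' = a from h2).symm) h
  partLine p := if h : ∃ l ∈ Par, I.Inc p l then .inl h.choose else .inr p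
  mem_part := by
    intro p
    by_cases h : ∃ l ∈ Par, I.Inc p l
    · simp only [dif_pos h]; exact h.choose_spec.2
    · simp only [dif_neg h]
  part_unique := by
    intro p p' h
    by_cases hp : ∃ l ∈ Par, I.Inc p l
    · simp only [dif_pos hp] at h ⊢
      have hp' : ∃ l ∈ Par, I.Inc p' l := ⟨hp.choose, hp.choose_spec.1, h⟩
      simp only [dif_pos hp']
      congr 1
      exact hParU p' _ hp'.choose_spec.1 _ hp.choose_spec.1 hp'.choose_spec.2 h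
    · simp only [dif_neg hp] at h ⊢
      have : p' = p := h
      subst this
      simp only [dif_neg hp]

variable {I Par} [Nonempty L] {hParU : ∀ s, ∀ l ∈ Par, ∀ l' ∈ Par, I.Inc s l → I.Inc s l' → l = l'}

open Classical in
lemma x_inl (S : Finset P) (l : L) :
    RichLine.x (plane I Par hParU) S (.inl l) = I.x S l := rfl

open Classical in
lemma x_inr_le (S : Finset P) (a : P) : RichLine.x (plane I Par hParU) S (.inr a) ≤ 1 := by
  unfold RichLine.x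
  rw [card_le_one]
  intro u hu v hv
  rw [mem_filter] at hu hv
  exact (show u = a from hu.2).trans (show v = a from hv.2).symm

open Classical in
/-- From `Generic` and different parts to `GP`. -/
lemma gp_of_generic {U V : Finset P} (hGen : RichLine.Generic (plane I Par hParU) U V)
    (hpart : ∀ u ∈ U, ∀ v ∈ V, (plane I Par hParU).partLine u ≠ (plane I Par hParU).partLine v) :
    I.GP Par U V := by
  have hdiff : ∀ u ∈ U, ∀ v ∈ V, u ≠ v := fun u hu v hv h => hpart u hu v hv (by rw [h])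
  have hjoin : ∀ u ∈ U, ∀ v ∈ V, ∀ l, I.Inc u l → I.Inc v l →
      (plane I Par hParU).join u v = .inl l := by
    intro u hu v hv l h1 h2
    exact ((plane I Par hParU).unique (l := .inl l) (hdiff u hu v hv) h1 h2).symm
  refine ⟨?_, ?_, ?_, ?_⟩
  · rw [disjoint_left]
    intro a ha hb
    exact hdiff a ha a hb rfl
  · intro u hu v hv l h1 h2 hl
    apply hpart u hu v hv
    have e1 : (plane I Par hParU).partLine u = .inl l := by
      have hex : ∃ l ∈ Par, I.Inc u l := ⟨l, hl, h1⟩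
      show (if h : ∃ l ∈ Par, I.Inc u l then Sum.inl h.choose else Sum.inr u) = _
      rw [dif_pos hex]
      congr 1
      exact hParU u _ hex.choose_spec.1 _ hl hex.choose_spec.2 h1
    have e2 : (plane I Par hParU).partLine v = .inl l := by
      have hex : ∃ l ∈ Par, I.Inc v l := ⟨l, hl, h2⟩
      show (if h : ∃ l ∈ Par, I.Inc v l then Sum.inl h.choose else Sum.inr v) = _
      rw [dif_pos hex]
      congr 1
      exact hParU v _ hex.choose_spec.1 _ hl hex.choose_spec.2 h2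
    rw [e1, e2]
  · intro u hu v hv u' hu' v' hv' l h1 h2 h3 h4
    exact hGen.1 u hu u' hu' v hv v' hv' ((hjoin u hu v hv l h1 h2).trans (hjoin u' hu' v' hv' l h3 h4).symm)
  · intro p hpU hpV T hT
    refine le_trans (card_le_card ?_) (hGen.2 p hpU hpV)
    intro e he
    obtain ⟨h1, h2, l, h3, h4, h5⟩ := hT e he
    rw [mem_filter, mem_product]
    refine ⟨⟨h1, h2⟩, ?_⟩
    rw [hjoin e.1 h1 e.2 h2 l h3 h4]
    exact h5


section Num

variable {M u n a b z q d s r : ℝ}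

lemma pow_big (hM : (10:ℝ) ^ 6 ≤ M) {k : ℕ} (hk : k ≠ 0) : (10:ℝ) ^ 6 ≤ M ^ k := by
  have h1 : (1:ℝ) ≤ M := by linarith [show (1:ℝ) ≤ 10 ^ 6 by norm_num]
  exact hM.trans (le_self_pow₀ h1 hk)

lemma nb_n (hM : (10:ℝ) ^ 6 ≤ M) (hu : 1 ≤ u) (hn : u ^ 2 * M ^ 20 / 2 ≤ n) :
    M ^ 20 / 2 ≤ n := by
  have hM0 : 0 < M ^ 20 := by positivity
  have : 1 ≤ u ^ 2 := one_le_pow₀ hu
  nlinarith

lemma nb1 (hM : (10:ℝ) ^ 6 ≤ M) (hu : 1 ≤ u) (hn : u ^ 2 * M ^ 20 / 2 ≤ n) :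
    48 * M ^ 3 ≤ n := by
  have h1 := nb_n hM hu hn
  have h2 := pow_big hM (k := 17) (by norm_num)
  have hM3 : 0 < M ^ 3 := by positivity
  have e : M ^ 20 = M ^ 3 * M ^ 17 := by ring
  nlinarith

lemma nb_hn1 (hM : (10:ℝ) ^ 6 ≤ M) (hu : 1 ≤ u) (hn : u ^ 2 * M ^ 20 / 2 ≤ n)
    (ha : a ≤ 2 * u) (ha0 : 0 ≤ a) :
    4 * (M ^ 3 + (2 * (M ^ 3) ^ 2 + (M ^ 3) ^ 5) * a) < 3 * n := by
  have h1 : (1:ℝ) ≤ M := by linarith [show (1:ℝ) ≤ 10 ^ 6 by norm_num]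
  have h6 : M ^ 6 ≤ M ^ 15 := pow_le_pow_right₀ h1 (by norm_num)
  have h3 : M ^ 3 ≤ M ^ 15 := pow_le_pow_right₀ h1 (by norm_num)
  have hM15 : 0 < M ^ 15 := by positivity
  have e1 : (2 * (M ^ 3) ^ 2 + (M ^ 3) ^ 5) = 2 * M ^ 6 + M ^ 15 := by ring
  have h7 : (2 * M ^ 6 + M ^ 15) * a ≤ 3 * M ^ 15 * (2 * u) := by
    apply mul_le_mul _ ha ha0 (by positivity)
    linarith
  have h8 : M ^ 3 ≤ M ^ 15 * u := by nlinarith
  have h9 := pow_big hM (k := 5) (by norm_num)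
  have e2 : M ^ 20 = M ^ 15 * M ^ 5 := by ring
  have h10 : u * 1 ≤ u ^ 2 := by nlinarith
  have h11 : M ^ 15 * u * 10 ^ 6 ≤ u ^ 2 * M ^ 20 := by
    rw [e2]
    have : M ^ 15 * u * 10 ^ 6 ≤ M ^ 15 * u * M ^ 5 := by
      apply mul_le_mul_of_nonneg_left h9 (by positivity)
    nlinarith [mul_nonneg hM15.le (sub_nonneg.2 h10), mul_nonneg (mul_nonneg hM15.le (sub_nonneg.2 h10)) (by positivity : (0:ℝ) ≤ M ^ 5)]
  rw [e1]
  have hpos : 0 < M ^ 15 * u := by positivity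
  nlinarith

lemma nb_hn3 (hM : (10:ℝ) ^ 6 ≤ M) (hu : 1 ≤ u) (hn : u ^ 2 * M ^ 20 / 2 ≤ n)
    (ha : a ≤ 2 * u) (ha0 : 0 ≤ a) (hb0 : 0 ≤ b) (hb : b ≤ 4 * u ^ 3 * M ^ 31) :
    16 * M ^ 3 * (n + n * a + a * b) ≤ n ^ 2 := by
  have hM3 : 0 < M ^ 3 := by positivity
  have hnpos : 0 ≤ n := by
    have : 0 ≤ u ^ 2 * M ^ 20 / 2 := by positivity
    linarith
  have A1 := nb1 hM hu hn
  have A2 : 48 * M ^ 3 * a ≤ n := by
    have h2 := pow_big hM (k := 17) (by norm_num)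
    have e : M ^ 20 = M ^ 3 * M ^ 17 := by ring
    have h3 : 48 * M ^ 3 * a ≤ 48 * M ^ 3 * (2 * u) :=
      mul_le_mul_of_nonneg_left ha (by positivity)
    have h4 : 96 * u * M ^ 3 ≤ u ^ 2 * M ^ 20 / 2 := by
      rw [e]
      have h5 : u ≤ u ^ 2 := by nlinarith
      have h6 : u * M ^ 3 ≤ u ^ 2 * M ^ 3 := mul_le_mul_of_nonneg_right h5 hM3.le
      have h7 : 0 ≤ u ^ 2 * M ^ 3 := by positivity
      nlinarith
    linarith
  have A3 : 48 * M ^ 3 * (a * b) ≤ n ^ 2 := by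
    have h1 : a * b ≤ (2 * u) * (4 * u ^ 3 * M ^ 31) := mul_le_mul ha hb hb0 (by positivity)
    have h2 := pow_big hM (k := 6) (by norm_num)
    have h3 : (u ^ 2 * M ^ 20 / 2) ^ 2 ≤ n ^ 2 := pow_le_pow_left₀ (by positivity) hn 2
    have e1 : (u ^ 2 * M ^ 20 / 2) ^ 2 = u ^ 4 * (M ^ 34 * M ^ 6) / 4 := by ring
    have h4 : 0 < u ^ 4 * M ^ 34 := by positivity
    have e2 : 48 * M ^ 3 * ((2 * u) * (4 * u ^ 3 * M ^ 31)) = 384 * (u ^ 4 * M ^ 34) := by ring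
    have h5 : 48 * M ^ 3 * (a * b) ≤ 48 * M ^ 3 * ((2 * u) * (4 * u ^ 3 * M ^ 31)) :=
      mul_le_mul_of_nonneg_left h1 (by positivity)
    rw [e1] at h3
    nlinarith
  have B1 : 16 * M ^ 3 * n ≤ n ^ 2 / 3 := by nlinarith
  have B2 : 16 * M ^ 3 * (n * a) ≤ n ^ 2 / 3 := by nlinarith
  have B3 : 16 * M ^ 3 * (a * b) ≤ n ^ 2 / 3 := by nlinarith
  calc 16 * M ^ 3 * (n + n * a + a * b)
      = 16 * M ^ 3 * n + 16 * M ^ 3 * (n * a) + 16 * M ^ 3 * (a * b) := by ring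
    _ ≤ n ^ 2 := by linarith

lemma nb_hn4 (hM : (10:ℝ) ^ 6 ≤ M) (hnn : 0 ≤ n) (hq0 : 0 ≤ q) (hq : q ≤ 2 * n) (hz0 : 0 ≤ z)
    (hz : z * (128 * M ^ 3) ≤ q) (hr0 : 0 ≤ r) (hr : r + 1 ≤ M) :
    16 * M ^ 3 * (M ^ 10 * (2 * n * z) + 4 * (r + 1) * q ^ 2) ≤ n ^ 2 * M ^ 10 := by
  have hMpos : 0 < M := by linarith [show (0:ℝ) < 10 ^ 6 by norm_num]
  have h1 : 16 * M ^ 3 * (M ^ 10 * (2 * n * z)) ≤ n ^ 2 * M ^ 10 / 2 := by
    have h2 : z * (128 * M ^ 3) ≤ 2 * n := hz.trans hq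
    have h3 : (M ^ 10 * n / 4) * (z * (128 * M ^ 3)) ≤ (M ^ 10 * n / 4) * (2 * n) :=
      mul_le_mul_of_nonneg_left h2 (by positivity)
    nlinarith
  have h2 : 16 * M ^ 3 * (4 * (r + 1) * q ^ 2) ≤ n ^ 2 * M ^ 10 / 2 := by
    have h3 : q ^ 2 ≤ (2 * n) ^ 2 := pow_le_pow_left₀ hq0 hq 2
    have h4 := pow_big hM (k := 6) (by norm_num)
    have h5 : (r + 1) * q ^ 2 ≤ M * (2 * n) ^ 2 :=
      mul_le_mul hr h3 (by positivity) hMpos.le
    have h6 : 16 * M ^ 3 * (4 * (r + 1) * q ^ 2) = 64 * M ^ 3 * ((r + 1) * q ^ 2) := by ring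
    have h7 : 64 * M ^ 3 * ((r + 1) * q ^ 2) ≤ 64 * M ^ 3 * (M * (2 * n) ^ 2) :=
      mul_le_mul_of_nonneg_left h5 (by positivity)
    have h8 : 64 * M ^ 3 * (M * (2 * n) ^ 2) = 256 * (M ^ 4 * n ^ 2) := by ring
    have h9 : n ^ 2 * M ^ 10 = (M ^ 4 * n ^ 2) * M ^ 6 := by ring
    have h10 : 0 ≤ M ^ 4 * n ^ 2 := by positivity
    rw [h6, h9]
    nlinarith
  calc _ = 16 * M ^ 3 * (M ^ 10 * (2 * n * z)) + 16 * M ^ 3 * (4 * (r + 1) * q ^ 2) := by ring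
    _ ≤ _ := by linarith

lemma nb_z (hM : (10:ℝ) ^ 6 ≤ M) (hq : M ^ 20 ≤ q) (hz : q < (z + 1) * (128 * M ^ 3)) :
    M ^ 17 < 128 * (z + 1) := by
  have hM3 : 0 < M ^ 3 := by
    have : 0 < M := by linarith [show (0:ℝ) < 10 ^ 6 by norm_num]
    positivity
  have e : M ^ 20 = M ^ 17 * M ^ 3 := by ring
  have : M ^ 17 * M ^ 3 < (128 * (z + 1)) * M ^ 3 := by
    calc M ^ 17 * M ^ 3 = M ^ 20 := e.symm
      _ ≤ q := hq
      _ < (z + 1) * (128 * M ^ 3) := hz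
      _ = _ := by ring
  exact lt_of_mul_lt_mul_right this hM3.le

lemma nb_hZ (hM : (10:ℝ) ^ 6 ≤ M) (hz0 : 0 ≤ z) (hz : M ^ 17 < 128 * (z + 1)) :
    4 * (M ^ 3 + 2 * (M ^ 3) ^ 2 + (M ^ 3) ^ 5) + 4 * M ^ 3 < 3 * z := by
  have h1 : (1:ℝ) ≤ M := by linarith [show (1:ℝ) ≤ 10 ^ 6 by norm_num]
  have h6 : M ^ 6 ≤ M ^ 15 := pow_le_pow_right₀ h1 (by norm_num)
  have h3 : M ^ 3 ≤ M ^ 15 := pow_le_pow_right₀ h1 (by norm_num)
  have h15 : 1 ≤ M ^ 15 := one_le_pow₀ h1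
  have e1 : (M ^ 3) ^ 2 = M ^ 6 := by ring
  have e2 : (M ^ 3) ^ 5 = M ^ 15 := by ring
  rw [e1, e2]
  have h2 := pow_big hM (k := 2) (by norm_num)
  have e3 : M ^ 17 = M ^ 15 * M ^ 2 := by ring
  have h4 : M ^ 15 * 10 ^ 6 ≤ M ^ 15 * M ^ 2 := mul_le_mul_of_nonneg_left h2 (by positivity)
  nlinarith

lemma nb_final (hM : (10:ℝ) ^ 6 ≤ M) (hq0 : 0 < q) (hs0 : 0 ≤ s) (hd0 : 0 ≤ d) (hz1 : 1 ≤ z)
    (hq : q < (z + 1) * (128 * M ^ 3)) (hb : b ≤ 4 * M * (q * s))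
    (hd : d * z < 8 * M ^ 3 * b) : d ≤ M ^ 9 * s := by
  have hMpos : 0 < M := by linarith [show (0:ℝ) < 10 ^ 6 by norm_num]
  have h1 : q ≤ 256 * M ^ 3 * z := by
    have : (z + 1) * (128 * M ^ 3) ≤ (2 * z) * (128 * M ^ 3) :=
      mul_le_mul_of_nonneg_right (by linarith) (by positivity)
    nlinarith
  have h2 : d * q ≤ 256 * M ^ 3 * (d * z) := by
    have := mul_le_mul_of_nonneg_left h1 hd0
    nlinarith
  have h3 : d * z ≤ 8 * M ^ 3 * (4 * M * (q * s)) := by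
    have : 8 * M ^ 3 * b ≤ 8 * M ^ 3 * (4 * M * (q * s)) :=
      mul_le_mul_of_nonneg_left hb (by positivity)
    linarith
  have h4 : d * q ≤ 8192 * M ^ 7 * s * q := by
    have : 256 * M ^ 3 * (d * z) ≤ 256 * M ^ 3 * (8 * M ^ 3 * (4 * M * (q * s))) :=
      mul_le_mul_of_nonneg_left h3 (by positivity)
    calc d * q ≤ _ := h2
      _ ≤ _ := this
      _ = _ := by ring
  have h5 : d ≤ 8192 * M ^ 7 * s := le_of_mul_le_mul_right h4 hq0
  have h6 := pow_big hM (k := 2) (by norm_num)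
  have h7 : 8192 * M ^ 7 * s ≤ M ^ 9 * s := by
    have e : M ^ 9 = M ^ 7 * M ^ 2 := by ring
    rw [e]
    apply mul_le_mul_of_nonneg_right _ hs0
    have : 0 < M ^ 7 := by positivity
    nlinarith
  linarith

end Num

end ChainAux

open Classical in
/-- MODULE C3 (rigidity chain). See #1707 Step 5 (a)-(d) and the numbers in the plan finding:
`w = M³`, `X₀ = √q / M^10`. -/
theorem chain_near_line (I : IncStr P L) (q M : ℕ) (hM : 10 ^ 6 ≤ M) (hMq : (M : ℝ) ^ 100 ≤ Real.sqrt q)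
    (hlog : Nat.log 2 q + 1 ≤ M)
    (S1 : Finset P) (R Par : Finset L) (hS1 : #S1 ≤ q) (hS1' : (q : ℝ) / 2 ≤ #S1)
    (hcov : ∀ l ∈ R, ∃ s ∈ S1, I.Inc s l)
    (hcap : ∑ l ∈ R, ((I.x S1 l : ℝ) - 1) ≤ 4 * M * (q * Real.sqrt q))
    (hParU : ∀ s, ∀ l ∈ Par, ∀ l' ∈ Par, I.Inc s l → I.Inc s l' → l = l')
    (hG2 : ∀ U ⊆ S1, ∀ V ⊆ S1, #U = M ^ 3 → #V = M ^ 3 → I.GP Par U V →
      ∃ l ∈ R, ∃ u ∈ U, ∃ v ∈ V, I.Inc u l ∧ I.Inc v l)
    (hIT : ∀ (𝓛 : Finset L) (X : ℝ), Real.sqrt q / (M : ℝ) ^ 10 ≤ X → X ≤ 2 * Real.sqrt q →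
      (∀ l ∈ 𝓛, X ≤ I.x S1 l ∧ (I.x S1 l : ℝ) < 2 * X) → (#𝓛 : ℝ) * X ^ 2 < (q : ℝ) ^ 2 / (M : ℝ) ^ 10) :
    ∃ m : L, (#(S1.filter fun s => ¬ I.Inc s m) : ℝ) ≤ (M : ℝ) ^ 9 * Real.sqrt q := by
  have hMr : (10:ℝ) ^ 6 ≤ M := by exact_mod_cast hM
  have hMpos : (0:ℝ) < M := by linarith [show (0:ℝ) < 10 ^ 6 by norm_num]
  have hM1 : (1:ℝ) ≤ M := by linarith [show (1:ℝ) ≤ 10 ^ 6 by norm_num]
  set s := Real.sqrt q with hs
  have hs0 : 0 ≤ s := Real.sqrt_nonneg _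
  have hqs : (q:ℝ) = s ^ 2 := (Real.sq_sqrt (Nat.cast_nonneg q)).symm
  set u := s / (M:ℝ) ^ 10 with hu
  have hM10 : (0:ℝ) < (M:ℝ) ^ 10 := by positivity
  have hsu : s = u * (M:ℝ) ^ 10 := by rw [hu]; field_simp
  have hu2 : 2 ≤ u := by
    rw [hu, le_div_iff₀ hM10]
    have h1 := ChainAux.pow_big hMr (k := 90) (by norm_num)
    have e : (M:ℝ) ^ 100 = (M:ℝ) ^ 90 * (M:ℝ) ^ 10 := by ring
    nlinarith
  have hu1 : 1 ≤ u := by linarith
  have hq_u : (q:ℝ) = u ^ 2 * (M:ℝ) ^ 20 := by rw [hqs, hsu]; ring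
  have hn_l : u ^ 2 * (M:ℝ) ^ 20 / 2 ≤ (#S1 : ℝ) := by rw [← hq_u]; exact hS1'
  have hq_l : (M:ℝ) ^ 20 ≤ q := by
    rw [hq_u]
    have : 1 ≤ u ^ 2 := one_le_pow₀ hu1
    have h0 : (0:ℝ) < (M:ℝ) ^ 20 := by positivity
    nlinarith
  have hqpos : (0:ℝ) < q := lt_of_lt_of_le (by positivity) hq_l
  have hn48 := ChainAux.nb1 hMr hu1 hn_l
  have hM3pos : (1:ℝ) ≤ (M:ℝ) ^ 3 := one_le_pow₀ hM1
  have hcard2 : 1 < #S1 := by
    have : (1:ℝ) < (#S1 : ℝ) := by linarith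
    exact_mod_cast this
  obtain ⟨p, -, p', -, hne⟩ := one_lt_card.1 hcard2
  haveI : Nonempty L := ⟨(I.join p p' hne).choose⟩
  let PL := ChainAux.plane I Par hParU
  have hMN : 0 < M := by omega
  -- parameters
  set X₀ := ⌈u⌉₊ with hX₀def
  have hX₀u : u ≤ X₀ := Nat.le_ceil u
  have hX₀2 : (X₀:ℝ) ≤ 2 * u := by
    have := Nat.ceil_lt_add_one (show 0 ≤ u by linarith)
    linarith
  have hX₀1 : 1 ≤ X₀ := by
    have : (1:ℝ) ≤ X₀ := by linarith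
    exact_mod_cast this
  set B := ⌊4 * (M:ℝ) * (q * s)⌋₊ with hBdef
  have hB_le : (B:ℝ) ≤ 4 * (M:ℝ) * (q * s) := Nat.floor_le (by positivity)
  set Z := q / (128 * M ^ 3) with hZdef
  have hZ1 : (Z:ℝ) * (128 * (M:ℝ) ^ 3) ≤ q := by
    have : Z * (128 * M ^ 3) ≤ q := Nat.div_mul_le_self _ _
    exact_mod_cast this
  have hZ2 : (q:ℝ) < ((Z:ℝ) + 1) * (128 * (M:ℝ) ^ 3) := by
    have : q < (128 * M ^ 3) * (Z + 1) := Nat.lt_mul_div_succ q (by positivity)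
    have h : (q:ℝ) < (128 * (M:ℝ) ^ 3) * ((Z:ℝ) + 1) := by exact_mod_cast this
    linarith
  have hZ3 := ChainAux.nb_z hMr hq_l hZ2
  have hM17 : (10:ℝ) ^ 6 ≤ (M:ℝ) ^ 17 := ChainAux.pow_big hMr (by norm_num)
  have hZ4 : (2:ℝ) < Z := by nlinarith
  set T := Nat.sqrt (4 * q) with hT
  have hT1 : T ^ 2 ≤ 4 * q := Nat.sqrt_le' _
  have hT2 : 4 * q < (T + 1) ^ 2 := Nat.lt_succ_sqrt' _
  have hq4 : 4 ≤ q := by
    have h1 : (10:ℝ) ^ 6 ≤ (M:ℝ) ^ 20 := ChainAux.pow_big hMr (by norm_num)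
    have : (4:ℝ) ≤ q := by linarith [show (4:ℝ) ≤ 10 ^ 6 by norm_num]
    exact_mod_cast this
  have hTq : T ≤ q := by
    by_contra hcon
    rw [not_le] at hcon
    have h1 : q * q < T * T := Nat.mul_lt_mul'' hcon hcon
    have h2 : 4 * q ≤ q * q := Nat.mul_le_mul_right _ hq4
    nlinarith
  have hX₀T : X₀ ≤ T := by
    apply Nat.le_sqrt'.2
    have h1 : ((X₀:ℝ)) ^ 2 ≤ (2 * u) ^ 2 := pow_le_pow_left₀ (by positivity) hX₀2 2
    have h2 : (2 * u) ^ 2 ≤ 4 * (q:ℝ) := by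
      rw [hq_u]
      have h3 : (1:ℝ) ≤ (M:ℝ) ^ 20 := one_le_pow₀ hM1
      have h4 : 0 ≤ u ^ 2 := by positivity
      nlinarith
    have : ((X₀:ℝ)) ^ 2 ≤ 4 * (q:ℝ) := h1.trans h2
    exact_mod_cast this
  set r := Nat.log 2 (T / X₀) with hr
  have hdivpos : T / X₀ ≠ 0 := (Nat.div_pos hX₀T hX₀1).ne'
  have hr_a : 2 ^ r ≤ T / X₀ := Nat.pow_log_le_self 2 hdivpos
  have hr_b : T / X₀ < 2 ^ (r + 1) := Nat.lt_pow_succ_log_self (by norm_num) _
  have hr1 : (X₀ * 2 ^ r) ^ 2 ≤ 4 * q := by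
    refine le_trans (Nat.pow_le_pow_left ?_ 2) hT1
    calc X₀ * 2 ^ r ≤ X₀ * (T / X₀) := Nat.mul_le_mul_left _ hr_a
      _ ≤ T := Nat.mul_div_le _ _
  have hr2 : 4 * q < (X₀ * 2 ^ (r + 1)) ^ 2 := by
    refine lt_of_lt_of_le hT2 (Nat.pow_le_pow_left ?_ 2)
    have := (Nat.div_lt_iff_lt_mul hX₀1).1 hr_b
    rw [Nat.mul_comm] at this
    exact this
  have hrM : r + 1 ≤ M := by
    have h1 : r ≤ Nat.log 2 q :=
      Nat.log_mono_right ((Nat.div_le_self _ _).trans hTq)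
    omega
  -- the plane data
  set R' : Finset (L ⊕ P) := R.image Sum.inl with hR'
  have hGrid : RichLine.Grid PL S1 R' (M ^ 3) := by
    intro U V hU hV hUc hVc hGen hpart
    obtain ⟨l, hl, u', hu', v', hv', h1, h2⟩ := hG2 U hU V hV hUc hVc
      (ChainAux.gp_of_generic hGen hpart)
    refine ⟨u', hu', v', hv', ?_⟩
    have hne' : u' ≠ v' := RichLine.ne_of_part_ne (hpart u' hu' v' hv')
    have e : (Sum.inl l : L ⊕ P) = PL.join u' v' := PL.unique (l := Sum.inl l) hne' h1 h2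
    rw [← e, hR']
    exact mem_image_of_mem _ hl
  have hB' : ∑ l ∈ R', (RichLine.x PL S1 l - 1) ≤ B := by
    rw [hR', sum_image (fun a _ b _ h => Sum.inl_injective h)]
    apply Nat.le_floor
    rw [Nat.cast_sum]
    refine le_trans (le_of_eq ?_) hcap
    apply sum_congr rfl
    intro l hl
    have h1 : 1 ≤ I.x S1 l := by
      obtain ⟨t, ht, htl⟩ := hcov l hl
      apply card_pos.2
      exact ⟨t, mem_filter.2 ⟨ht, htl⟩⟩
    have e : RichLine.x PL S1 (Sum.inl l) = I.x S1 l := rfl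
    rw [e, Nat.cast_sub h1]
    simp
  have hITw : ∀ X, X₀ ≤ X → X ^ 2 ≤ 4 * q →
      ((univ : Finset (L ⊕ P)).filter
        (fun l => X ≤ RichLine.x PL S1 l ∧ RichLine.x PL S1 l < 2 * X)).card * X ^ 2 * M ^ 10
        ≤ q ^ 2 := by
    intro X hX hX2
    have hXu : u ≤ (X:ℝ) := hX₀u.trans (by exact_mod_cast hX)
    have hX2' : 2 ≤ X := by
      have : (2:ℝ) ≤ X := hu2.trans hXu
      exact_mod_cast this
    set W := (univ : Finset (L ⊕ P)).filter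
        (fun l => X ≤ RichLine.x PL S1 l ∧ RichLine.x PL S1 l < 2 * X) with hW
    set 𝓛 := (univ : Finset L).filter (fun l => X ≤ I.x S1 l ∧ I.x S1 l < 2 * X) with h𝓛
    have hsub : W ⊆ 𝓛.image Sum.inl := by
      intro l hl
      rw [hW, mem_filter] at hl
      cases l with
      | inl l =>
        refine mem_image_of_mem _ ?_
        rw [h𝓛, mem_filter]
        exact ⟨mem_univ _, hl.2⟩
      | inr a =>
        have := ChainAux.x_inr_le (I := I) (Par := Par) (hParU := hParU) S1 a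
        have h2 : X ≤ RichLine.x PL S1 (Sum.inr a) := hl.2.1
        have h3 : RichLine.x PL S1 (Sum.inr a) ≤ 1 := this
        omega
    have hWc : #W ≤ #𝓛 := (card_le_card hsub).trans card_image_le
    have hXle : (X:ℝ) ≤ 2 * s := by
      by_contra hcon
      rw [not_le] at hcon
      have h1 : (2 * s) ^ 2 < (X:ℝ) ^ 2 := pow_lt_pow_left₀ hcon (by positivity) (by norm_num)
      have h2 : (X:ℝ) ^ 2 ≤ 4 * (q:ℝ) := by exact_mod_cast hX2
      rw [hqs] at h2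
      nlinarith
    have h := hIT 𝓛 (X:ℝ) hXu hXle (by
      intro l hl
      rw [h𝓛, mem_filter] at hl
      refine ⟨by exact_mod_cast hl.2.1, by exact_mod_cast hl.2.2⟩)
    rw [lt_div_iff₀ hM10] at h
    have h5 : ((#W * X ^ 2 * M ^ 10 : ℕ) : ℝ) ≤ ((q ^ 2 : ℕ) : ℝ) := by
      push_cast
      have h6 : (#W : ℝ) ≤ #𝓛 := by exact_mod_cast hWc
      have h7 : (#W : ℝ) * (X:ℝ) ^ 2 * (M:ℝ) ^ 10 ≤ (#𝓛 : ℝ) * (X:ℝ) ^ 2 * (M:ℝ) ^ 10 := by
        gcongr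
      linarith
    exact_mod_cast h5
  -- numeric hypotheses
  have hn2 : 2 * M ^ 3 ≤ #S1 := by
    have : 2 * (M:ℝ) ^ 3 ≤ (#S1 : ℝ) := by linarith
    exact_mod_cast this
  have hn1 : 4 * (M ^ 3 + (2 * (M ^ 3) ^ 2 + (M ^ 3) ^ 5) * X₀) < 3 * #S1 := by
    have := ChainAux.nb_hn1 hMr hu1 hn_l hX₀2 (Nat.cast_nonneg _)
    exact_mod_cast this
  have hB_le' : (B:ℝ) ≤ 4 * u ^ 3 * (M:ℝ) ^ 31 := by
    refine hB_le.trans (le_of_eq ?_)
    rw [hq_u, hsu]; ring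
  have hn3 : 16 * M ^ 3 * (#S1 + #S1 * X₀ + X₀ * B) ≤ #S1 ^ 2 := by
    have := ChainAux.nb_hn3 hMr hu1 hn_l hX₀2 (Nat.cast_nonneg _) (Nat.cast_nonneg _) hB_le'
    exact_mod_cast this
  have hn4 : 16 * M ^ 3 * (M ^ 10 * (2 * #S1 * Z) + 4 * (r + 1) * q ^ 2) ≤ #S1 ^ 2 * M ^ 10 := by
    have hrr : ((r:ℝ)) + 1 ≤ M := by exact_mod_cast hrM
    have := ChainAux.nb_hn4 (r := (r:ℝ)) hMr (Nat.cast_nonneg #S1) hqpos.le (by linarith)
      (Nat.cast_nonneg Z) hZ1 (Nat.cast_nonneg r) hrr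
    exact_mod_cast this
  have hZZ : 4 * (M ^ 3 + 2 * (M ^ 3) ^ 2 + (M ^ 3) ^ 5) + 4 * M ^ 3 < 3 * Z := by
    have := ChainAux.nb_hZ hMr (Nat.cast_nonneg Z) hZ3
    exact_mod_cast this
  have hw : 1 ≤ M ^ 3 := Nat.one_le_pow _ _ hMN
  obtain ⟨m, hmZ, hm⟩ := RichLine.exists_near_line (P := PL) (S := S1) (R := R') (w := M ^ 3)
    (X₀ := X₀) (Z := Z) (K := M ^ 10) (r := r) (B := B) (q := q) hw hX₀1 hGrid hB' hITw hr1 hr2
    hS1 hn2 hn1 hn3 hn4 hZZ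
  cases m with
  | inr a =>
    exfalso
    have h3 : RichLine.x PL S1 (Sum.inr a) ≤ 1 :=
      ChainAux.x_inr_le (I := I) (Par := Par) (hParU := hParU) S1 a
    have h4 : (Z:ℝ) ≤ 1 := by exact_mod_cast hmZ.trans h3
    linarith
  | inl l =>
    refine ⟨l, ?_⟩
    have hs1 : 1 ≤ s := by
      have : (1:ℝ) ≤ u * (M:ℝ) ^ 10 := by
        have h3 : (1:ℝ) ≤ (M:ℝ) ^ 10 := one_le_pow₀ hM1
        nlinarith
      rw [hsu]; exact this
    rcases hm with h | h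
    · have h1 : ((#(S1.filter fun p => ¬ PL.I p (Sum.inl l)) : ℕ) : ℝ) ≤ 2 * (M:ℝ) ^ 3 := by
        exact_mod_cast h.le
      have h2 : (M:ℝ) ^ 3 ≤ (M:ℝ) ^ 6 * (M:ℝ) ^ 3 := by
        have h3 : (1:ℝ) ≤ (M:ℝ) ^ 6 := one_le_pow₀ hM1
        nlinarith
      have h3 : (10:ℝ) ^ 6 ≤ (M:ℝ) ^ 6 := ChainAux.pow_big hMr (by norm_num)
      have e : (M:ℝ) ^ 9 = (M:ℝ) ^ 6 * (M:ℝ) ^ 3 := by ring
      have h5 : 2 * (M:ℝ) ^ 3 ≤ (M:ℝ) ^ 9 := by rw [e]; nlinarith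
      have h6 : (M:ℝ) ^ 9 ≤ (M:ℝ) ^ 9 * s := by
        have : (0:ℝ) < (M:ℝ) ^ 9 := by positivity
        nlinarith
      exact h1.trans (h5.trans h6)
    · have h1 : ((#(S1.filter fun p => ¬ PL.I p (Sum.inl l)) : ℕ) : ℝ) * (Z:ℝ)
          < 8 * (M:ℝ) ^ 3 * (B:ℝ) := by
        exact_mod_cast h
      exact ChainAux.nb_final hMr hqpos hs0 (Nat.cast_nonneg _) (by linarith) hZ2 hB_le h1

end Crest.Agent.Ryser
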