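import Mathlib

/-!
Row 34 (S0045, S0046): Ryser counterexample. Paper proof: findings #1707 and the topic row34-plan.

Plane model over a finite field `F` (char ≠ 2).  The point `O` is the vertical point at infinity.
PARTS are `Option F`: `some x` is the vertical line at `x`, `none` is the line at infinity.
Each part has `q` plain vertices and a star, so `Option F × Option F` is the vertex set
(`(p, some k)` plain, `(p, none)` star).  Plain point in part `some x` with HEIGHT `k` is the
affine point `(x, x^2 + k)`; plain point `(none, some t)` is the point at infinity of slope `2t`.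

Lines not through `O` are `L = (t,u) : F × F`; the height of `L` at `x` is `u - (x - t)^2`.
-/

set_option autoImplicit false

noncomputable section

open Finset

namespace Crest.Agent.Ryser

variable {F : Type} [Field F]

/-- Height at part `x` of the line `L = (t,u)`. -/
def ht (L : F × F) (x : F) : F := L.2 - (x - L.1) ^ 2

/-- Plain points of the plane minus `O`: `(some x, k)` affine with height `k`, `(none, t)` at infinity. -/
abbrev Pt (F : Type) := Option F × F

/-- Incidence of a plain point with a line not through `O`. -/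
def onL (s : Pt F) (L : F × F) : Prop :=
  match s.1 with
  | some x => ht L x = s.2
  | none => L.1 = s.2

/-- The menu of heights: for `g : Fin 2`, `i : Fin M` a conflict height `kappa g i` and half-width
`delta g i`.  Teleport height `beta = kappa + delta`, hub height `eta = kappa - delta`. -/
structure Menu (F : Type) (M : ℕ) where
  kappa : Fin 2 → Fin M → F
  delta : Fin 2 → Fin M → F

variable {M : ℕ}

def Menu.beta (mn : Menu F M) (j : Fin 2 × Fin M) : F := mn.kappa j.1 j.2 + mn.delta j.1 j.2
def Menu.eta (mn : Menu F M) (j : Fin 2 × Fin M) : F := mn.kappa j.1 j.2 - mn.delta j.1 j.2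

/-- The choice at one part: the conflict indices `c g` and the teleport index `τ`. -/
abbrev Ch (M : ℕ) := (Fin 2 → Fin M) × (Fin 2 × Fin M)

/-- An environment: one choice per affine part. -/
abbrev Env (F : Type) (M : ℕ) := F → Ch M

/-- Conflict height number `g` of a choice. -/
def Menu.conf (mn : Menu F M) (ch : Ch M) (g : Fin 2) : F := mn.kappa g (ch.1 g)
/-- Teleport height of a choice. -/
def Menu.tele (mn : Menu F M) (ch : Ch M) : F := mn.beta ch.2
/-- Hub height of a choice. -/
def Menu.hub (mn : Menu F M) (ch : Ch M) : F := mn.eta ch.2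

/-- The four dead heights of a choice (conflicts, teleport, hub). -/
def Menu.isDead (mn : Menu F M) (ch : Ch M) (h : F) : Prop :=
  h = mn.conf ch 0 ∨ h = mn.conf ch 1 ∨ h = mn.tele ch ∨ h = mn.hub ch

/-- All `6M` heights of the menu are distinct, and all `delta ≠ 0` (follows from distinctness when
char ≠ 2, kept as a field of the predicate for convenience). -/
def Menu.Distinct (mn : Menu F M) : Prop :=
  Function.Injective (fun j : Fin 3 × Fin 2 × Fin M =>
    match j.1 with
    | 0 => mn.kappa j.2.1 j.2.2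
    | 1 => mn.beta j.2
    | 2 => mn.eta j.2) ∧ ∀ j : Fin 2 × Fin M, mn.delta j.1 j.2 ≠ 0

/-- `L` is retained at full strength (`R'`): slope `≠ t0`, and no dead point on it at any part. -/
def Alive' (mn : Menu F M) (ω : Env F M) (t0 : F) (L : F × F) : Prop :=
  L.1 ≠ t0 ∧ ∀ x, ¬ mn.isDead (ω x) (ht L x)

/-- `L` has no dead point outside the part of `s` (and slope `≠ t0`). -/
def AliveOff (mn : Menu F M) (ω : Env F M) (t0 : F) (p : Option F) (L : F × F) : Prop :=
  L.1 ≠ t0 ∧ ∀ x, some x ≠ p → ¬ mn.isDead (ω x) (ht L x)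

/-- A plain point is alive: not dead in its part (at infinity: slope `≠ t0`). -/
def alivePt (mn : Menu F M) (ω : Env F M) (t0 : F) (s : Pt F) : Prop :=
  match s.1 with
  | some x => ¬ mn.isDead (ω x) s.2
  | none => s.2 ≠ t0

/-- `L` misses all conflict points (slope `≠ t0`): a retained word. -/
def Ret (mn : Menu F M) (ω : Env F M) (t0 : F) (L : F × F) : Prop :=
  L.1 ≠ t0 ∧ ∀ x g, ht L x ≠ mn.conf (ω x) g

/-! ### Gadgets -/

/-- `d1 = (w + Δ/w)/2`. -/
def d1 (Δ w : F) : F := (w + Δ / w) / 2
/-- `d2 = (w - Δ/w)/2`. -/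
def d2 (Δ w : F) : F := (w - Δ / w) / 2

/-- Signed value: `sg true d = d`, `sg false d = -d`. -/
def sg (ε : Bool) (d : F) : F := if ε then d else -d

/-- The four gadget lines through `(x,κ)` for parameter `w`:
class `c = false`: `e_ε = (x - ε d1, κ + d1^2)`; class `c = true`: `f_ε = (x - ε d2, κ + d2^2)`. -/
def gLine (x κ Δ w : F) (c ε : Bool) : F × F :=
  if c then (x - sg ε (d2 Δ w), κ + (d2 Δ w) ^ 2) else (x - sg ε (d1 Δ w), κ + (d1 Δ w) ^ 2)

/-- Arc part for the signs `ε ε'`: `x - ε d1 - ε' d2`. -/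
def arc (x Δ w : F) (ε ε' : Bool) : F := x - sg ε (d1 Δ w) - sg ε' (d2 Δ w)

/-- Conflict index pair of part `x`, slot `g`. -/
def cIdx (ω : Env F M) (x : F) (g : Fin 2) : Fin 2 × Fin M := (g, (ω x).1 g)

/-- Good option `w` for the conflict `(x, slot g)`: nondegenerate; teleport index at the four arc
parts equals the conflict index; the four lines avoid every other conflict point (and slope `t0`);
the four lines meet teleports/hubs only at their designated arcs; arcs avoid the forbidden parts `Z`
(the arc parts of the gadget at infinity). -/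
def GoodOpt [DecidableEq F] (mn : Menu F M) (ω : Env F M) (t0 : F) (Z : Finset F) (x : F) (g : Fin 2)
    (w : F) : Prop :=
  let j := cIdx ω x g
  let κ := mn.kappa j.1 j.2
  let Δ := mn.delta j.1 j.2
  w ≠ 0 ∧ d1 Δ w ≠ 0 ∧ d2 Δ w ≠ 0 ∧ d1 Δ w ≠ d2 Δ w ∧ d1 Δ w ≠ - d2 Δ w ∧
  (∀ ε ε', (ω (arc x Δ w ε ε')).2 = j ∧ arc x Δ w ε ε' ∉ Z) ∧
  (∀ c ε, (gLine x κ Δ w c ε).1 ≠ t0) ∧
  (∀ c ε y g', y ≠ x → ht (gLine x κ Δ w c ε) y ≠ mn.conf (ω y) g') ∧
  (∀ ε y, (ht (gLine x κ Δ w false ε) y = mn.tele (ω y) ∨ ht (gLine x κ Δ w false ε) y = mn.hub (ω y))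
      → ∃ ε', y = arc x Δ w ε ε') ∧
  (∀ ε' y, (ht (gLine x κ Δ w true ε') y = mn.tele (ω y) ∨ ht (gLine x κ Δ w true ε') y = mn.hub (ω y))
      → ∃ ε, y = arc x Δ w ε ε')

/-- The gadget at infinity: lines of slope parameter `t0`; heights `U - 24, U, U + 24, U + 48`
with `U = 1 + beta (0,i0)`.  Class false: `e1 = (t0,U)`, `e2 = (t0,U+48)`; class true:
`f1 = (t0,U-24)`, `f2 = (t0,U+24)`. Index `j1 = (0,i0)` has `delta = 12`, index `j2 = (0,i1)` has
`kappa j2 = kappa j1 + 16`, `delta = 36`.  Arcs: `(e1,f1)` at `t0+1` (`τ = j1`), `(e1,f2)` at `t0+5`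
(`τ = j1`, reversed), `(e2,f2)` at `t0+7` (`τ = j1`), `(e2,f1)` at `t0+3` (`τ = j2`). -/
def infLine (mn : Menu F M) (i0 : Fin M) (t0 : F) (c ε : Bool) : F × F :=
  let U := 1 + mn.beta (0, i0)
  if c then (if ε then (t0, U - 24) else (t0, U + 24)) else (if ε then (t0, U) else (t0, U + 48))

/-- Designated arc parts of `infLine`: `e1: t0+1, t0+5`; `e2: t0+7, t0+3`; `f1: t0+1, t0+3`; `f2: t0+5, t0+7`. -/
def infDesignated (t0 : F) (c ε : Bool) (y : F) : Prop :=
  if c then (if ε then y = t0 + 1 ∨ y = t0 + 3 else y = t0 + 5 ∨ y = t0 + 7)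
  else (if ε then y = t0 + 1 ∨ y = t0 + 5 else y = t0 + 7 ∨ y = t0 + 3)

/-- The gadget at infinity is good. -/
def GoodInf (mn : Menu F M) (ω : Env F M) (i0 i1 : Fin M) (t0 : F) : Prop :=
  mn.delta 0 i0 = 12 ∧ mn.delta 0 i1 = 36 ∧ mn.kappa 0 i1 = mn.kappa 0 i0 + 16 ∧
  (ω (t0 + 1)).2 = (0, i0) ∧ (ω (t0 + 5)).2 = (0, i0) ∧ (ω (t0 + 7)).2 = (0, i0) ∧
  (ω (t0 + 3)).2 = (0, i1) ∧
  (∀ c ε y g', ht (infLine mn i0 t0 c ε) y ≠ mn.conf (ω y) g') ∧
  (∀ c ε y, (ht (infLine mn i0 t0 c ε) y = mn.tele (ω y) ∨ ht (infLine mn i0 t0 c ε) y = mn.hub (ω y))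
      → infDesignated t0 c ε y)

/-- The four arc parts of the gadget at infinity. -/
def infZ [DecidableEq F] (t0 : F) : Finset F := {t0 + 1, t0 + 3, t0 + 5, t0 + 7}

/-! ### Words -/

/-- A line as a word: its height at each part, a hub at a teleport; its slope parameter at infinity. -/
def plainW [DecidableEq F] (mn : Menu F M) (ω : Env F M) (L : F × F) : Option F → Option F
  | none => some L.1
  | some y => if ht L y = mn.tele (ω y) then some (mn.hub (ω y)) else some (ht L y)

/-- The label of class `c` for slot `g` at part `x`: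
slot 0: conflict vertex / star; slot 1: conflict vertex / teleport vertex. -/
def label (mn : Menu F M) (ω : Env F M) (x : F) (g : Fin 2) (c : Bool) : Option F :=
  if c then (if g = 0 then none else some (mn.tele (ω x))) else some (mn.conf (ω x) g)

/-- Gadget word at slot `g` of part `x`, using parameter `w`, line `(c, ε)`. -/
def gadW [DecidableEq F] (mn : Menu F M) (ω : Env F M) (w : F) (x : F) (g : Fin 2) (c ε : Bool) :
    Option F → Option F :=
  let j := cIdx ω x g
  Function.update (plainW mn ω (gLine x (mn.kappa j.1 j.2) (mn.delta j.1 j.2) w c ε)) (some x)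
    (label mn ω x g c)

/-- Word of the gadget at infinity. -/
def infW [DecidableEq F] (mn : Menu F M) (ω : Env F M) (i0 : Fin M) (t0 : F) (c ε : Bool) :
    Option F → Option F :=
  Function.update (plainW mn ω (infLine mn i0 t0 c ε)) none (if c then none else some t0)

/-- The line through two plain points in different parts (the line `(t,u)` with both on it, char ≠ 2). -/
def join [DecidableEq F] (s s' : Pt F) : F × F :=
  match s.1, s'.1 with
  | some x, some y =>
      let t := (x + y - (s.2 - s'.2) / (y - x)) / 2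
      (t, s.2 + (x - t) ^ 2)
  | some x, none => (s'.2, s.2 + (x - s'.2) ^ 2)
  | none, some y => (s.2, s'.2 + (y - s.2) ^ 2)
  | none, none => (s.2, 0)

end Crest.Agent.Ryser
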