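/-
  Elementary product probability on finite product spaces (uniform weights),
  McDiarmid's bounded difference inequality, independence of events with
  disjoint supports.  No measure theory: everything is a finite sum.
  helper62 (row 34, S0045/S0046; generic, usable anywhere).
-/
import Mathlib

set_option autoImplicit false
set_option linter.unusedSectionVars false

open Finset Function

namespace Crest.Agent.Ryser.ProdProb

variable {ι : Type*} [Fintype ι] [DecidableEq ι] {Ω : ι → Type*}
  [∀ i, Fintype (Ω i)] [∀ i, Nonempty (Ω i)]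

/-- Uniform average over the product space. -/
noncomputable def avg (f : (∀ i, Ω i) → ℝ) : ℝ :=
  (∑ ω, f ω) / (Fintype.card (∀ i, Ω i) : ℝ)

/-- Uniform probability of an event on the product space. -/
noncomputable def prob (P : (∀ i, Ω i) → Prop) [DecidablePred P] : ℝ :=
  ((Finset.univ.filter P).card : ℝ) / (Fintype.card (∀ i, Ω i) : ℝ)

/-- Average over one coordinate. -/
noncomputable def avgAt (i : ι) (f : (∀ i, Ω i) → ℝ) (ω : ∀ i, Ω i) : ℝ :=
  (∑ a : Ω i, f (update ω i a)) / (Fintype.card (Ω i) : ℝ)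

lemma card_pos' : (0 : ℝ) < (Fintype.card (∀ i, Ω i) : ℝ) := by
  exact_mod_cast Fintype.card_pos

lemma card_coord_pos (i : ι) : (0 : ℝ) < (Fintype.card (Ω i) : ℝ) := by
  exact_mod_cast Fintype.card_pos

lemma avg_const (c : ℝ) : avg (fun _ : ∀ i, Ω i => c) = c := by
  have h := card_pos' (ι := ι) (Ω := Ω)
  simp only [avg, Finset.sum_const, Finset.card_univ, nsmul_eq_mul]
  field_simp

lemma avg_add (f g : (∀ i, Ω i) → ℝ) : avg (fun ω => f ω + g ω) = avg f + avg g := by
  simp only [avg, Finset.sum_add_distrib, add_div]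

lemma avg_sub (f g : (∀ i, Ω i) → ℝ) : avg (fun ω => f ω - g ω) = avg f - avg g := by
  simp only [avg, Finset.sum_sub_distrib, sub_div]

lemma avg_mul_const (c : ℝ) (f : (∀ i, Ω i) → ℝ) : avg (fun ω => c * f ω) = c * avg f := by
  simp only [avg, ← Finset.mul_sum, mul_div_assoc]

lemma avg_neg (f : (∀ i, Ω i) → ℝ) : avg (fun ω => - f ω) = - avg f := by
  simp only [avg, Finset.sum_neg_distrib, neg_div]

lemma avg_sum {κ : Type*} (T : Finset κ) (f : κ → (∀ i, Ω i) → ℝ) :
    avg (fun ω => ∑ k ∈ T, f k ω) = ∑ k ∈ T, avg (f k) := by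
  simp only [avg, Finset.sum_div]
  rw [Finset.sum_comm]

lemma avg_mono {f g : (∀ i, Ω i) → ℝ} (h : ∀ ω, f ω ≤ g ω) : avg f ≤ avg g := by
  have hp := card_pos' (ι := ι) (Ω := Ω)
  simp only [avg]
  exact div_le_div_of_nonneg_right (Finset.sum_le_sum fun ω _ => h ω) hp.le

lemma avg_nonneg {f : (∀ i, Ω i) → ℝ} (h : ∀ ω, 0 ≤ f ω) : 0 ≤ avg f := by
  have := avg_mono (f := fun _ => (0 : ℝ)) (g := f) h
  rwa [avg_const] at this

/-- The probability of an event is the average of its indicator. -/
lemma prob_eq_avg (P : (∀ i, Ω i) → Prop) [DecidablePred P] :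
    prob P = avg (fun ω => if P ω then (1 : ℝ) else 0) := by
  simp only [prob, avg]
  congr 1
  rw [Finset.sum_boole]

lemma prob_nonneg (P : (∀ i, Ω i) → Prop) [DecidablePred P] : 0 ≤ prob P := by
  have hp := card_pos' (ι := ι) (Ω := Ω)
  exact div_nonneg (Nat.cast_nonneg _) hp.le

lemma prob_le_one (P : (∀ i, Ω i) → Prop) [DecidablePred P] : prob P ≤ 1 := by
  have hp := card_pos' (ι := ι) (Ω := Ω)
  rw [prob, div_le_one hp]
  have : (Finset.univ.filter P).card ≤ Fintype.card (∀ i, Ω i) := by
    rw [← Finset.card_univ]; exact Finset.card_filter_le _ _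
  exact_mod_cast this

/-- Monotonicity of probability. -/
lemma prob_mono {P Q : (∀ i, Ω i) → Prop} [DecidablePred P] [DecidablePred Q]
    (h : ∀ ω, P ω → Q ω) : prob P ≤ prob Q := by
  have hp := card_pos' (ι := ι) (Ω := Ω)
  refine div_le_div_of_nonneg_right ?_ hp.le
  have : (Finset.univ.filter P).card ≤ (Finset.univ.filter Q).card :=
    Finset.card_le_card (fun ω hω => by
      simp only [Finset.mem_filter, Finset.mem_univ, true_and] at hω ⊢; exact h ω hω)
  exact_mod_cast this

/-- Union bound. -/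
lemma prob_exists_le_sum {κ : Type*} (T : Finset κ) (P : κ → (∀ i, Ω i) → Prop)
    [∀ k, DecidablePred (P k)] [DecidablePred fun ω => ∃ k ∈ T, P k ω] :
    prob (fun ω => ∃ k ∈ T, P k ω) ≤ ∑ k ∈ T, prob (P k) := by
  classical
  rw [prob_eq_avg]
  simp only [prob_eq_avg]
  rw [← avg_sum]
  refine avg_mono fun ω => ?_
  by_cases h : ∃ k ∈ T, P k ω
  · rw [if_pos h]
    obtain ⟨k, hk, hPk⟩ := h
    calc (1 : ℝ) = if P k ω then 1 else 0 := by rw [if_pos hPk]
      _ ≤ _ := Finset.single_le_sum (f := fun k => if P k ω then (1 : ℝ) else 0)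
            (fun _ _ => by split_ifs <;> norm_num) hk
  · rw [if_neg h]
    exact Finset.sum_nonneg fun _ _ => by split_ifs <;> norm_num

/-- The probabilistic method. -/
lemma exists_of_prob_lt_one (P : (∀ i, Ω i) → Prop) [DecidablePred P] (h : prob P < 1) :
    ∃ ω, ¬ P ω := by
  by_contra hcon
  push Not at hcon
  have : prob P = 1 := by
    have hp := card_pos' (ι := ι) (Ω := Ω)
    rw [prob, Finset.filter_true_of_mem (fun ω _ => hcon ω), Finset.card_univ]
    exact div_self hp.ne'
  linarith

/-- Complement rule. -/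
lemma prob_not (P : (∀ i, Ω i) → Prop) [DecidablePred P] :
    prob (fun ω => ¬ P ω) = 1 - prob P := by
  have hp := card_pos' (ι := ι) (Ω := Ω)
  rw [prob_eq_avg, prob_eq_avg]
  have : (fun ω => if ¬ P ω then (1 : ℝ) else 0) = fun ω => 1 - (if P ω then (1 : ℝ) else 0) := by
    funext ω; by_cases h : P ω <;> simp [h]
  rw [this, avg_sub, avg_const]

/-- The tower property for one coordinate, via the involution `(ω, a) ↦ (update ω i a, ω i)`. -/
lemma avg_avgAt (i : ι) (f : (∀ i, Ω i) → ℝ) : avg (avgAt i f) = avg f := by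
  have hi := card_coord_pos (Ω := Ω) i
  have key : ∑ p : (∀ i, Ω i) × Ω i, f (update p.1 i p.2)
      = ∑ p : (∀ i, Ω i) × Ω i, f p.1 := by
    let e : (∀ i, Ω i) × Ω i → (∀ i, Ω i) × Ω i := fun p => (update p.1 i p.2, p.1 i)
    have he : Function.Involutive e := by
      rintro ⟨ω, a⟩
      simp [e, Function.update_idem]
    exact Fintype.sum_equiv he.toPerm _ _ (fun p => by simp [Function.Involutive.toPerm, e])
  have h1 : ∑ ω, avgAt i f ω = ∑ ω, f ω := by
    simp only [avgAt]
    rw [← Finset.sum_div]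
    rw [div_eq_iff hi.ne']
    have := key
    rw [Fintype.sum_prod_type, Fintype.sum_prod_type] at this
    simp only [Finset.sum_const, Finset.card_univ, nsmul_eq_mul] at this
    rw [this, ← Finset.mul_sum, mul_comm]
  simp only [avg, h1]

/-- A function does not depend on coordinate `i`. -/
def IndepOf (i : ι) (g : (∀ i, Ω i) → ℝ) : Prop := ∀ ω a, g (update ω i a) = g ω

lemma avgAt_of_indep {i : ι} {g : (∀ i, Ω i) → ℝ} (h : IndepOf i g) (ω : ∀ i, Ω i) :
    avgAt i g ω = g ω := by
  have hi := card_coord_pos (Ω := Ω) i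
  simp only [avgAt, h ω, Finset.sum_const, Finset.card_univ, nsmul_eq_mul]
  field_simp

lemma indep_avgAt (i : ι) (f : (∀ i, Ω i) → ℝ) : IndepOf i (avgAt i f) := by
  intro ω a
  simp only [avgAt, Function.update_idem]

lemma indep_avgAt_of_indep {i j : ι} {f : (∀ i, Ω i) → ℝ} (h : IndepOf j f) :
    IndepOf j (avgAt i f) := by
  intro ω b
  by_cases hij : i = j
  · subst hij; exact indep_avgAt i f ω b
  · simp only [avgAt]
    congr 1
    refine Finset.sum_congr rfl fun a _ => ?_
    rw [Function.update_comm (Ne.symm hij), h]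

lemma avgAt_mul_of_indep {i : ι} {G : (∀ i, Ω i) → ℝ} (hG : IndepOf i G)
    (F : (∀ i, Ω i) → ℝ) (ω : ∀ i, Ω i) :
    avgAt i (fun ω => G ω * F ω) ω = G ω * avgAt i F ω := by
  simp only [avgAt, hG ω, ← Finset.mul_sum, mul_div_assoc]

/-- Average out all coordinates of a list, head first. -/
noncomputable def avgList : List ι → ((∀ i, Ω i) → ℝ) → (∀ i, Ω i) → ℝ
  | [], f => f
  | i :: l, f => avgList l (avgAt i f)

lemma avg_avgList (l : List ι) (f : (∀ i, Ω i) → ℝ) : avg (avgList l f) = avg f := by
  induction l generalizing f with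
  | nil => rfl
  | cons i l ih => simp only [avgList]; rw [ih, avg_avgAt]

lemma indep_avgList {j : ι} (l : List ι) {f : (∀ i, Ω i) → ℝ} (h : IndepOf j f) :
    IndepOf j (avgList l f) := by
  induction l generalizing f with
  | nil => exact h
  | cons i l ih => exact ih (indep_avgAt_of_indep h)

lemma indep_avgList_mem {j : ι} (l : List ι) (hj : j ∈ l) (f : (∀ i, Ω i) → ℝ) :
    IndepOf j (avgList l f) := by
  induction l generalizing f with
  | nil => simp at hj
  | cons i l ih =>
    simp only [avgList]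
    rcases List.mem_cons.mp hj with rfl | hj'
    · exact indep_avgList l (indep_avgAt _ f)
    · exact ih hj' _

/-- A function independent of every coordinate of a finset takes the same value on points that
agree off this finset. -/
lemma eq_of_indep_finset (s : Finset ι) {g : (∀ i, Ω i) → ℝ} (h : ∀ i ∈ s, IndepOf i g)
    (ω ω' : ∀ i, Ω i) (hagree : ∀ i, i ∉ s → ω i = ω' i) : g ω = g ω' := by
  classical
  induction s using Finset.induction_on generalizing ω with
  | empty =>
    have : ω = ω' := funext fun i => hagree i (by simp)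
    rw [this]
  | insert a s ha ih =>
    have h1 : g (update ω a (ω' a)) = g ω := h a (Finset.mem_insert_self _ _) ω _
    rw [← h1]
    refine ih (fun i hi => h i (Finset.mem_insert_of_mem hi)) _ ?_
    intro i hi
    by_cases hia : i = a
    · subst hia; simp
    · rw [Function.update_of_ne hia]
      exact hagree i (by simp [hia, hi])

/-- After averaging over all coordinates the function is the constant `avg f`. -/
lemma avgList_all (l : List ι) (hl : ∀ i, i ∈ l) (f : (∀ i, Ω i) → ℝ) (ω : ∀ i, Ω i) :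
    avgList l f ω = avg f := by
  have hconst : ∀ ω', avgList l f ω' = avgList l f ω := fun ω' =>
    eq_of_indep_finset Finset.univ (fun i _ => indep_avgList_mem l (hl i) f) ω' ω
      (fun i hi => absurd (Finset.mem_univ i) hi)
  rw [← avg_avgList l f]
  have : avg (avgList l f) = avg (fun _ : (∀ i, Ω i) => avgList l f ω) := by
    simp only [avg]
    congr 1
    exact Finset.sum_congr rfl fun ω' _ => hconst ω'
  rw [this, avg_const]

/-- Bounded differences. -/
def BoundedDiff (c : ι → ℝ) (f : (∀ i, Ω i) → ℝ) : Prop :=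
  ∀ i ω a, |f (update ω i a) - f ω| ≤ c i

lemma boundedDiff_avgAt {c : ι → ℝ} {f : (∀ i, Ω i) → ℝ} (hf : BoundedDiff c f) (j : ι) :
    BoundedDiff c (avgAt j f) := by
  intro i ω a
  have hj := card_coord_pos (Ω := Ω) j
  simp only [avgAt]
  rw [← sub_div, ← Finset.sum_sub_distrib, abs_div, abs_of_pos hj, div_le_iff₀ hj]
  refine (Finset.abs_sum_le_sum_abs _ _).trans ?_
  have : ∀ b ∈ (Finset.univ : Finset (Ω j)),
      |f (update (update ω i a) j b) - f (update ω j b)| ≤ c i := by
    intro b _
    by_cases hij : i = j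
    · subst hij
      simp only [Function.update_idem]
      have : f (update ω i b) - f (update ω i b) = 0 := sub_self _
      rw [this, abs_zero]
      have := hf i ω a
      exact (abs_nonneg _).trans this
    · rw [Function.update_comm hij]
      exact hf i (update ω j b) a
  refine (Finset.sum_le_sum this).trans ?_
  simp [Finset.card_univ, mul_comm]

/-- Hoeffding's lemma in the elementary form: mean zero values bounded by `c`. -/
lemma hoeffding_finite {A : Type*} [Fintype A] [Nonempty A] (x : A → ℝ) (c lam : ℝ)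
    (hx : ∀ a, |x a| ≤ c) (hmean : ∑ a, x a = 0) :
    (∑ a, Real.exp (lam * x a)) / (Fintype.card A : ℝ) ≤ Real.exp (lam ^ 2 * c ^ 2 / 2) := by
  have hA : (0 : ℝ) < (Fintype.card A : ℝ) := by exact_mod_cast Fintype.card_pos
  have hc0 : 0 ≤ c := (abs_nonneg _).trans (hx (Classical.arbitrary A))
  rw [div_le_iff₀ hA]
  rcases hc0.eq_or_lt with hc | hc
  · have hzero : ∀ a, x a = 0 := fun a => by
      have := hx a
      rw [← hc] at this
      exact abs_nonpos_iff.mp this
    simp [hzero, ← hc]
  -- chord bound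
  have hchord : ∀ a, Real.exp (lam * x a) ≤
      Real.cosh (lam * c) + (x a / c) * Real.sinh (lam * c) := by
    intro a
    have hxa := abs_le.mp (hx a)
    set t := x a / c with ht
    have hx_eq : x a = t * c := by rw [ht]; field_simp
    have ht1 : -1 ≤ t := by
      rw [ht, le_div_iff₀ hc]; linarith [hxa.1]
    have ht2 : t ≤ 1 := by
      rw [ht, div_le_one hc]; exact hxa.2
    have hconv := convexOn_exp.2 (Set.mem_univ (lam * c)) (Set.mem_univ (-(lam * c)))
      (show (0 : ℝ) ≤ (1 + t) / 2 by linarith) (show (0 : ℝ) ≤ (1 - t) / 2 by linarith) (by ring)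
    simp only [smul_eq_mul] at hconv
    have harg : (1 + t) / 2 * (lam * c) + (1 - t) / 2 * (-(lam * c)) = lam * x a := by
      rw [hx_eq]; ring
    rw [harg] at hconv
    refine hconv.trans (le_of_eq ?_)
    rw [Real.cosh_eq, Real.sinh_eq]
    ring
  calc ∑ a, Real.exp (lam * x a)
      ≤ ∑ a, (Real.cosh (lam * c) + (x a / c) * Real.sinh (lam * c)) :=
        Finset.sum_le_sum fun a _ => hchord a
    _ = (Fintype.card A : ℝ) * Real.cosh (lam * c) := by
        rw [Finset.sum_add_distrib, ← Finset.sum_mul, ← Finset.sum_div, hmean]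
        simp [Finset.card_univ]
    _ ≤ (Fintype.card A : ℝ) * Real.exp (lam ^ 2 * c ^ 2 / 2) := by
        refine mul_le_mul_of_nonneg_left ?_ hA.le
        rw [show lam ^ 2 * c ^ 2 / 2 = (lam * c) ^ 2 / 2 by ring]
        exact Real.cosh_le_exp_half_sq (lam * c)
    _ = Real.exp (lam ^ 2 * c ^ 2 / 2) * (Fintype.card A : ℝ) := by ring

/-- One coordinate step of the martingale bound. -/
lemma avgAt_exp_le {c : ι → ℝ} {f : (∀ i, Ω i) → ℝ} (hf : BoundedDiff c f) (i : ι) (lam : ℝ)
    (ω : ∀ i, Ω i) :
    avgAt i (fun ω => Real.exp (lam * (f ω - avgAt i f ω))) ω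
      ≤ Real.exp (lam ^ 2 * c i ^ 2 / 2) := by
  have hi := card_coord_pos (Ω := Ω) i
  have hconst : ∀ a, avgAt i f (update ω i a) = avgAt i f ω := fun a => indep_avgAt i f ω a
  simp only [avgAt] at hconst ⊢
  simp only [hconst]
  set m := (∑ a, f (update ω i a)) / (Fintype.card (Ω i) : ℝ) with hm
  have hx : ∀ a : Ω i, |f (update ω i a) - m| ≤ c i := by
    intro a
    have hdiff : ∀ b : Ω i, |f (update ω i a) - f (update ω i b)| ≤ c i := by
      intro b
      have := hf i (update ω i b) a
      simpa [Function.update_idem] using this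
    have heq : f (update ω i a) - m
        = (∑ b, (f (update ω i a) - f (update ω i b))) / (Fintype.card (Ω i) : ℝ) := by
      rw [hm, Finset.sum_sub_distrib]
      simp only [Finset.sum_const, Finset.card_univ, nsmul_eq_mul]
      field_simp
    rw [heq, abs_div, abs_of_pos hi, div_le_iff₀ hi]
    refine (Finset.abs_sum_le_sum_abs _ _).trans ?_
    refine (Finset.sum_le_sum fun b _ => hdiff b).trans ?_
    simp [Finset.card_univ, mul_comm]
  have hmean : ∑ a : Ω i, (f (update ω i a) - m) = 0 := by
    rw [Finset.sum_sub_distrib, hm]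
    simp only [Finset.sum_const, Finset.card_univ, nsmul_eq_mul]
    field_simp
    ring
  exact hoeffding_finite _ (c i) lam hx hmean

/-- The exponential moment bound along a list. -/
lemma avg_exp_list (c : ι → ℝ) (lam : ℝ) (l : List ι) {f : (∀ i, Ω i) → ℝ}
    (hf : BoundedDiff c f) :
    avg (fun ω => Real.exp (lam * (f ω - avgList l f ω)))
      ≤ Real.exp (lam ^ 2 * (l.map fun i => c i ^ 2).sum / 2) := by
  induction l generalizing f with
  | nil => simp [avgList, avg_const]
  | cons i l ih =>
    simp only [avgList, List.map_cons, List.sum_cons]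
    set h := avgAt i f with hh
    have hbd : BoundedDiff c h := boundedDiff_avgAt hf i
    have hIH := ih hbd
    -- split the exponential
    set G : (∀ i, Ω i) → ℝ := fun ω => Real.exp (lam * (h ω - avgList l h ω)) with hG
    set F : (∀ i, Ω i) → ℝ := fun ω => Real.exp (lam * (f ω - h ω)) with hF
    have hsplit : (fun ω => Real.exp (lam * (f ω - avgList l h ω))) = fun ω => G ω * F ω := by
      funext ω
      simp only [hG, hF]
      rw [← Real.exp_add]
      congr 1
      ring
    rw [hsplit]
    have hGindep : IndepOf i G := by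
      intro ω a
      simp only [hG]
      have h1 : h (update ω i a) = h ω := indep_avgAt i f ω a
      have h2 : avgList l h (update ω i a) = avgList l h ω :=
        indep_avgList l (indep_avgAt i f) ω a
      rw [h1, h2]
    have hGnonneg : ∀ ω, 0 ≤ G ω := fun ω => (Real.exp_pos _).le
    have hstep : avg (fun ω => G ω * F ω)
        ≤ avg (fun ω => G ω * Real.exp (lam ^ 2 * c i ^ 2 / 2)) := by
      rw [← avg_avgAt i (fun ω => G ω * F ω)]
      refine avg_mono fun ω => ?_
      rw [avgAt_mul_of_indep hGindep F ω]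
      exact mul_le_mul_of_nonneg_left (avgAt_exp_le hf i lam ω) (hGnonneg ω)
    refine hstep.trans ?_
    have : avg (fun ω => G ω * Real.exp (lam ^ 2 * c i ^ 2 / 2))
        = avg G * Real.exp (lam ^ 2 * c i ^ 2 / 2) := by
      simp only [avg, ← Finset.sum_mul]
      ring
    rw [this]
    have hexp : Real.exp (lam ^ 2 * (c i ^ 2 + (l.map fun i => c i ^ 2).sum) / 2)
        = Real.exp (lam ^ 2 * (l.map fun i => c i ^ 2).sum / 2) * Real.exp (lam ^ 2 * c i ^ 2 / 2) := by
      rw [← Real.exp_add]
      congr 1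
      ring
    rw [hexp]
    exact mul_le_mul_of_nonneg_right hIH (Real.exp_pos _).le

/-- Exponential moment bound: `E exp(λ (f - E f)) ≤ exp(λ² Σ c² / 2)`. -/
lemma avg_exp_le (c : ι → ℝ) (lam : ℝ) {f : (∀ i, Ω i) → ℝ} (hf : BoundedDiff c f) :
    avg (fun ω => Real.exp (lam * (f ω - avg f))) ≤ Real.exp (lam ^ 2 * (∑ i, c i ^ 2) / 2) := by
  have h := avg_exp_list c lam (Finset.univ.toList) hf
  have h1 : ∀ ω, avgList (Finset.univ.toList) f ω = avg f :=
    avgList_all _ (fun i => by simp) f
  simp only [h1] at h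
  have h2 : ((Finset.univ : Finset ι).toList.map fun i => c i ^ 2).sum = ∑ i, c i ^ 2 := by
    rw [Finset.sum_map_toList]
  rwa [h2] at h

/-- **McDiarmid, upper tail.** -/
theorem mcdiarmid_upper (c : ι → ℝ) {f : (∀ i, Ω i) → ℝ} (hf : BoundedDiff c f) {t : ℝ}
    (ht : 0 ≤ t) [DecidablePred fun ω : ∀ i, Ω i => avg f + t ≤ f ω] :
    prob (fun ω => avg f + t ≤ f ω) ≤ Real.exp (-(t ^ 2 / (2 * ∑ i, c i ^ 2))) := by
  set V := ∑ i, c i ^ 2 with hV
  have hV0 : 0 ≤ V := Finset.sum_nonneg fun i _ => sq_nonneg _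
  rcases hV0.eq_or_lt with hV1 | hV1
  · rw [← hV1]
    simp only [mul_zero, div_zero, neg_zero, Real.exp_zero]
    exact prob_le_one _
  set lam := t / V with hlam
  have hlam0 : 0 ≤ lam := div_nonneg ht hV0
  have hb := avg_exp_le c lam hf
  -- Markov
  have hmark : ∀ ω, (if avg f + t ≤ f ω then (1 : ℝ) else 0)
      ≤ Real.exp (-(lam * t)) * Real.exp (lam * (f ω - avg f)) := by
    intro ω
    split_ifs with h
    · rw [← Real.exp_add]
      apply Real.one_le_exp
      have : 0 ≤ lam * (f ω - avg f - t) := mul_nonneg hlam0 (by linarith)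
      linarith
    · positivity
  rw [prob_eq_avg]
  refine (avg_mono hmark).trans ?_
  rw [avg_mul_const]
  have h2 : Real.exp (-(lam * t)) * Real.exp (lam ^ 2 * V / 2)
      = Real.exp (-(t ^ 2 / (2 * V))) := by
    rw [← Real.exp_add]
    congr 1
    rw [hlam]
    field_simp
    ring
  rw [← h2]
  exact mul_le_mul_of_nonneg_left hb (Real.exp_pos _).le

/-- Bounded differences pass to the negative. -/
lemma boundedDiff_neg {c : ι → ℝ} {f : (∀ i, Ω i) → ℝ} (hf : BoundedDiff c f) :
    BoundedDiff c (fun ω => - f ω) := by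
  intro i ω a
  have := hf i ω a
  rw [show - f (update ω i a) - - f ω = -(f (update ω i a) - f ω) by ring, abs_neg]
  exact this

/-- **McDiarmid, lower tail.** -/
theorem mcdiarmid_lower (c : ι → ℝ) {f : (∀ i, Ω i) → ℝ} (hf : BoundedDiff c f) {t : ℝ}
    (ht : 0 ≤ t) [DecidablePred fun ω : ∀ i, Ω i => f ω ≤ avg f - t] :
    prob (fun ω => f ω ≤ avg f - t) ≤ Real.exp (-(t ^ 2 / (2 * ∑ i, c i ^ 2))) := by
  classical
  have h := mcdiarmid_upper c (boundedDiff_neg hf) ht
  refine le_trans (prob_mono ?_) h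
  intro ω hω
  rw [avg_neg]
  linarith

/-- **McDiarmid, two sided.** -/
theorem mcdiarmid_abs (c : ι → ℝ) {f : (∀ i, Ω i) → ℝ} (hf : BoundedDiff c f) {t : ℝ}
    (ht : 0 ≤ t) [DecidablePred fun ω : ∀ i, Ω i => t ≤ |f ω - avg f|] :
    prob (fun ω => t ≤ |f ω - avg f|) ≤ 2 * Real.exp (-(t ^ 2 / (2 * ∑ i, c i ^ 2))) := by
  classical
  have h1 := mcdiarmid_upper c hf ht
  have h2 := mcdiarmid_lower c hf ht
  have hu : prob (fun ω => t ≤ |f ω - avg f|)
      ≤ ∑ k ∈ (Finset.univ : Finset Bool),
          prob (fun ω => if k then avg f + t ≤ f ω else f ω ≤ avg f - t) := by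
    refine le_trans (prob_mono ?_) (prob_exists_le_sum _ _)
    intro ω hω
    rcases le_abs'.mp hω with h | h
    · exact ⟨false, Finset.mem_univ _, by simp; linarith⟩
    · exact ⟨true, Finset.mem_univ _, by simp; linarith⟩
  refine hu.trans ?_
  simp only [Fintype.sum_bool, if_true, Bool.false_eq_true, if_false]
  linarith

/-! ### Independence of functions with disjoint supports -/

/-- `g` depends only on the coordinates in `s`. -/
def Supp (s : Finset ι) (g : (∀ i, Ω i) → ℝ) : Prop := ∀ i, i ∉ s → IndepOf i g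

lemma Supp.mono {s t : Finset ι} {g : (∀ i, Ω i) → ℝ} (h : Supp s g) (hst : s ⊆ t) : Supp t g :=
  fun i hi => h i (fun his => hi (hst his))

lemma Supp.mul {s t : Finset ι} {g h : (∀ i, Ω i) → ℝ} (hg : Supp s g) (hh : Supp t h) :
    Supp (s ∪ t) (fun ω => g ω * h ω) := by
  intro i hi ω a
  simp only [Finset.mem_union, not_or] at hi
  simp only [hg i hi.1 ω a, hh i hi.2 ω a]

lemma supp_const (s : Finset ι) (c : ℝ) : Supp s (fun _ : ∀ i, Ω i => c) :=
  fun _ _ _ _ => rfl

lemma supp_coord (i : ι) (g : Ω i → ℝ) : Supp {i} (fun ω : ∀ i, Ω i => g (ω i)) := by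
  intro j hj ω a
  have hji : j ≠ i := by simpa using hj
  simp only [Function.update_of_ne hji.symm]

/-- Supported on `s` in the sense of agreement: two points that agree on `s` give the same value. -/
lemma Supp.eq_of_agree {s : Finset ι} {g : (∀ i, Ω i) → ℝ} (h : Supp s g) (ω ω' : ∀ i, Ω i)
    (hag : ∀ i ∈ s, ω i = ω' i) : g ω = g ω' := by
  refine eq_of_indep_finset (Finset.univ \ s) (fun i hi => h i (by simpa using hi)) ω ω' ?_
  intro i hi
  exact hag i (by simpa using hi)

/-- A function which only depends on the coordinates of `s`, in the sense of agreement, is `Supp`. -/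
lemma supp_of_agree {s : Finset ι} {g : (∀ i, Ω i) → ℝ}
    (h : ∀ ω ω' : ∀ i, Ω i, (∀ i ∈ s, ω i = ω' i) → g ω = g ω') : Supp s g := by
  intro i hi ω a
  apply h
  intro j hj
  have : j ≠ i := fun hji => hi (hji ▸ hj)
  simp [Function.update_of_ne this]

lemma avgList_mul_of_indep (l : List ι) {G : (∀ i, Ω i) → ℝ} (hG : ∀ i ∈ l, IndepOf i G)
    (F : (∀ i, Ω i) → ℝ) (ω : ∀ i, Ω i) :
    avgList l (fun ω => G ω * F ω) ω = G ω * avgList l F ω := by
  induction l generalizing F with
  | nil => rfl
  | cons i l ih =>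
    simp only [avgList]
    have h1 : avgAt i (fun ω => G ω * F ω) = fun ω => G ω * avgAt i F ω := by
      funext ω'
      exact avgAt_mul_of_indep (hG i (by simp)) F ω'
    rw [h1]
    exact ih (fun j hj => hG j (by simp [hj])) _

/-- **Independence**: functions with disjoint supports are uncorrelated. -/
theorem avg_mul_of_disjoint {s t : Finset ι} (hst : Disjoint s t) {g h : (∀ i, Ω i) → ℝ}
    (hg : Supp s g) (hh : Supp t h) :
    avg (fun ω => g ω * h ω) = avg g * avg h := by
  -- average out the coordinates of `t`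
  have hG : ∀ i ∈ t.toList, IndepOf i g := by
    intro i hi
    exact hg i (fun his => (Finset.disjoint_left.mp hst his) (by simpa using hi))
  have hconst : ∀ ω ω' : ∀ i, Ω i, avgList t.toList h ω = avgList t.toList h ω' := by
    intro ω ω'
    refine eq_of_indep_finset Finset.univ (fun i _ => ?_) ω ω'
      (fun i hi => absurd (Finset.mem_univ i) hi)
    by_cases hit : i ∈ t
    · exact indep_avgList_mem _ (by simpa using hit) h
    · exact indep_avgList _ (hh i hit)
  have hval : ∀ ω : ∀ i, Ω i, avgList t.toList h ω = avg h := by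
    intro ω
    rw [← avg_avgList t.toList h]
    have : avg (avgList t.toList h) = avg (fun _ : (∀ i, Ω i) => avgList t.toList h ω) := by
      simp only [avg]
      congr 1
      exact Finset.sum_congr rfl fun ω' _ => hconst ω' ω
    rw [this, avg_const]
  rw [← avg_avgList t.toList (fun ω => g ω * h ω)]
  have : avgList t.toList (fun ω => g ω * h ω) = fun ω => g ω * avg h := by
    funext ω
    rw [avgList_mul_of_indep _ hG h ω, hval ω]
  rw [this]
  simp only [avg, ← Finset.sum_mul]
  ring

/-- Product formula for pairwise disjoint supports. -/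
theorem avg_prod_of_disjoint {κ : Type*} [DecidableEq κ] (T : Finset κ) (S : κ → Finset ι)
    (hS : (T : Set κ).PairwiseDisjoint S) (g : κ → (∀ i, Ω i) → ℝ)
    (hg : ∀ k ∈ T, Supp (S k) (g k)) :
    avg (fun ω => ∏ k ∈ T, g k ω) = ∏ k ∈ T, avg (g k) := by
  induction T using Finset.induction_on with
  | empty => simp [avg_const]
  | insert a T ha ih =>
    have hS' : (T : Set κ).PairwiseDisjoint S :=
      hS.subset (by simp)
    have hsupp : Supp (T.biUnion S) (fun ω => ∏ k ∈ T, g k ω) := by
      clear ih hS hS'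
      have hg' : ∀ k ∈ T, Supp (S k) (g k) := fun k hk => hg k (Finset.mem_insert_of_mem hk)
      clear hg
      induction T using Finset.induction_on with
      | empty => simpa using supp_const (Ω := Ω) ∅ 1
      | insert b T' hb ih' =>
        have h1 := (hg' b (Finset.mem_insert_self _ _)).mul
          (ih' (by simpa [Finset.mem_insert, not_or] using fun h => ha (by simp [h]))
            (fun k hk => hg' k (Finset.mem_insert_of_mem hk)))
        rw [Finset.biUnion_insert]
        simpa only [Finset.prod_insert hb] using h1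
    have hdisj : Disjoint (S a) (T.biUnion S) := by
      rw [Finset.disjoint_biUnion_right]
      intro k hk
      exact hS (by simp) (by simp [hk]) (fun hak => ha (hak ▸ hk))
    simp only [Finset.prod_insert ha]
    rw [avg_mul_of_disjoint hdisj (hg a (Finset.mem_insert_self _ _)) hsupp,
      ih hS' (fun k hk => hg k (Finset.mem_insert_of_mem hk))]

/-- Average of a function of one coordinate. -/
theorem avg_coord (i : ι) (g : Ω i → ℝ) :
    avg (fun ω : ∀ i, Ω i => g (ω i)) = (∑ a, g a) / (Fintype.card (Ω i) : ℝ) := by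
  rw [← avg_avgAt i]
  have : avgAt i (fun ω : ∀ i, Ω i => g (ω i)) = fun _ => (∑ a, g a) / (Fintype.card (Ω i) : ℝ) := by
    funext ω
    simp only [avgAt, Function.update_self]
  rw [this, avg_const]

/-- Average of a product of functions of distinct coordinates. -/
theorem avg_prod_coord (s : Finset ι) (g : ∀ i, Ω i → ℝ) :
    avg (fun ω : ∀ i, Ω i => ∏ i ∈ s, g i (ω i))
      = ∏ i ∈ s, ((∑ a, g i a) / (Fintype.card (Ω i) : ℝ)) := by
  have h := avg_prod_of_disjoint s (fun i => ({i} : Finset ι))
    (by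
      intro a _ b _ hab
      simpa using hab)
    (fun i ω => g i (ω i)) (fun i _ => supp_coord i (g i))
  rw [h]
  exact Finset.prod_congr rfl fun i _ => avg_coord i (g i)

/-- Probability of an event which is independent of the coordinates off `s`, in indicator form. -/
lemma supp_indicator {s : Finset ι} {P : (∀ i, Ω i) → Prop} [DecidablePred P]
    (h : ∀ ω ω' : ∀ i, Ω i, (∀ i ∈ s, ω i = ω' i) → (P ω ↔ P ω')) :
    Supp s (fun ω => if P ω then (1 : ℝ) else 0) := by
  refine supp_of_agree fun ω ω' hag => ?_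
  simp only [h ω ω' hag]

/-- Independent events: product formula for `∀ k ∈ T, P k`. -/
theorem prob_forall_of_disjoint {κ : Type*} [DecidableEq κ] (T : Finset κ) (S : κ → Finset ι)
    (hS : (T : Set κ).PairwiseDisjoint S) (P : κ → (∀ i, Ω i) → Prop)
    [∀ k, DecidablePred (P k)] [DecidablePred fun ω => ∀ k ∈ T, P k ω]
    (hP : ∀ k ∈ T, ∀ ω ω' : ∀ i, Ω i, (∀ i ∈ S k, ω i = ω' i) → (P k ω ↔ P k ω')) :
    prob (fun ω => ∀ k ∈ T, P k ω) = ∏ k ∈ T, prob (P k) := by
  rw [prob_eq_avg]
  simp only [prob_eq_avg]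
  rw [← avg_prod_of_disjoint T S hS (fun k ω => if P k ω then (1 : ℝ) else 0)
    (fun k hk => supp_indicator (hP k hk))]
  congr 1
  funext ω
  by_cases h : ∀ k ∈ T, P k ω
  · rw [if_pos h]
    symm
    exact Finset.prod_eq_one fun k hk => if_pos (h k hk)
  · rw [if_neg h]
    push Not at h
    obtain ⟨k, hk, hPk⟩ := h
    symm
    exact Finset.prod_eq_zero hk (if_neg hPk)

/-- **Independent trials**: if the events `A k` have pairwise disjoint supports and probability at
least `p`, then with probability at most `(1-p)^|T|` none of them occurs. -/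
theorem prob_none_le {κ : Type*} [DecidableEq κ] (T : Finset κ) (S : κ → Finset ι)
    (hS : (T : Set κ).PairwiseDisjoint S) (A : κ → (∀ i, Ω i) → Prop)
    [∀ k, DecidablePred (A k)] [DecidablePred fun ω => ∀ k ∈ T, ¬ A k ω]
    (hA : ∀ k ∈ T, ∀ ω ω' : ∀ i, Ω i, (∀ i ∈ S k, ω i = ω' i) → (A k ω ↔ A k ω'))
    (p : ℝ) (hp : ∀ k ∈ T, p ≤ prob (A k)) :
    prob (fun ω => ∀ k ∈ T, ¬ A k ω) ≤ (1 - p) ^ T.card := by
  rw [prob_forall_of_disjoint T S hS (fun k ω => ¬ A k ω)
    (fun k hk ω ω' hag => not_congr (hA k hk ω ω' hag))]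
  simp only [prob_not]
  rw [← Finset.prod_const]
  refine Finset.prod_le_prod (fun k _ => ?_) (fun k hk => ?_)
  · linarith [prob_le_one (A k)]
  · linarith [hp k hk]

/-- Product formula for events on single coordinates. -/
theorem prob_forall_coord (s : Finset ι) (B : ∀ i, Ω i → Prop) [∀ i, DecidablePred (B i)]
    [DecidablePred fun ω : ∀ i, Ω i => ∀ i ∈ s, B i (ω i)] :
    prob (fun ω : ∀ i, Ω i => ∀ i ∈ s, B i (ω i))
      = ∏ i ∈ s, (((Finset.univ.filter (B i)).card : ℝ) / (Fintype.card (Ω i) : ℝ)) := by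
  rw [prob_eq_avg]
  have : (fun ω : ∀ i, Ω i => if ∀ i ∈ s, B i (ω i) then (1 : ℝ) else 0)
      = fun ω => ∏ i ∈ s, (if B i (ω i) then (1 : ℝ) else 0) := by
    funext ω
    by_cases h : ∀ i ∈ s, B i (ω i)
    · rw [if_pos h]
      symm
      exact Finset.prod_eq_one fun i hi => if_pos (h i hi)
    · rw [if_neg h]
      push Not at h
      obtain ⟨i, hi, hB⟩ := h
      symm
      exact Finset.prod_eq_zero hi (if_neg hB)
  rw [this, avg_prod_coord s (fun i a => if B i a then (1 : ℝ) else 0)]
  refine Finset.prod_congr rfl fun i _ => ?_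
  congr 1
  rw [Finset.sum_boole]

end Crest.Agent.Ryser.ProdProb
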