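/-
  Row 34 (S0045/S0046), Step 4 of helper81's proof (#1707): the grid property G2.
  With high probability there are no two `w`-sets `U,V` of alive points, with `w^2` distinct joins,
  no three joins concurrent outside `U ∪ V`, such that no join is retained.
  Parametric: per-part randomness `Om0`, `dead : Om0 → F → Prop`, special hts `Sp`.
  helper34.
-/
import Crest.Agent.Lib.Ryser.Defs
import Crest.Agent.Lib.Ryser.McDiarmid

set_option autoImplicit false
set_option linter.unusedSectionVars false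

open Finset Function

namespace Crest.Agent.Ryser.Grid

open Crest.Agent.Ryser.ProdProb

/-- A greedy family with pairwise disjoint supports: if every support has at most `A` elements
and every element lies in at most `B` supports, then a subfamily of size at least
`|T| / (A B + 1)` has pairwise disjoint supports. -/
theorem exists_disjoint_subfamily {κ ι : Type*} [DecidableEq κ] [DecidableEq ι]
    (S : κ → Finset ι) (A B : ℕ) (T : Finset κ)
    (hA : ∀ k ∈ T, (S k).card ≤ A)
    (hB : ∀ i, (T.filter (fun k => i ∈ S k)).card ≤ B) :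
    ∃ G ⊆ T, (G : Set κ).PairwiseDisjoint S ∧ T.card ≤ G.card * (A * B + 1) := by
  induction' h : T.card using Nat.strong_induction_on with n ih generalizing T
  rcases T.eq_empty_or_nonempty with rfl | ⟨k0, hk0⟩
  · refine ⟨∅, subset_rfl, by simp, ?_⟩
    simp at h
    simp [← h]
  -- neighbours of `k0`
  let Nb : Finset κ := (S k0).biUnion (fun i => T.filter (fun k => i ∈ S k))
  have hNb : Nb.card ≤ A * B := by
    calc Nb.card ≤ ∑ i ∈ S k0, (T.filter (fun k => i ∈ S k)).card := Finset.card_biUnion_le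
      _ ≤ ∑ _i ∈ S k0, B := Finset.sum_le_sum fun i _ => hB i
      _ = (S k0).card * B := by simp
      _ ≤ A * B := Nat.mul_le_mul_right _ (hA k0 hk0)
  let T' : Finset κ := (T \ Nb).erase k0
  have hT'sub : T' ⊆ T := fun k hk => by
    simp only [T', mem_erase, mem_sdiff] at hk; exact hk.2.1
  have hcard : T.card ≤ T'.card + (A * B + 1) := by
    have h1 : (T \ Nb).card ≤ T'.card + 1 := by
      have := Finset.card_erase_add_one (s := T \ Nb) (a := k0)
      by_cases hm : k0 ∈ T \ Nb
      · rw [this hm]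
      · simp only [T', Finset.erase_eq_of_notMem hm]; omega
    have h2 : T.card ≤ (T \ Nb).card + Nb.card := by
      have := Finset.card_le_card_sdiff_add_card (s := T) (t := Nb)
      omega
    omega
  have hlt : T'.card < n := by
    rw [← h]
    refine Finset.card_lt_card ⟨hT'sub, fun hsub => ?_⟩
    have := hsub hk0
    simp [T'] at this
  obtain ⟨G, hGT, hGdisj, hGcard⟩ := ih _ hlt T'
    (fun k hk => hA k (hT'sub hk))
    (fun i => le_trans (Finset.card_le_card (Finset.filter_subset_filter _ hT'sub)) (hB i)) rfl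
  have hk0G : k0 ∉ G := fun hm => by
    have := hGT hm
    simp [T'] at this
  refine ⟨insert k0 G, ?_, ?_, ?_⟩
  · intro k hk
    rcases Finset.mem_insert.1 hk with rfl | hk
    · exact hk0
    · exact hT'sub (hGT hk)
  · rw [Finset.coe_insert, Set.pairwiseDisjoint_insert]
    refine ⟨hGdisj, fun k hk _ => ?_⟩
    rw [Finset.disjoint_left]
    intro i hi0 hik
    have hkT' : k ∈ T' := hGT hk
    simp only [T', mem_erase, mem_sdiff] at hkT'
    apply hkT'.2.2
    simp only [Nb, mem_biUnion, mem_filter]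
    exact ⟨i, hi0, hkT'.2.1, hik⟩
  · rw [Finset.card_insert_of_notMem hk0G]
    rw [← h] at *
    nlinarith


/-! ### Lines and points -/

variable {F : Type} [Field F] [Fintype F] [DecidableEq F]

/-- Lines are pairs `(t,u)`. -/
abbrev Line (F : Type) := F × F

/-- At most two parts carry a given ht on a given line. -/
theorem card_ht_eq_le (L : Line F) (h : F) :
    (Finset.univ.filter (fun x : F => ht L x = h)).card ≤ 2 := by
  classical
  by_contra hcon
  push Not at hcon
  obtain ⟨a, ha, b, hb, c, hc, hab, hac, hbc⟩ := Finset.two_lt_card.1 hcon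
  have ha' : ht L a = h := (Finset.mem_filter.1 ha).2
  have hb' : ht L b = h := (Finset.mem_filter.1 hb).2
  have hc' : ht L c = h := (Finset.mem_filter.1 hc).2
  simp only [ht] at ha' hb' hc'
  have h1 : (a - L.1) ^ 2 = (b - L.1) ^ 2 := by linear_combination hb' - ha'
  have h2 : (a - L.1) ^ 2 = (c - L.1) ^ 2 := by linear_combination hc' - ha'
  have e1 : (a - b) * (a + b - 2 * L.1) = 0 := by linear_combination h1
  have e2 : (a - c) * (a + c - 2 * L.1) = 0 := by linear_combination h2
  have e1' : a + b - 2 * L.1 = 0 := (mul_eq_zero.1 e1).resolve_left (sub_ne_zero.2 hab)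
  have e2' : a + c - 2 * L.1 = 0 := (mul_eq_zero.1 e2).resolve_left (sub_ne_zero.2 hac)
  exact hbc (by linear_combination e1' - e2')

/-- Two lines of the same slope through a point which is not that slope's vertex coincide. -/
lemma eq_of_on_of_slope {t0 : F} {u : Pt F} (hu : u ≠ ((none : Option F), t0)) {L L' : Line F}
    (hL : onL u L) (hL' : onL u L') (h1 : L.1 = t0) (h2 : L'.1 = t0) : L = L' := by
  rcases u with ⟨ox, k⟩
  cases ox with
  | none =>
    exfalso
    apply hu
    simp only [onL] at hL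
    rw [← hL, h1]
  | some x =>
    simp only [onL, ht] at hL hL'
    refine Prod.ext (h1.trans h2.symm) ?_
    rw [h1] at hL
    rw [h2] at hL'
    linear_combination hL - hL'

section Random

variable {Om0 : Type*} [Fintype Om0] [Nonempty Om0]

/-- Sample space: one independent choice in `Om0` per part. -/
abbrev Sample (F : Type) (Om0 : Type*) := ∀ _ : F, Om0

variable (dead : Om0 → F → Prop)

/-- Probability in one part that ht `h` is not dead. -/
noncomputable def aliveProb (h : F) : ℝ := by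
  classical
  exact ((Finset.univ.filter (fun w : Om0 => ¬ dead w h)).card : ℝ) / (Fintype.card Om0 : ℝ)

/-- `f(L)`: the probability that `L` carries no dead point. -/
noncomputable def lineAlive (L : Line F) : ℝ := ∏ x : F, aliveProb dead (ht L x)

omit [Fintype F] [DecidableEq F] in
lemma aliveProb_nonneg (h : F) : 0 ≤ aliveProb (F := F) dead h := by
  classical
  unfold aliveProb
  positivity

omit [Fintype F] [DecidableEq F] in
lemma aliveProb_le_one (h : F) : aliveProb (F := F) dead h ≤ 1 := by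
  classical
  unfold aliveProb
  have hp : (0 : ℝ) < (Fintype.card Om0 : ℝ) := by exact_mod_cast Fintype.card_pos
  rw [div_le_one hp]
  exact_mod_cast (Finset.card_le_univ _)

/-- Alive points, for a sample `ω` and a conflict slope `t0`. -/
def Alive (ω : Sample F Om0) (t0 : F) (p : Pt F) : Prop :=
  match p with
  | (some x, k) => ¬ dead (ω x) k
  | (none, t) => t ≠ t0

/-- Retained lines. -/
def Retained (ω : Sample F Om0) (t0 : F) (L : Line F) : Prop :=
  L.1 ≠ t0 ∧ ∀ x, ¬ dead (ω x) (ht L x)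

/-- The random event of G2 for fixed `U,V,j,t0`. -/
def BadEvent (j : Pt F → Pt F → Line F) (U V : Finset (Pt F)) (t0 : F)
    (ω : Sample F Om0) : Prop :=
  (∀ p ∈ U, Alive dead ω t0 p) ∧ (∀ p ∈ V, Alive dead ω t0 p) ∧
    ∀ u ∈ U, ∀ v ∈ V, ¬ Retained dead ω t0 (j u v)

open scoped Classical in
/-- The structural (non random) hypotheses of G2 on `U,V,j`. -/
structure Shape (j : Pt F → Pt F → Line F) (U V : Finset (Pt F)) : Prop where
  /-- the joins are incident -/
  onU : ∀ u ∈ U, ∀ v ∈ V, onL u (j u v)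
  /-- distinct joins -/
  inj : ∀ p ∈ U ×ˢ V, ∀ p' ∈ U ×ˢ V, j p.1 p.2 = j p'.1 p'.2 → p = p'
  /-- no three joins concurrent outside `U ∪ V` -/
  conc : ∀ z : Pt F, z ∉ U ∪ V → ((U ×ˢ V).filter (fun p : Pt F × Pt F => onL z (j p.1 p.2))).card ≤ 2


open scoped Classical in
/-- **G2 for fixed `U,V,t0`.** -/
theorem prob_bad_le (Sp : Finset F) (hSp : ∀ w h, dead w h → h ∈ Sp) (s : ℕ) (hs : Sp.card ≤ s)
    (γ : ℝ) (hγ0 : 0 ≤ γ) (hγ1 : γ ≤ 1) (hγ : ∀ L : Line F, γ ≤ lineAlive dead L)
    (j : Pt F → Pt F → Line F) (U V : Finset (Pt F)) (hshape : Shape j U V)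
    (w : ℕ) (hU : U.card = w) (hV : V.card = w) (t0 : F) (N : ℕ)
    (hN : N * (4 * s ^ 2 + 1) + 4 * w * s + w ≤ w ^ 2) :
    prob (Ω := fun _ : F => Om0) (BadEvent dead j U V t0) ≤ (1 - γ) ^ N := by
  have h1γ : 0 ≤ 1 - γ := by linarith
  -- trivial case: the conflict slope vertex is in `U`
  by_cases hU0 : ((none : Option F), t0) ∈ U
  · have : prob (Ω := fun _ : F => Om0) (BadEvent dead j U V t0) = 0 := by
      simp only [prob]
      rw [Finset.filter_false_of_mem]
      · simp
      · intro ω _ hb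
        exact hb.1 _ hU0 rfl
    rw [this]
    positivity
  set L : Pt F × Pt F → Line F := fun p => j p.1 p.2 with hL
  let P0 : Finset (Pt F × Pt F) := U ×ˢ V
  have hP0 : P0.card = w ^ 2 := by simp [P0, hU, hV, sq]
  let Z : Finset F := (U ∪ V).biUnion (fun p => p.1.toFinset)
  have hZ : Z.card ≤ 2 * w := by
    calc Z.card ≤ ∑ p ∈ U ∪ V, (p.1.toFinset).card := Finset.card_biUnion_le
      _ ≤ ∑ _p ∈ U ∪ V, 1 := by
          refine Finset.sum_le_sum fun p _ => ?_
          cases p.1 <;> simp
      _ = (U ∪ V).card := by simp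
      _ ≤ U.card + V.card := Finset.card_union_le _ _
      _ = 2 * w := by omega
  have hZmem : ∀ x k, ((some x : Option F), k) ∈ U ∪ V → x ∈ Z := by
    intro x k hm
    simp only [Z, mem_biUnion]
    exact ⟨_, hm, by simp⟩
  -- pairs through a fixed point off `U ∪ V`
  let Sub : F × F → Finset (Pt F × Pt F) := fun xh =>
    P0.filter (fun p => ((some xh.1 : Option F), xh.2) ∉ U ∪ V ∧ onL ((some xh.1 : Option F), xh.2) (L p))
  have hSub : ∀ xh, (Sub xh).card ≤ 2 := by
    intro xh
    by_cases hm : ((some xh.1 : Option F), xh.2) ∈ U ∪ V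
    · have : Sub xh = ∅ := by
        simp only [Sub]
        rw [Finset.filter_false_of_mem]
        intro p _ hp
        exact hp.1 hm
      rw [this]; simp
    · refine le_trans (Finset.card_le_card ?_) (hshape.conc _ hm)
      intro p hp
      simp only [Sub, mem_filter] at hp ⊢
      exact ⟨hp.1, hp.2.2⟩
  -- the discarded pairs
  let D1 : Finset (Pt F × Pt F) := P0.filter (fun p =>
    ∃ x ∈ Z, ht (L p) x ∈ Sp ∧ ((some x : Option F), ht (L p) x) ∉ U ∪ V)
  have hD1 : D1.card ≤ 4 * w * s := by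
    have hsub : D1 ⊆ (Z ×ˢ Sp).biUnion Sub := by
      intro p hp
      simp only [D1, mem_filter] at hp
      obtain ⟨hp0, x, hx, hh, hn⟩ := hp
      simp only [mem_biUnion, mem_product]
      refine ⟨(x, ht (L p) x), ⟨hx, hh⟩, ?_⟩
      simp only [Sub, mem_filter]
      exact ⟨hp0, hn, rfl⟩
    calc D1.card ≤ ((Z ×ˢ Sp).biUnion Sub).card := Finset.card_le_card hsub
      _ ≤ ∑ xh ∈ Z ×ˢ Sp, (Sub xh).card := Finset.card_biUnion_le
      _ ≤ ∑ _xh ∈ Z ×ˢ Sp, 2 := Finset.sum_le_sum fun xh _ => hSub xh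
      _ = Z.card * Sp.card * 2 := by simp
      _ ≤ (2 * w) * s * 2 := by gcongr
      _ = 4 * w * s := by ring
  let E1 : Finset (Pt F × Pt F) := P0.filter (fun p => (L p).1 = t0)
  have hE1 : E1.card ≤ w := by
    rw [← hU]
    refine Finset.card_le_card_of_injOn (fun p => p.1) ?_ ?_
    · intro p hp
      have hp1 := (Finset.mem_filter.1 (Finset.mem_coe.1 hp)).1
      exact Finset.mem_coe.2 (Finset.mem_product.1 hp1).1
    · intro p hp p' hp' hpp
      replace hp := Finset.mem_filter.1 (Finset.mem_coe.1 hp)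
      replace hp' := Finset.mem_filter.1 (Finset.mem_coe.1 hp')
      have hp0 := hp.1
      have hp0' := hp'.1
      simp only [P0, mem_product] at hp0 hp0'
      have hon := hshape.onU p.1 hp0.1 p.2 hp0.2
      have hon' := hshape.onU p'.1 hp0'.1 p'.2 hp0'.2
      refine hshape.inj p (by simpa [P0] using hp.1) p' (by simpa [P0] using hp'.1) ?_
      have hpp' : p.1 = p'.1 := hpp
      change L p = L p'
      have hon2 : onL p.1 (L p') := by
        have : onL p'.1 (L p') := hon'
        rw [hpp']; exact this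
      refine eq_of_on_of_slope (t0 := t0) ?_ hon hon2 hp.2 hp'.2
      intro he
      exact hU0 (he ▸ hp0.1)
  let T : Finset (Pt F × Pt F) := (P0 \ D1) \ E1
  have hT : N * (4 * s ^ 2 + 1) ≤ T.card := by
    have a1 := Finset.card_le_card_sdiff_add_card (s := P0 \ D1) (t := E1)
    have a2 := Finset.card_le_card_sdiff_add_card (s := P0) (t := D1)
    simp only [T]
    omega
  -- supports
  let C : Pt F × Pt F → Finset F := fun p =>
    (Finset.univ.filter (fun x => ht (L p) x ∈ Sp)) \ Z
  have hCA : ∀ p ∈ T, (C p).card ≤ 2 * s := by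
    intro p _
    have hsub : C p ⊆ Sp.biUnion (fun h => Finset.univ.filter (fun x : F => ht (L p) x = h)) := by
      intro x hx
      simp only [C, mem_sdiff, mem_filter, mem_univ, true_and] at hx
      simp only [mem_biUnion, mem_filter, mem_univ, true_and]
      exact ⟨_, hx.1, rfl⟩
    calc (C p).card ≤ _ := Finset.card_le_card hsub
      _ ≤ ∑ h ∈ Sp, (Finset.univ.filter (fun x : F => ht (L p) x = h)).card :=
          Finset.card_biUnion_le
      _ ≤ ∑ _h ∈ Sp, 2 := Finset.sum_le_sum fun h _ => card_ht_eq_le _ _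
      _ = Sp.card * 2 := by simp
      _ ≤ 2 * s := by omega
  have hCB : ∀ x, (T.filter (fun p => x ∈ C p)).card ≤ 2 * s := by
    intro x
    by_cases hx : x ∈ Z
    · have : T.filter (fun p => x ∈ C p) = ∅ := by
        rw [Finset.filter_false_of_mem]
        intro p _ hp
        simp only [C, mem_sdiff] at hp
        exact hp.2 hx
      rw [this]; simp
    · have hsub : T.filter (fun p => x ∈ C p) ⊆ Sp.biUnion (fun h => Sub (x, h)) := by
        intro p hp
        simp only [mem_filter, C, mem_sdiff, mem_univ, true_and] at hp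
        simp only [mem_biUnion, Sub, mem_filter]
        refine ⟨_, hp.2.1, ?_, ?_, rfl⟩
        · have : p ∈ P0 \ D1 := (Finset.mem_sdiff.1 hp.1).1
          exact (Finset.mem_sdiff.1 this).1
        · exact fun hm => hx (hZmem _ _ hm)
      calc _ ≤ _ := Finset.card_le_card hsub
        _ ≤ ∑ h ∈ Sp, (Sub (x, h)).card := Finset.card_biUnion_le
        _ ≤ ∑ _h ∈ Sp, 2 := Finset.sum_le_sum fun h _ => hSub _
        _ = Sp.card * 2 := by simp
        _ ≤ 2 * s := by omega
  obtain ⟨G, hGT, hGdisj, hGcard⟩ := exists_disjoint_subfamily C (2 * s) (2 * s) T hCA hCB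
  have hGN : N ≤ G.card := by
    have hpos : 0 < 2 * s * (2 * s) + 1 := by positivity
    have : N * (2 * s * (2 * s) + 1) ≤ G.card * (2 * s * (2 * s) + 1) := by
      calc N * (2 * s * (2 * s) + 1) = N * (4 * s ^ 2 + 1) := by ring
        _ ≤ T.card := hT
        _ ≤ _ := hGcard
    exact Nat.le_of_mul_le_mul_right this hpos
  -- the events
  let A : Pt F × Pt F → (F → Om0) → Prop := fun p ω =>
    ∀ x ∈ C p, ¬ dead (ω x) (ht (L p) x)
  have hsubset : ∀ ω, BadEvent dead j U V t0 ω → ∀ p ∈ G, ¬ A p ω := by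
    intro ω hb p hp hA
    have hpT := hGT hp
    have hpE : p ∉ E1 := (Finset.mem_sdiff.1 hpT).2
    have hpD := (Finset.mem_sdiff.1 hpT).1
    have hpD1 : p ∉ D1 := (Finset.mem_sdiff.1 hpD).2
    have hp0 : p ∈ P0 := (Finset.mem_sdiff.1 hpD).1
    have hp0' : p.1 ∈ U ∧ p.2 ∈ V := by simpa [P0] using hp0
    have hnr := hb.2.2 p.1 hp0'.1 p.2 hp0'.2
    have hslope : (L p).1 ≠ t0 := fun he => hpE (by simp only [E1, mem_filter]; exact ⟨hp0, he⟩)
    have : ∃ x, dead (ω x) (ht (L p) x) := by
      by_contra hno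
      push Not at hno
      exact hnr ⟨hslope, hno⟩
    obtain ⟨x, hx⟩ := this
    have hsp := hSp _ _ hx
    by_cases hxZ : x ∈ Z
    · have hin : ((some x : Option F), ht (L p) x) ∈ U ∪ V := by
        by_contra hn
        exact hpD1 (by simp only [D1, mem_filter]; exact ⟨hp0, x, hxZ, hsp, hn⟩)
      rcases Finset.mem_union.1 hin with hin | hin
      · exact hb.1 _ hin hx
      · exact hb.2.1 _ hin hx
    · refine hA x ?_ hx
      simp only [C, mem_sdiff, mem_filter, mem_univ, true_and]
      exact ⟨hsp, hxZ⟩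
  have hAprob : ∀ p ∈ G, γ ≤ prob (Ω := fun _ : F => Om0) (A p) := by
    intro p _
    have h1 : prob (Ω := fun _ : F => Om0) (A p)
        = ∏ x ∈ C p, aliveProb dead (ht (L p) x) := by
      have := prob_forall_coord (Ω := fun _ : F => Om0) (C p)
        (fun x w => ¬ dead w (ht (L p) x))
      convert this using 2
      simp only [aliveProb]
    rw [h1]
    refine le_trans (hγ (L p)) ?_
    simp only [lineAlive]
    rw [← Finset.prod_sdiff (Finset.subset_univ (C p))]
    have hle : ∏ x ∈ Finset.univ \ C p, aliveProb dead (ht (L p) x) ≤ 1 :=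
      Finset.prod_le_one (fun _ _ => aliveProb_nonneg dead _) (fun _ _ => aliveProb_le_one dead _)
    have hnn : 0 ≤ ∏ x ∈ C p, aliveProb dead (ht (L p) x) :=
      Finset.prod_nonneg fun _ _ => aliveProb_nonneg dead _
    nlinarith
  have hnone := prob_none_le (Ω := fun _ : F => Om0) G C hGdisj A
    (fun p _ ω ω' hag => by
      simp only [A]
      constructor
      · intro h x hx
        rw [← hag x hx]
        exact h x hx
      · intro h x hx
        rw [hag x hx]
        exact h x hx)
    γ hAprob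
  calc prob (Ω := fun _ : F => Om0) (BadEvent dead j U V t0)
      ≤ prob (Ω := fun _ : F => Om0) (fun ω => ∀ p ∈ G, ¬ A p ω) := prob_mono hsubset
    _ ≤ (1 - γ) ^ G.card := hnone
    _ ≤ (1 - γ) ^ N := pow_le_pow_of_le_one h1γ (by linarith) hGN

open scoped Classical in
/-- The event "some `t0,U,V` of the right shape are all alive with no retained join". -/
def GridFails (j : Pt F → Pt F → Line F) (w : ℕ) (ω : Sample F Om0) : Prop :=
  ∃ x : F × Finset (Pt F) × Finset (Pt F),
    x ∈ (Finset.univ ×ˢ (Finset.powersetCard w Finset.univ ×ˢ Finset.powersetCard w Finset.univ)).filter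
      (fun x : F × Finset (Pt F) × Finset (Pt F) => Shape j x.2.1 x.2.2) ∧
    BadEvent dead j x.2.1 x.2.2 x.1 ω

open scoped Classical in
/-- **G2, union bound.** -/
theorem prob_gridFails_le (Sp : Finset F) (hSp : ∀ w h, dead w h → h ∈ Sp) (s : ℕ) (hs : Sp.card ≤ s)
    (γ : ℝ) (hγ0 : 0 ≤ γ) (hγ1 : γ ≤ 1) (hγ : ∀ L : Line F, γ ≤ lineAlive dead L)
    (j : Pt F → Pt F → Line F) (w N : ℕ)
    (hN : N * (4 * s ^ 2 + 1) + 4 * w * s + w ≤ w ^ 2) :
    prob (Ω := fun _ : F => Om0) (GridFails dead j w)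
      ≤ (Fintype.card F : ℝ) * (((Fintype.card F : ℝ) + 1) * (Fintype.card F : ℝ)) ^ (2 * w)
        * (1 - γ) ^ N := by
  have h1γ : 0 ≤ 1 - γ := by linarith
  set T := (Finset.univ ×ˢ (Finset.powersetCard w Finset.univ ×ˢ Finset.powersetCard w Finset.univ)).filter
      (fun x : F × Finset (Pt F) × Finset (Pt F) => Shape j x.2.1 x.2.2) with hT
  have hstep := prob_exists_le_sum (Ω := fun _ : F => Om0) T
    (fun x ω => BadEvent dead j x.2.1 x.2.2 x.1 ω)
  have hsum : ∑ x ∈ T, prob (Ω := fun _ : F => Om0) (fun ω => BadEvent dead j x.2.1 x.2.2 x.1 ω)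
      ≤ ∑ _x ∈ T, (1 - γ) ^ N := by
    refine Finset.sum_le_sum fun x hx => ?_
    have hx' := Finset.mem_filter.1 hx
    have hx1 := Finset.mem_product.1 hx'.1
    have hx2 := Finset.mem_product.1 hx1.2
    exact prob_bad_le dead Sp hSp s hs γ hγ0 hγ1 hγ j x.2.1 x.2.2 hx'.2 w
      (Finset.mem_powersetCard.1 hx2.1).2 (Finset.mem_powersetCard.1 hx2.2).2 x.1 N hN
  have hcard : (T.card : ℝ) ≤ (Fintype.card F : ℝ) * (((Fintype.card F : ℝ) + 1) * (Fintype.card F : ℝ)) ^ (2 * w) := by
    have h1 : T.card ≤ Fintype.card F * ((Fintype.card (Pt F)).choose w * (Fintype.card (Pt F)).choose w) := by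
      refine le_trans (Finset.card_filter_le _ _) ?_
      simp [Finset.card_product, Finset.card_powersetCard]
    have hP : Fintype.card (Pt F) = (Fintype.card F + 1) * Fintype.card F := by
      simp [Pt, Fintype.card_prod, Fintype.card_option]
    have h2 : (Fintype.card (Pt F)).choose w ≤ (Fintype.card (Pt F)) ^ w :=
      Nat.choose_le_pow _ _
    have h3 : T.card ≤ Fintype.card F * (((Fintype.card F + 1) * Fintype.card F) ^ (2 * w)) := by
      refine le_trans h1 (Nat.mul_le_mul_left _ ?_)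
      rw [two_mul, pow_add, ← hP]
      exact Nat.mul_le_mul h2 h2
    have : (T.card : ℝ) ≤ ((Fintype.card F * (((Fintype.card F + 1) * Fintype.card F) ^ (2 * w)) : ℕ) : ℝ) := by
      exact_mod_cast h3
    simpa using this
  have hfinal : ∑ _x ∈ T, (1 - γ) ^ N ≤ (Fintype.card F : ℝ) * (((Fintype.card F : ℝ) + 1) * (Fintype.card F : ℝ)) ^ (2 * w) * (1 - γ) ^ N := by
    rw [Finset.sum_const, nsmul_eq_mul]
    exact mul_le_mul_of_nonneg_right hcard (by positivity)
  have hmono : prob (Ω := fun _ : F => Om0) (GridFails dead j w)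
      ≤ prob (Ω := fun _ : F => Om0) (fun ω => ∃ x ∈ T, BadEvent dead j x.2.1 x.2.2 x.1 ω) :=
    prob_mono (fun ω hω => hω)
  exact le_trans hmono (le_trans hstep (le_trans hsum hfinal))

open scoped Classical in
/-- **G2, final form**: with the logarithmic condition, the failure probability is at most `1/q`. -/
theorem prob_gridFails_le_inv (Sp : Finset F) (hSp : ∀ w h, dead w h → h ∈ Sp) (s : ℕ) (hs : Sp.card ≤ s)
    (γ : ℝ) (hγ0 : 0 ≤ γ) (hγ1 : γ ≤ 1) (hγ : ∀ L : Line F, γ ≤ lineAlive dead L)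
    (j : Pt F → Pt F → Line F) (w N : ℕ)
    (hN : N * (4 * s ^ 2 + 1) + 4 * w * s + w ≤ w ^ 2)
    (hlog : (6 * (w : ℝ) + 2) * Real.log (Fintype.card F) ≤ γ * N) :
    prob (Ω := fun _ : F => Om0) (GridFails dead j w) ≤ 1 / (Fintype.card F : ℝ) := by
  refine le_trans (prob_gridFails_le dead Sp hSp s hs γ hγ0 hγ1 hγ j w N hN) ?_
  set q : ℝ := (Fintype.card F : ℝ) with hq
  have hq2 : (2 : ℝ) ≤ q := by
    have := Fintype.one_lt_card (α := F)
    rw [hq]; exact_mod_cast this
  have hq0 : 0 < q := by linarith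
  have h1 : (q + 1) * q ≤ q ^ 3 := by
    have h0 : q + 1 ≤ q ^ 2 := by nlinarith
    calc (q + 1) * q ≤ q ^ 2 * q := mul_le_mul_of_nonneg_right h0 hq0.le
      _ = q ^ 3 := by ring
  have h2 : ((q + 1) * q) ^ (2 * w) ≤ (q ^ 3) ^ (2 * w) :=
    pow_le_pow_left₀ (by positivity) h1 _
  have h1γ : 0 ≤ 1 - γ := by linarith [hγ1]
  have h3 : (1 - γ) ^ N ≤ Real.exp (-(γ * N)) := by
    have : 1 - γ ≤ Real.exp (-γ) := by
      have := Real.add_one_le_exp (-γ)
      linarith
    calc (1 - γ) ^ N ≤ (Real.exp (-γ)) ^ N := pow_le_pow_left₀ h1γ this _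
      _ = Real.exp (-(γ * N)) := by
          rw [← Real.exp_nat_mul]; congr 1; ring
  have h4 : Real.exp (-(γ * N)) ≤ Real.exp (-((6 * (w : ℝ) + 2) * Real.log q)) :=
    Real.exp_le_exp.2 (by linarith)
  have h5 : Real.exp (-((6 * (w : ℝ) + 2) * Real.log q)) = (q ^ (6 * w + 2))⁻¹ := by
    rw [Real.exp_neg, ← Real.rpow_natCast q, Real.rpow_def_of_pos hq0]
    congr 2
    push_cast
    ring
  have h6 : (1 - γ) ^ N ≤ (q ^ (6 * w + 2))⁻¹ := by
    rw [← h5]; exact h3.trans h4
  calc q * ((q + 1) * q) ^ (2 * w) * (1 - γ) ^ N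
      ≤ q * (q ^ 3) ^ (2 * w) * (q ^ (6 * w + 2))⁻¹ := by
        refine mul_le_mul (mul_le_mul_of_nonneg_left h2 hq0.le) h6 (by positivity) (by positivity)
    _ = 1 / q := by
        have e1 : (q ^ 3) ^ (2 * w) = q ^ (6 * w) := by rw [← pow_mul]; congr 1; ring
        rw [e1, pow_add]
        field_simp

end Random

end Crest.Agent.Ryser.Grid
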