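import Crest.Agent.Lib.Ryser.EnvBase
import Crest.Agent.Lib.Ryser.Grid

/-!
Row 34. MODULE E4: the grid property G2 (Step 4 of #1707) holds with high probability.
The proof is `Crest.Agent.Ryser.Grid.prob_gridFails_le_inv` (independent trials + union bound)
plus the bridge to `GP`. helper34.
-/

set_option autoImplicit false

noncomputable section

open Finset
open scoped Classical

namespace Crest.Agent.Ryser

variable {F : Type} [Field F] [Fintype F] [DecidableEq F] {M : ℕ}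

/-- MODULE E4 target: the grid property G2 (Step 4 of #1707), grid size `M³`. -/
def GridGood (h2 : (2 : F) ≠ 0) (mn : Menu F M) (ω : Env F M) (t0 : F) : Prop :=
  ∀ U V : Finset (Pt F), #U = M ^ 3 → #V = M ^ 3 → (∀ u ∈ U, alivePt mn ω t0 u) →
    (∀ v ∈ V, alivePt mn ω t0 v) → (planeI h2).GP parLines U V →
    ∃ L : F × F, Alive' mn ω t0 L ∧ ∃ u ∈ U, ∃ v ∈ V, onL u L ∧ onL v L

/-- A choice of a common line of two points, when there is one. -/
def someJoin (u v : Pt F) : F × F :=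
  if h : ∃ L : F × F, onL u L ∧ onL v L then h.choose else (0, 0)

lemma someJoin_spec {u v : Pt F} (h : ∃ L : F × F, onL u L ∧ onL v L) :
    onL u (someJoin u v) ∧ onL v (someJoin u v) := by
  unfold someJoin
  rw [dif_pos h]
  exact h.choose_spec

/-- The shape hypotheses of `Grid` follow from `GP`. -/
lemma shape_of_GP (h2 : (2 : F) ≠ 0) {U V : Finset (Pt F)} (hGP : (planeI h2).GP parLines U V) :
    (∀ u ∈ U, ∀ v ∈ V, onL u (someJoin u v) ∧ onL v (someJoin u v)) ∧
      Grid.Shape (someJoin (F := F)) U V := by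
  obtain ⟨hdisj, hpar, hinj, hconc⟩ := hGP
  have hex : ∀ u ∈ U, ∀ v ∈ V, ∃ L : F × F, onL u L ∧ onL v L := by
    intro u hu v hv
    have hne : u ≠ v := fun he => (Finset.disjoint_left.1 hdisj hu) (he ▸ hv)
    obtain ⟨l, hl1, hl2⟩ := (planeI h2).join u v hne
    have hl := hpar u hu v hv l hl1 hl2
    cases l with
    | inl L => exact ⟨L, hl1, hl2⟩
    | inr p =>
      exfalso
      apply hl
      simp [parLines]
  have hon : ∀ u ∈ U, ∀ v ∈ V, onL u (someJoin u v) ∧ onL v (someJoin u v) :=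
    fun u hu v hv => someJoin_spec (hex u hu v hv)
  refine ⟨hon, ?_, ?_, ?_⟩
  · exact fun u hu v hv => (hon u hu v hv).1
  · intro p hp p' hp' he
    obtain ⟨hp1, hp2⟩ := Finset.mem_product.1 hp
    obtain ⟨hp1', hp2'⟩ := Finset.mem_product.1 hp'
    have h1 := hon _ hp1 _ hp2
    have h2' := hon _ hp1' _ hp2'
    rw [← he] at h2'
    obtain ⟨e1, e2⟩ := hinj p.1 hp1 p.2 hp2 p'.1 hp1' p'.2 hp2' (Sum.inl (someJoin p.1 p.2))
      h1.1 h1.2 h2'.1 h2'.2
    exact Prod.ext e1 e2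
  · intro z hz
    have hz1 : z ∉ U := fun h => hz (Finset.mem_union_left _ h)
    have hz2 : z ∉ V := fun h => hz (Finset.mem_union_right _ h)
    refine hconc z hz1 hz2 _ ?_
    intro e he
    obtain ⟨he0, he1⟩ := Finset.mem_filter.1 he
    obtain ⟨h1, h2'⟩ := Finset.mem_product.1 he0
    exact ⟨h1, h2', Sum.inl (someJoin e.1 e.2), (hon _ h1 _ h2').1, (hon _ h1 _ h2').2, he1⟩

/-- The special heights of a menu. -/
def Menu.specials (mn : Menu F M) : Finset F :=
  (univ.image fun j : Fin 2 × Fin M => mn.kappa j.1 j.2) ∪ (univ.image mn.beta) ∪ (univ.image mn.eta)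

lemma Menu.card_specials_le (mn : Menu F M) : #mn.specials ≤ 6 * M := by
  have hc : Fintype.card (Fin 2 × Fin M) = 2 * M := by simp
  have h1 : #(univ.image fun j : Fin 2 × Fin M => mn.kappa j.1 j.2) ≤ 2 * M :=
    hc ▸ Finset.card_image_le
  have h2 : #(univ.image mn.beta) ≤ 2 * M := hc ▸ Finset.card_image_le
  have h3 : #(univ.image mn.eta) ≤ 2 * M := hc ▸ Finset.card_image_le
  have := Finset.card_union_le ((univ.image fun j : Fin 2 × Fin M => mn.kappa j.1 j.2) ∪ (univ.image mn.beta))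
    (univ.image mn.eta)
  have := Finset.card_union_le (univ.image fun j : Fin 2 × Fin M => mn.kappa j.1 j.2) (univ.image mn.beta)
  unfold Menu.specials
  omega

lemma Menu.mem_specials_of_isDead (mn : Menu F M) {ch : Ch M} {h : F} (hd : mn.isDead ch h) :
    h ∈ mn.specials := by
  unfold Menu.specials
  simp only [mem_union, mem_image, mem_univ, true_and]
  rcases hd with h0 | h1 | h2 | h3
  · exact Or.inl (Or.inl ⟨(0, ch.1 0), by simp [h0, Menu.conf]⟩)
  · exact Or.inl (Or.inl ⟨(1, ch.1 1), by simp [h1, Menu.conf]⟩)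
  · exact Or.inl (Or.inr ⟨ch.2, by simp [h2, Menu.tele]⟩)
  · exact Or.inr ⟨ch.2, by simp [h3, Menu.hub]⟩

/-- `aliveProb` is `1 - pH`. -/
lemma aliveProb_eq [NeZero M] (mn : Menu F M) (h : F) :
    Grid.aliveProb (F := F) (Om0 := Ch M) mn.isDead h = 1 - pH mn h := by
  unfold Grid.aliveProb pH
  have hp : (0 : ℝ) < (Fintype.card (Ch M) : ℝ) := by exact_mod_cast Fintype.card_pos
  rw [eq_sub_iff_add_eq, ← add_div, div_eq_one_iff_eq hp.ne']
  have := Finset.card_filter_add_card_filter_not (s := (univ : Finset (Ch M))) (fun ch => mn.isDead ch h)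
  rw [← Finset.card_univ]
  have h' : ((#(univ.filter fun ch : Ch M => ¬ mn.isDead ch h) + #(univ.filter fun ch : Ch M => mn.isDead ch h) : ℕ) : ℝ) = ((#(univ : Finset (Ch M)) : ℕ) : ℝ) := by
    congr 1
    omega
  push_cast at h'
  convert h' using 3

lemma lineAlive_eq [NeZero M] (mn : Menu F M) (L : F × F) :
    Grid.lineAlive (F := F) (Om0 := Ch M) mn.isDead L = fL mn L := by
  unfold Grid.lineAlive fL
  exact Finset.prod_congr rfl fun x _ => aliveProb_eq mn _

/-- Arithmetic for the grid size `w = M³`, `N = M⁴/290`. -/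
lemma grid_arith (M : ℕ) (hM : 1000 ≤ M) :
    (M ^ 4 / 290) * (4 * (6 * M) ^ 2 + 1) + 4 * M ^ 3 * (6 * M) + M ^ 3 ≤ (M ^ 3) ^ 2 := by
  have hN : 290 * (M ^ 4 / 290) ≤ M ^ 4 := Nat.mul_div_le _ _
  set N := M ^ 4 / 290 with hNdef
  have hM2 : 1000000 ≤ M ^ 2 := by nlinarith
  have h34 : M ^ 3 ≤ M ^ 4 := Nat.pow_le_pow_right (by omega) (by omega)
  have h46 : 1000000 * M ^ 4 ≤ M ^ 6 := by
    calc 1000000 * M ^ 4 ≤ M ^ 2 * M ^ 4 := Nat.mul_le_mul_right _ hM2
      _ = M ^ 6 := by ring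
  have e1 : (M ^ 3) ^ 2 = M ^ 6 := by ring
  have e2 : N * (4 * (6 * M) ^ 2 + 1) = 144 * (M ^ 2 * N) + N := by ring
  have e3 : 4 * M ^ 3 * (6 * M) = 24 * M ^ 4 := by ring
  rw [e1, e2, e3]
  have h5 : 290 * (M ^ 2 * N) ≤ M ^ 6 := by
    calc 290 * (M ^ 2 * N) = M ^ 2 * (290 * N) := by ring
      _ ≤ M ^ 2 * M ^ 4 := Nat.mul_le_mul_left _ hN
      _ = M ^ 6 := by ring
  omega

/-- MODULE E4 (Step 4 of #1707): independent sub-family of the joins, union over `U,V`. -/
theorem gridGood_prob : ∃ C₁ A : ℕ, ∀ (F : Type) [Field F] [Fintype F] [DecidableEq F] (h2 : (2 : F) ≠ 0)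
    (M : ℕ) [NeZero M], Regime F M C₁ A → ∀ mn : Menu F M, mn.Distinct → mn.Balanced →
    uProb (fun ω : Env F M => ¬ ∀ t0, GridGood h2 mn ω t0) ≤ 1 / 8 := by
  refine ⟨20000000, 1, ?_⟩
  intro F _ _ _ h2 M _ hR mn hd hb
  have hM := hR.M_large
  have hq : M ≤ Fintype.card F := by simpa using hR.M_pow
  have hodd : ringChar F ≠ 2 := by
    have := hR.char_large
    omega
  have hqR : (1000 : ℝ) ≤ (Fintype.card F : ℝ) := by exact_mod_cast le_trans hM hq
  have hγ : ∀ L : F × F, Real.exp (-9) ≤ Grid.lineAlive (F := F) (Om0 := Ch M) mn.isDead L := by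
    intro L
    rw [lineAlive_eq]
    exact fL_lower mn (by omega) hd hb hodd L
  have hγ1 : Real.exp (-9) ≤ 1 := Real.exp_le_one_iff.2 (by norm_num)
  -- the logarithmic condition
  have hlog : (6 * ((M ^ 3 : ℕ) : ℝ) + 2) * Real.log (Fintype.card F)
      ≤ Real.exp (-9) * ((M ^ 4 / 290 : ℕ) : ℝ) := by
    have hMR : (1000 : ℝ) ≤ M := by exact_mod_cast hM
    have hl := hR.M_log
    push_cast at hl
    have hlogq : 0 ≤ Real.log (Fintype.card F) := Real.log_natCast_nonneg _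
    have hN : (M : ℝ) ^ 4 / 291 ≤ ((M ^ 4 / 290 : ℕ) : ℝ) := by
      have h1 : M ^ 4 < 290 * (M ^ 4 / 290) + 290 := by
        have := Nat.lt_mul_div_succ (M ^ 4) (show 0 < 290 by norm_num)
        omega
      have h1' : (M : ℝ) ^ 4 < 290 * ((M ^ 4 / 290 : ℕ) : ℝ) + 290 := by exact_mod_cast h1
      have h2' : (291 * 290 : ℝ) ≤ (M : ℝ) ^ 4 := by
        have : (1000 : ℝ) ^ 4 ≤ (M : ℝ) ^ 4 := pow_le_pow_left₀ (by norm_num) hMR 4
        linarith [show (291 * 290 : ℝ) ≤ (1000 : ℝ) ^ 4 by norm_num]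
      rw [div_le_iff₀ (by norm_num)]
      nlinarith
    have hexp : (1 : ℝ) / 8104 ≤ Real.exp (-9) := by
      have h1 : Real.exp 9 ≤ 8104 := by
        have he := Real.exp_one_lt_d9
        have h9 : Real.exp 9 = Real.exp 1 ^ 9 := by
          rw [← Real.exp_nat_mul]; norm_num
        rw [h9]
        calc Real.exp 1 ^ 9 ≤ (2.7182818286 : ℝ) ^ 9 :=
              pow_le_pow_left₀ (Real.exp_pos _).le he.le 9
          _ ≤ 8104 := by norm_num
      rw [Real.exp_neg, one_div]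
      exact inv_anti₀ (Real.exp_pos _) h1
    have hM4 : (0 : ℝ) ≤ (M : ℝ) ^ 4 := by positivity
    have hM3 : (6 * (M : ℝ) ^ 3 + 2) * (20000000 * Real.log (Fintype.card F))
        ≤ (6 * (M : ℝ) ^ 3 + 2) * M :=
      mul_le_mul_of_nonneg_left hl (by positivity)
    have h7 : (6 * (M : ℝ) ^ 3 + 2) * M ≤ 7 * (M : ℝ) ^ 4 := by
      have h3 : (2 : ℝ) ≤ (M : ℝ) ^ 3 := by
        have : (1000 : ℝ) ^ 3 ≤ (M : ℝ) ^ 3 := pow_le_pow_left₀ (by norm_num) hMR 3
        linarith [show (2 : ℝ) ≤ (1000 : ℝ) ^ 3 by norm_num]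
      have h4 : 2 * (M : ℝ) ≤ (M : ℝ) ^ 4 := by
        have e : (M : ℝ) ^ 4 = (M : ℝ) ^ 3 * M := by ring
        rw [e]
        exact mul_le_mul_of_nonneg_right h3 (by linarith)
      calc (6 * (M : ℝ) ^ 3 + 2) * M = 6 * (M : ℝ) ^ 4 + 2 * M := by ring
        _ ≤ 7 * (M : ℝ) ^ 4 := by linarith
    have hfin : (1 : ℝ) / 8104 * ((M : ℝ) ^ 4 / 291)
        ≤ Real.exp (-9) * ((M ^ 4 / 290 : ℕ) : ℝ) :=
      mul_le_mul hexp hN (by positivity) (Real.exp_pos _).le
    push_cast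
    nlinarith
  have hprob := Grid.prob_gridFails_le_inv (F := F) (Om0 := Ch M) mn.isDead mn.specials
    (fun _ _ h => mn.mem_specials_of_isDead h) (6 * M) mn.card_specials_le
    (Real.exp (-9)) (Real.exp_pos _).le hγ1 hγ (someJoin (F := F)) (M ^ 3) (M ^ 4 / 290)
    (grid_arith M hM) hlog
  have hsub : ∀ ω : Env F M, (¬ ∀ t0, GridGood h2 mn ω t0) →
      Grid.GridFails (F := F) (Om0 := Ch M) mn.isDead (someJoin (F := F)) (M ^ 3) ω := by
    intro ω hω
    push Not at hω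
    obtain ⟨t0, hg⟩ := hω
    unfold GridGood at hg
    push Not at hg
    obtain ⟨U, V, hU, hV, haU, haV, hGP, hno⟩ := hg
    obtain ⟨hon, hshape⟩ := shape_of_GP h2 hGP
    refine ⟨(t0, U, V), ?_, ?_⟩
    · simp only [mem_filter, mem_product, mem_univ, true_and, mem_powersetCard, subset_univ]
      exact ⟨⟨hU, hV⟩, hshape⟩
    · refine ⟨?_, ?_, ?_⟩
      · rintro ⟨ox, k⟩ hp
        have := haU _ hp
        cases ox <;> exact this
      · rintro ⟨ox, k⟩ hp
        have := haV _ hp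
        cases ox <;> exact this
      · intro u hu v hv hret
        exact hno (someJoin u v) hret u hu v hv (hon u hu v hv).1 (hon u hu v hv).2
  rw [uProb_eq_prob]
  have hmono := ProdProb.prob_mono (Ω := fun _ : F => Ch M) hsub
  refine le_trans hmono (le_trans hprob ?_)
  rw [div_le_div_iff₀ (by linarith) (by norm_num)]
  linarith

end Crest.Agent.Ryser
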