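/-
  Greedy selection of a pairwise disjoint subfamily (row 34, #1707 Steps 2 and 4).
  A family `T` of sets `D k`, each of size at most `a`, every point lying in at most `b` of them,
  has a pairwise disjoint subfamily of size at least `|T| / (a*b+1)`.
  helper15.
-/
import Mathlib

set_option autoImplicit false

open Finset

namespace Crest.Agent.Ryser.Greedy

variable {κ ι : Type*} [DecidableEq κ] [DecidableEq ι]

/-- Greedy selection: every finite family of sets of size `≤ a`, each point in at most `b` of
them, contains a pairwise disjoint subfamily `T'` with `|T| ≤ (a * b + 1) * |T'|`. -/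
theorem exists_disjoint_subfamily (D : κ → Finset ι) (a b : ℕ) (T : Finset κ)
    (ha : ∀ k ∈ T, (D k).card ≤ a)
    (hb : ∀ x : ι, (T.filter (fun k => x ∈ D k)).card ≤ b) :
    ∃ T' ⊆ T, (T' : Set κ).PairwiseDisjoint D ∧ T.card ≤ (a * b + 1) * T'.card := by
  classical
  induction' hn : T.card using Nat.strong_induction_on with n ih generalizing T
  rcases T.eq_empty_or_nonempty with rfl | ⟨k0, hk0⟩
  · refine ⟨∅, subset_rfl, by simp, ?_⟩
    simp at hn
    simp [← hn]
  -- remove `k0` and everything meeting `D k0`
  set B := T.filter (fun k => k = k0 ∨ ¬ Disjoint (D k0) (D k)) with hB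
  set R := T \ B with hR
  have hk0B : k0 ∈ B := by
    rw [hB, Finset.mem_filter]
    exact ⟨hk0, Or.inl rfl⟩
  have hBcard : B.card ≤ a * b + 1 := by
    have hsub : B ⊆ insert k0 ((D k0).biUnion fun x => T.filter (fun k => x ∈ D k)) := by
      intro k hk
      rw [hB, Finset.mem_filter] at hk
      rcases hk with ⟨hkT, rfl | hnd⟩
      · exact Finset.mem_insert_self _ _
      · rw [Finset.not_disjoint_iff] at hnd
        obtain ⟨x, hx0, hxk⟩ := hnd
        refine Finset.mem_insert_of_mem ?_
        rw [Finset.mem_biUnion]
        exact ⟨x, hx0, by simp [hkT, hxk]⟩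
    calc B.card ≤ (insert k0 ((D k0).biUnion fun x => T.filter (fun k => x ∈ D k))).card :=
          Finset.card_le_card hsub
      _ ≤ ((D k0).biUnion fun x => T.filter (fun k => x ∈ D k)).card + 1 :=
          Finset.card_insert_le _ _
      _ ≤ (D k0).card * b + 1 := by
          have := Finset.card_biUnion_le_card_mul (D k0) (fun x => T.filter (fun k => x ∈ D k)) b
            (fun x _ => hb x)
          omega
      _ ≤ a * b + 1 := by
          have := Nat.mul_le_mul_right b (ha k0 hk0)
          omega
  have hRsub : R ⊆ T := Finset.sdiff_subset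
  have hRcard : R.card + B.card = T.card := by
    rw [hR]
    exact Finset.card_sdiff_add_card_eq_card (Finset.filter_subset _ _)
  have hBpos : 0 < B.card := Finset.card_pos.mpr ⟨k0, hk0B⟩
  obtain ⟨T', hT'sub, hT'disj, hT'card⟩ := ih R.card (by omega) R
    (fun k hk => ha k (hRsub hk))
    (fun x => le_trans (Finset.card_le_card
      (Finset.filter_subset_filter _ hRsub)) (hb x)) rfl
  have hk0T' : k0 ∉ T' := by
    intro h
    have := hT'sub h
    rw [hR, Finset.mem_sdiff] at this
    exact this.2 hk0B
  refine ⟨insert k0 T', ?_, ?_, ?_⟩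
  · intro k hk
    rw [Finset.mem_insert] at hk
    rcases hk with rfl | hk
    · exact hk0
    · exact hRsub (hT'sub hk)
  · rw [Finset.coe_insert, Set.pairwiseDisjoint_insert]
    refine ⟨hT'disj, fun k hk hne => ?_⟩
    have hkR := hT'sub (by simpa using hk)
    rw [hR, Finset.mem_sdiff, hB, Finset.mem_filter] at hkR
    have : Disjoint (D k0) (D k) := by
      by_contra hnd
      exact hkR.2 ⟨hkR.1, Or.inr hnd⟩
    exact this
  · rw [Finset.card_insert_of_notMem hk0T', ← hn, ← hRcard]
    nlinarith [hT'card, hBcard]

end Crest.Agent.Ryser.Greedy
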