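import Crest.Agent.Lib.Ryser.EnvBase
import Crest.Agent.Lib.Ryser.Greedy

/-!
Row 34. MODULE E6: the gadget at infinity exists (Step 5 "part infinity" numbers of finding #1707).
`t0` ranges over a family with pairwise disjoint relevant parts; each `t0` is good with probability
at least `(4M)⁻⁴ e⁻³⁶`; independence.  helper15.
-/

set_option autoImplicit false
set_option linter.unusedSectionVars false
set_option linter.unusedVariables false

noncomputable section

open Finset
open scoped Classical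

namespace Crest.Agent.Ryser.InfGood

variable {F : Type} [Field F] [Fintype F] [DecidableEq F] {M : ℕ}

/-- The height parameter of the gadget line `(c,ε)` at infinity. -/
def uI (mn : Menu F M) (i0 : Fin M) (e : Bool × Bool) : F := (infLine mn i0 0 e.1 e.2).2

lemma infLine_eq (mn : Menu F M) (i0 : Fin M) (t0 : F) (c ε : Bool) :
    infLine mn i0 t0 c ε = (t0, uI mn i0 (c, ε)) := by
  cases c <;> cases ε <;> rfl

lemma ht_inf (mn : Menu F M) (i0 : Fin M) (t0 : F) (c ε : Bool) (y : F) :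
    ht (infLine mn i0 t0 c ε) y = uI mn i0 (c, ε) - (y - t0) ^ 2 := by
  rw [infLine_eq]; rfl

/-- The condition on the coordinate `y`. -/
def InfAcc (mn : Menu F M) (i0 i1 : Fin M) (t0 y : F) (ch : Ch M) : Prop :=
  (y = t0 + 1 → ch.2 = (0, i0)) ∧ (y = t0 + 5 → ch.2 = (0, i0)) ∧ (y = t0 + 7 → ch.2 = (0, i0)) ∧
  (y = t0 + 3 → ch.2 = (0, i1)) ∧
  (∀ c ε g', ht (infLine mn i0 t0 c ε) y ≠ mn.conf ch g') ∧
  (∀ c ε, (ht (infLine mn i0 t0 c ε) y = mn.tele ch ∨ ht (infLine mn i0 t0 c ε) y = mn.hub ch) →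
    infDesignated t0 c ε y)

lemma goodInf_iff (mn : Menu F M) (ω : Env F M) (i0 i1 : Fin M) (t0 : F)
    (h12 : mn.delta 0 i0 = 12) (h36 : mn.delta 0 i1 = 36) (h16 : mn.kappa 0 i1 = mn.kappa 0 i0 + 16) :
    GoodInf mn ω i0 i1 t0 ↔ ∀ y, InfAcc mn i0 i1 t0 y (ω y) := by
  unfold GoodInf InfAcc
  constructor
  · rintro ⟨-, -, -, h1, h5, h7, h3, hc, hd⟩ y
    refine ⟨?_, ?_, ?_, ?_, fun c ε g' => hc c ε y g', fun c ε => hd c ε y⟩
    · rintro rfl; exact h1
    · rintro rfl; exact h5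
    · rintro rfl; exact h7
    · rintro rfl; exact h3
  · intro h
    exact ⟨h12, h36, h16, (h _).1 rfl, (h _).2.1 rfl, (h _).2.2.1 rfl, (h _).2.2.2.1 rfl,
      fun c ε y g' => (h y).2.2.2.2.1 c ε g', fun c ε y => (h y).2.2.2.2.2 c ε⟩

/-- All special heights. -/
def specH (mn : Menu F M) (j : Fin 3 × Fin 2 × Fin M) : F :=
  match j.1 with
  | 0 => mn.kappa j.2.1 j.2.2
  | 1 => mn.beta j.2
  | 2 => mn.eta j.2

/-- The relevant offsets. -/
def R0 (mn : Menu F M) (i0 : Fin M) : Finset F :=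
  ({1, 3, 5, 7} : Finset F) ∪
    (univ : Finset ((Bool × Bool) × (Fin 3 × Fin 2 × Fin M))).biUnion fun e =>
      univ.filter fun v : F => uI mn i0 e.1 - v ^ 2 = specH mn e.2

lemma card_sq_filter (a b : F) : #(univ.filter fun v : F => a - v ^ 2 = b) ≤ 2 := by
  by_cases h : ∃ v0 : F, a - v0 ^ 2 = b
  · obtain ⟨v0, hv0⟩ := h
    have hsub : univ.filter (fun v : F => a - v ^ 2 = b) ⊆ {v0, -v0} := by
      intro v hv
      simp only [mem_filter, mem_univ, true_and] at hv
      have h2 : v ^ 2 = v0 ^ 2 := by linear_combination hv0 - hv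
      rcases sq_eq_sq_iff_eq_or_eq_neg.mp h2 with h3 | h3 <;> simp [h3]
    exact (card_le_card hsub).trans card_le_two
  · have : univ.filter (fun v : F => a - v ^ 2 = b) = ∅ := by
      rw [filter_eq_empty_iff]
      intro v _ hv
      exact h ⟨v, hv⟩
    simp [this]

lemma card_R0 (mn : Menu F M) (i0 : Fin M) : #(R0 mn i0) ≤ 48 * M + 4 := by
  unfold R0
  refine (card_union_le _ _).trans ?_
  have h1 : #({1, 3, 5, 7} : Finset F) ≤ 4 := card_le_four
  have h2 : #((univ : Finset ((Bool × Bool) × (Fin 3 × Fin 2 × Fin M))).biUnion fun e =>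
      univ.filter fun v : F => uI mn i0 e.1 - v ^ 2 = specH mn e.2) ≤ 48 * M := by
    refine card_biUnion_le.trans ?_
    refine (sum_le_sum (g := fun _ => 2) fun e _ => card_sq_filter _ _).trans ?_
    simp [Finset.card_univ, Fintype.card_prod]
    omega
  omega

lemma infAcc_of_not_mem (mn : Menu F M) (i0 i1 : Fin M) (t0 y : F) (ch : Ch M)
    (hy : y - t0 ∉ R0 mn i0) : InfAcc mn i0 i1 t0 y ch := by
  unfold R0 at hy
  simp only [mem_union, not_or, mem_insert, mem_singleton, mem_biUnion, mem_univ, true_and, mem_filter,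
    not_exists] at hy
  obtain ⟨h1, h2⟩ := hy
  have hne : ∀ (c ε : Bool) (j : Fin 3 × Fin 2 × Fin M), ht (infLine mn i0 t0 c ε) y ≠ specH mn j := by
    intro c ε j hj
    rw [ht_inf] at hj
    exact h2 ((c, ε), j) hj
  refine ⟨?_, ?_, ?_, ?_, ?_, ?_⟩
  · rintro rfl; exact absurd (by ring) h1.1
  · rintro rfl; exact absurd (by ring) h1.2.2.1
  · rintro rfl; exact absurd (by ring) h1.2.2.2
  · rintro rfl; exact absurd (by ring) h1.2.1
  · intro c ε g' h
    exact hne c ε ((0 : Fin 3), g', ch.1 g') h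
  · intro c ε h
    rcases h with h | h
    · exact absurd h (hne c ε ((1 : Fin 3), ch.2))
    · exact absurd h (hne c ε ((2 : Fin 3), ch.2))

/-- The event depends only on the translate of `R0`. -/
lemma goodInf_dep (mn : Menu F M) (i0 i1 : Fin M) (t0 : F)
    (h12 : mn.delta 0 i0 = 12) (h36 : mn.delta 0 i1 = 36) (h16 : mn.kappa 0 i1 = mn.kappa 0 i0 + 16)
    (ω ω' : Env F M) (hag : ∀ y ∈ (R0 mn i0).image (fun v => t0 + v), ω y = ω' y) :
    GoodInf mn ω i0 i1 t0 ↔ GoodInf mn ω' i0 i1 t0 := by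
  rw [goodInf_iff mn ω i0 i1 t0 h12 h36 h16, goodInf_iff mn ω' i0 i1 t0 h12 h36 h16]
  refine forall_congr' fun y => ?_
  by_cases hy : y - t0 ∈ R0 mn i0
  · have : y ∈ (R0 mn i0).image (fun v => t0 + v) := mem_image.mpr ⟨y - t0, hy, by ring⟩
    rw [hag y this]
  · exact iff_of_true (infAcc_of_not_mem mn i0 i1 t0 y _ hy) (infAcc_of_not_mem mn i0 i1 t0 y _ hy)

/-! ### One coordinate -/

lemma frac_not_dead (mn : Menu F M) [NeZero M] (h : Bool × Bool → F) :
    1 - ∑ e, pH mn (h e) ≤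
      ((univ.filter fun ch : Ch M => ∀ e, ¬ mn.isDead ch (h e)).card : ℝ) / (Fintype.card (Ch M) : ℝ) := by
  have hcardpos : (0 : ℝ) < (Fintype.card (Ch M) : ℝ) := by
    exact_mod_cast Fintype.card_pos
  unfold pH
  rw [← Finset.sum_div, sub_le_iff_le_add, ← add_div, le_div_iff₀ hcardpos, one_mul]
  have h1 : #(univ.filter fun ch : Ch M => ∀ e, ¬ mn.isDead ch (h e)) +
      #(univ.filter fun ch : Ch M => ¬ ∀ e, ¬ mn.isDead ch (h e)) = Fintype.card (Ch M) :=
    Finset.card_filter_add_card_filter_not (s := univ) (fun ch : Ch M => ∀ e, ¬ mn.isDead ch (h e))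
  have h2 : #(univ.filter fun ch : Ch M => ¬ ∀ e, ¬ mn.isDead ch (h e)) ≤
      ∑ e, #(univ.filter fun ch : Ch M => mn.isDead ch (h e)) := by
    refine le_trans (card_le_card ?_) card_biUnion_le
    intro ch hch
    simp only [mem_filter, mem_univ, true_and, not_forall, not_not] at hch
    obtain ⟨e, he⟩ := hch
    exact mem_biUnion.mpr ⟨e, mem_univ _, by simp [he]⟩
  have h3 : ((Fintype.card (Ch M) : ℕ) : ℝ) ≤
      (#(univ.filter fun ch : Ch M => ∀ e, ¬ mn.isDead ch (h e)) : ℝ) +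
        ∑ e, (#(univ.filter fun ch : Ch M => mn.isDead ch (h e)) : ℝ) := by
    have : Fintype.card (Ch M) ≤ #(univ.filter fun ch : Ch M => ∀ e, ¬ mn.isDead ch (h e)) +
        ∑ e, #(univ.filter fun ch : Ch M => mn.isDead ch (h e)) := by omega
    exact_mod_cast this
  exact h3

/-- Designated parts: choose the teleport index, avoid four heights with the conflicts. -/
lemma frac_design (mn : Menu F M) [NeZero M] (hd : mn.Distinct) (hM : 16 ≤ M) (τ : Fin 2 × Fin M)
    (H : Bool × Bool → F) :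
    1 / (4 * (M : ℝ)) ≤
      ((univ.filter fun ch : Ch M => ch.2 = τ ∧ ∀ e g', H e ≠ mn.conf ch g').card : ℝ) /
        (Fintype.card (Ch M) : ℝ) := by
  have hκ : ∀ g, Function.Injective (mn.kappa g) := by
    intro g i i' h
    have := hd.1 (a₁ := ((0 : Fin 3), g, i)) (a₂ := ((0 : Fin 3), g, i')) h
    simpa using this
  -- the good indices for each slot
  let Bad : Fin 2 → Finset (Fin M) := fun g =>
    (univ : Finset (Bool × Bool)).biUnion fun e => univ.filter fun i => H e = mn.kappa g i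
  have hBad : ∀ g, #(Bad g) ≤ 4 := by
    intro g
    refine card_biUnion_le.trans ?_
    refine (sum_le_sum (g := fun _ => 1) fun e _ => ?_).trans (by simp [Finset.card_univ])
    rw [card_le_one]
    intro a ha b hb
    simp only [mem_filter, mem_univ, true_and] at ha hb
    exact hκ g (ha.symm.trans hb)
  let Good : Fin 2 → Finset (Fin M) := fun g => univ \ Bad g
  have hGood : ∀ g, M - 4 ≤ #(Good g) := by
    intro g
    have h1 : #(Good g) = M - #(Bad g) := by
      simp only [Good]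
      rw [card_sdiff_of_subset (subset_univ _), card_univ, Fintype.card_fin]
    have := hBad g
    omega
  -- inject the product of the good sets
  have hinj : #(Fintype.piFinset Good) ≤
      #(univ.filter fun ch : Ch M => ch.2 = τ ∧ ∀ e g', H e ≠ mn.conf ch g') := by
    refine card_le_card_of_injOn (fun c => ((c, τ) : Ch M)) ?_ ?_
    · intro c hc
      have hc' := Fintype.mem_piFinset.mp (mem_coe.mp hc)
      refine mem_coe.mpr (mem_filter.mpr ⟨mem_univ _, rfl, fun e g' h => ?_⟩)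
      have := hc' g'
      simp only [Good, mem_sdiff, mem_univ, true_and] at this
      apply this
      exact mem_biUnion.mpr ⟨e, mem_univ _, by simpa [Menu.conf] using h⟩
    · intro a _ b _ hab
      exact (Prod.ext_iff.mp hab).1
  have hprod : (M - 4) * (M - 4) ≤ #(Fintype.piFinset Good) := by
    rw [Fintype.card_piFinset, Fin.prod_univ_two]
    exact Nat.mul_le_mul (hGood 0) (hGood 1)
  have hcard : Fintype.card (Ch M) = M ^ 2 * (2 * M) := by
    simp [Ch, Fintype.card_prod]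
  have hMr : (16 : ℝ) ≤ M := by exact_mod_cast hM
  have hM0 : (0 : ℝ) < M := by linarith
  have hc : (((M - 4 : ℕ) : ℝ)) = (M : ℝ) - 4 := by
    rw [Nat.cast_sub (by omega)]; norm_num
  have hn : ((M : ℝ) - 4) * ((M : ℝ) - 4) ≤
      ((univ.filter fun ch : Ch M => ch.2 = τ ∧ ∀ e g', H e ≠ mn.conf ch g').card : ℝ) := by
    rw [← hc]
    exact_mod_cast hprod.trans hinj
  rw [hcard]
  push_cast
  rw [div_le_div_iff₀ (by positivity) (by positivity)]
  nlinarith [mul_pos hM0 hM0, mul_pos (mul_pos hM0 hM0) hM0]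

/-! ### Numbers of the gadget -/

lemma natCast_ne_zero_of_char (hc : 101 ≤ ringChar F) (n : ℕ) (h0 : 0 < n) (h1 : n < 101) :
    (n : F) ≠ 0 := by
  intro h
  have h2 : ringChar F ∣ n := (CharP.cast_eq_zero_iff F (ringChar F) n).mp h
  have := Nat.le_of_dvd h0 h2
  omega

/-- The four heights of the lines at infinity, in terms of `κ = κ(0,i0)`. -/
lemma uI_ff (mn : Menu F M) (i0 : Fin M) (h12 : mn.delta 0 i0 = 12) :
    uI mn i0 (false, false) = mn.kappa 0 i0 + 61 := by
  simp only [uI, infLine, Menu.beta]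
  simp [h12]
  ring

lemma uI_ft (mn : Menu F M) (i0 : Fin M) (h12 : mn.delta 0 i0 = 12) :
    uI mn i0 (false, true) = mn.kappa 0 i0 + 13 := by
  simp only [uI, infLine, Menu.beta]
  simp [h12]
  ring

lemma uI_tf (mn : Menu F M) (i0 : Fin M) (h12 : mn.delta 0 i0 = 12) :
    uI mn i0 (true, false) = mn.kappa 0 i0 + 37 := by
  simp only [uI, infLine, Menu.beta]
  simp [h12]
  ring

lemma uI_tt (mn : Menu F M) (i0 : Fin M) (h12 : mn.delta 0 i0 = 12) :
    uI mn i0 (true, true) = mn.kappa 0 i0 - 11 := by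
  simp only [uI, infLine, Menu.beta]
  simp [h12]
  ring

section Design

variable (mn : Menu F M) (i0 i1 : Fin M) (t0 : F) (ch : Ch M)
  (hc : 101 ≤ ringChar F)
  (h12 : mn.delta 0 i0 = 12) (h36 : mn.delta 0 i1 = 36) (h16 : mn.kappa 0 i1 = mn.kappa 0 i0 + 16)

include hc in
lemma ne_small : (2 : F) ≠ 0 ∧ (4 : F) ≠ 0 ∧ (6 : F) ≠ 0 ∧ (24 : F) ≠ 0 ∧ (48 : F) ≠ 0 ∧ (72 : F) ≠ 0 := by
  refine ⟨?_, ?_, ?_, ?_, ?_, ?_⟩
  · simpa using natCast_ne_zero_of_char (F := F) hc 2 (by norm_num) (by norm_num)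
  · simpa using natCast_ne_zero_of_char (F := F) hc 4 (by norm_num) (by norm_num)
  · simpa using natCast_ne_zero_of_char (F := F) hc 6 (by norm_num) (by norm_num)
  · simpa using natCast_ne_zero_of_char (F := F) hc 24 (by norm_num) (by norm_num)
  · simpa using natCast_ne_zero_of_char (F := F) hc 48 (by norm_num) (by norm_num)
  · simpa using natCast_ne_zero_of_char (F := F) hc 72 (by norm_num) (by norm_num)

include hc h12 in
/-- The part `t0 + 1`. -/
lemma acc_one (hτ : ch.2 = (0, i0)) (hconf : ∀ c ε g', ht (infLine mn i0 t0 c ε) (t0 + 1) ≠ mn.conf ch g') :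
    InfAcc mn i0 i1 t0 (t0 + 1) ch := by
  obtain ⟨h2, h4, h6, h24, h48, h72⟩ := ne_small (F := F) hc
  have hte : mn.tele ch = mn.kappa 0 i0 + 12 := by simp [Menu.tele, Menu.beta, hτ, h12]
  have hhu : mn.hub ch = mn.kappa 0 i0 - 12 := by simp [Menu.hub, Menu.eta, hτ, h12]
  refine ⟨fun _ => hτ, fun h => absurd (by linear_combination -h) h4,
    fun h => absurd (by linear_combination -h) h6, fun h => absurd (by linear_combination -h) h2,
    hconf, ?_⟩
  intro c ε h
  rw [ht_inf, hte, hhu] at h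
  have hv : (t0 + 1 - t0) ^ 2 = (1 : F) := by ring
  rw [hv] at h
  cases c <;> cases ε
  · rw [uI_ff mn i0 h12] at h
    rcases h with h | h
    · exact absurd (by linear_combination h) h48
    · exact absurd (by linear_combination h) h72
  · simp [infDesignated]
  · rw [uI_tf mn i0 h12] at h
    rcases h with h | h
    · exact absurd (by linear_combination h) h24
    · exact absurd (by linear_combination h) h48
  · simp [infDesignated]

include hc h12 in
/-- The part `t0 + 5`. -/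
lemma acc_five (hτ : ch.2 = (0, i0)) (hconf : ∀ c ε g', ht (infLine mn i0 t0 c ε) (t0 + 5) ≠ mn.conf ch g') :
    InfAcc mn i0 i1 t0 (t0 + 5) ch := by
  obtain ⟨h2, h4, h6, h24, h48, h72⟩ := ne_small (F := F) hc
  have hte : mn.tele ch = mn.kappa 0 i0 + 12 := by simp [Menu.tele, Menu.beta, hτ, h12]
  have hhu : mn.hub ch = mn.kappa 0 i0 - 12 := by simp [Menu.hub, Menu.eta, hτ, h12]
  refine ⟨fun h => absurd (by linear_combination h) h4, fun _ => hτ,
    fun h => absurd (by linear_combination -h) h2, fun h => absurd (by linear_combination h) h2,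
    hconf, ?_⟩
  intro c ε h
  rw [ht_inf, hte, hhu] at h
  have hv : (t0 + 5 - t0) ^ 2 = (25 : F) := by ring
  rw [hv] at h
  cases c <;> cases ε
  · rw [uI_ff mn i0 h12] at h
    rcases h with h | h
    · exact absurd (by linear_combination h) h24
    · exact absurd (by linear_combination h) h48
  · simp [infDesignated]
  · simp [infDesignated]
  · rw [uI_tt mn i0 h12] at h
    rcases h with h | h
    · exact absurd (by linear_combination -h) h48
    · exact absurd (by linear_combination -h) h24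

include hc h12 in
/-- The part `t0 + 7`. -/
lemma acc_seven (hτ : ch.2 = (0, i0)) (hconf : ∀ c ε g', ht (infLine mn i0 t0 c ε) (t0 + 7) ≠ mn.conf ch g') :
    InfAcc mn i0 i1 t0 (t0 + 7) ch := by
  obtain ⟨h2, h4, h6, h24, h48, h72⟩ := ne_small (F := F) hc
  have hte : mn.tele ch = mn.kappa 0 i0 + 12 := by simp [Menu.tele, Menu.beta, hτ, h12]
  have hhu : mn.hub ch = mn.kappa 0 i0 - 12 := by simp [Menu.hub, Menu.eta, hτ, h12]
  refine ⟨fun h => absurd (by linear_combination h) h6, fun h => absurd (by linear_combination h) h2,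
    fun _ => hτ, fun h => absurd (by linear_combination h) h4,
    hconf, ?_⟩
  intro c ε h
  rw [ht_inf, hte, hhu] at h
  have hv : (t0 + 7 - t0) ^ 2 = (49 : F) := by ring
  rw [hv] at h
  cases c <;> cases ε
  · simp [infDesignated]
  · rw [uI_ft mn i0 h12] at h
    rcases h with h | h
    · exact absurd (by linear_combination -h) h48
    · exact absurd (by linear_combination -h) h24
  · simp [infDesignated]
  · rw [uI_tt mn i0 h12] at h
    rcases h with h | h
    · exact absurd (by linear_combination -h) h72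
    · exact absurd (by linear_combination -h) h48

include hc h12 h36 h16 in
/-- The part `t0 + 3`. -/
lemma acc_three (hτ : ch.2 = (0, i1)) (hconf : ∀ c ε g', ht (infLine mn i0 t0 c ε) (t0 + 3) ≠ mn.conf ch g') :
    InfAcc mn i0 i1 t0 (t0 + 3) ch := by
  obtain ⟨h2, h4, h6, h24, h48, h72⟩ := ne_small (F := F) hc
  have hte : mn.tele ch = mn.kappa 0 i0 + 52 := by
    simp only [Menu.tele, Menu.beta, hτ, h36, h16]
    ring
  have hhu : mn.hub ch = mn.kappa 0 i0 - 20 := by
    simp only [Menu.hub, Menu.eta, hτ, h36, h16]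
    ring
  refine ⟨fun h => absurd (by linear_combination h) h2, fun h => absurd (by linear_combination -h) h2,
    fun h => absurd (by linear_combination -h) h4, fun _ => hτ,
    hconf, ?_⟩
  intro c ε h
  rw [ht_inf, hte, hhu] at h
  have hv : (t0 + 3 - t0) ^ 2 = (9 : F) := by ring
  rw [hv] at h
  cases c <;> cases ε
  · simp [infDesignated]
  · rw [uI_ft mn i0 h12] at h
    rcases h with h | h
    · exact absurd (by linear_combination -h) h48
    · exact absurd (by linear_combination h) h24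
  · rw [uI_tf mn i0 h12] at h
    rcases h with h | h
    · exact absurd (by linear_combination -h) h24
    · exact absurd (by linear_combination h) h48
  · simp [infDesignated]

end Design

/-! ### One point `t0` -/

/-- Fraction of good choices at the part `y`. -/
def acc (mn : Menu F M) (i0 i1 : Fin M) (t0 y : F) : ℝ :=
  ((univ.filter fun ch : Ch M => InfAcc mn i0 i1 t0 y ch).card : ℝ) / (Fintype.card (Ch M) : ℝ)

/-- Weighted crossing at the part `y`. -/
def sY (mn : Menu F M) (i0 : Fin M) (t0 y : F) : ℝ :=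
  ∑ e : Bool × Bool, pH mn (ht (infLine mn i0 t0 e.1 e.2) y)

lemma acc_nonneg (mn : Menu F M) (i0 i1 : Fin M) (t0 y : F) : 0 ≤ acc mn i0 i1 t0 y := by
  unfold acc; positivity

lemma sY_nonneg (mn : Menu F M) (i0 : Fin M) (t0 y : F) : 0 ≤ sY mn i0 t0 y :=
  Finset.sum_nonneg fun _ _ => pH_nonneg mn _

lemma acc_mono {mn : Menu F M} {i0 i1 : Fin M} {t0 y : F} {P : Ch M → Prop} {inst : DecidablePred P}
    (h : ∀ ch, P ch → InfAcc mn i0 i1 t0 y ch) :
    ((@Finset.filter _ P inst univ).card : ℝ) / (Fintype.card (Ch M) : ℝ) ≤ acc mn i0 i1 t0 y := by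
  unfold acc
  refine div_le_div_of_nonneg_right ?_ (Nat.cast_nonneg _)
  refine Nat.cast_le.mpr (card_le_card fun ch hch => ?_)
  simp only [mem_filter, mem_univ, true_and] at hch ⊢
  exact h ch hch

lemma acc_plain (mn : Menu F M) [NeZero M] (i0 i1 : Fin M) (t0 y : F)
    (h1 : y ≠ t0 + 1) (h3 : y ≠ t0 + 3) (h5 : y ≠ t0 + 5) (h7 : y ≠ t0 + 7) :
    1 - sY mn i0 t0 y ≤ acc mn i0 i1 t0 y := by
  refine le_trans (frac_not_dead mn (fun e => ht (infLine mn i0 t0 e.1 e.2) y))
    (acc_mono ?_)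
  intro ch hch
  refine ⟨fun h => absurd h h1, fun h => absurd h h5, fun h => absurd h h7, fun h => absurd h h3, ?_, ?_⟩
  · intro c ε g' h
    apply hch (c, ε)
    fin_cases g'
    · exact Or.inl h
    · exact Or.inr (Or.inl h)
  · intro c ε h
    exfalso
    apply hch (c, ε)
    rcases h with h | h
    · exact Or.inr (Or.inr (Or.inl h))
    · exact Or.inr (Or.inr (Or.inr h))

lemma acc_design (mn : Menu F M) [NeZero M] (i0 i1 : Fin M) (t0 y : F)
    (hc : 101 ≤ ringChar F) (hM : 16 ≤ M) (hd : mn.Distinct)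
    (h12 : mn.delta 0 i0 = 12) (h36 : mn.delta 0 i1 = 36) (h16 : mn.kappa 0 i1 = mn.kappa 0 i0 + 16)
    (hy : y ∈ ({t0 + 1, t0 + 3, t0 + 5, t0 + 7} : Finset F)) :
    1 / (4 * (M : ℝ)) ≤ acc mn i0 i1 t0 y := by
  simp only [mem_insert, mem_singleton] at hy
  rcases hy with rfl | rfl | rfl | rfl
  · refine le_trans (frac_design mn hd hM (0, i0) (fun e => ht (infLine mn i0 t0 e.1 e.2) (t0 + 1)))
      (acc_mono ?_)
    rintro ch ⟨hτ, hcf⟩
    exact acc_one mn i0 i1 t0 ch hc h12 hτ (fun c ε g' => hcf (c, ε) g')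
  · refine le_trans (frac_design mn hd hM (0, i1) (fun e => ht (infLine mn i0 t0 e.1 e.2) (t0 + 3)))
      (acc_mono ?_)
    rintro ch ⟨hτ, hcf⟩
    exact acc_three mn i0 i1 t0 ch hc h12 h36 h16 hτ (fun c ε g' => hcf (c, ε) g')
  · refine le_trans (frac_design mn hd hM (0, i0) (fun e => ht (infLine mn i0 t0 e.1 e.2) (t0 + 5)))
      (acc_mono ?_)
    rintro ch ⟨hτ, hcf⟩
    exact acc_five mn i0 i1 t0 ch hc h12 hτ (fun c ε g' => hcf (c, ε) g')
  · refine le_trans (frac_design mn hd hM (0, i0) (fun e => ht (infLine mn i0 t0 e.1 e.2) (t0 + 7)))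
      (acc_mono ?_)
    rintro ch ⟨hτ, hcf⟩
    exact acc_seven mn i0 i1 t0 ch hc h12 hτ (fun c ε g' => hcf (c, ε) g')

lemma sum_sY_le (mn : Menu F M) (hM0 : 0 < M) (i0 : Fin M) (t0 : F) (hodd : ringChar F ≠ 2)
    (hd : mn.Distinct) (hb : mn.Balanced) : ∑ y : F, sY mn i0 t0 y ≤ 18 := by
  unfold sY
  rw [Finset.sum_comm]
  have h1 : ∀ e : Bool × Bool, ∑ y : F, pH mn (ht (infLine mn i0 t0 e.1 e.2) y) ≤ 9 / 2 := by
    intro e
    have hsum : ∑ x : F, pH mn (ht (infLine mn i0 t0 e.1 e.2) x) =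
        4 + YY mn (infLine mn i0 t0 e.1 e.2).2 := by
      have := Crest.Agent.Lib.Ryser.sum_p_height (pH mn) hodd (infLine mn i0 t0 e.1 e.2).1
        (infLine mn i0 t0 e.1 e.2).2
      rw [sum_pH mn hM0 hd] at this
      exact this
    rw [hsum]
    have := (abs_le.mp (hb (infLine mn i0 t0 e.1 e.2).2)).2
    linarith
  refine (Finset.sum_le_sum fun e _ => h1 e).trans ?_
  simp [Finset.card_univ]
  norm_num

lemma sY_le (mn : Menu F M) (hM : 8 ≤ M) (i0 : Fin M) (t0 y : F) (hd : mn.Distinct) :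
    sY mn i0 t0 y ≤ 1 / 2 := by
  have hM0 : 0 < M := by omega
  have hMr : (8 : ℝ) ≤ M := by exact_mod_cast hM
  unfold sY
  refine (Finset.sum_le_sum (g := fun _ => 1 / (M : ℝ)) fun e _ => pH_le mn hM0 hd _).trans ?_
  simp [Finset.card_univ]
  rw [← div_eq_mul_inv, div_le_iff₀ (by linarith)]
  linarith

/-- Every single `t0` is good with a probability bounded below. -/
lemma uProb_good_ge (mn : Menu F M) [NeZero M] (i0 i1 : Fin M) (t0 : F)
    (hc : 101 ≤ ringChar F) (hM : 1000 ≤ M) (hd : mn.Distinct) (hb : mn.Balanced)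
    (h12 : mn.delta 0 i0 = 12) (h36 : mn.delta 0 i1 = 36) (h16 : mn.kappa 0 i1 = mn.kappa 0 i0 + 16) :
    (1 / (4 * (M : ℝ))) ^ 4 * Real.exp (-36) ≤
      uProb (fun ω : Env F M => GoodInf mn ω i0 i1 t0) := by
  have hodd : ringChar F ≠ 2 := by omega
  have hM0 : 0 < M := by omega
  have hMr : (1000 : ℝ) ≤ M := by exact_mod_cast hM
  have hMpos : (0 : ℝ) < M := by linarith
  set c : ℝ := 1 / (4 * (M : ℝ)) with hcdef
  have hc0 : 0 < c := by positivity
  have hc1 : c ≤ 1 := by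
    rw [hcdef, div_le_one (by positivity)]
    linarith
  let D : Finset F := {t0 + 1, t0 + 3, t0 + 5, t0 + 7}
  have hDcard : #D ≤ 4 := card_le_four
  have hP : uProb (fun ω : Env F M => GoodInf mn ω i0 i1 t0) = ∏ y : F, acc mn i0 i1 t0 y := by
    have h := uProb_forall_coord (ι := F) (α := Ch M) (fun y ch => InfAcc mn i0 i1 t0 y ch)
    have e : (fun ω : Env F M => GoodInf mn ω i0 i1 t0) =
        (fun ω : F → Ch M => ∀ y, (fun y ch => InfAcc mn i0 i1 t0 y ch) y (ω y)) := by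
      funext ω
      exact propext (goodInf_iff mn ω i0 i1 t0 h12 h36 h16)
    rw [e, h]
    refine Finset.prod_congr rfl fun y _ => ?_
    unfold acc
    congr!
  rw [hP]
  have hpt : ∀ y : F, (if y ∈ D then c else 1) * Real.exp (-(2 * sY mn i0 t0 y)) ≤
      acc mn i0 i1 t0 y := by
    intro y
    by_cases hy : y ∈ D
    · rw [if_pos hy]
      have h1 : Real.exp (-(2 * sY mn i0 t0 y)) ≤ 1 := by
        apply Real.exp_le_one_iff.mpr
        have := sY_nonneg mn i0 t0 y
        linarith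
      have h2 := acc_design mn i0 i1 t0 y hc (by omega) hd h12 h36 h16 hy
      calc c * Real.exp (-(2 * sY mn i0 t0 y)) ≤ c * 1 := by gcongr
        _ = c := mul_one c
        _ ≤ _ := h2
    · rw [if_neg hy, one_mul]
      simp only [D, mem_insert, mem_singleton, not_or] at hy
      have h2 := acc_plain mn i0 i1 t0 y hy.1 hy.2.1 hy.2.2.1 hy.2.2.2
      exact (exp_neg_two_mul_le (sY_nonneg mn i0 t0 y) (sY_le mn (by omega) i0 t0 y hd)).trans h2
  have hprod := Finset.prod_le_prod (s := (univ : Finset F))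
    (fun y _ => mul_nonneg (by split_ifs <;> positivity) (Real.exp_pos _).le) (fun y _ => hpt y)
  refine le_trans ?_ hprod
  rw [Finset.prod_mul_distrib, ← Real.exp_sum, Finset.prod_ite_mem, Finset.univ_inter,
    Finset.prod_const]
  have h1 : c ^ 4 ≤ c ^ #D := pow_le_pow_of_le_one hc0.le hc1 hDcard
  have h2 : Real.exp (-36) ≤ Real.exp (∑ y : F, -(2 * sY mn i0 t0 y)) := by
    apply Real.exp_le_exp.mpr
    rw [Finset.sum_neg_distrib, ← Finset.mul_sum]
    have := sum_sY_le mn hM0 i0 t0 hodd hd hb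
    linarith
  exact mul_le_mul h1 h2 (Real.exp_pos _).le (by positivity)

/-! ### The family of `t0` -/

theorem main (F : Type) [Field F] [Fintype F] [DecidableEq F] (M : ℕ) [NeZero M]
    (hR : Regime F M 0 14) (mn : Menu F M) (i0 i1 : Fin M) (hd : mn.Distinct) (hb : mn.Balanced)
    (h12 : mn.delta 0 i0 = 12) (h36 : mn.delta 0 i1 = 36) (h16 : mn.kappa 0 i1 = mn.kappa 0 i0 + 16) :
    uProb (fun ω : Env F M => ¬ ∃ t0, GoodInf mn ω i0 i1 t0) ≤ 1 / 8 := by
  have hM := hR.M_large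
  have hc := hR.char_large
  have hMr : (1000 : ℝ) ≤ M := by exact_mod_cast hM
  have hMpos : (0 : ℝ) < M := by linarith
  -- supports
  let S : F → Finset F := fun t0 => (R0 mn i0).image (fun v => t0 + v)
  have hS1 : ∀ t0 ∈ (univ : Finset F), #(S t0) ≤ #(R0 mn i0) := fun t0 _ => card_image_le
  have hS2 : ∀ x : F, #((univ : Finset F).filter fun t0 => x ∈ S t0) ≤ #(R0 mn i0) := by
    intro x
    have hsub : ((univ : Finset F).filter fun t0 => x ∈ S t0) ⊆ (R0 mn i0).image (fun v => x - v) := by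
      intro t0 ht0
      simp only [mem_filter, mem_univ, true_and, S, mem_image] at ht0
      obtain ⟨v, hv, rfl⟩ := ht0
      exact mem_image.mpr ⟨v, hv, by ring⟩
    exact (card_le_card hsub).trans card_image_le
  obtain ⟨T, -, hT, hcard⟩ := Greedy.exists_disjoint_subfamily S #(R0 mn i0) #(R0 mn i0) univ hS1 hS2
  -- the probability of one event
  set p : ℝ := (1 / (4 * (M : ℝ))) ^ 4 * Real.exp (-36) with hp
  have hpos : 0 < p := by positivity
  have hp1 : p ≤ 1 := by
    have h1 : (1 / (4 * (M : ℝ))) ^ 4 ≤ 1 := by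
      apply pow_le_one₀ (by positivity)
      rw [div_le_one (by positivity)]
      linarith
    have h2 : Real.exp (-36) ≤ 1 := Real.exp_le_one_iff.mpr (by norm_num)
    calc p ≤ 1 * 1 := mul_le_mul h1 h2 (Real.exp_pos _).le (by norm_num)
      _ = 1 := one_mul 1
  have hone : ∀ t0 ∈ T, p ≤ ProdProb.prob (Ω := fun _ : F => Ch M)
      (fun ω : F → Ch M => GoodInf mn ω i0 i1 t0) := by
    intro t0 _
    rw [← uProb_eq_prob]
    exact uProb_good_ge mn i0 i1 t0 hc hM hd hb h12 h36 h16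
  have hnone := ProdProb.prob_none_le (Ω := fun _ : F => Ch M) T S hT
    (fun t0 (ω : F → Ch M) => GoodInf mn ω i0 i1 t0)
    (fun t0 _ ω ω' hag => goodInf_dep mn i0 i1 t0 h12 h36 h16 ω ω' hag) p hone
  have hmono : uProb (fun ω : Env F M => ¬ ∃ t0, GoodInf mn ω i0 i1 t0) ≤
      ProdProb.prob (Ω := fun _ : F => Ch M) (fun ω : F → Ch M => ∀ t0 ∈ T, ¬ GoodInf mn ω i0 i1 t0) := by
    rw [← uProb_eq_prob]
    apply uProb_mono
    intro ω h t0 _ hg
    exact h ⟨t0, hg⟩
  refine hmono.trans (hnone.trans ?_)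
  -- numerics
  have hnum : 3 ≤ p * (#T : ℝ) := by
    have hq : (M : ℝ) ^ 14 ≤ (Fintype.card F : ℝ) := by exact_mod_cast hR.M_pow
    have hR0 := card_R0 mn i0
    have hcard' : (Fintype.card F : ℝ) ≤ (2500 * (M : ℝ) ^ 2) * (#T : ℝ) := by
      have h1 : Fintype.card F ≤ (#(R0 mn i0) * #(R0 mn i0) + 1) * #T := by
        simpa [Finset.card_univ] using hcard
      have h2 : ((Fintype.card F : ℕ) : ℝ) ≤ ((#(R0 mn i0) : ℝ) * #(R0 mn i0) + 1) * (#T : ℝ) := by
        exact_mod_cast h1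
      have h3 : (#(R0 mn i0) : ℝ) ≤ 49 * (M : ℝ) := by
        have : #(R0 mn i0) ≤ 49 * M := by omega
        exact_mod_cast this
      have h4 : (0 : ℝ) ≤ (#(R0 mn i0) : ℝ) := Nat.cast_nonneg _
      have h5 : ((#(R0 mn i0) : ℝ) * #(R0 mn i0) + 1) ≤ 2500 * (M : ℝ) ^ 2 := by
        nlinarith
      exact h2.trans (mul_le_mul_of_nonneg_right h5 (Nat.cast_nonneg _))
    have hexp : 1 ≤ Real.exp (-36) * 3 ^ 36 := by
      have h1 : Real.exp 36 ≤ 3 ^ 36 := by
        have h2 : Real.exp 36 = Real.exp 1 ^ 36 := by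
          rw [← Real.exp_nat_mul]; norm_num
        rw [h2]
        exact pow_le_pow_left₀ (Real.exp_pos _).le (by have := Real.exp_one_lt_d9; linarith) _
      rw [Real.exp_neg]
      rw [inv_mul_eq_div, one_le_div (Real.exp_pos _)]
      exact h1
    have hM8 : (1000 : ℝ) ^ 8 ≤ (M : ℝ) ^ 8 := pow_le_pow_left₀ (by norm_num) hMr 8
    have hEpos := Real.exp_pos (-36 : ℝ)
    -- `p * #T ≥ E * M^14 / (2500 M^2 * 256 M^4)`
    have hT' : (M : ℝ) ^ 14 ≤ (2500 * (M : ℝ) ^ 2) * (#T : ℝ) := hq.trans hcard'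
    have hT'' : (M : ℝ) ^ 12 ≤ 2500 * (#T : ℝ) := by
      have hM2 : (0 : ℝ) < (M : ℝ) ^ 2 := by positivity
      have : (M : ℝ) ^ 2 * (M : ℝ) ^ 12 ≤ (M : ℝ) ^ 2 * (2500 * (#T : ℝ)) := by
        calc (M : ℝ) ^ 2 * (M : ℝ) ^ 12 = (M : ℝ) ^ 14 := by ring
          _ ≤ (2500 * (M : ℝ) ^ 2) * (#T : ℝ) := hT'
          _ = (M : ℝ) ^ 2 * (2500 * (#T : ℝ)) := by ring
      exact le_of_mul_le_mul_left this hM2
    have hM12 : 768 * 2500 * 3 ^ 36 * (M : ℝ) ^ 4 ≤ (M : ℝ) ^ 12 := by
      have h8 : (768 * 2500 * 3 ^ 36 : ℝ) ≤ (M : ℝ) ^ 8 := by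
        refine le_trans ?_ hM8
        norm_num
      have hM4 : (0 : ℝ) ≤ (M : ℝ) ^ 4 := by positivity
      calc 768 * 2500 * 3 ^ 36 * (M : ℝ) ^ 4 ≤ (M : ℝ) ^ 8 * (M : ℝ) ^ 4 :=
            mul_le_mul_of_nonneg_right h8 hM4
        _ = (M : ℝ) ^ 12 := by ring
    -- combine
    have hTlow : 768 * 3 ^ 36 * (M : ℝ) ^ 4 ≤ (#T : ℝ) := by
      have : 2500 * (768 * 3 ^ 36 * (M : ℝ) ^ 4) ≤ 2500 * (#T : ℝ) := by
        calc 2500 * (768 * 3 ^ 36 * (M : ℝ) ^ 4) = 768 * 2500 * 3 ^ 36 * (M : ℝ) ^ 4 := by ring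
          _ ≤ (M : ℝ) ^ 12 := hM12
          _ ≤ 2500 * (#T : ℝ) := hT''
      exact le_of_mul_le_mul_left this (by norm_num)
    have hpval : p * (#T : ℝ) = Real.exp (-36) * (#T : ℝ) / (256 * (M : ℝ) ^ 4) := by
      rw [hp]
      field_simp
      ring
    rw [hpval, le_div_iff₀ (by positivity)]
    have h9 : Real.exp (-36) * (768 * 3 ^ 36 * (M : ℝ) ^ 4) ≤ Real.exp (-36) * (#T : ℝ) :=
      mul_le_mul_of_nonneg_left hTlow hEpos.le
    have h10 : 3 * (256 * (M : ℝ) ^ 4) ≤ Real.exp (-36) * (768 * 3 ^ 36 * (M : ℝ) ^ 4) := by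
      have hM4 : (0 : ℝ) ≤ (M : ℝ) ^ 4 := by positivity
      nlinarith [mul_le_mul_of_nonneg_right hexp hM4]
    linarith
  have h1p : (1 - p) ^ #T ≤ Real.exp (-(p * #T)) := by
    have h1 : 1 - p ≤ Real.exp (-p) := by
      have := Real.add_one_le_exp (-p)
      linarith
    have h2 : 0 ≤ 1 - p := by linarith
    calc (1 - p) ^ #T ≤ Real.exp (-p) ^ #T := pow_le_pow_left₀ h2 h1 _
      _ = Real.exp (-(p * #T)) := by
        rw [← Real.exp_nat_mul]
        congr 1
        ring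
  refine h1p.trans ?_
  have h3 : Real.exp (-(p * #T)) ≤ Real.exp (-3) := Real.exp_le_exp.mpr (by linarith)
  refine h3.trans ?_
  have h4 : (8 : ℝ) ≤ Real.exp 3 := by
    have h5 : Real.exp 3 = Real.exp 1 ^ 3 := by
      rw [← Real.exp_nat_mul]; norm_num
    rw [h5]
    have h6 : (2 : ℝ) ≤ Real.exp 1 := by
      have := Real.exp_one_gt_d9
      linarith
    calc (8 : ℝ) = 2 ^ 3 := by norm_num
      _ ≤ Real.exp 1 ^ 3 := pow_le_pow_left₀ (by norm_num) h6 3
  rw [Real.exp_neg, inv_eq_one_div]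
  exact one_div_le_one_div_of_le (by norm_num) h4

end Crest.Agent.Ryser.InfGood
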