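import Crest.Agent.Lib.Ryser.EnvBase

/-!
Row 34. MODULE E0: a balanced distinct menu exists (Step 0 of finding #1707).
-/

set_option autoImplicit false

noncomputable section

open Finset
open scoped Classical

namespace Crest.Agent.Ryser

open ProdProb

variable {F : Type} [Field F] [Fintype F] [DecidableEq F] {M : ℕ}

/-- Indices of the menu. -/
abbrev JJ (M : ℕ) := Fin 2 × Fin M

lemma chiR_abs_le (a : F) : |chiR a| ≤ 1 := Crest.Agent.Lib.Ryser.chi_abs_le a

lemma sum_chiR_sub_left (hodd : ringChar F ≠ 2) (c : F) : ∑ a : F, chiR (c - a) = 0 := by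
  have := Crest.Agent.Lib.Ryser.sum_chi (F := F) hodd
  rw [← this]
  exact Fintype.sum_equiv (Equiv.subLeft c) _ _ (fun _ => rfl)

/-- The contribution of one index with base `k`, half-width `d` to `Y u`. -/
def GG (u k d : F) : ℝ := chiR (u - k) + (1 / 2) * (chiR (u - (k + d)) + chiR (u - (k - d)))

lemma GG_abs_le (u k d : F) : |GG u k d| ≤ 2 := by
  unfold GG
  have h1 := abs_le.mp (chiR_abs_le (u - k))
  have h2 := abs_le.mp (chiR_abs_le (u - (k + d)))
  have h3 := abs_le.mp (chiR_abs_le (u - (k - d)))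
  rw [abs_le]
  constructor <;> linarith [h1.1, h1.2, h2.1, h2.2, h3.1, h3.2]

lemma sum_GG (hodd : ringChar F ≠ 2) (u d : F) : ∑ k : F, GG u k d = 0 := by
  unfold GG
  rw [Finset.sum_add_distrib, ← Finset.mul_sum, Finset.sum_add_distrib]
  have e1 := sum_chiR_sub_left hodd u
  have e2 : ∑ k : F, chiR (u - (k + d)) = 0 := by
    rw [← sum_chiR_sub_left hodd (u - d)]
    refine Finset.sum_congr rfl fun k _ => ?_
    congr 1
    ring
  have e3 : ∑ k : F, chiR (u - (k - d)) = 0 := by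
    rw [← sum_chiR_sub_left hodd (u + d)]
    refine Finset.sum_congr rfl fun k _ => ?_
    congr 1
    ring
  rw [e1, e2, e3]
  ring

lemma sum_fun_coord (g : Fin 2) (h : Fin M → ℝ) :
    ∑ c : Fin 2 → Fin M, h (c g) = (M : ℝ) * ∑ i, h i := by
  have e := (piFinTwoEquiv fun _ : Fin 2 => Fin M)
  fin_cases g
  · show ∑ c : Fin 2 → Fin M, h (c 0) = _
    have := (piFinTwoEquiv fun _ : Fin 2 => Fin M).sum_comp (fun p => h p.1)
    simp only [piFinTwoEquiv_apply] at this
    rw [this, Fintype.sum_prod_type]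
    simp [Finset.mul_sum]
  · show ∑ c : Fin 2 → Fin M, h (c 1) = _
    have := (piFinTwoEquiv fun _ : Fin 2 => Fin M).sum_comp (fun p => h p.2)
    simp only [piFinTwoEquiv_apply] at this
    rw [this, Fintype.sum_prod_type]
    simp [Finset.mul_sum]

/-- `Y` on a distinct menu. -/
theorem YY_eq (mn : Menu F M) (hM : 0 < M) (hd : mn.Distinct) (u : F) :
    YY mn u = (1 / (M : ℝ)) * ∑ j : JJ M, GG u (mn.kappa j.1 j.2) (mn.delta j.1 j.2) := by
  have : NeZero M := ⟨hM.ne'⟩
  have hMr : (M : ℝ) ≠ 0 := by exact_mod_cast hM.ne'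
  have hcard : (Fintype.card (Ch M) : ℝ) = (M : ℝ) ^ 2 * (2 * M) := by
    simp [Fintype.card_prod, Ch]
  -- exchange the sums
  have h1 : YY mn u = (∑ ch : Ch M, ∑ h ∈ univ.filter (fun h : F => mn.isDead ch h), chiR (u - h)) /
      (Fintype.card (Ch M) : ℝ) := by
    have h0 : ∑ ch : Ch M, ∑ h ∈ univ.filter (fun h : F => mn.isDead ch h), chiR (u - h)
        = ∑ h : F, (#(univ.filter fun ch : Ch M => mn.isDead ch h) : ℝ) * chiR (u - h) := by
      simp only [Finset.sum_filter]
      rw [Finset.sum_comm]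
      refine Finset.sum_congr rfl fun h _ => ?_
      rw [← Finset.sum_filter, sum_const, nsmul_eq_mul]
    rw [h0, Finset.sum_div]
    unfold YY pH
    refine Finset.sum_congr rfl fun h _ => ?_
    ring
  have h2 : ∀ ch : Ch M, ∑ h ∈ univ.filter (fun h : F => mn.isDead ch h), chiR (u - h)
      = chiR (u - mn.conf ch 0) + chiR (u - mn.conf ch 1) + chiR (u - mn.tele ch) + chiR (u - mn.hub ch) := by
    intro ch
    have hset : (univ.filter fun h : F => mn.isDead ch h)
        = {mn.conf ch 0, mn.conf ch 1, mn.tele ch, mn.hub ch} := by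
      ext h
      rw [mem_filter]
      simp only [mem_univ, true_and, mem_insert, mem_singleton, Menu.isDead]
    have h01 : mn.conf ch 0 ≠ mn.conf ch 1 := conf_ne_conf mn hd ch
    have h0t : mn.conf ch 0 ≠ mn.tele ch := conf_ne_tele mn hd ch 0
    have h0h : mn.conf ch 0 ≠ mn.hub ch := conf_ne_hub mn hd ch 0
    have h1t : mn.conf ch 1 ≠ mn.tele ch := conf_ne_tele mn hd ch 1
    have h1h : mn.conf ch 1 ≠ mn.hub ch := conf_ne_hub mn hd ch 1
    have hth : mn.tele ch ≠ mn.hub ch := tele_ne_hub mn hd ch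
    rw [hset, sum_insert (by simp [h01, h0t, h0h]), sum_insert (by simp [h1t, h1h]),
      sum_insert (by simp [hth]), sum_singleton]
    ring
  -- the four averages
  have hc : ∀ g : Fin 2, ∑ ch : Ch M, chiR (u - mn.conf ch g)
      = (M : ℝ) * (2 * M) * ∑ i, chiR (u - mn.kappa g i) := by
    intro g
    rw [Fintype.sum_prod_type]
    simp only [Menu.conf, sum_const, card_univ, nsmul_eq_mul]
    rw [← Finset.mul_sum]
    have := sum_fun_coord (M := M) g (fun i => chiR (u - mn.kappa g i))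
    rw [this]
    simp [Fintype.card_prod]
    ring
  have ht : ∑ ch : Ch M, chiR (u - mn.tele ch) = (M : ℝ) ^ 2 * ∑ j : JJ M, chiR (u - mn.beta j) := by
    rw [Fintype.sum_prod_type]
    simp only [Menu.tele, sum_const, card_univ, nsmul_eq_mul]
    simp
  have hb : ∑ ch : Ch M, chiR (u - mn.hub ch) = (M : ℝ) ^ 2 * ∑ j : JJ M, chiR (u - mn.eta j) := by
    rw [Fintype.sum_prod_type]
    simp only [Menu.hub, sum_const, card_univ, nsmul_eq_mul]
    simp
  have hsplit : ∑ j : JJ M, chiR (u - mn.kappa j.1 j.2)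
      = ∑ i, chiR (u - mn.kappa 0 i) + ∑ i, chiR (u - mn.kappa 1 i) := by
    rw [Fintype.sum_prod_type, Fin.sum_univ_two]
  rw [h1]
  simp only [h2]
  rw [Finset.sum_add_distrib, Finset.sum_add_distrib, Finset.sum_add_distrib, hc, hc, ht, hb, hcard]
  unfold GG
  simp only [Finset.sum_add_distrib, ← Finset.mul_sum]
  rw [hsplit]
  have e1 : ∑ j : JJ M, chiR (u - (mn.kappa j.1 j.2 + mn.delta j.1 j.2)) = ∑ j : JJ M, chiR (u - mn.beta j) := rfl
  have e2 : ∑ j : JJ M, chiR (u - (mn.kappa j.1 j.2 - mn.delta j.1 j.2)) = ∑ j : JJ M, chiR (u - mn.eta j) := rfl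
  rw [e1, e2]
  field_simp
  ring

/-! ### The random menu -/

/-- Conflict height of index `j`: two fixed values, the others from the table. -/
def kap (i0 i1 : Fin M) (κ : JJ M → F) (j : JJ M) : F :=
  if j = (0, i0) then 0 else if j = (0, i1) then 16 else κ j

/-- Half width of index `j`. -/
def del (i1 : Fin M) (j : JJ M) : F := if j = (0, i1) then 36 else 12

/-- The menu of a table. -/
def mnOf (i0 i1 : Fin M) (κ : JJ M → F) : Menu F M where
  kappa g i := kap i0 i1 κ (g, i)
  delta g i := del i1 (g, i)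

/-- `Y u` as a function of the table. -/
def fU (i0 i1 : Fin M) (u : F) (κ : JJ M → F) : ℝ :=
  (1 / (M : ℝ)) * ∑ j : JJ M, GG u (kap i0 i1 κ j) (del i1 j)

lemma kap_update_ne (i0 i1 : Fin M) (κ : JJ M → F) {j j' : JJ M} (h : j' ≠ j) (a : F) :
    kap i0 i1 (Function.update κ j a) j' = kap i0 i1 κ j' := by
  unfold kap
  simp [Function.update_of_ne h]

lemma fU_boundedDiff (i0 i1 : Fin M) (u : F) (hM : 0 < M) :
    BoundedDiff (Ω := fun _ : JJ M => F) (fun _ => 4 / (M : ℝ)) (fU i0 i1 u) := by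
  intro j κ a
  have hMr : (0 : ℝ) < M := by exact_mod_cast hM
  have h1 : fU i0 i1 u (Function.update κ j a) - fU i0 i1 u κ =
      (1 / (M : ℝ)) * (GG u (kap i0 i1 (Function.update κ j a) j) (del i1 j) -
        GG u (kap i0 i1 κ j) (del i1 j)) := by
    unfold fU
    rw [← mul_sub, ← Finset.sum_sub_distrib, Finset.sum_eq_single j]
    · intro j' _ hj'
      rw [kap_update_ne _ _ _ hj', sub_self]
    · intro h
      exact absurd (mem_univ _) h
  rw [h1, abs_mul, abs_of_pos (by positivity : (0 : ℝ) < 1 / M)]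
  have h2 := abs_le.mp (GG_abs_le u (kap i0 i1 (Function.update κ j a) j) (del i1 j))
  have h3 := abs_le.mp (GG_abs_le u (kap i0 i1 κ j) (del i1 j))
  have h4 : |GG u (kap i0 i1 (Function.update κ j a) j) (del i1 j) - GG u (kap i0 i1 κ j) (del i1 j)| ≤ 4 := by
    rw [abs_le]
    constructor <;> linarith [h2.1, h2.2, h3.1, h3.2]
  calc 1 / (M : ℝ) * _ ≤ 1 / (M : ℝ) * 4 := mul_le_mul_of_nonneg_left h4 (by positivity)
    _ = 4 / M := by ring

lemma fU_avg (i0 i1 : Fin M) (hne : i0 ≠ i1) (u : F) (hM : 0 < M) (hodd : ringChar F ≠ 2) :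
    |avg (Ω := fun _ : JJ M => F) (fU i0 i1 u)| ≤ 4 / M := by
  have hMr : (0 : ℝ) < M := by exact_mod_cast hM
  have hne' : ((0, i0) : JJ M) ≠ (0, i1) := fun h => hne (Prod.ext_iff.mp h).2
  have h1 : avg (Ω := fun _ : JJ M => F) (fU i0 i1 u) = (1 / (M : ℝ)) *
      ∑ j : JJ M, avg (Ω := fun _ : JJ M => F) (fun κ => GG u (kap i0 i1 κ j) (del i1 j)) := by
    unfold fU
    rw [avg_mul_const, avg_sum]
  have h2 : ∀ j : JJ M, j ≠ (0, i0) → j ≠ (0, i1) →
      avg (Ω := fun _ : JJ M => F) (fun κ => GG u (kap i0 i1 κ j) (del i1 j)) = 0 := by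
    intro j h1 h2
    have e : (fun κ : JJ M → F => GG u (kap i0 i1 κ j) (del i1 j)) =
        fun κ => (fun k => GG u k (del i1 j)) (κ j) := by
      funext κ
      simp [kap, h1, h2]
    rw [e, avg_coord (Ω := fun _ : JJ M => F) j (fun k => GG u k (del i1 j)), sum_GG hodd, zero_div]
  have h3 : ∀ j : JJ M, |avg (Ω := fun _ : JJ M => F) (fun κ => GG u (kap i0 i1 κ j) (del i1 j))| ≤ 2 := by
    intro j
    have hb := fun κ : JJ M → F => abs_le.mp (GG_abs_le u (kap i0 i1 κ j) (del i1 j))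
    rw [abs_le]
    constructor
    · have := avg_mono (Ω := fun _ : JJ M => F) (f := fun _ => (-2 : ℝ))
        (g := fun κ => GG u (kap i0 i1 κ j) (del i1 j)) (fun κ => (hb κ).1)
      rwa [avg_const] at this
    · have := avg_mono (Ω := fun _ : JJ M => F) (g := fun _ => (2 : ℝ))
        (f := fun κ => GG u (kap i0 i1 κ j) (del i1 j)) (fun κ => (hb κ).2)
      rwa [avg_const] at this
  rw [h1, Finset.sum_eq_add (0, i0) (0, i1) hne' (fun j _ hj => h2 j hj.1 hj.2) (by simp) (by simp),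
    abs_mul, abs_of_pos (by positivity : (0 : ℝ) < 1 / M)]
  have h4 := abs_add_le (avg (Ω := fun _ : JJ M => F) (fun κ => GG u (kap i0 i1 κ (0, i0)) (del i1 (0, i0))))
    (avg (Ω := fun _ : JJ M => F) (fun κ => GG u (kap i0 i1 κ (0, i1)) (del i1 (0, i1))))
  have h5 := h3 (0, i0)
  have h6 := h3 (0, i1)
  calc 1 / (M : ℝ) * _ ≤ 1 / (M : ℝ) * 4 := mul_le_mul_of_nonneg_left (by linarith) (by positivity)
    _ = 4 / M := by ring

/-- The tail of the deviation of `fU`. -/
lemma fU_tail (i0 i1 : Fin M) (u : F) (hM : 0 < M) :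
    prob (Ω := fun _ : JJ M => F) (fun κ => 1 / 4 ≤ |fU i0 i1 u κ - avg (Ω := fun _ : JJ M => F) (fU i0 i1 u)|)
      ≤ 2 * Real.exp (-((M : ℝ) / 1024)) := by
  have hMr : (0 : ℝ) < M := by exact_mod_cast hM
  have h := mcdiarmid_abs (Ω := fun _ : JJ M => F) (fun _ => 4 / (M : ℝ)) (fU_boundedDiff i0 i1 u hM)
    (t := 1 / 4) (by norm_num)
  have hsum : ∑ _i : JJ M, (4 / (M : ℝ)) ^ 2 = 32 / (M : ℝ) := by
    simp [Fintype.card_prod]
    field_simp
    ring
  rw [hsum] at h
  have e : (1 / 4 : ℝ) ^ 2 / (2 * (32 / (M : ℝ))) = (M : ℝ) / 1024 := by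
    field_simp
    ring
  rw [e] at h
  exact h

/-! ### Collisions -/

/-- The offsets of the three kinds of heights. -/
def menuOff (i1 : Fin M) (t : Fin 3) (j : JJ M) : F := ![0, del i1 j, - del i1 j] t

/-- A collision with a free index `j`. -/
def Coll (i0 i1 : Fin M) (c : JJ M × JJ M × Fin 3 × Fin 3) (κ : JJ M → F) : Prop :=
  kap i0 i1 κ c.1 + menuOff i1 c.2.2.1 c.1 = kap i0 i1 κ c.2.1 + menuOff i1 c.2.2.2 c.2.1

/-- If at most one value at coordinate `j` satisfies `E`, then `E` has probability `≤ 1/q`. -/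
lemma prob_le_of_unique {J : Type} [Fintype J] [DecidableEq J] (j : J) (E : (J → F) → Prop)
    (h : ∀ ω a b, E (Function.update ω j a) → E (Function.update ω j b) → a = b) :
    prob (Ω := fun _ : J => F) E ≤ 1 / (Fintype.card F : ℝ) := by
  have hq : (0 : ℝ) < Fintype.card F := by exact_mod_cast Fintype.card_pos
  rw [prob_eq_avg, ← avg_avgAt j]
  have hb : ∀ ω, avgAt (Ω := fun _ : J => F) j (fun ω => if E ω then (1 : ℝ) else 0) ω ≤ 1 / (Fintype.card F : ℝ) := by
    intro ω
    unfold avgAt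
    refine div_le_div_of_nonneg_right ?_ hq.le
    rw [Finset.sum_boole]
    have : #(univ.filter fun a : F => E (Function.update ω j a)) ≤ 1 := by
      rw [Finset.card_le_one]
      intro a ha b hb
      exact h ω a b (mem_filter.mp ha).2 (mem_filter.mp hb).2
    exact_mod_cast this
  have := avg_mono (Ω := fun _ : J => F) hb
  rwa [avg_const] at this

lemma coll_prob (i0 i1 : Fin M) (c : JJ M × JJ M × Fin 3 × Fin 3) (h1 : c.1 ≠ c.2.1)
    (h2 : c.1 ≠ (0, i0)) (h3 : c.1 ≠ (0, i1)) :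
    prob (Ω := fun _ : JJ M => F) (Coll i0 i1 c) ≤ 1 / (Fintype.card F : ℝ) := by
  refine prob_le_of_unique c.1 _ ?_
  intro ω a b ha hb
  unfold Coll at ha hb
  rw [kap_update_ne _ _ _ h1.symm] at ha hb
  have e : ∀ x, kap i0 i1 (Function.update ω c.1 x) c.1 = x := by
    intro x
    simp [kap, h2, h3]
  rw [e] at ha hb
  have := ha.trans hb.symm
  exact add_right_cancel this

/-- Small integers are nonzero in the field. -/
lemma nat_ne_zero_of_lt (hchar : 101 ≤ ringChar F) (n : ℕ) (h0 : 0 < n) (h1 : n < 101) : (n : F) ≠ 0 := by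
  intro h
  have hd : ringChar F ∣ n := (ringChar.spec F n).mp h
  have := Nat.le_of_dvd h0 hd
  omega

/-- No collision gives a distinct menu. -/
lemma distinct_of_no_coll (i0 i1 : Fin M) (hne : i0 ≠ i1) (hchar : 101 ≤ ringChar F) (κ : JJ M → F)
    (hno : ∀ c : JJ M × JJ M × Fin 3 × Fin 3, c.1 ≠ c.2.1 → c.1 ≠ (0, i0) → c.1 ≠ (0, i1) →
      ¬ Coll i0 i1 c κ) : (mnOf i0 i1 κ).Distinct := by
  have n4 := nat_ne_zero_of_lt (F := F) hchar 4 (by norm_num) (by norm_num)
  have n8 := nat_ne_zero_of_lt (F := F) hchar 8 (by norm_num) (by norm_num)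
  have n12 := nat_ne_zero_of_lt (F := F) hchar 12 (by norm_num) (by norm_num)
  have n16 := nat_ne_zero_of_lt (F := F) hchar 16 (by norm_num) (by norm_num)
  have n20 := nat_ne_zero_of_lt (F := F) hchar 20 (by norm_num) (by norm_num)
  have n24 := nat_ne_zero_of_lt (F := F) hchar 24 (by norm_num) (by norm_num)
  have n28 := nat_ne_zero_of_lt (F := F) hchar 28 (by norm_num) (by norm_num)
  have n32 := nat_ne_zero_of_lt (F := F) hchar 32 (by norm_num) (by norm_num)
  have n36 := nat_ne_zero_of_lt (F := F) hchar 36 (by norm_num) (by norm_num)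
  have n40 := nat_ne_zero_of_lt (F := F) hchar 40 (by norm_num) (by norm_num)
  have n52 := nat_ne_zero_of_lt (F := F) hchar 52 (by norm_num) (by norm_num)
  have n64 := nat_ne_zero_of_lt (F := F) hchar 64 (by norm_num) (by norm_num)
  have n72 := nat_ne_zero_of_lt (F := F) hchar 72 (by norm_num) (by norm_num)
  push_cast at n4 n8 n12 n16 n20 n24 n28 n32 n36 n40 n52 n64 n72
  have hne' : ((0, i0) : JJ M) ≠ (0, i1) := fun h => hne (Prod.ext_iff.mp h).2
  have hdel : ∀ j : JJ M, (del i1 j : F) ≠ 0 ∧ 2 * (del i1 j : F) ≠ 0 := by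
    intro j
    unfold del
    split_ifs
    · refine ⟨n36, fun h => n72 (by linear_combination h)⟩
    · refine ⟨n12, fun h => n24 (by linear_combination h)⟩
  refine ⟨?_, fun j => (hdel j).1⟩
  rintro ⟨t, j⟩ ⟨t', j'⟩ hab
  have heq : kap i0 i1 κ j + menuOff i1 t j = kap i0 i1 κ j' + menuOff i1 t' j' := by
    obtain ⟨g, i⟩ := j
    obtain ⟨g', i'⟩ := j'
    fin_cases t <;> fin_cases t' <;>
      simpa [menuOff, mnOf, Menu.beta, Menu.eta, sub_eq_add_neg] using hab
  have hcases : ∀ t : Fin 3, t = 0 ∨ t = 1 ∨ t = 2 := by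
    intro t
    fin_cases t <;> simp
  have e0 : ∀ j : JJ M, (menuOff i1 0 j : F) = 0 := fun _ => rfl
  have e1 : ∀ j : JJ M, (menuOff i1 1 j : F) = del i1 j := fun _ => rfl
  have e2 : ∀ j : JJ M, (menuOff i1 2 j : F) = - del i1 j := fun _ => rfl
  have hk0 : (kap i0 i1 κ (0, i0) : F) = 0 := by simp [kap]
  have hk1 : (kap i0 i1 κ (0, i1) : F) = 16 := by simp [kap, hne'.symm]
  have hd0 : (del i1 ((0 : Fin 2), i0) : F) = 12 := by simp [del, hne]
  have hd1 : (del i1 ((0 : Fin 2), i1) : F) = 36 := by simp [del]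
  have hfix : ∀ t t' : Fin 3, (kap i0 i1 κ (0, i0) + menuOff i1 t (0, i0) : F) ≠ kap i0 i1 κ (0, i1) + menuOff i1 t' (0, i1) := by
    intro t t' h
    rw [hk0, hk1] at h
    rcases hcases t with rfl | rfl | rfl <;> rcases hcases t' with rfl | rfl | rfl <;>
      simp only [e0, e1, e2, hd0, hd1] at h <;>
      first
        | exact n16 (by linear_combination -h)
        | exact n52 (by linear_combination -h)
        | exact n20 (by linear_combination h)
        | exact n4 (by linear_combination -h)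
        | exact n40 (by linear_combination -h)
        | exact n32 (by linear_combination h)
        | exact n28 (by linear_combination -h)
        | exact n64 (by linear_combination -h)
        | exact n8 (by linear_combination h)
  by_cases hjj : j = j'
  · subst hjj
    have ho : (menuOff i1 t j : F) = menuOff i1 t' j := add_left_cancel heq
    obtain ⟨h1, h2⟩ := hdel j
    have ht : t = t' := by
      rcases hcases t with rfl | rfl | rfl <;> rcases hcases t' with rfl | rfl | rfl <;>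
        first
          | rfl
          | (exfalso
             simp only [e0, e1, e2] at ho
             first
               | exact h1 (by linear_combination ho)
               | exact h1 (by linear_combination -ho)
               | exact h2 (by linear_combination ho)
               | exact h2 (by linear_combination -ho))
    rw [ht]
  · exfalso
    by_cases hj0 : j = (0, i0)
    · by_cases hj1 : j' = (0, i1)
      · subst hj0
        subst hj1
        exact hfix _ _ heq
      · by_cases hj2 : j' = (0, i0)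
        · exact hjj (hj0.trans hj2.symm)
        · exact hno (j', j, t', t) (Ne.symm hjj) hj2 hj1 heq.symm
    · by_cases hj1 : j = (0, i1)
      · by_cases hj2 : j' = (0, i0)
        · subst hj1
          subst hj2
          exact hfix _ _ heq.symm
        · by_cases hj3 : j' = (0, i1)
          · exact hjj (hj1.trans hj3.symm)
          · exact hno (j', j, t', t) (Ne.symm hjj) hj2 hj3 heq.symm
      · exact hno (j, j', t, t') hjj hj0 hj1 heq

/-- MODULE E0. -/
theorem exists_menu_core : ∃ C₁ A : ℕ, ∀ (F : Type) [Field F] [Fintype F] [DecidableEq F] (M : ℕ),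
    Regime F M C₁ A → ∃ (mn : Menu F M) (i0 i1 : Fin M), mn.Distinct ∧ mn.Balanced ∧
      mn.delta 0 i0 = 12 ∧ mn.delta 0 i1 = 36 ∧ mn.kappa 0 i1 = mn.kappa 0 i0 + 16 := by
  refine ⟨2048, 3, ?_⟩
  intro F _ _ _ M hR
  have hM := hR.M_large
  have hpow := hR.M_pow
  have hlog := hR.M_log
  have hchar := hR.char_large
  have hodd : ringChar F ≠ 2 := by omega
  have hM0 : 0 < M := by omega
  have hMr : (0 : ℝ) < M := by exact_mod_cast hM0
  have hMr' : (1000 : ℝ) ≤ M := by exact_mod_cast hM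
  let i0 : Fin M := ⟨0, by omega⟩
  let i1 : Fin M := ⟨1, by omega⟩
  have hne : i0 ≠ i1 := by simp [i0, i1, Fin.ext_iff]
  set q := Fintype.card F with hq
  have hqr : (M : ℝ) ^ 3 ≤ q := by exact_mod_cast hpow
  have hq0 : (0 : ℝ) < q := by
    have : (0 : ℝ) < (M : ℝ) ^ 3 := by positivity
    linarith
  have hq8 : (8 : ℝ) ≤ q := by nlinarith [sq_nonneg ((M : ℝ) - 1000)]
  -- bad events
  let T : Finset (JJ M × JJ M × Fin 3 × Fin 3) :=
    univ.filter fun c => c.1 ≠ c.2.1 ∧ c.1 ≠ (0, i0) ∧ c.1 ≠ (0, i1)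
  let A : (JJ M → F) → Prop := fun κ =>
    ∃ u ∈ (univ : Finset F), 1 / 4 ≤ |fU i0 i1 u κ - avg (Ω := fun _ : JJ M => F) (fU i0 i1 u)|
  let B : (JJ M → F) → Prop := fun κ => ∃ c ∈ T, Coll i0 i1 c κ
  have hA : prob (Ω := fun _ : JJ M => F) A ≤ 1 / 4 := by
    have h1 := prob_exists_le_sum (Ω := fun _ : JJ M => F) (univ : Finset F)
      (fun u κ => 1 / 4 ≤ |fU i0 i1 u κ - avg (Ω := fun _ : JJ M => F) (fU i0 i1 u)|)
    refine h1.trans ?_
    have h2 : ∑ u : F, prob (Ω := fun _ : JJ M => F)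
        (fun κ => 1 / 4 ≤ |fU i0 i1 u κ - avg (Ω := fun _ : JJ M => F) (fU i0 i1 u)|)
        ≤ ∑ _u : F, 2 * Real.exp (-((M : ℝ) / 1024)) :=
      Finset.sum_le_sum fun u _ => fU_tail i0 i1 u hM0
    refine h2.trans ?_
    simp only [sum_const, card_univ, nsmul_eq_mul]
    -- `exp(-M/1024) ≤ 1/q²`
    have h3 : Real.exp (-((M : ℝ) / 1024)) ≤ ((q : ℝ) ^ 2)⁻¹ := by
      have hlq : (2048 : ℝ) * Real.log q ≤ M := by exact_mod_cast hlog
      have : -((M : ℝ) / 1024) ≤ - (2 * Real.log q) := by linarith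
      calc Real.exp (-((M : ℝ) / 1024)) ≤ Real.exp (-(2 * Real.log q)) := Real.exp_le_exp.mpr this
        _ = ((q : ℝ) ^ 2)⁻¹ := by
          rw [Real.exp_neg, ← Real.log_rpow hq0, Real.exp_log (by positivity)]
          simp
    have h4 : (q : ℝ) * (2 * ((q : ℝ) ^ 2)⁻¹) ≤ 1 / 4 := by
      have : (q : ℝ) * (2 * ((q : ℝ) ^ 2)⁻¹) = 2 / q := by
        field_simp
      rw [this, div_le_div_iff₀ hq0 (by norm_num)]
      linarith
    calc (q : ℝ) * (2 * Real.exp (-((M : ℝ) / 1024))) ≤ (q : ℝ) * (2 * ((q : ℝ) ^ 2)⁻¹) := by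
          gcongr
      _ ≤ 1 / 4 := h4
  have hB : prob (Ω := fun _ : JJ M => F) B ≤ 1 / 4 := by
    have h1 := prob_exists_le_sum (Ω := fun _ : JJ M => F) T (fun c κ => Coll i0 i1 c κ)
    refine h1.trans ?_
    have h2 : ∑ c ∈ T, prob (Ω := fun _ : JJ M => F) (Coll i0 i1 c) ≤ ∑ _c ∈ T, 1 / (q : ℝ) := by
      refine Finset.sum_le_sum fun c hc => ?_
      have hc' := (mem_filter.mp hc).2
      exact coll_prob i0 i1 c hc'.1 hc'.2.1 hc'.2.2
    refine h2.trans ?_
    simp only [sum_const, nsmul_eq_mul]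
    have hT : (#T : ℝ) ≤ 36 * (M : ℝ) ^ 2 := by
      have h3 : #T ≤ Fintype.card (JJ M × JJ M × Fin 3 × Fin 3) := by
        rw [← card_univ]
        exact card_filter_le _ _
      have h4 : Fintype.card (JJ M × JJ M × Fin 3 × Fin 3) = 36 * M ^ 2 := by
        simp [Fintype.card_prod]
        ring
      rw [h4] at h3
      exact_mod_cast h3
    calc (#T : ℝ) * (1 / (q : ℝ)) ≤ 36 * (M : ℝ) ^ 2 * (1 / (q : ℝ)) := by gcongr
      _ ≤ 1 / 4 := by
        rw [mul_one_div, div_le_div_iff₀ hq0 (by norm_num)]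
        nlinarith [sq_nonneg (M : ℝ), mul_nonneg (sq_nonneg (M : ℝ)) (sub_nonneg.mpr hMr')]
  have hor : prob (Ω := fun _ : JJ M => F) (fun κ => A κ ∨ B κ) < 1 := by
    have h1 := prob_exists_le_sum (Ω := fun _ : JJ M => F) (univ : Finset Bool)
      (fun b κ => if b then A κ else B κ)
    have h2 : prob (Ω := fun _ : JJ M => F) (fun κ => A κ ∨ B κ) ≤
        prob (Ω := fun _ : JJ M => F) (fun κ => ∃ b ∈ (univ : Finset Bool), if b then A κ else B κ) := by
      refine prob_mono ?_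
      rintro κ (h | h)
      · exact ⟨true, mem_univ _, by simpa using h⟩
      · exact ⟨false, mem_univ _, by simpa using h⟩
    have h3 := h2.trans h1
    simp only [Fintype.sum_bool, if_true, Bool.false_eq_true, if_false] at h3
    have e1 : prob (Ω := fun _ : JJ M => F) (fun κ => if true = true then A κ else B κ)
        = prob (Ω := fun _ : JJ M => F) A := by
      simp [prob]
    linarith
  obtain ⟨κ, hκ⟩ := exists_of_prob_lt_one _ hor
  push Not at hκ
  obtain ⟨hκA, hκB⟩ := hκ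
  have hdist := distinct_of_no_coll i0 i1 hne hchar κ (fun c h1 h2 h3 hcoll =>
    hκB ⟨c, mem_filter.mpr ⟨mem_univ _, h1, h2, h3⟩, hcoll⟩)
  refine ⟨mnOf i0 i1 κ, i0, i1, hdist, ?_, ?_, ?_, ?_⟩
  · intro u
    have h1 : YY (mnOf i0 i1 κ) u = fU i0 i1 u κ := by
      rw [YY_eq _ hM0 hdist]
      rfl
    rw [h1]
    have h2 : |fU i0 i1 u κ - avg (Ω := fun _ : JJ M => F) (fU i0 i1 u)| < 1 / 4 :=
      not_le.mp (fun h => hκA ⟨u, mem_univ _, h⟩)
    have h3 := fU_avg i0 i1 hne u hM0 hodd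
    have h4 : (4 : ℝ) / M ≤ 1 / 4 := by
      rw [div_le_div_iff₀ hMr (by norm_num)]
      linarith
    have h5 := abs_sub_abs_le_abs_sub (fU i0 i1 u κ) (avg (Ω := fun _ : JJ M => F) (fU i0 i1 u))
    linarith
  · show del i1 (0, i0) = 12
    simp [del, hne]
  · show del i1 (0, i1) = 36
    simp [del]
  · show kap i0 i1 κ (0, i1) = kap i0 i1 κ (0, i0) + 16
    have hne' : ((0, i0) : JJ M) ≠ (0, i1) := fun h => hne (Prod.ext_iff.mp h).2
    simp [kap, hne'.symm]

end Crest.Agent.Ryser
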