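/-
  Abstract "many good options" lemma for uniform product spaces (row 34, S0045/S0046): a family of
  options whose good events have small supports, each part in few supports, each option good with
  probability at least `p`: with overwhelming probability a fraction of the options is good.
  helper78. Uses helper62's McDiarmid.
-/
import Crest.Agent.Lib.Ryser.McDiarmid

set_option autoImplicit false

open Finset Function

namespace Crest.Agent.Ryser.ManyGood

open Crest.Agent.Ryser.ProdProb

section Greedy

variable {ι κ : Type*} [DecidableEq ι] [DecidableEq κ]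

/-- Greedy: a large pairwise disjoint subfamily. -/
theorem exists_disjoint_subfamily (W : Finset κ) (S : κ → Finset ι) (D1 D2 : ℕ)
    (hD1 : ∀ w ∈ W, (S w).card ≤ D1)
    (hD2 : ∀ y, (W.filter fun w => y ∈ S w).card ≤ D2) :
    ∃ W0 ⊆ W, (W0 : Set κ).PairwiseDisjoint S ∧ W.card ≤ (1 + D1 * D2) * W0.card := by
  classical
  set 𝓘 : Finset (Finset κ) := W.powerset.filter (fun I : Finset κ => (I : Set κ).PairwiseDisjoint S) with h𝓘
  have hne : 𝓘.Nonempty := ⟨∅, by simp [h𝓘]⟩
  obtain ⟨W0, hW0, hmax⟩ := Finset.exists_max_image 𝓘 Finset.card hne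
  have hW0' := Finset.mem_filter.mp hW0
  have hsub : W0 ⊆ W := Finset.mem_powerset.mp hW0'.1
  refine ⟨W0, hsub, hW0'.2, ?_⟩
  -- every option meets the support of an element of `W0`, or lies in `W0`
  have hcov : W ⊆ W0 ∪ W0.biUnion (fun v => (S v).biUnion (fun y => W.filter fun w => y ∈ S w)) := by
    intro w hw
    by_cases hwW0 : w ∈ W0
    · exact Finset.mem_union_left _ hwW0
    · apply Finset.mem_union_right
      by_contra hcon
      have hdisj : ∀ v ∈ W0, Disjoint (S w) (S v) := by
        intro v hv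
        rw [Finset.disjoint_left]
        intro y hyw hyv
        apply hcon
        refine Finset.mem_biUnion.mpr ⟨v, hv, Finset.mem_biUnion.mpr ⟨y, hyv, ?_⟩⟩
        exact Finset.mem_filter.mpr ⟨hw, hyw⟩
      have hins : insert w W0 ∈ 𝓘 := by
        refine Finset.mem_filter.mpr ⟨Finset.mem_powerset.mpr (Finset.insert_subset hw hsub), ?_⟩
        rw [Finset.coe_insert]
        refine (Set.pairwiseDisjoint_insert_of_notMem (by simpa using hwW0)).mpr ⟨hW0'.2, ?_⟩
        intro v hv
        exact hdisj v hv
      have := hmax _ hins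
      rw [Finset.card_insert_of_notMem hwW0] at this
      omega
  calc W.card ≤ _ := Finset.card_le_card hcov
    _ ≤ W0.card + (W0.biUnion (fun v => (S v).biUnion (fun y => W.filter fun w => y ∈ S w))).card :=
        Finset.card_union_le _ _
    _ ≤ W0.card + W0.card * (D1 * D2) := by
        gcongr
        refine Finset.card_biUnion_le_card_mul _ _ _ fun v hv => ?_
        refine (Finset.card_biUnion_le_card_mul _ _ D2 fun y _ => hD2 y).trans ?_
        exact Nat.mul_le_mul_right _ (hD1 v (hsub hv))
    _ = (1 + D1 * D2) * W0.card := by ring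

end Greedy

section Main

variable {ι C κ : Type} [Fintype ι] [DecidableEq ι] [Fintype C] [Nonempty C] [DecidableEq κ]

/-- A sum of indicators of events with pairwise disjoint supports has bounded differences with
constant `1`. -/
theorem boundedDiff_count (W0 : Finset κ) (S : κ → Finset ι)
    (hdisj : (W0 : Set κ).PairwiseDisjoint S) (G : κ → (ι → C) → Prop) [∀ w, DecidablePred (G w)]
    (hdep : ∀ w ∈ W0, ∀ ω ω' : ι → C, (∀ i ∈ S w, ω i = ω' i) → (G w ω ↔ G w ω')) :
    BoundedDiff (Ω := fun _ : ι => C) (fun _ => (1 : ℝ))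
      (fun ω => ∑ w ∈ W0, if G w ω then (1 : ℝ) else 0) := by
  intro i ω a
  show |(∑ w ∈ W0, if G w (update ω i a) then (1 : ℝ) else 0) - ∑ w ∈ W0, if G w ω then (1 : ℝ) else 0| ≤ 1
  -- at most one summand changes
  by_cases hex : ∃ w0 ∈ W0, i ∈ S w0
  · obtain ⟨w0, hw0, hi⟩ := hex
    have hother : ∀ w ∈ W0.erase w0, (if G w (update ω i a) then (1 : ℝ) else 0) = if G w ω then 1 else 0 := by
      intro w hw
      have hw' := Finset.mem_erase.mp hw
      have hiw : i ∉ S w := by
        intro hiw
        have := hdisj (Finset.mem_coe.mpr hw'.2) (Finset.mem_coe.mpr hw0) hw'.1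
        exact (Finset.disjoint_left.mp this) hiw hi
      have : G w (update ω i a) ↔ G w ω := by
        apply hdep w hw'.2
        intro k hk
        rw [update_of_ne]
        rintro rfl
        exact hiw hk
      simp only [this]
    rw [← Finset.add_sum_erase W0 _ hw0, ← Finset.add_sum_erase W0 (fun w => if G w ω then (1 : ℝ) else 0) hw0,
      Finset.sum_congr rfl hother]
    ring_nf
    split_ifs <;> simp
  · push Not at hex
    have : ∀ w ∈ W0, (if G w (update ω i a) then (1 : ℝ) else 0) = if G w ω then 1 else 0 := by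
      intro w hw
      have : G w (update ω i a) ↔ G w ω := by
        apply hdep w hw
        intro k hk
        rw [update_of_ne]
        rintro rfl
        exact hex w hw hk
      simp only [this]
    rw [Finset.sum_congr rfl this]
    simp

/-- MAIN: with overwhelming probability at least `N` options are good. -/
theorem prob_few_good (W : Finset κ) (S : κ → Finset ι) (D1 D2 : ℕ)
    (hD1 : ∀ w ∈ W, (S w).card ≤ D1)
    (hD2 : ∀ y, (W.filter fun w => y ∈ S w).card ≤ D2)
    (G : κ → (ι → C) → Prop) [∀ w, DecidablePred (G w)]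
    (hdep : ∀ w ∈ W, ∀ ω ω' : ι → C, (∀ i ∈ S w, ω i = ω' i) → (G w ω ↔ G w ω'))
    (p : ℝ) (hp0 : 0 ≤ p) (hp : ∀ w ∈ W, p ≤ prob (Ω := fun _ : ι => C) (G w))
    (N : ℝ) (hN0 : 0 ≤ N) (hN : 2 * N * (1 + D1 * D2) ≤ W.card * p)
    [DecidablePred fun ω : ι → C => ((W.filter fun w => G w ω).card : ℝ) < N] :
    prob (Ω := fun _ : ι => C) (fun ω : ι → C => ((W.filter fun w => G w ω).card : ℝ) < N) ≤
      Real.exp (-(N ^ 2 / (2 * Fintype.card ι))) := by
  classical
  obtain ⟨W0, hsub, hdisj, hcard⟩ := exists_disjoint_subfamily W S D1 D2 hD1 hD2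
  set f : (ι → C) → ℝ := fun ω => ∑ w ∈ W0, if G w ω then (1 : ℝ) else 0 with hf
  have hBD : BoundedDiff (Ω := fun _ : ι => C) (fun _ => (1 : ℝ)) f :=
    boundedDiff_count W0 S hdisj G (fun w hw => hdep w (hsub hw))
  have hpos : (0 : ℝ) < 1 + D1 * D2 := by positivity
  have hcardR : (W.card : ℝ) ≤ (1 + D1 * D2) * W0.card := by exact_mod_cast hcard
  -- `N ≤ |W0| p / 2`
  have hN2 : 2 * N ≤ W0.card * p := by
    have h1 : (W.card : ℝ) * p ≤ (1 + D1 * D2) * W0.card * p :=
      mul_le_mul_of_nonneg_right hcardR hp0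
    have h2 : 2 * N * (1 + D1 * D2) ≤ (1 + D1 * D2) * (W0.card * p) := by nlinarith
    have h3 : (1 + (D1:ℝ) * D2) * (2 * N) ≤ (1 + D1 * D2) * (W0.card * p) := by linarith
    exact le_of_mul_le_mul_left h3 hpos
  -- the average of `f`
  have havg : (W0.card : ℝ) * p ≤ avg (Ω := fun _ : ι => C) f := by
    have : avg (Ω := fun _ : ι => C) f = ∑ w ∈ W0, prob (Ω := fun _ : ι => C) (G w) := by
      rw [hf]
      rw [show (fun ω : ι → C => ∑ w ∈ W0, if G w ω then (1 : ℝ) else 0) =
          fun ω => ∑ w ∈ W0, (fun w (ω : ι → C) => if G w ω then (1 : ℝ) else 0) w ω from rfl]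
      rw [avg_sum (Ω := fun _ : ι => C)]
      refine Finset.sum_congr rfl fun w _ => ?_
      rw [prob_eq_avg]
    rw [this]
    calc (W0.card : ℝ) * p = ∑ _w ∈ W0, p := by simp
      _ ≤ _ := Finset.sum_le_sum fun w hw => hp w (hsub hw)
  -- the tail
  have hN0' : 0 ≤ N := hN0
  have htail := mcdiarmid_lower (Ω := fun _ : ι => C) (fun _ => (1 : ℝ)) hBD hN0'
  refine le_trans (prob_mono (Ω := fun _ : ι => C) ?_) (le_trans htail ?_)
  · intro ω hω
    -- `f ω ≤ #good < N`
    have hle : f ω ≤ ((W.filter fun w => G w ω).card : ℝ) := by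
      have : f ω = ((W0.filter fun w => G w ω).card : ℝ) := by
        rw [hf]
        simp only
        rw [Finset.sum_boole]
      rw [this]
      exact_mod_cast Finset.card_le_card (Finset.filter_subset_filter _ hsub)
    linarith
  · simp only [one_pow, Finset.sum_const, Finset.card_univ, nsmul_eq_mul, mul_one]
    exact le_refl _

end Main

end Crest.Agent.Ryser.ManyGood
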