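import Crest.Agent.Lib.Ryser.EnvBase
import Crest.Agent.Lib.Ryser.ManyGood

/-!
Row 34 (S0045/S0046), MODULE E5 of `Env.lean`, Step 2 of finding #1707 (helper78):
for a distinct menu, with overwhelming probability every slot of every part has many good options.
-/

set_option autoImplicit false
set_option linter.unusedSectionVars false

noncomputable section

open Finset Function
open scoped Classical

namespace Crest.Agent.Ryser.OptG

open Crest.Agent.Ryser.ManyGood Crest.Agent.Ryser.ProdProb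

variable {F : Type} [Field F] [Fintype F] [DecidableEq F] {M : ℕ}

/-! ### Elementary counting in a field -/

/-- A quadratic has at most two roots. -/
lemma card_quad_le_two (a b : F) : (univ.filter fun w : F => w ^ 2 + a * w + b = 0).card ≤ 2 := by
  by_contra hcon
  push Not at hcon
  obtain ⟨u, v, w, hu, hv, hw, huv, huw, hvw⟩ := Finset.two_lt_card_iff.mp hcon
  simp only [mem_filter, mem_univ, true_and] at hu hv hw
  have h1 : (u - v) * (u + v + a) = 0 := by linear_combination hu - hv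
  have h2 : (u - w) * (u + w + a) = 0 := by linear_combination hu - hw
  have h1' : u + v + a = 0 := (mul_eq_zero.mp h1).resolve_left (sub_ne_zero.mpr huv)
  have h2' : u + w + a = 0 := (mul_eq_zero.mp h2).resolve_left (sub_ne_zero.mpr huw)
  exact hvw (by linear_combination h1' - h2')

/-- A line crosses a height at most twice. -/
lemma card_ht_eq_le_two (L : F × F) (h : F) : (univ.filter fun y : F => ht L y = h).card ≤ 2 := by
  by_contra hcon
  push Not at hcon
  obtain ⟨u, v, w, hu, hv, hw, huv, huw, hvw⟩ := Finset.two_lt_card_iff.mp hcon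
  simp only [mem_filter, mem_univ, true_and, ht] at hu hv hw
  have h1 : (u - v) * (u + v - 2 * L.1) = 0 := by linear_combination hv - hu
  have h2 : (u - w) * (u + w - 2 * L.1) = 0 := by linear_combination hw - hu
  have h1' : u + v - 2 * L.1 = 0 := (mul_eq_zero.mp h1).resolve_left (sub_ne_zero.mpr huv)
  have h2' : u + w - 2 * L.1 = 0 := (mul_eq_zero.mp h2).resolve_left (sub_ne_zero.mpr huw)
  exact hvw (by linear_combination h1' - h2')

/-! ### Gadget algebra -/

lemma d1_add_d2 (h2 : (2 : F) ≠ 0) (Δ w : F) : d1 Δ w + d2 Δ w = w := by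
  simp only [d1, d2]
  have : (w + Δ / w) + (w - Δ / w) = 2 * w := by ring
  rw [← add_div, this]; field_simp

lemma d1_sub_d2 (h2 : (2 : F) ≠ 0) (Δ w : F) : d1 Δ w - d2 Δ w = Δ / w := by
  simp only [d1, d2]; field_simp; ring

lemma d1_sq_sub (h2 : (2 : F) ≠ 0) (Δ w : F) (hw : w ≠ 0) : d1 Δ w ^ 2 - d2 Δ w ^ 2 = Δ := by
  simp only [d1, d2]; field_simp; ring

lemma sg_sq (ε : Bool) (d : F) : sg ε d ^ 2 = d ^ 2 := by
  cases ε <;> simp [sg]

lemma sg_ne_zero (ε : Bool) {d : F} (hd : d ≠ 0) : sg ε d ≠ 0 := by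
  cases ε <;> simp [sg, hd]

/-- The signed parameter of a gadget line. -/
def gs (Δ w : F) (c ε : Bool) : F := sg ε (if c then d2 Δ w else d1 Δ w)

lemma gLine_eq (x κ Δ w : F) (c ε : Bool) :
    gLine x κ Δ w c ε = (x - gs Δ w c ε, κ + gs Δ w c ε ^ 2) := by
  cases c <;> simp [gLine, gs, sg_sq]

lemma ht_gLine (x κ Δ w : F) (c ε : Bool) (y : F) :
    ht (gLine x κ Δ w c ε) y = κ - (y - x) ^ 2 - 2 * (y - x) * gs Δ w c ε := by
  rw [gLine_eq]; simp only [ht]; ring

lemma ht_gLine_self' (x κ Δ w : F) (c ε : Bool) : ht (gLine x κ Δ w c ε) x = κ := by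
  rw [ht_gLine]; ring

lemma ht_arc_e (h2 : (2 : F) ≠ 0) (x κ Δ w : F) (hw : w ≠ 0) (ε ε' : Bool) :
    ht (gLine x κ Δ w false ε) (arc x Δ w ε ε') = κ + Δ := by
  have h := d1_sq_sub h2 Δ w hw
  rw [ht_gLine]
  simp only [arc, gs, if_false, Bool.false_eq_true]
  have ha := sg_sq ε (d1 Δ w)
  have hb := sg_sq ε' (d2 Δ w)
  generalize sg ε (d1 Δ w) = a at *
  generalize sg ε' (d2 Δ w) = b at *
  linear_combination ha - hb + h

lemma ht_arc_f (h2 : (2 : F) ≠ 0) (x κ Δ w : F) (hw : w ≠ 0) (ε ε' : Bool) :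
    ht (gLine x κ Δ w true ε') (arc x Δ w ε ε') = κ - Δ := by
  have h := d1_sq_sub h2 Δ w hw
  rw [ht_gLine]
  simp only [arc, gs, if_true]
  have ha := sg_sq ε (d1 Δ w)
  have hb := sg_sq ε' (d2 Δ w)
  generalize sg ε (d1 Δ w) = a at *
  generalize sg ε' (d2 Δ w) = b at *
  linear_combination - ha + hb - h

/-- `sg ε d1 + sg ε' d2 ≠ 0`. -/
lemma sg_add_sg_ne (ε ε' : Bool) {a b : F} (h1 : a ≠ b) (h2 : a ≠ -b) : sg ε a + sg ε' b ≠ 0 := by
  intro h
  cases ε <;> cases ε' <;> simp only [sg, if_true, if_false, Bool.false_eq_true] at h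
  · exact h2 (by linear_combination -h)
  · exact h1 (by linear_combination -h)
  · exact h1 (by linear_combination h)
  · exact h2 (by linear_combination h)

lemma arc_ne_self (x Δ w : F) (ε ε' : Bool) (h1 : d1 Δ w ≠ d2 Δ w) (h2 : d1 Δ w ≠ - d2 Δ w) :
    arc x Δ w ε ε' ≠ x := by
  intro h
  apply sg_add_sg_ne ε ε' h1 h2
  simp only [arc] at h
  linear_combination -h

/-- Consistency at an arc part, for the class `e` line of the other sign. -/
lemma consistency_e (h2 : (2 : F) ≠ 0) (x κ Δ w : F) (hw : w ≠ 0) (hd1 : d1 Δ w ≠ 0)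
    (h12 : d1 Δ w ≠ d2 Δ w) (h12' : d1 Δ w ≠ - d2 Δ w) (ε ε' : Bool) :
    ht (gLine x κ Δ w false (!ε)) (arc x Δ w ε ε') ≠ κ + Δ ∧
    ht (gLine x κ Δ w false (!ε)) (arc x Δ w ε ε') ≠ κ - Δ := by
  have hD := d1_sq_sub h2 Δ w hw
  have hs := sg_add_sg_ne ε ε' h12 h12'
  have ha0 := sg_ne_zero ε hd1
  have hneg : sg (!ε) (d1 Δ w) = - sg ε (d1 Δ w) := by cases ε <;> simp [sg]
  rw [ht_gLine]
  simp only [arc, gs, if_false, Bool.false_eq_true, hneg]
  have ha := sg_sq ε (d1 Δ w)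
  have hb := sg_sq ε' (d2 Δ w)
  generalize sg ε (d1 Δ w) = a at *
  generalize sg ε' (d2 Δ w) = b at *
  have hab : a ^ 2 - b ^ 2 = Δ := by rw [ha, hb]; exact hD
  constructor
  · intro h
    have : (2 * 2 : F) * (a * (a + b)) = 0 := by linear_combination -h + hab
    have h4 : (2 * 2 : F) ≠ 0 := mul_ne_zero h2 h2
    exact (mul_ne_zero h4 (mul_ne_zero ha0 hs)) this
  · intro h
    have : (2 : F) * (a + b) ^ 2 = 0 := by linear_combination -h - hab
    exact (mul_ne_zero h2 (pow_ne_zero 2 hs)) this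

/-- Consistency at an arc part, for the class `f` line of the other sign. -/
lemma consistency_f (h2 : (2 : F) ≠ 0) (x κ Δ w : F) (hw : w ≠ 0) (hd2 : d2 Δ w ≠ 0)
    (h12 : d1 Δ w ≠ d2 Δ w) (h12' : d1 Δ w ≠ - d2 Δ w) (ε ε' : Bool) :
    ht (gLine x κ Δ w true (!ε')) (arc x Δ w ε ε') ≠ κ + Δ ∧
    ht (gLine x κ Δ w true (!ε')) (arc x Δ w ε ε') ≠ κ - Δ := by
  have hD := d1_sq_sub h2 Δ w hw
  have hs := sg_add_sg_ne ε ε' h12 h12'
  have hb0 := sg_ne_zero ε' hd2
  have hneg : sg (!ε') (d2 Δ w) = - sg ε' (d2 Δ w) := by cases ε' <;> simp [sg]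
  rw [ht_gLine]
  simp only [arc, gs, if_true, hneg]
  have ha := sg_sq ε (d1 Δ w)
  have hb := sg_sq ε' (d2 Δ w)
  generalize sg ε (d1 Δ w) = a at *
  generalize sg ε' (d2 Δ w) = b at *
  have hab : a ^ 2 - b ^ 2 = Δ := by rw [ha, hb]; exact hD
  constructor
  · intro h
    have : (2 : F) * (a + b) ^ 2 = 0 := by linear_combination -h + hab
    exact (mul_ne_zero h2 (pow_ne_zero 2 hs)) this
  · intro h
    have : (2 * 2 : F) * (b * (a + b)) = 0 := by linear_combination -h - hab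
    have h4 : (2 * 2 : F) ≠ 0 := mul_ne_zero h2 h2
    exact (mul_ne_zero h4 (mul_ne_zero hb0 hs)) this

/-! ### How many options does a point kill -/

lemma card_d1_eq_le (h2 : (2 : F) ≠ 0) (Δ s : F) :
    (univ.filter fun w : F => w ≠ 0 ∧ d1 Δ w = s).card ≤ 2 := by
  refine le_trans (card_le_card ?_) (card_quad_le_two (-(2 * s)) Δ)
  intro w hw
  simp only [mem_filter, mem_univ, true_and] at hw ⊢
  obtain ⟨hw0, hw1⟩ := hw
  simp only [d1] at hw1
  field_simp at hw1
  linear_combination hw1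

lemma card_d2_eq_le (h2 : (2 : F) ≠ 0) (Δ s : F) :
    (univ.filter fun w : F => w ≠ 0 ∧ d2 Δ w = s).card ≤ 2 := by
  refine le_trans (card_le_card ?_) (card_quad_le_two (-(2 * s)) (-Δ))
  intro w hw
  simp only [mem_filter, mem_univ, true_and] at hw ⊢
  obtain ⟨hw0, hw1⟩ := hw
  simp only [d2] at hw1
  field_simp at hw1
  linear_combination hw1

/-- For fixed parameter value `s`, at most `2` options `w` make a given gadget line have it. -/
lemma card_gs_eq_le (h2 : (2 : F) ≠ 0) (Δ s : F) (c ε : Bool) :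
    (univ.filter fun w : F => w ≠ 0 ∧ gs Δ w c ε = s).card ≤ 2 := by
  cases c <;> cases ε
  · refine le_trans (card_le_card ?_) (card_d1_eq_le h2 Δ (-s))
    intro w hw
    simp only [mem_filter, mem_univ, true_and, gs, sg, if_false, Bool.false_eq_true] at hw ⊢
    exact ⟨hw.1, by linear_combination -hw.2⟩
  · refine le_trans (card_le_card ?_) (card_d1_eq_le h2 Δ s)
    intro w hw
    simpa [gs, sg] using hw
  · refine le_trans (card_le_card ?_) (card_d2_eq_le h2 Δ (-s))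
    intro w hw
    simp only [mem_filter, mem_univ, true_and, gs, sg, if_false, if_true, Bool.false_eq_true] at hw ⊢
    exact ⟨hw.1, by linear_combination -hw.2⟩
  · refine le_trans (card_le_card ?_) (card_d2_eq_le h2 Δ s)
    intro w hw
    simpa [gs, sg] using hw

/-- A given point `(y,h)`, `y ≠ x`, lies on the gadget lines of at most `8` options. -/
lemma card_w_through_le (h2 : (2 : F) ≠ 0) (x κ Δ y h : F) (hy : y ≠ x) :
    (univ.filter fun w : F => w ≠ 0 ∧ ∃ c ε, ht (gLine x κ Δ w c ε) y = h).card ≤ 8 := by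
  set v := y - x with hv
  have hv0 : v ≠ 0 := sub_ne_zero.mpr hy
  set s : F := (κ - v ^ 2 - h) / (2 * v) with hs
  have hsub : (univ.filter fun w : F => w ≠ 0 ∧ ∃ c ε, ht (gLine x κ Δ w c ε) y = h) ⊆
      (univ : Finset (Bool × Bool)).biUnion (fun e =>
        univ.filter fun w : F => w ≠ 0 ∧ gs Δ w e.1 e.2 = s) := by
    intro w hw
    simp only [mem_filter, mem_univ, true_and] at hw
    obtain ⟨hw0, c, ε, hc⟩ := hw
    refine mem_biUnion.mpr ⟨(c, ε), mem_univ _, ?_⟩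
    simp only [mem_filter, mem_univ, true_and]
    refine ⟨hw0, ?_⟩
    rw [ht_gLine, ← hv] at hc
    rw [hs]
    field_simp
    linear_combination -hc
  refine le_trans (card_le_card hsub) ?_
  refine le_trans (card_biUnion_le_card_mul _ _ 2 fun e _ => card_gs_eq_le h2 Δ s e.1 e.2) ?_
  simp

end Crest.Agent.Ryser.OptG

namespace Crest.Agent.Ryser.OptG

open Crest.Agent.Ryser.ManyGood Crest.Agent.Ryser.ProdProb

variable {F : Type} [Field F] [Fintype F] [DecidableEq F] {M : ℕ}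

/-! ### The menu -/

/-- The function enumerating the `6M` heights. -/
def hv (mn : Menu F M) (j : Fin 3 × Fin 2 × Fin M) : F :=
  match j.1 with
  | 0 => mn.kappa j.2.1 j.2.2
  | 1 => mn.beta j.2
  | 2 => mn.eta j.2

lemma hv_inj {mn : Menu F M} (hd : mn.Distinct) : Injective (hv mn) := hd.1

/-- All special heights. -/
def HH (mn : Menu F M) : Finset F := univ.image (hv mn)

lemma card_HH_le (mn : Menu F M) : (HH mn).card ≤ 6 * M := by
  refine card_image_le.trans ?_
  simp [Fintype.card_prod, Finset.card_univ]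
  ring_nf
  exact le_refl _

lemma kappa_mem_HH (mn : Menu F M) (g : Fin 2) (i : Fin M) : mn.kappa g i ∈ HH mn :=
  mem_image.mpr ⟨(0, g, i), mem_univ _, rfl⟩
lemma beta_mem_HH (mn : Menu F M) (j : Fin 2 × Fin M) : mn.beta j ∈ HH mn :=
  mem_image.mpr ⟨(1, j), mem_univ _, rfl⟩
lemma eta_mem_HH (mn : Menu F M) (j : Fin 2 × Fin M) : mn.eta j ∈ HH mn :=
  mem_image.mpr ⟨(2, j), mem_univ _, rfl⟩
lemma conf_mem_HH (mn : Menu F M) (ch : Ch M) (g : Fin 2) : mn.conf ch g ∈ HH mn := kappa_mem_HH _ _ _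
lemma tele_mem_HH (mn : Menu F M) (ch : Ch M) : mn.tele ch ∈ HH mn := beta_mem_HH _ _
lemma hub_mem_HH (mn : Menu F M) (ch : Ch M) : mn.hub ch ∈ HH mn := eta_mem_HH _ _

lemma kappa_inj {mn : Menu F M} (hd : mn.Distinct) (g : Fin 2) : Injective (mn.kappa g) := by
  intro i i' h
  have := hv_inj hd (a₁ := (0, g, i)) (a₂ := (0, g, i')) h
  simpa using this

lemma beta_inj {mn : Menu F M} (hd : mn.Distinct) : Injective mn.beta := by
  intro j j' h
  have := hv_inj hd (a₁ := (1, j)) (a₂ := (1, j')) h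
  simpa using this

lemma eta_inj {mn : Menu F M} (hd : mn.Distinct) : Injective mn.eta := by
  intro j j' h
  have := hv_inj hd (a₁ := (2, j)) (a₂ := (2, j')) h
  simpa using this

lemma kappa_ne_beta {mn : Menu F M} (hd : mn.Distinct) (g : Fin 2) (i : Fin M) (j : Fin 2 × Fin M) :
    mn.kappa g i ≠ mn.beta j := by
  intro h
  have := hv_inj hd (a₁ := (0, g, i)) (a₂ := (1, j)) h
  simp at this

lemma kappa_ne_eta {mn : Menu F M} (hd : mn.Distinct) (g : Fin 2) (i : Fin M) (j : Fin 2 × Fin M) :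
    mn.kappa g i ≠ mn.eta j := by
  intro h
  have := hv_inj hd (a₁ := (0, g, i)) (a₂ := (2, j)) h
  simp at this

/-! ### Good options split into a static part and per-part conditions -/

/-- The condition at part `y` of the choice `ch` for the gadget `(x,κ,Δ,w)` with index `j`. -/
def LocalOK (mn : Menu F M) (x κ Δ w : F) (j : Fin 2 × Fin M) (y : F) (ch : Ch M) : Prop :=
  (∀ ε ε', y = arc x Δ w ε ε' → ch.2 = j) ∧
  (y ≠ x → ∀ c ε g', ht (gLine x κ Δ w c ε) y ≠ mn.conf ch g') ∧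
  (∀ ε, (ht (gLine x κ Δ w false ε) y = mn.tele ch ∨ ht (gLine x κ Δ w false ε) y = mn.hub ch) →
      ∃ ε', y = arc x Δ w ε ε') ∧
  (∀ ε', (ht (gLine x κ Δ w true ε') y = mn.tele ch ∨ ht (gLine x κ Δ w true ε') y = mn.hub ch) →
      ∃ ε, y = arc x Δ w ε ε')

/-- The conditions on an option that do not depend on the environment. -/
def Static (t0 : F) (Z : Finset F) (x κ Δ w : F) : Prop :=
  w ≠ 0 ∧ d1 Δ w ≠ 0 ∧ d2 Δ w ≠ 0 ∧ d1 Δ w ≠ d2 Δ w ∧ d1 Δ w ≠ - d2 Δ w ∧
  (∀ ε ε', arc x Δ w ε ε' ∉ Z) ∧ (∀ c ε, (gLine x κ Δ w c ε).1 ≠ t0)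

/-- `GoodOpt` for an explicit index `j`. -/
def GoodJ (mn : Menu F M) (t0 : F) (Z : Finset F) (x : F) (j : Fin 2 × Fin M) (w : F) (ω : Env F M) : Prop :=
  Static t0 Z x (mn.kappa j.1 j.2) (mn.delta j.1 j.2) w ∧
    ∀ y, LocalOK mn x (mn.kappa j.1 j.2) (mn.delta j.1 j.2) w j y (ω y)

lemma goodOpt_iff (mn : Menu F M) (ω : Env F M) (t0 : F) (Z : Finset F) (x : F) (g : Fin 2) (w : F) :
    GoodOpt mn ω t0 Z x g w ↔ GoodJ mn t0 Z x (cIdx ω x g) w ω := by
  unfold GoodOpt GoodJ Static LocalOK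
  constructor
  · rintro ⟨h0, h1, h2, h3, h4, harc, hslope, hconf, he, hf⟩
    refine ⟨⟨h0, h1, h2, h3, h4, fun ε ε' => (harc ε ε').2, hslope⟩, fun y => ⟨?_, ?_, ?_, ?_⟩⟩
    · rintro ε ε' rfl
      exact (harc ε ε').1
    · intro hy c ε g'
      exact hconf c ε y g' hy
    · intro ε hp
      exact he ε y hp
    · intro ε' hp
      exact hf ε' y hp
  · rintro ⟨⟨h0, h1, h2, h3, h4, harc, hslope⟩, hloc⟩
    refine ⟨h0, h1, h2, h3, h4, fun ε ε' => ⟨(hloc _).1 ε ε' rfl, harc ε ε'⟩, hslope, ?_, ?_, ?_⟩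
    · intro c ε y g' hy
      exact (hloc y).2.1 hy c ε g'
    · intro ε y hp
      exact (hloc y).2.2.1 ε hp
    · intro ε' y hp
      exact (hloc y).2.2.2 ε' hp

/-- The relevant parts of an option. -/
def Sup (mn : Menu F M) (x κ Δ w : F) : Finset F :=
  univ.filter fun y => y ≠ x ∧ ∃ c ε, ht (gLine x κ Δ w c ε) y ∈ HH mn

lemma card_Sup_le (mn : Menu F M) (x κ Δ w : F) : (Sup mn x κ Δ w).card ≤ 48 * M := by
  have hsub : Sup mn x κ Δ w ⊆ (univ : Finset (Bool × Bool)).biUnion (fun e =>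
      (HH mn).biUnion fun h => univ.filter fun y => ht (gLine x κ Δ w e.1 e.2) y = h) := by
    intro y hy
    simp only [Sup, mem_filter, mem_univ, true_and] at hy
    obtain ⟨_, c, ε, hc⟩ := hy
    exact mem_biUnion.mpr ⟨(c, ε), mem_univ _, mem_biUnion.mpr ⟨_, hc, by simp⟩⟩
  refine (card_le_card hsub).trans ?_
  refine (card_biUnion_le_card_mul _ _ (6 * M * 2) fun e _ => ?_).trans ?_
  · refine (card_biUnion_le_card_mul _ _ 2 fun h _ => card_ht_eq_le_two _ _).trans ?_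
    exact Nat.mul_le_mul_right _ (card_HH_le mn)
  · simp
    omega

lemma card_Sup_filter_le (h2 : (2 : F) ≠ 0) (mn : Menu F M) (x κ Δ : F) (W : Finset F)
    (hW : ∀ w ∈ W, w ≠ 0) (y : F) : (W.filter fun w => y ∈ Sup mn x κ Δ w).card ≤ 48 * M := by
  by_cases hy : y = x
  · subst hy
    have : (W.filter fun w => y ∈ Sup mn y κ Δ w) = ∅ := by
      ext w
      simp [Sup]
    rw [this]
    simp
  · have hsub : (W.filter fun w => y ∈ Sup mn x κ Δ w) ⊆ (HH mn).biUnion fun h =>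
        univ.filter fun w : F => w ≠ 0 ∧ ∃ c ε, ht (gLine x κ Δ w c ε) y = h := by
      intro w hw
      simp only [Sup, mem_filter, mem_univ, true_and] at hw
      obtain ⟨hwW, _, c, ε, hc⟩ := hw
      exact mem_biUnion.mpr ⟨_, hc, by
        simp only [mem_filter, mem_univ, true_and]
        exact ⟨hW w hwW, c, ε, rfl⟩⟩
    refine (card_le_card hsub).trans ?_
    refine (card_biUnion_le_card_mul _ _ 8 fun h _ => card_w_through_le h2 x κ Δ y h hy).trans ?_
    have := card_HH_le mn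
    nlinarith

/-- Off the relevant parts there is no condition. -/
lemma localOK_of_not_mem (h2 : (2 : F) ≠ 0) {mn : Menu F M} (hd : mn.Distinct) {t0 : F} {Z : Finset F}
    {x : F} {j : Fin 2 × Fin M} {w : F}
    (hS : Static t0 Z x (mn.kappa j.1 j.2) (mn.delta j.1 j.2) w) {y : F}
    (hy : y ∉ Sup mn x (mn.kappa j.1 j.2) (mn.delta j.1 j.2) w) (ch : Ch M) :
    LocalOK mn x (mn.kappa j.1 j.2) (mn.delta j.1 j.2) w j y ch := by
  obtain ⟨hw, _, _, h12, h12', _, _⟩ := hS
  by_cases hyx : y = x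
  · subst hyx
    refine ⟨?_, fun h => (h rfl).elim, ?_, ?_⟩
    · intro ε ε' h
      exact (arc_ne_self _ _ _ ε ε' h12 h12' h.symm).elim
    · rintro ε (h | h) <;> rw [ht_gLine_self'] at h
      · exact (kappa_ne_beta hd _ _ _ h).elim
      · exact (kappa_ne_eta hd _ _ _ h).elim
    · rintro ε (h | h) <;> rw [ht_gLine_self'] at h
      · exact (kappa_ne_beta hd _ _ _ h).elim
      · exact (kappa_ne_eta hd _ _ _ h).elim
  · have hno : ∀ c ε, ht (gLine x (mn.kappa j.1 j.2) (mn.delta j.1 j.2) w c ε) y ∉ HH mn := by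
      intro c ε hc
      exact hy (by simp only [Sup, mem_filter, mem_univ, true_and]; exact ⟨hyx, c, ε, hc⟩)
    refine ⟨?_, ?_, ?_, ?_⟩
    · rintro ε ε' rfl
      exfalso
      apply hno false ε
      rw [ht_arc_e h2 _ _ _ _ hw]
      exact beta_mem_HH mn j
    · intro _ c ε g' h
      exact hno c ε (h ▸ conf_mem_HH mn ch g')
    · rintro ε (h | h)
      · exact (hno false ε (h ▸ tele_mem_HH mn ch)).elim
      · exact (hno false ε (h ▸ hub_mem_HH mn ch)).elim
    · rintro ε (h | h)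
      · exact (hno true ε (h ▸ tele_mem_HH mn ch)).elim
      · exact (hno true ε (h ▸ hub_mem_HH mn ch)).elim

end Crest.Agent.Ryser.OptG

namespace Crest.Agent.Ryser.OptG

open Crest.Agent.Ryser.ManyGood Crest.Agent.Ryser.ProdProb

variable {F : Type} [Field F] [Fintype F] [DecidableEq F] {M : ℕ}

/-! ### One part densities -/

/-- The heights of the four lines at `y`. -/
def hs (x κ Δ w y : F) : Finset F :=
  (univ : Finset (Bool × Bool)).image fun e => ht (gLine x κ Δ w e.1 e.2) y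

lemma card_hs_le (x κ Δ w y : F) : (hs x κ Δ w y).card ≤ 4 :=
  card_image_le.trans (by simp)

lemma mem_hs (x κ Δ w y : F) (c ε : Bool) : ht (gLine x κ Δ w c ε) y ∈ hs x κ Δ w y :=
  mem_image.mpr ⟨(c, ε), mem_univ _, rfl⟩

/-- Allowed conflict indices. -/
def BK (mn : Menu F M) (s : Finset F) (g : Fin 2) : Finset (Fin M) :=
  univ.filter fun i => mn.kappa g i ∉ s

/-- Allowed teleport indices. -/
def BT (mn : Menu F M) (s : Finset F) : Finset (Fin 2 × Fin M) :=
  univ.filter fun τ => mn.beta τ ∉ s ∧ mn.eta τ ∉ s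

lemma card_BK_ge {mn : Menu F M} (hd : mn.Distinct) (s : Finset F) (g : Fin 2) :
    (M : ℝ) - s.card ≤ (BK mn s g).card := by
  have h1 : (univ.filter fun i => mn.kappa g i ∈ s).card ≤ s.card :=
    card_le_card_of_injOn (mn.kappa g) (by intro i hi; simpa using hi)
      (fun a _ b _ h => kappa_inj hd g h)
  have h2 := card_filter_add_card_filter_not (s := (univ : Finset (Fin M)))
    (fun i => mn.kappa g i ∈ s)
  simp only [card_univ, Fintype.card_fin] at h2
  have h3 : (M : ℝ) = (univ.filter fun i => mn.kappa g i ∈ s).card + (BK mn s g).card := by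
    rw [BK]; exact_mod_cast h2.symm
  have h4 : ((univ.filter fun i => mn.kappa g i ∈ s).card : ℝ) ≤ s.card := by exact_mod_cast h1
  linarith

lemma card_BT_ge {mn : Menu F M} (hd : mn.Distinct) (s : Finset F) :
    2 * (M : ℝ) - 2 * s.card ≤ (BT mn s).card := by
  have h1 : (univ.filter fun τ : Fin 2 × Fin M => mn.beta τ ∈ s).card ≤ s.card :=
    card_le_card_of_injOn mn.beta (by intro i hi; simpa using hi)
      (fun a _ b _ h => beta_inj hd h)
  have h1' : (univ.filter fun τ : Fin 2 × Fin M => mn.eta τ ∈ s).card ≤ s.card :=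
    card_le_card_of_injOn mn.eta (by intro i hi; simpa using hi)
      (fun a _ b _ h => eta_inj hd h)
  have h2 := card_filter_add_card_filter_not (s := (univ : Finset (Fin 2 × Fin M)))
    (fun τ => mn.beta τ ∈ s ∨ mn.eta τ ∈ s)
  have h2c : (univ : Finset (Fin 2 × Fin M)).card = 2 * M := by simp
  have h5 : (univ.filter fun τ : Fin 2 × Fin M => mn.beta τ ∈ s ∨ mn.eta τ ∈ s).card ≤ s.card + s.card := by
    rw [filter_or]
    exact (card_union_le _ _).trans (add_le_add h1 h1')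
  have h6 : (univ.filter fun τ : Fin 2 × Fin M => ¬ (mn.beta τ ∈ s ∨ mn.eta τ ∈ s)) = BT mn s := by
    ext τ
    simp [BT]
  rw [h6, h2c] at h2
  have h2R : ((univ.filter fun τ : Fin 2 × Fin M => mn.beta τ ∈ s ∨ mn.eta τ ∈ s).card : ℝ) +
      (BT mn s).card = 2 * M := by exact_mod_cast h2
  have h5R : ((univ.filter fun τ : Fin 2 × Fin M => mn.beta τ ∈ s ∨ mn.eta τ ∈ s).card : ℝ) ≤
      s.card + s.card := by exact_mod_cast h5
  linarith

lemma card_Ch (M : ℕ) : (Fintype.card (Ch M) : ℝ) = 2 * (M : ℝ) ^ 3 := by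
  simp [Ch, Fintype.card_prod]
  ring

/-- A box of allowed choices. -/
def Box (mn : Menu F M) (s : Finset F) (T : Finset (Fin 2 × Fin M)) : Finset (Ch M) :=
  (Fintype.piFinset (BK mn s)) ×ˢ T

lemma card_Box_ge {mn : Menu F M} (hd : mn.Distinct) (s : Finset F) (hs4 : s.card ≤ 4) (hM : 4 ≤ M)
    (T : Finset (Fin 2 × Fin M)) :
    ((M : ℝ) - 4) ^ 2 * T.card ≤ (Box mn s T).card := by
  have hs4R : (s.card : ℝ) ≤ 4 := by exact_mod_cast hs4
  have hMR : (4 : ℝ) ≤ M := by exact_mod_cast hM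
  simp only [Box, card_product, Fintype.card_piFinset, Fin.prod_univ_two, Nat.cast_mul]
  have h0 := card_BK_ge hd s 0
  have h1 := card_BK_ge hd s 1
  have ht : (0 : ℝ) ≤ T.card := by positivity
  apply mul_le_mul_of_nonneg_right _ ht
  nlinarith

/-- The box is inside the local condition, at a part which is not an arc. -/
lemma localOK_of_nonarc {mn : Menu F M} {x κ Δ w y : F} {j : Fin 2 × Fin M}
    (hy : ∀ ε ε', y ≠ arc x Δ w ε ε') {ch : Ch M}
    (hch : ch ∈ Box mn (hs x κ Δ w y) (BT mn (hs x κ Δ w y))) :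
    LocalOK mn x κ Δ w j y ch := by
  simp only [Box, mem_product, Fintype.mem_piFinset, BK, BT, mem_filter, mem_univ, true_and] at hch
  obtain ⟨h1, h2, h3⟩ := hch
  refine ⟨fun ε ε' h => (hy ε ε' h).elim, ?_, ?_, ?_⟩
  · intro _ c ε g' h
    exact h1 g' (by rw [← Menu.conf] ; exact h ▸ mem_hs x κ Δ w y c ε)
  · rintro ε (h | h)
    · have := mem_hs x κ Δ w y false ε
      rw [h] at this
      exact (h2 this).elim
    · have := mem_hs x κ Δ w y false ε
      rw [h] at this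
      exact (h3 this).elim
  · rintro ε (h | h)
    · have := mem_hs x κ Δ w y true ε
      rw [h] at this
      exact (h2 this).elim
    · have := mem_hs x κ Δ w y true ε
      rw [h] at this
      exact (h3 this).elim

/-- The box is inside the local condition, at an arc part. -/
lemma localOK_of_arc (h2 : (2 : F) ≠ 0) {mn : Menu F M} {x w : F} {j : Fin 2 × Fin M}
    (hw : w ≠ 0) (hd1 : d1 (mn.delta j.1 j.2) w ≠ 0) (hd2 : d2 (mn.delta j.1 j.2) w ≠ 0)
    (h12 : d1 (mn.delta j.1 j.2) w ≠ d2 (mn.delta j.1 j.2) w)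
    (h12' : d1 (mn.delta j.1 j.2) w ≠ - d2 (mn.delta j.1 j.2) w) (ε₀ ε₀' : Bool) {ch : Ch M}
    (hch : ch ∈ Box mn (hs x (mn.kappa j.1 j.2) (mn.delta j.1 j.2) w (arc x (mn.delta j.1 j.2) w ε₀ ε₀')) {j}) :
    LocalOK mn x (mn.kappa j.1 j.2) (mn.delta j.1 j.2) w j (arc x (mn.delta j.1 j.2) w ε₀ ε₀') ch := by
  simp only [Box, mem_product, Fintype.mem_piFinset, BK, mem_filter, mem_univ, true_and,
    mem_singleton] at hch
  obtain ⟨h1, hτ⟩ := hch
  refine ⟨fun _ _ _ => hτ, ?_, ?_, ?_⟩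
  · intro _ c ε g' h
    exact h1 g' (by rw [← Menu.conf]; exact h ▸ mem_hs _ _ _ _ _ c ε)
  · intro ε hp
    by_cases hε : ε = ε₀
    · subst hε; exact ⟨ε₀', rfl⟩
    · exfalso
      have hε' : ε = !ε₀ := by cases ε <;> cases ε₀ <;> simp_all
      subst hε'
      obtain ⟨c1, c2⟩ := consistency_e h2 x (mn.kappa j.1 j.2) (mn.delta j.1 j.2) w hw hd1 h12 h12' ε₀ ε₀'
      rcases hp with hp | hp
      · apply c1
        rw [hp]
        simp [Menu.tele, Menu.beta, hτ]
      · apply c2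
        rw [hp]
        simp [Menu.hub, Menu.eta, hτ]
  · intro ε hp
    by_cases hε : ε = ε₀'
    · subst hε; exact ⟨ε₀, rfl⟩
    · exfalso
      have hε' : ε = !ε₀' := by cases ε <;> cases ε₀' <;> simp_all
      subst hε'
      obtain ⟨c1, c2⟩ := consistency_f h2 x (mn.kappa j.1 j.2) (mn.delta j.1 j.2) w hw hd2 h12 h12' ε₀ ε₀'
      rcases hp with hp | hp
      · apply c1
        rw [hp]
        simp [Menu.tele, Menu.beta, hτ]
      · apply c2
        rw [hp]
        simp [Menu.hub, Menu.eta, hτ]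

/-- Density of the local condition at a non-arc part. -/
lemma dens_nonarc {mn : Menu F M} (hd : mn.Distinct) (hM : 4 ≤ M) {x κ Δ w y : F} {j : Fin 2 × Fin M}
    (hy : ∀ ε ε', y ≠ arc x Δ w ε ε') :
    (1 - 4 / (M : ℝ)) ^ 3 ≤
      ((univ.filter (LocalOK mn x κ Δ w j y)).card : ℝ) / (Fintype.card (Ch M) : ℝ) := by
  have hMR : (4 : ℝ) ≤ M := by exact_mod_cast hM
  have hMpos : (0 : ℝ) < M := by linarith
  rw [card_Ch, le_div_iff₀ (by positivity)]
  have hs4 := card_hs_le x κ Δ w y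
  have hs4R : ((hs x κ Δ w y).card : ℝ) ≤ 4 := by exact_mod_cast hs4
  have hsub : Box mn (hs x κ Δ w y) (BT mn (hs x κ Δ w y)) ⊆ univ.filter (LocalOK mn x κ Δ w j y) := by
    intro ch hch
    exact mem_filter.mpr ⟨mem_univ _, localOK_of_nonarc hy hch⟩
  have h1 : ((Box mn (hs x κ Δ w y) (BT mn (hs x κ Δ w y))).card : ℝ) ≤
      ((univ.filter (LocalOK mn x κ Δ w j y)).card : ℝ) := by exact_mod_cast card_le_card hsub
  have h2 := card_Box_ge hd (hs x κ Δ w y) hs4 hM (BT mn (hs x κ Δ w y))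
  have h3 := card_BT_ge hd (hs x κ Δ w y)
  have h4 : ((M : ℝ) - 4) ^ 2 * (2 * (M : ℝ) - 8) ≤
      ((M : ℝ) - 4) ^ 2 * ((BT mn (hs x κ Δ w y)).card : ℝ) := by
    apply mul_le_mul_of_nonneg_left _ (sq_nonneg _)
    linarith
  have h5 : (1 - 4 / (M : ℝ)) ^ 3 * (2 * (M : ℝ) ^ 3) = ((M : ℝ) - 4) ^ 2 * (2 * (M : ℝ) - 8) := by
    field_simp
    ring
  linarith

/-- Density of the local condition at an arc part. -/
lemma dens_arc (h2 : (2 : F) ≠ 0) {mn : Menu F M} (hd : mn.Distinct) (hM : 4 ≤ M) {x w : F}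
    {j : Fin 2 × Fin M}
    (hw : w ≠ 0) (hd1 : d1 (mn.delta j.1 j.2) w ≠ 0) (hd2 : d2 (mn.delta j.1 j.2) w ≠ 0)
    (h12 : d1 (mn.delta j.1 j.2) w ≠ d2 (mn.delta j.1 j.2) w)
    (h12' : d1 (mn.delta j.1 j.2) w ≠ - d2 (mn.delta j.1 j.2) w) (ε₀ ε₀' : Bool) :
    (1 - 4 / (M : ℝ)) ^ 2 / (2 * (M : ℝ)) ≤
      ((univ.filter (LocalOK mn x (mn.kappa j.1 j.2) (mn.delta j.1 j.2) w j
        (arc x (mn.delta j.1 j.2) w ε₀ ε₀'))).card : ℝ) / (Fintype.card (Ch M) : ℝ) := by
  have hMR : (4 : ℝ) ≤ M := by exact_mod_cast hM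
  have hMpos : (0 : ℝ) < M := by linarith
  rw [card_Ch, le_div_iff₀ (by positivity)]
  set y := arc x (mn.delta j.1 j.2) w ε₀ ε₀' with hy
  set s := hs x (mn.kappa j.1 j.2) (mn.delta j.1 j.2) w y with hsdef
  have hs4 : s.card ≤ 4 := card_hs_le _ _ _ _ _
  have hsub : Box mn s {j} ⊆
      univ.filter (LocalOK mn x (mn.kappa j.1 j.2) (mn.delta j.1 j.2) w j y) := by
    intro ch hch
    exact mem_filter.mpr ⟨mem_univ _, localOK_of_arc h2 hw hd1 hd2 h12 h12' ε₀ ε₀' hch⟩
  have h1 : ((Box mn s {j}).card : ℝ) ≤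
      ((univ.filter (LocalOK mn x (mn.kappa j.1 j.2) (mn.delta j.1 j.2) w j y)).card : ℝ) := by
    exact_mod_cast card_le_card hsub
  have h2' := card_Box_ge hd s hs4 hM {j}
  simp only [card_singleton, Nat.cast_one, mul_one] at h2'
  have h5 : (1 - 4 / (M : ℝ)) ^ 2 / (2 * (M : ℝ)) * (2 * (M : ℝ) ^ 3) = ((M : ℝ) - 4) ^ 2 := by
    field_simp
  linarith

end Crest.Agent.Ryser.OptG

namespace Crest.Agent.Ryser.OptG

open Crest.Agent.Ryser.ManyGood Crest.Agent.Ryser.ProdProb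

variable {F : Type} [Field F] [Fintype F] [DecidableEq F] {M : ℕ}

/-! ### The probability of an option -/

/-- The event of an option, on its relevant parts. -/
def GLoc (mn : Menu F M) (x : F) (j : Fin 2 × Fin M) (w : F) (ω : Env F M) : Prop :=
  ∀ y ∈ Sup mn x (mn.kappa j.1 j.2) (mn.delta j.1 j.2) w,
    LocalOK mn x (mn.kappa j.1 j.2) (mn.delta j.1 j.2) w j y (ω y)

lemma goodJ_iff (h2 : (2 : F) ≠ 0) {mn : Menu F M} (hd : mn.Distinct) {t0 : F} {Z : Finset F}
    {x : F} {j : Fin 2 × Fin M} {w : F} (ω : Env F M)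
    (hS : Static t0 Z x (mn.kappa j.1 j.2) (mn.delta j.1 j.2) w) :
    GoodJ mn t0 Z x j w ω ↔ GLoc mn x j w ω := by
  constructor
  · intro h y _
    exact h.2 y
  · intro h
    refine ⟨hS, fun y => ?_⟩
    by_cases hy : y ∈ Sup mn x (mn.kappa j.1 j.2) (mn.delta j.1 j.2) w
    · exact h y hy
    · exact localOK_of_not_mem h2 hd hS hy _

/-- Lower bound for the probability of a good option, in product form. -/
lemma prob_GL_ge [NeZero M] (h2 : (2 : F) ≠ 0) {mn : Menu F M} (hd : mn.Distinct) (hM : 8 ≤ M) {t0 : F}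
    {Z : Finset F} {x : F} {j : Fin 2 × Fin M} {w : F}
    (hS : Static t0 Z x (mn.kappa j.1 j.2) (mn.delta j.1 j.2) w) :
    ((1 - 4 / (M : ℝ)) ^ 2 / (2 * (M : ℝ))) ^ 4 * ((1 - 4 / (M : ℝ)) ^ 3) ^ (48 * M) ≤
      prob (Ω := fun _ : F => Ch M) (GLoc mn x j w) := by
  obtain ⟨hw, hd1, hd2, h12, h12', _, _⟩ := id hS
  have hM4 : 4 ≤ M := by omega
  have hMR : (8 : ℝ) ≤ M := by exact_mod_cast hM
  have hMpos : (0 : ℝ) < M := by linarith
  set κ := mn.kappa j.1 j.2 with hκ
  set Δ := mn.delta j.1 j.2 with hΔ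
  set a : ℝ := 1 - 4 / (M : ℝ) with ha
  have ha0 : 0 ≤ a := by
    rw [ha, sub_nonneg, div_le_one hMpos]; linarith
  have ha1 : a ≤ 1 := by
    rw [ha]
    have : 0 ≤ 4 / (M : ℝ) := by positivity
    linarith
  set S := Sup mn x κ Δ w with hSdef
  have hprob : prob (Ω := fun _ : F => Ch M) (GLoc mn x j w) =
      ∏ y ∈ S, (((univ.filter (LocalOK mn x κ Δ w j y)).card : ℝ) / (Fintype.card (Ch M) : ℝ)) := by
    have hh := prob_forall_coord (Ω := fun _ : F => Ch M) S (fun y ch => LocalOK mn x κ Δ w j y ch)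
    refine Eq.trans ?_ hh
    exact le_antisymm (prob_mono (Ω := fun _ : F => Ch M) fun ω hω => hω)
      (prob_mono (Ω := fun _ : F => Ch M) fun ω hω => hω)
  rw [hprob]
  set isA : F → Prop := fun y => ∃ ε ε', y = arc x Δ w ε ε' with hisA
  rw [← Finset.prod_filter_mul_prod_filter_not S isA]
  have hb0 : 0 ≤ a ^ 2 / (2 * (M : ℝ)) := by positivity
  have hb1 : a ^ 2 / (2 * (M : ℝ)) ≤ 1 := by
    rw [div_le_one (by positivity)]
    have : a ^ 2 ≤ 1 := pow_le_one₀ ha0 ha1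
    linarith
  have hc0 : 0 ≤ a ^ 3 := by positivity
  have hc1 : a ^ 3 ≤ 1 := pow_le_one₀ ha0 ha1
  apply mul_le_mul _ _ (pow_nonneg hc0 _) (Finset.prod_nonneg fun _ _ => by positivity)
  · -- arc parts
    have hcardA : (S.filter isA).card ≤ 4 := by
      have hsub : S.filter isA ⊆ (univ : Finset (Bool × Bool)).image (fun e => arc x Δ w e.1 e.2) := by
        intro y hy
        obtain ⟨ε, ε', rfl⟩ := (mem_filter.mp hy).2
        exact mem_image.mpr ⟨(ε, ε'), mem_univ _, rfl⟩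
      exact (card_le_card hsub).trans (card_image_le.trans (by simp))
    calc (a ^ 2 / (2 * (M : ℝ))) ^ 4 ≤ (a ^ 2 / (2 * (M : ℝ))) ^ (S.filter isA).card :=
          pow_le_pow_of_le_one hb0 hb1 hcardA
      _ = ∏ _y ∈ S.filter isA, (a ^ 2 / (2 * (M : ℝ))) := (Finset.prod_const _).symm
      _ ≤ _ := by
          apply Finset.prod_le_prod (fun _ _ => hb0)
          intro y hy
          obtain ⟨ε, ε', rfl⟩ := (mem_filter.mp hy).2
          exact dens_arc h2 hd hM4 hw hd1 hd2 h12 h12' ε ε'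
  · -- other parts
    have hcardN : (S.filter fun y => ¬ isA y).card ≤ 48 * M :=
      (card_filter_le _ _).trans (card_Sup_le mn x κ Δ w)
    calc (a ^ 3) ^ (48 * M) ≤ (a ^ 3) ^ (S.filter fun y => ¬ isA y).card :=
          pow_le_pow_of_le_one hc0 hc1 hcardN
      _ = ∏ _y ∈ S.filter fun y => ¬ isA y, a ^ 3 := (Finset.prod_const _).symm
      _ ≤ _ := by
          apply Finset.prod_le_prod (fun _ _ => hc0)
          intro y hy
          have hna : ¬ isA y := (mem_filter.mp hy).2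
          refine dens_nonarc hd hM4 ?_
          intro ε ε' hyy
          exact hna ⟨ε, ε', hyy⟩

/-- Numerical form: the probability of an option is at least `1/M⁵`. -/
lemma num_p_ge {M : ℕ} (hM : 64 ≤ M) (hbig : 16 * Real.exp 1153 ≤ M) :
    1 / (M : ℝ) ^ 5 ≤
      ((1 - 4 / (M : ℝ)) ^ 2 / (2 * (M : ℝ))) ^ 4 * ((1 - 4 / (M : ℝ)) ^ 3) ^ (48 * M) := by
  have hMR : (64 : ℝ) ≤ M := by exact_mod_cast hM
  have hMpos : (0 : ℝ) < M := by linarith
  set a : ℝ := 1 - 4 / (M : ℝ) with ha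
  have hp0 : 0 ≤ 4 / (M : ℝ) := by positivity
  have hp1 : 4 / (M : ℝ) ≤ 1 / 2 := by
    rw [div_le_iff₀ hMpos]; linarith
  have hexp : Real.exp (-(2 * (4 / (M : ℝ)))) ≤ a := exp_neg_two_mul_le hp0 hp1
  have ha0 : 0 < a := lt_of_lt_of_le (Real.exp_pos _) hexp
  -- rewrite the right hand side as a power of `a`
  have hrw : (a ^ 2 / (2 * (M : ℝ))) ^ 4 * (a ^ 3) ^ (48 * M) =
      a ^ (8 + 144 * M) / (16 * (M : ℝ) ^ 4) := by
    rw [div_pow, ← pow_mul, ← pow_mul, mul_pow]
    have : a ^ (8 + 144 * M) = a ^ (2 * 4) * a ^ (3 * (48 * M)) := by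
      rw [← pow_add]; congr 1; ring
    rw [this]
    field_simp
    ring
  rw [hrw]
  have hpow : Real.exp (-1153) ≤ a ^ (8 + 144 * M) := by
    have h1 : Real.exp (-(2 * (4 / (M : ℝ)))) ^ (8 + 144 * M) ≤ a ^ (8 + 144 * M) :=
      pow_le_pow_left₀ (Real.exp_pos _).le hexp _
    refine le_trans ?_ h1
    rw [← Real.exp_nat_mul]
    apply Real.exp_le_exp.mpr
    push_cast
    have : (8 + 144 * (M : ℝ)) * (2 * (4 / (M : ℝ))) = 64 / (M : ℝ) + 1152 := by
      field_simp
      ring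
    have h64 : 64 / (M : ℝ) ≤ 1 := by
      rw [div_le_one hMpos]; linarith
    nlinarith
  rw [div_le_div_iff₀ (by positivity) (by positivity)]
  have hexpmul : Real.exp (-1153) * Real.exp 1153 = 1 := by
    rw [← Real.exp_add]; simp
  have hbig' : 1 ≤ Real.exp (-1153) * (M : ℝ) / 16 := by
    have hE : 0 < Real.exp (-1153) := Real.exp_pos _
    have : Real.exp (-1153) * (16 * Real.exp 1153) ≤ Real.exp (-1153) * M :=
      mul_le_mul_of_nonneg_left hbig hE.le
    have h16 : Real.exp (-1153) * (16 * Real.exp 1153) = 16 := by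
      calc _ = 16 * (Real.exp (-1153) * Real.exp 1153) := by ring
        _ = 16 := by rw [hexpmul]; ring
    rw [le_div_iff₀ (by norm_num)]
    linarith
  have hMp : (0 : ℝ) < (M : ℝ) ^ 4 := by positivity
  have hstep : (16 : ℝ) ≤ a ^ (8 + 144 * M) * M := by
    have : Real.exp (-1153) * (M : ℝ) ≤ a ^ (8 + 144 * M) * M :=
      mul_le_mul_of_nonneg_right hpow hMpos.le
    have h2 : 16 ≤ Real.exp (-1153) * (M : ℝ) := by
      have := hbig'
      rw [le_div_iff₀ (by norm_num)] at this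
      linarith
    linarith
  calc 1 * (16 * (M : ℝ) ^ 4) ≤ (a ^ (8 + 144 * M) * M) * (M : ℝ) ^ 4 := by
        nlinarith
    _ = a ^ (8 + 144 * M) * (M : ℝ) ^ 5 := by ring

/-! ### Counting the static options -/

lemma card_arc_eq_le (h2 : (2 : F) ≠ 0) (Δ : F) (hΔ : Δ ≠ 0) (ε ε' : Bool) (s : F) :
    (univ.filter fun w : F => w ≠ 0 ∧ sg ε (d1 Δ w) + sg ε' (d2 Δ w) = s).card ≤ 1 := by
  rw [Finset.card_le_one]
  intro w hw w' hw'
  simp only [mem_filter, mem_univ, true_and] at hw hw'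
  obtain ⟨hw0, hws⟩ := hw
  obtain ⟨hw0', hws'⟩ := hw'
  have hadd := d1_add_d2 h2 Δ w
  have hadd' := d1_add_d2 h2 Δ w'
  have hsub := d1_sub_d2 h2 Δ w
  have hsub' := d1_sub_d2 h2 Δ w'
  have hinv : Δ / w = Δ / w' → w = w' := by
    intro h
    field_simp at h
    exact h.symm
  cases ε <;> cases ε' <;> simp only [sg, if_true, if_false, Bool.false_eq_true] at hws hws'
  · linear_combination -hadd + hadd' - hws + hws'
  · apply hinv
    linear_combination -hsub + hsub' - hws + hws'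
  · apply hinv
    linear_combination -hsub + hsub' + hws - hws'
  · linear_combination -hadd + hadd' + hws - hws'

/-- At most `29` options fail the static conditions. -/
lemma card_not_static_le (h2 : (2 : F) ≠ 0) (t0 : F) (Z : Finset F) (hZ : Z.card ≤ 4) (x κ Δ : F)
    (hΔ : Δ ≠ 0) : (univ.filter fun w : F => ¬ Static t0 Z x κ Δ w).card ≤ 29 := by
  set A1 : Finset F := {0}
  set A2 : Finset F := univ.filter fun w : F => w ≠ 0 ∧ d1 Δ w = 0
  set A3 : Finset F := univ.filter fun w : F => w ≠ 0 ∧ d2 Δ w = 0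
  set A4 : Finset F := Z.biUnion fun z => (univ : Finset (Bool × Bool)).biUnion fun e =>
    univ.filter fun w : F => w ≠ 0 ∧ sg e.1 (d1 Δ w) + sg e.2 (d2 Δ w) = x - z
  set A5 : Finset F := (univ : Finset (Bool × Bool)).biUnion fun e =>
    univ.filter fun w : F => w ≠ 0 ∧ gs Δ w e.1 e.2 = x - t0
  have hsub : (univ.filter fun w : F => ¬ Static t0 Z x κ Δ w) ⊆ A1 ∪ A2 ∪ A3 ∪ A4 ∪ A5 := by
    intro w hw
    simp only [mem_filter, mem_univ, true_and] at hw
    by_contra hcon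
    simp only [mem_union, not_or] at hcon
    obtain ⟨⟨⟨⟨h1, h2'⟩, h3⟩, h4⟩, h5⟩ := hcon
    have hw0 : w ≠ 0 := by simpa [A1] using h1
    apply hw
    refine ⟨hw0, ?_, ?_, ?_, ?_, ?_, ?_⟩
    · intro h; exact h2' (mem_filter.mpr ⟨mem_univ _, hw0, h⟩)
    · intro h; exact h3 (mem_filter.mpr ⟨mem_univ _, hw0, h⟩)
    · intro h
      have := d1_sub_d2 h2 Δ w
      rw [h, sub_self] at this
      exact (div_ne_zero hΔ hw0) this.symm
    · intro h
      have := d1_add_d2 h2 Δ w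
      rw [h, neg_add_cancel] at this
      exact hw0 this.symm
    · intro ε ε' hz
      apply h4
      refine mem_biUnion.mpr ⟨_, hz, mem_biUnion.mpr ⟨(ε, ε'), mem_univ _, ?_⟩⟩
      simp only [mem_filter, mem_univ, true_and]
      exact ⟨hw0, by simp only [arc]; ring⟩
    · intro c ε hs
      apply h5
      refine mem_biUnion.mpr ⟨(c, ε), mem_univ _, ?_⟩
      simp only [mem_filter, mem_univ, true_and]
      refine ⟨hw0, ?_⟩
      rw [gLine_eq] at hs
      simp only at hs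
      rw [← hs]; ring
  refine (card_le_card hsub).trans ?_
  have c1 : A1.card ≤ 1 := by simp [A1]
  have c2 : A2.card ≤ 2 := card_d1_eq_le h2 Δ 0
  have c3 : A3.card ≤ 2 := card_d2_eq_le h2 Δ 0
  have c4 : A4.card ≤ 16 := by
    refine (card_biUnion_le_card_mul _ _ 4 fun z _ => ?_).trans (by nlinarith)
    refine (card_biUnion_le_card_mul _ _ 1 fun e _ => card_arc_eq_le h2 Δ hΔ e.1 e.2 _).trans (by simp)
  have c5 : A5.card ≤ 8 := by
    refine (card_biUnion_le_card_mul _ _ 2 fun e _ => card_gs_eq_le h2 Δ _ e.1 e.2).trans (by simp)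
  have u1 := card_union_le (A1 ∪ A2 ∪ A3 ∪ A4) A5
  have u2 := card_union_le (A1 ∪ A2 ∪ A3) A4
  have u3 := card_union_le (A1 ∪ A2) A3
  have u4 := card_union_le A1 A2
  omega

end Crest.Agent.Ryser.OptG

namespace Crest.Agent.Ryser.OptG

open Crest.Agent.Ryser.ManyGood Crest.Agent.Ryser.ProdProb

variable {F : Type} [Field F] [Fintype F] [DecidableEq F] {M : ℕ}

/-! ### One conflict -/

/-- With overwhelming probability a fixed conflict has many good options. -/
lemma prob_few_goodJ [NeZero M] (h2 : (2 : F) ≠ 0) {mn : Menu F M} (hd : mn.Distinct)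
    (hM : 10000 ≤ M) (hbig : 16 * Real.exp 1153 ≤ M) (t0 : F) (Z : Finset F) (hZ : Z.card ≤ 4)
    (x : F) (j : Fin 2 × Fin M) (hq : 58 ≤ Fintype.card F) :
    prob (Ω := fun _ : F => Ch M) (fun ω : Env F M =>
        ((univ.filter fun w => GoodJ mn t0 Z x j w ω).card : ℝ) <
          (Fintype.card F : ℝ) / (M : ℝ) ^ 8) ≤
      Real.exp (-(((Fintype.card F : ℝ) / (M : ℝ) ^ 8) ^ 2 / (2 * Fintype.card F))) := by
  have hMR : (10000 : ℝ) ≤ M := by exact_mod_cast hM
  have hMpos : (0 : ℝ) < M := by linarith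
  have hqR : (58 : ℝ) ≤ Fintype.card F := by exact_mod_cast hq
  set κ := mn.kappa j.1 j.2 with hκ
  set Δ := mn.delta j.1 j.2 with hΔdef
  have hΔ : Δ ≠ 0 := hd.2 j
  set W : Finset F := univ.filter fun w => Static t0 Z x κ Δ w with hW
  have hWcard : (Fintype.card F : ℝ) - 29 ≤ W.card := by
    have h1 := card_not_static_le h2 t0 Z hZ x κ Δ hΔ
    have h3 := card_filter_add_card_filter_not (s := (univ : Finset F))
      (fun w => Static t0 Z x κ Δ w)
    rw [card_univ] at h3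
    have h4 : (Fintype.card F : ℝ) = (W.card : ℝ) +
        ((univ.filter fun w : F => ¬ Static t0 Z x κ Δ w).card : ℝ) := by
      rw [hW]; exact_mod_cast h3.symm
    have h5 : ((univ.filter fun w : F => ¬ Static t0 Z x κ Δ w).card : ℝ) ≤ 29 := by
      exact_mod_cast h1
    linarith
  have hW0 : ∀ w ∈ W, w ≠ 0 := fun w hw => (mem_filter.mp hw).2.1
  set N : ℝ := (Fintype.card F : ℝ) / (M : ℝ) ^ 8 with hN
  have hN0 : 0 ≤ N := by positivity
  have hNeq : 2 * N * (1 + ((48 * M : ℕ) : ℝ) * ((48 * M : ℕ) : ℝ)) ≤ W.card * (1 / (M : ℝ) ^ 5) := by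
    have hq2 : (Fintype.card F : ℝ) / 2 ≤ W.card := by linarith
    have hMM : 4 * (1 + 2304 * (M : ℝ) ^ 2) ≤ (M : ℝ) ^ 3 := by
      have hM2 : (0 : ℝ) ≤ (M : ℝ) ^ 2 := by positivity
      nlinarith [mul_le_mul_of_nonneg_right hMR hM2, sq_nonneg (M : ℝ)]
    have hc : (0 : ℝ) ≤ (Fintype.card F : ℝ) := by positivity
    calc 2 * N * (1 + ((48 * M : ℕ) : ℝ) * ((48 * M : ℕ) : ℝ))
        = (Fintype.card F : ℝ) / 2 * (4 * (1 + 2304 * (M : ℝ) ^ 2) / (M : ℝ) ^ 8) := by
          rw [hN]; push_cast; ring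
      _ ≤ (Fintype.card F : ℝ) / 2 * ((M : ℝ) ^ 3 / (M : ℝ) ^ 8) := by
          gcongr
      _ = (Fintype.card F : ℝ) / 2 * (1 / (M : ℝ) ^ 5) := by
          congr 1
          field_simp
      _ ≤ W.card * (1 / (M : ℝ) ^ 5) := by
          gcongr
  have hmain := prob_few_good (ι := F) (C := Ch M) W (fun w => Sup mn x κ Δ w) (48 * M) (48 * M)
    (fun w _ => card_Sup_le mn x κ Δ w)
    (fun y => card_Sup_filter_le h2 mn x κ Δ W hW0 y)
    (fun w => GLoc mn x j w)
    (fun w _ ω ω' hag => by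
      constructor
      · intro h y hy
        rw [← hag y hy]
        exact h y hy
      · intro h y hy
        rw [hag y hy]
        exact h y hy)
    (1 / (M : ℝ) ^ 5) (by positivity)
    (fun w hw => (num_p_ge (by omega) hbig).trans (prob_GL_ge h2 hd (by omega) (mem_filter.mp hw).2))
    N hN0 hNeq
  refine le_trans (prob_mono (Ω := fun _ : F => Ch M) ?_) hmain
  intro ω hω
  refine lt_of_le_of_lt ?_ hω
  have hsub : (W.filter fun w => GLoc mn x j w ω) ⊆ univ.filter fun w => GoodJ mn t0 Z x j w ω := by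
    intro w hw
    obtain ⟨hw1, hw2⟩ := mem_filter.mp hw
    exact mem_filter.mpr ⟨mem_univ _, (goodJ_iff h2 hd ω (mem_filter.mp hw1).2).mpr hw2⟩
  exact_mod_cast card_le_card hsub

end Crest.Agent.Ryser.OptG

namespace Crest.Agent.Ryser

variable {F : Type} [Field F] [Fintype F] [DecidableEq F] {M : ℕ}

/-- MODULE E5 target: many good options for every slot of every part (Step 2 of #1707). -/
def OptGood (mn : Menu F M) (ω : Env F M) (t0 : F) : Prop :=
  ∀ x g, (Fintype.card F : ℝ) / (M : ℝ) ^ 8 ≤ #(univ.filter (GoodOpt mn ω t0 (infZ t0) x g))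

open Crest.Agent.Ryser.ProdProb Crest.Agent.Ryser.OptG in
/-- MODULE E5 (Step 2 of #1707): options for `w` with pairwise disjoint relevant parts, each good with
probability `≥ 1/M⁵`, `mcdiarmid_lower` on the count; union over `x,g,(index),t0`. -/
theorem optGood_prob : ∃ C₁ A : ℕ, ∀ (F : Type) [Field F] [Fintype F] [DecidableEq F] (M : ℕ) [NeZero M],
    Regime F M C₁ A → ∀ mn : Menu F M, mn.Distinct → mn.Balanced →
    uProb (fun ω : Env F M => ¬ ∀ t0, OptGood mn ω t0) ≤ 1 / 8 := by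
  obtain ⟨K, hK⟩ := exists_nat_ge (2 * (16 * Real.exp 1153))
  refine ⟨K + 20000, 18, ?_⟩
  intro F _ _ _ M _ hR mn hd _
  set q : ℕ := Fintype.card F with hq
  have hq2 : 2 ≤ q := Fintype.one_lt_card
  have hq2R : (2 : ℝ) ≤ q := by exact_mod_cast hq2
  have hqpos : (0 : ℝ) < q := by linarith
  have hlog : (1 / 2 : ℝ) ≤ Real.log q := by
    have h1 : Real.log 2 ≤ Real.log q := Real.log_le_log (by norm_num) hq2R
    have h2 := Real.log_two_gt_d9
    linarith
  have hMlog : ((K + 20000 : ℕ) : ℝ) * Real.log q ≤ M := hR.M_log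
  have hKR : (0 : ℝ) ≤ (K : ℝ) := by positivity
  have hMbound : ((K : ℝ) + 20000) / 2 ≤ M := by
    have h1 : ((K + 20000 : ℕ) : ℝ) * (1 / 2) ≤ ((K + 20000 : ℕ) : ℝ) * Real.log q :=
      mul_le_mul_of_nonneg_left hlog (by positivity)
    push_cast at h1 hMlog
    linarith
  have hM1 : (10000 : ℝ) ≤ M := by linarith
  have hM1' : 10000 ≤ M := by exact_mod_cast hM1
  have hbig : 16 * Real.exp 1153 ≤ M := by linarith
  have hMpos : (0 : ℝ) < M := by linarith
  have hMpow : M ^ 18 ≤ q := hR.M_pow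
  have hMpowR : (M : ℝ) ^ 18 ≤ q := by exact_mod_cast hMpow
  have hMleq : (M : ℝ) ≤ q := by
    refine le_trans ?_ hMpowR
    exact le_self_pow₀ (by linarith) (by norm_num)
  have hq58 : 58 ≤ q := by
    have : (58 : ℝ) ≤ q := by linarith
    exact_mod_cast this
  have h2 : (2 : F) ≠ 0 := Ring.two_ne_zero (by
    have := hR.char_large
    omega)
  -- the union bound
  let B : F × F × (Fin 2 × Fin M) → Env F M → Prop := fun k ω =>
    ((univ.filter fun w => GoodJ mn k.1 (infZ k.1) k.2.1 k.2.2 w ω).card : ℝ) <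
      (q : ℝ) / (M : ℝ) ^ 8
  have hsub : ∀ ω : Env F M, (¬ ∀ t0, OptGood mn ω t0) → ∃ k ∈ (univ : Finset (F × F × (Fin 2 × Fin M))), B k ω := by
    intro ω hω
    push Not at hω
    obtain ⟨t0, ht0⟩ := hω
    unfold OptGood at ht0
    push Not at ht0
    obtain ⟨x, g, hxg⟩ := ht0
    refine ⟨(t0, x, cIdx ω x g), mem_univ _, ?_⟩
    show ((univ.filter fun w => GoodJ mn t0 (infZ t0) x (cIdx ω x g) w ω).card : ℝ) < (q : ℝ) / (M : ℝ) ^ 8
    have : (univ.filter fun w => GoodJ mn t0 (infZ t0) x (cIdx ω x g) w ω) =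
        univ.filter (GoodOpt mn ω t0 (infZ t0) x g) := by
      ext w
      simp only [mem_filter, mem_univ, true_and]
      exact (goodOpt_iff mn ω t0 (infZ t0) x g w).symm
    rw [this]
    exact hxg
  have hZ : ∀ t0 : F, (infZ t0).card ≤ 4 := fun t0 => by
    simpa [infZ] using Finset.card_le_four
  set E : ℝ := Real.exp (-(((q : ℝ) / (M : ℝ) ^ 8) ^ 2 / (2 * q))) with hE
  have hone : ∀ k, uProb (B k) ≤ E := by
    intro k
    rw [uProb_eq_prob]
    exact prob_few_goodJ h2 hd hM1' hbig k.1 (infZ k.1) (hZ k.1) k.2.1 k.2.2 hq58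
  -- numerics
  have hEle : E ≤ 1 / (q : ℝ) ^ 5 := by
    have h5 : (5 : ℝ) * Real.log q ≤ M := by
      have h1 : (5 : ℝ) * Real.log q ≤ ((K + 20000 : ℕ) : ℝ) * Real.log q := by
        apply mul_le_mul_of_nonneg_right _ (by linarith)
        push_cast
        linarith
      linarith
    have hexpM : (q : ℝ) ^ 5 ≤ Real.exp M := by
      calc (q : ℝ) ^ 5 = (Real.exp (Real.log q)) ^ 5 := by rw [Real.exp_log hqpos]
        _ = Real.exp (5 * Real.log q) := by rw [← Real.exp_nat_mul]; norm_num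
        _ ≤ Real.exp M := Real.exp_le_exp.mpr h5
    have hexpo : (M : ℝ) ≤ ((q : ℝ) / (M : ℝ) ^ 8) ^ 2 / (2 * q) := by
      have : ((q : ℝ) / (M : ℝ) ^ 8) ^ 2 / (2 * q) = q / (2 * (M : ℝ) ^ 16) := by
        field_simp
      rw [this, le_div_iff₀ (by positivity)]
      have h18 : (M : ℝ) * (2 * (M : ℝ) ^ 16) ≤ (M : ℝ) ^ 18 := by
        have : (M : ℝ) ^ 18 = (M : ℝ) * (M * (M : ℝ) ^ 16) := by ring
        rw [this]
        apply mul_le_mul_of_nonneg_left _ hMpos.le
        apply mul_le_mul_of_nonneg_right _ (by positivity)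
        linarith
      linarith
    calc E ≤ Real.exp (-(M : ℝ)) := by
          rw [hE]; exact Real.exp_le_exp.mpr (by linarith)
      _ = 1 / Real.exp M := by rw [Real.exp_neg]; simp
      _ ≤ 1 / (q : ℝ) ^ 5 := by
          apply one_div_le_one_div_of_le (by positivity) hexpM
  have hsum : ∑ k ∈ (univ : Finset (F × F × (Fin 2 × Fin M))), uProb (B k) ≤
      (univ : Finset (F × F × (Fin 2 × Fin M))).card * E := by
    rw [← nsmul_eq_mul]
    exact Finset.sum_le_card_nsmul _ _ _ fun k _ => hone k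
  have hcard : ((univ : Finset (F × F × (Fin 2 × Fin M))).card : ℝ) = (q : ℝ) * (q * (2 * M)) := by
    simp [Fintype.card_prod, hq]
  have hE0 : 0 ≤ E := (Real.exp_pos _).le
  calc uProb (fun ω : Env F M => ¬ ∀ t0, OptGood mn ω t0)
      ≤ uProb (fun ω : Env F M => ∃ k ∈ (univ : Finset (F × F × (Fin 2 × Fin M))), B k ω) :=
        uProb_mono hsub
    _ ≤ ∑ k ∈ (univ : Finset (F × F × (Fin 2 × Fin M))), uProb (B k) := uProb_exists_le_sum _ _
    _ ≤ (q : ℝ) * (q * (2 * M)) * E := by rw [← hcard]; exact hsum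
    _ ≤ (q : ℝ) * (q * (2 * q)) * (1 / (q : ℝ) ^ 5) := by
        gcongr
    _ = 2 / (q : ℝ) ^ 2 := by field_simp
    _ ≤ 1 / 8 := by
        rw [div_le_div_iff₀ (by positivity) (by norm_num)]
        nlinarith

end Crest.Agent.Ryser
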