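import Crest.Agent.Lib.Ryser.EnvBase
import Crest.Agent.Lib.Ryser.Menu0
import Crest.Agent.Lib.Ryser.OptGood
import Crest.Agent.Lib.Ryser.GridProb
import Crest.Agent.Lib.Ryser.InfGood

/-!
Row 34. THE RANDOM ENVIRONMENT (Steps 0-4 of finding #1707).
`ω : F → Ch M` uniform. `pH h` is the probability that the height `h` is dead at a given part.
`Y u = ∑_h pH h χ(u-h)`, `ρ u = 1 - Y u`, `fL L = ∏_x (1 - pH (ht L x))` is the exact probability that
`L` has no dead point, weight `wt L = ρ(u_L)/fL L`. No Weil: only `∑_a χ(a-h)χ(a-k) = -1`.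
-/

set_option autoImplicit false

noncomputable section

open Finset
open scoped Classical

namespace Crest.Agent.Ryser

variable {F : Type} [Field F] [Fintype F] [DecidableEq F] {M : ℕ}

/-- MODULE E0: a balanced distinct menu with the two special indices of the gadget at infinity exists.
Random `kappa` (Hoeffding: `E χ(u - κ + c) = 0` exactly; union over `u`); `delta` constant `12` except
index `i1`. -/
theorem exists_menu : ∃ C₁ A : ℕ, ∀ (F : Type) [Field F] [Fintype F] [DecidableEq F] (M : ℕ),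
    Regime F M C₁ A → ∃ (mn : Menu F M) (i0 i1 : Fin M), mn.Distinct ∧ mn.Balanced ∧
      mn.delta 0 i0 = 12 ∧ mn.delta 0 i1 = 36 ∧ mn.kappa 0 i1 = mn.kappa 0 i0 + 16 :=
  exists_menu_core

/-- MODULE E6: the gadget at infinity exists: `t0` with pairwise disjoint relevant parts, independent. -/
theorem infGood_prob : ∃ C₁ A : ℕ, ∀ (F : Type) [Field F] [Fintype F] [DecidableEq F] (M : ℕ) [NeZero M],
    Regime F M C₁ A → ∀ (mn : Menu F M) (i0 i1 : Fin M), mn.Distinct → mn.Balanced →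
      mn.delta 0 i0 = 12 → mn.delta 0 i1 = 36 → mn.kappa 0 i1 = mn.kappa 0 i0 + 16 →
    uProb (fun ω : Env F M => ¬ ∃ t0, GoodInf mn ω i0 i1 t0) ≤ 1 / 8 :=
  ⟨0, 14, fun F _ _ _ M _ hR mn i0 i1 hd hb h12 h36 h16 =>
    InfGood.main F M hR mn i0 i1 hd hb h12 h36 h16⟩

/-- `Regime` is monotone in the constants. -/
theorem Regime.mono {F : Type} [Field F] [Fintype F] {M C₁ A C₁' A' : ℕ} (h : Regime F M C₁ A)
    (hC : C₁' ≤ C₁) (hA : A' ≤ A) : Regime F M C₁' A' where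
  char_large := h.char_large
  M_large := h.M_large
  M_log := by
    have hq : (0 : ℝ) ≤ Real.log (Fintype.card F) := Real.log_natCast_nonneg _
    have hC' : (C₁' : ℝ) ≤ C₁ := by exact_mod_cast hC
    calc (C₁' : ℝ) * Real.log (Fintype.card F) ≤ C₁ * Real.log (Fintype.card F) := by gcongr
      _ ≤ M := h.M_log
  M_pow := le_trans (Nat.pow_le_pow_right (by have := h.M_large; omega) hA) h.M_pow

/-- Assembly of the environment. -/
theorem exists_env : ∃ C₁ A : ℕ, ∀ (F : Type) [Field F] [Fintype F] [DecidableEq F] (h2 : (2 : F) ≠ 0)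
    (M : ℕ) [NeZero M], Regime F M C₁ A → ∃ (mn : Menu F M) (i0 i1 : Fin M) (ω : Env F M) (t0 : F),
      mn.Distinct ∧ mn.Balanced ∧ GoodInf mn ω i0 i1 t0 ∧ CapGood mn ω t0 ∧ GridGood h2 mn ω t0 ∧
      OptGood mn ω t0 := by
  obtain ⟨C0, A0, h0⟩ := exists_menu
  obtain ⟨C3, A3, h3⟩ := capGood_prob
  obtain ⟨C4, A4, h4⟩ := gridGood_prob
  obtain ⟨C5, A5, h5⟩ := optGood_prob
  obtain ⟨C6, A6, h6⟩ := infGood_prob
  refine ⟨max C0 (max C3 (max C4 (max C5 C6))), max A0 (max A3 (max A4 (max A5 A6))), ?_⟩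
  intro F _ _ _ h2 M _ hR
  obtain ⟨mn, i0, i1, hd, hb, h12, h36, h16⟩ :=
    h0 F M (hR.mono (by simp) (by simp))
  have p3 := h3 F M (hR.mono (by simp) (by simp)) mn hd hb
  have p4 := h4 F h2 M (hR.mono (by simp) (by simp)) mn hd hb
  have p5 := h5 F M (hR.mono (by simp) (by simp)) mn hd hb
  have p6 := h6 F M (hR.mono (by simp) (by simp)) mn i0 i1 hd hb h12 h36 h16
  let B : Fin 4 → Env F M → Prop := fun k ω =>
    match k with
    | 0 => ¬ ∀ t0, CapGood mn ω t0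
    | 1 => ¬ ∀ t0, GridGood h2 mn ω t0
    | 2 => ¬ ∀ t0, OptGood mn ω t0
    | 3 => ¬ ∃ t0, GoodInf mn ω i0 i1 t0
  have hsum : ∑ k, uProb (B k) < 1 := by
    rw [Fin.sum_univ_four]
    have e0 : uProb (B 0) ≤ 1 / 8 := p3
    have e1 : uProb (B 1) ≤ 1 / 8 := p4
    have e2 : uProb (B 2) ≤ 1 / 8 := p5
    have e3 : uProb (B 3) ≤ 1 / 8 := p6
    linarith
  obtain ⟨ω, hω⟩ := exists_good_of_uProb_sum_lt B hsum
  have g0 : ∀ t0, CapGood mn ω t0 := not_not.mp (hω 0)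
  have g1 : ∀ t0, GridGood h2 mn ω t0 := not_not.mp (hω 1)
  have g2 : ∀ t0, OptGood mn ω t0 := not_not.mp (hω 2)
  obtain ⟨t0, ht0⟩ : ∃ t0, GoodInf mn ω i0 i1 t0 := not_not.mp (hω 3)
  exact ⟨mn, i0, i1, ω, t0, hd, hb, ht0, g0 t0, g1 t0, g2 t0⟩

end Crest.Agent.Ryser
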