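import Mathlib

/-!
# Quadratic character sums (row 34, Step 3 of #1707)

Field-only core: Jacobsthal sums, and the exact regularity identity
`Σ_v ρ(k+v²) = q(1-p_k) + Σ_h p_h` for `ρ(u) = 1 - Σ_h p_h χ(u-h)`.
-/

set_option autoImplicit false

open Finset

namespace Crest.Agent.Lib.Ryser

variable {F : Type*} [Field F] [Fintype F] [DecidableEq F]

/-- The quadratic character as a real number. -/
noncomputable def chi (a : F) : ℝ := ((quadraticChar F a : ℤ) : ℝ)

lemma chi_zero : chi (0 : F) = 0 := by simp [chi]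

lemma chi_mul (a b : F) : chi (a * b) = chi a * chi b := by
  simp [chi, map_mul]

lemma chi_sq_of_ne {a : F} (ha : a ≠ 0) (_hF : ringChar F ≠ 2) : chi a * chi a = 1 := by
  have h : (quadraticChar F) a ^ 2 = 1 := quadraticChar_sq_one ha
  have h2 : ((quadraticChar F) a : ℤ) * (quadraticChar F) a = 1 := by rw [← sq]; exact h
  unfold chi
  exact_mod_cast h2

lemma chi_one : chi (1 : F) = 1 := by simp [chi]

lemma chi_abs_le (a : F) : |chi a| ≤ 1 := by
  unfold chi
  by_cases ha : a = 0
  · simp [ha]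
  · rcases quadraticChar_dichotomy ha with h | h <;> simp [h]

lemma sum_chi (hF : ringChar F ≠ 2) : ∑ a : F, chi a = 0 := by
  unfold chi
  have := quadraticChar_sum_zero hF
  exact_mod_cast this

lemma sum_chi_sub (hF : ringChar F ≠ 2) (h : F) : ∑ a : F, chi (a - h) = 0 := by
  rw [← sum_chi hF]
  exact Fintype.sum_equiv (Equiv.subRight h) _ _ (fun _ => rfl)

/-- `Σ_a χ(a) χ(a - c) = -1` for `c ≠ 0`. -/
lemma sum_chi_mul_chi_sub (hF : ringChar F ≠ 2) {c : F} (hc : c ≠ 0) :
    ∑ a : F, chi a * chi (a - c) = -1 := by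
  -- remove `a = 0`, then substitute `b = c / a`.
  have h1 : ∑ a : F, chi a * chi (a - c) = ∑ a ∈ univ.erase (0 : F), chi (1 - c / a) := by
    rw [← Finset.add_sum_erase univ _ (mem_univ (0 : F))]
    simp only [chi_zero, zero_mul, zero_add]
    refine Finset.sum_congr rfl fun a ha => ?_
    have ha0 : a ≠ 0 := ne_of_mem_erase ha
    have : a - c = a * (1 - c / a) := by field_simp
    rw [this, chi_mul, ← mul_assoc, chi_sq_of_ne ha0 hF, one_mul]
  have h2 : ∑ a ∈ univ.erase (0 : F), chi (1 - c / a)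
      = ∑ b ∈ univ.erase (0 : F), chi (1 - b) := by
    refine Finset.sum_bij' (fun a _ => c / a) (fun b _ => c / b) ?_ ?_ ?_ ?_ ?_
    · intro a ha; simp only [mem_erase, mem_univ, and_true] at ha ⊢
      exact div_ne_zero hc ha
    · intro a ha; simp only [mem_erase, mem_univ, and_true] at ha ⊢
      exact div_ne_zero hc ha
    · intro a ha; simp only [mem_erase, mem_univ, and_true] at ha; field_simp
    · intro a ha; simp only [mem_erase, mem_univ, and_true] at ha; field_simp
    · intro a _; rfl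
  have h3 : ∑ b ∈ univ.erase (0 : F), chi (1 - b) = -1 := by
    have h4 : ∑ b : F, chi (1 - b) = 0 := by
      rw [← sum_chi hF]
      exact Fintype.sum_equiv (Equiv.subLeft 1) _ _ (fun _ => rfl)
    have h5 := Finset.add_sum_erase univ (fun b : F => chi (1 - b)) (mem_univ (0 : F))
    simp only [sub_zero, chi_one] at h5
    linarith
  rw [h1, h2, h3]

/-- Jacobsthal: `Σ_a χ(a-h) χ(a-k) = -1` for `h ≠ k`. -/
lemma jacobsthal_ne (hF : ringChar F ≠ 2) {h k : F} (hk : h ≠ k) :
    ∑ a : F, chi (a - h) * chi (a - k) = -1 := by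
  have : ∑ a : F, chi (a - h) * chi (a - k) = ∑ a : F, chi a * chi (a - (k - h)) := by
    refine Fintype.sum_equiv (Equiv.subRight h) _ _ (fun a => ?_)
    simp only [Equiv.subRight_apply]
    congr 2; ring
  rw [this]
  exact sum_chi_mul_chi_sub hF (sub_ne_zero.mpr (Ne.symm hk))

/-- `Σ_a χ(a-h)² = q - 1`. -/
lemma jacobsthal_eq (hF : ringChar F ≠ 2) (h : F) :
    ∑ a : F, chi (a - h) * chi (a - h) = (Fintype.card F : ℝ) - 1 := by
  have h1 : ∀ a : F, chi (a - h) * chi (a - h) = if a = h then 0 else 1 := by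
    intro a
    split_ifs with hah
    · simp [hah, chi_zero]
    · exact chi_sq_of_ne (sub_ne_zero.mpr hah) hF
  simp only [h1]
  rw [Finset.sum_ite]
  simp only [sum_const_zero, zero_add, sum_const, nsmul_eq_mul, mul_one]
  have : (univ.filter (fun a : F => ¬ a = h)) = univ.erase h := by
    ext a; simp
  rw [this, card_erase_of_mem (mem_univ h), card_univ]
  have hpos : 1 ≤ Fintype.card F := Fintype.card_pos
  push_cast [Nat.cast_sub hpos]
  ring

/-- The number of square roots, as a real number. -/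
lemma card_sqrt_real (hF : ringChar F ≠ 2) (a : F) :
    ((univ.filter (fun v : F => v ^ 2 = a)).card : ℝ) = 1 + chi a := by
  have h := quadraticChar_card_sqrts hF a
  have h' : (((univ.filter (fun v : F => v ^ 2 = a)).card : ℤ) : ℝ)
      = ((quadraticChar F a + 1 : ℤ) : ℝ) := by
    have : ({x : F | x ^ 2 = a}.toFinset) = univ.filter (fun v : F => v ^ 2 = a) := by
      ext v; simp
    rw [this] at h
    rw [h]
  push_cast at h'
  unfold chi
  linarith

/-- Fibre count: `Σ_v g(k + v²) = Σ_a g(a) (1 + χ(a - k))`. -/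
lemma sum_add_sq (hF : ringChar F ≠ 2) (g : F → ℝ) (k : F) :
    ∑ v : F, g (k + v ^ 2) = ∑ a : F, g a * (1 + chi (a - k)) := by
  have h1 : ∑ v : F, g (k + v ^ 2)
      = ∑ a : F, ∑ v ∈ univ.filter (fun v : F => k + v ^ 2 = a), g (k + v ^ 2) :=
    (Finset.sum_fiberwise _ _ _).symm
  rw [h1]
  refine Finset.sum_congr rfl fun a _ => ?_
  have h2 : ∑ v ∈ univ.filter (fun v : F => k + v ^ 2 = a), g (k + v ^ 2)
      = ∑ v ∈ univ.filter (fun v : F => v ^ 2 = a - k), g a := by
    have hset : univ.filter (fun v : F => k + v ^ 2 = a) = univ.filter (fun v : F => v ^ 2 = a - k) := by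
      ext v; simp only [mem_filter, mem_univ, true_and]
      constructor
      · intro h; rw [← h]; ring
      · intro h; rw [h]; ring
    rw [hset]
    refine Finset.sum_congr rfl fun v hv => ?_
    simp only [mem_filter, mem_univ, true_and] at hv
    rw [hv]; congr 1; ring
  rw [h2, Finset.sum_const, nsmul_eq_mul, card_sqrt_real hF]
  ring

section Menu

variable (p : F → ℝ)

/-- `Y(u) = Σ_h p_h χ(u-h)`. -/
noncomputable def bigY (u : F) : ℝ := ∑ h : F, p h * chi (u - h)

/-- `ρ(u) = 1 - Y(u)`. -/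
noncomputable def rho (u : F) : ℝ := 1 - bigY p u

lemma sum_bigY (hF : ringChar F ≠ 2) : ∑ u : F, bigY p u = 0 := by
  unfold bigY
  rw [Finset.sum_comm]
  refine Finset.sum_eq_zero fun h _ => ?_
  rw [← Finset.mul_sum, sum_chi_sub hF, mul_zero]

lemma sum_rho (hF : ringChar F ≠ 2) : ∑ u : F, rho p u = (Fintype.card F : ℝ) := by
  unfold rho
  rw [Finset.sum_sub_distrib, sum_bigY p hF]
  simp

lemma sum_bigY_mul_chi (hF : ringChar F ≠ 2) (k : F) :
    ∑ a : F, bigY p a * chi (a - k)
      = -(∑ h : F, p h) + p k * (Fintype.card F : ℝ) := by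
  unfold bigY
  simp only [Finset.sum_mul]
  rw [Finset.sum_comm]
  have h1 : ∀ h : F, ∑ a : F, p h * chi (a - h) * chi (a - k)
      = p h * (if h = k then (Fintype.card F : ℝ) - 1 else -1) := by
    intro h
    have : ∀ a : F, p h * chi (a - h) * chi (a - k) = p h * (chi (a - h) * chi (a - k)) := by
      intro a; ring
    simp only [this]
    rw [← Finset.mul_sum]
    split_ifs with hk
    · rw [hk, jacobsthal_eq hF]
    · rw [jacobsthal_ne hF hk]
  simp only [h1]
  have h2 : ∀ h : F, p h * (if h = k then (Fintype.card F : ℝ) - 1 else -1)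
      = - p h + (if h = k then p k * (Fintype.card F : ℝ) else 0) := by
    intro h
    split_ifs with hk
    · rw [hk]; ring
    · ring
  simp only [h2]
  rw [Finset.sum_add_distrib, Finset.sum_neg_distrib]
  simp

/-- The exact identity of Step 3: `Σ_v ρ(k+v²) = q (1 - p_k) + Σ_h p_h`. -/
theorem sum_rho_add_sq (hF : ringChar F ≠ 2) (k : F) :
    ∑ v : F, rho p (k + v ^ 2)
      = (Fintype.card F : ℝ) * (1 - p k) + ∑ h : F, p h := by
  rw [sum_add_sq hF]
  unfold rho
  have h1 : ∀ a : F, (1 - bigY p a) * (1 + chi (a - k))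
      = 1 + chi (a - k) - bigY p a - bigY p a * chi (a - k) := by
    intro a; ring
  simp only [h1]
  rw [Finset.sum_sub_distrib, Finset.sum_sub_distrib, Finset.sum_add_distrib,
    sum_chi_sub hF, sum_bigY p hF, sum_bigY_mul_chi p hF]
  simp
  ring

/-- Weighted crossing count: `Σ_x p(u-(x-t)²) = Σ_h p_h + Y(u)`. -/
theorem sum_p_height (hF : ringChar F ≠ 2) (t u : F) :
    ∑ x : F, p (u - (x - t) ^ 2) = ∑ h : F, p h + bigY p u := by
  have h1 : ∑ x : F, p (u - (x - t) ^ 2) = ∑ v : F, p (u - v ^ 2) :=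
    Fintype.sum_equiv (Equiv.subRight t) _ _ (fun _ => rfl)
  rw [h1]
  have h2 : ∑ v : F, p (u - v ^ 2)
      = ∑ h : F, ∑ v ∈ univ.filter (fun v : F => u - v ^ 2 = h), p (u - v ^ 2) :=
    (Finset.sum_fiberwise _ _ _).symm
  rw [h2]
  unfold bigY
  rw [← Finset.sum_add_distrib]
  refine Finset.sum_congr rfl fun h _ => ?_
  have hset : univ.filter (fun v : F => u - v ^ 2 = h) = univ.filter (fun v : F => v ^ 2 = u - h) := by
    ext v; simp only [mem_filter, mem_univ, true_and]
    constructor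
    · intro hh; rw [← hh]; ring
    · intro hh; rw [hh]; ring
  rw [hset]
  have h3 : ∑ v ∈ univ.filter (fun v : F => v ^ 2 = u - h), p (u - v ^ 2)
      = ∑ v ∈ univ.filter (fun v : F => v ^ 2 = u - h), p h := by
    refine Finset.sum_congr rfl fun v hv => ?_
    simp only [mem_filter, mem_univ, true_and] at hv
    rw [hv]; congr 1; ring
  rw [h3, Finset.sum_const, nsmul_eq_mul, card_sqrt_real hF]
  ring

end Menu

end Crest.Agent.Lib.Ryser
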