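import Mathlib
import Crest.Agent.Lib.Ryser.McDiarmid

/-!
Row 34. Uniform probability on a finite product `ι → α`: independence of events on disjoint
coordinates and the bounded differences inequality. Bridge to `McDiarmid.lean`.
-/

set_option autoImplicit false
set_option linter.unusedSectionVars false
set_option linter.unusedVariables false

noncomputable section

open Finset

namespace Crest.Agent.Ryser

variable {ι α : Type} [Fintype ι] [DecidableEq ι] [Fintype α] [Nonempty α] [DecidableEq α]

open Classical in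
/-- Uniform probability of a predicate on `ι → α`. -/
def uProb (P : (ι → α) → Prop) : ℝ :=
  ((univ.filter P).card : ℝ) / (Fintype.card (ι → α) : ℝ)

/-- Uniform expectation on `ι → α`. -/
def uExp (f : (ι → α) → ℝ) : ℝ := (∑ ω, f ω) / (Fintype.card (ι → α) : ℝ)

omit [Nonempty α] [DecidableEq α] in
lemma uExp_eq_avg (f : (ι → α) → ℝ) :
    uExp f = ProdProb.avg (Ω := fun _ => α) f := rfl

omit [Nonempty α] [DecidableEq α] in
lemma uProb_eq_prob (P : (ι → α) → Prop) [DecidablePred P] :
    uProb P = ProdProb.prob (Ω := fun _ => α) P := by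
  classical
  unfold uProb ProdProb.prob
  congr!

/-- MODULE P1. Events depending on pairwise disjoint sets of coordinates are independent. -/
theorem uProb_forall_indep {κ : Type} [Fintype κ] (supp : κ → Finset ι)
    (hd : Pairwise fun k k' => Disjoint (supp k) (supp k')) (E : κ → (ι → α) → Prop)
    (hdep : ∀ k ω ω', (∀ i ∈ supp k, ω i = ω' i) → (E k ω ↔ E k ω')) :
    uProb (fun ω => ∀ k, E k ω) = ∏ k, uProb (E k) := by
  classical
  have h := ProdProb.prob_forall_of_disjoint (Ω := fun _ => α) (Finset.univ : Finset κ) supp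
    (fun a _ b _ hab => hd hab) E (fun k _ ω ω' hag => hdep k ω ω' hag)
  simp only [Finset.mem_univ, true_imp_iff] at h
  rw [uProb_eq_prob]
  rw [h]
  exact Finset.prod_congr rfl fun k _ => (uProb_eq_prob _).symm

/-- MODULE P2. The probability of `∀ i, A i (ω i)` is the product of the one coordinate
probabilities. -/
theorem uProb_forall_coord (A : ι → α → Prop) :
    uProb (fun ω : ι → α => ∀ i, A i (ω i)) =
      ∏ i, (by classical exact ((univ.filter (A i)).card : ℝ) / (Fintype.card α : ℝ)) := by
  classical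
  have h := ProdProb.prob_forall_coord (Ω := fun _ => α) (Finset.univ : Finset ι) A
  simp only [Finset.mem_univ, true_imp_iff] at h
  rw [uProb_eq_prob, h]

/-- MODULE P3. Bounded differences (McDiarmid), with any constant in the exponent that is convenient;
here the clean Hoeffding form with `2`. -/
theorem mcdiarmid_upper (f : (ι → α) → ℝ) (c : ι → ℝ) (hc0 : ∀ i, 0 ≤ c i)
    (hc : ∀ i ω ω', (∀ j, j ≠ i → ω j = ω' j) → |f ω - f ω'| ≤ c i) (T : ℝ) (hT : 0 < T)
    (hpos : 0 < ∑ i, c i ^ 2) :
    uProb (fun ω => uExp f + T ≤ f ω) ≤ Real.exp (-(T ^ 2) / (2 * ∑ i, c i ^ 2)) := by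
  classical
  have hb : ProdProb.BoundedDiff (Ω := fun _ => α) c f := by
    intro i ω a
    refine hc i _ _ fun j hj => ?_
    simp [Function.update_of_ne hj]
  have h := ProdProb.mcdiarmid_upper (Ω := fun _ => α) c hb hT.le
  rw [uProb_eq_prob]
  rw [neg_div]
  exact h

/-- Lower tail of bounded differences. -/
theorem mcdiarmid_lower (f : (ι → α) → ℝ) (c : ι → ℝ) (hc0 : ∀ i, 0 ≤ c i)
    (hc : ∀ i ω ω', (∀ j, j ≠ i → ω j = ω' j) → |f ω - f ω'| ≤ c i) (T : ℝ) (hT : 0 < T)
    (hpos : 0 < ∑ i, c i ^ 2) :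
    uProb (fun ω => f ω ≤ uExp f - T) ≤ Real.exp (-(T ^ 2) / (2 * ∑ i, c i ^ 2)) := by
  classical
  have hb : ProdProb.BoundedDiff (Ω := fun _ => α) c f := by
    intro i ω a
    refine hc i _ _ fun j hj => ?_
    simp [Function.update_of_ne hj]
  have h := ProdProb.mcdiarmid_lower (Ω := fun _ => α) c hb hT.le
  rw [uProb_eq_prob]
  rw [neg_div]
  exact h

/-- Union bound: if the probabilities of the bad events sum to `< 1`, a good point exists. -/
theorem exists_good_of_uProb_sum_lt {κ : Type} [Fintype κ] (B : κ → (ι → α) → Prop)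
    (h : ∑ k, uProb (B k) < 1) : ∃ ω : ι → α, ∀ k, ¬ B k ω := by
  classical
  have h1 := ProdProb.prob_exists_le_sum (Ω := fun _ => α) (Finset.univ : Finset κ) B
  have h2 : ProdProb.prob (Ω := fun _ => α) (fun ω : ι → α => ∃ k ∈ (Finset.univ : Finset κ), B k ω) < 1 := by
    refine lt_of_le_of_lt h1 ?_
    refine lt_of_eq_of_lt (Finset.sum_congr rfl fun k _ => ?_) h
    exact (uProb_eq_prob _).symm
  obtain ⟨ω, hω⟩ := ProdProb.exists_of_prob_lt_one (Ω := fun _ => α) _ h2
  refine ⟨ω, fun k hk => hω ⟨k, Finset.mem_univ _, hk⟩⟩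

end Crest.Agent.Ryser
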