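import Crest.Agent.Lib.Ryser.Plane
import Crest.Agent.Lib.Ryser.ProdProb
import Crest.Agent.Lib.Ryser.Jacobsthal

/-!
Row 34. THE RANDOM ENVIRONMENT, capacity part (Step 3 of finding #1707). Modules E1-E3 (helper70).
`ω : F → Ch M` uniform. `pH h` is the probability that the height `h` is dead at a given part.
`Y u = ∑_h pH h χ(u-h)`, `ρ u = 1 - Y u`, `fL L = ∏_x (1 - pH (ht L x))` is the exact probability that
`L` has no dead point, weight `wt L = ρ(u_L)/fL L`. No Weil: only `∑_a χ(a-h)χ(a-k) = -1`.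
-/

set_option autoImplicit false

noncomputable section

open Finset
open scoped Classical

namespace Crest.Agent.Ryser

variable {F : Type} [Field F] [Fintype F] [DecidableEq F] {M : ℕ}

/-- Quadratic character as a real number. -/
def chiR (a : F) : ℝ := ((quadraticChar F a : ℤ) : ℝ)

/-- Probability that height `h` is dead at one part. -/
def pH (mn : Menu F M) (h : F) : ℝ :=
  (#(univ.filter fun ch : Ch M => mn.isDead ch h) : ℝ) / (Fintype.card (Ch M) : ℝ)

/-- `Y u = ∑_h pH h χ(u-h)`. -/
def YY (mn : Menu F M) (u : F) : ℝ := ∑ h : F, pH mn h * chiR (u - h)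

/-- `f(L)`: exact probability that `L` has no dead point. -/
def fL (mn : Menu F M) (L : F × F) : ℝ := ∏ x : F, (1 - pH mn (ht L x))

/-- Weight `ρ(u_L)/f(L)`. -/
def wt (mn : Menu F M) (L : F × F) : ℝ := (1 - YY mn L.2) / fL mn L

/-- The menu is balanced: `|Y u| ≤ 1/2` for all `u`. -/
def Menu.Balanced (mn : Menu F M) : Prop := ∀ u, |YY mn u| ≤ 1 / 2

/-- MODULE E1 (Jacobsthal). -/
theorem sum_chi_mul_chi (hodd : ringChar F ≠ 2) (h k : F) :
    ∑ a : F, chiR (a - h) * chiR (a - k) = if h = k then (Fintype.card F : ℝ) - 1 else -1 := by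
  split_ifs with hk
  · subst hk
    exact Crest.Agent.Lib.Ryser.jacobsthal_eq hodd h
  · exact Crest.Agent.Lib.Ryser.jacobsthal_ne hodd hk

/-- MODULE E1b. `#{v : k + v² = a} = 1 + χ(a-k)`; hence the exact load identity. -/
theorem sum_rho_shift (mn : Menu F M) (hodd : ringChar F ≠ 2) (k : F) :
    ∑ v : F, (1 - YY mn (k + v ^ 2)) =
      (Fintype.card F : ℝ) * (1 - pH mn k) + ∑ h : F, pH mn h :=
  Crest.Agent.Lib.Ryser.sum_rho_add_sq (pH mn) hodd k

/-- MODULE E1c. `∑_u ρ(u) = q`. -/
theorem sum_rho (mn : Menu F M) (hodd : ringChar F ≠ 2) :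
    ∑ u : F, (1 - YY mn u) = (Fintype.card F : ℝ) :=
  Crest.Agent.Lib.Ryser.sum_rho (pH mn) hodd

section DeadCount

lemma conf_ne_conf (mn : Menu F M) (hd : mn.Distinct) (ch : Ch M) : mn.conf ch 0 ≠ mn.conf ch 1 := by
  intro h
  have := hd.1 (a₁ := ((0 : Fin 3), (0 : Fin 2), ch.1 0)) (a₂ := ((0 : Fin 3), (1 : Fin 2), ch.1 1)) h
  simp at this

lemma conf_ne_tele (mn : Menu F M) (hd : mn.Distinct) (ch : Ch M) (g : Fin 2) :
    mn.conf ch g ≠ mn.tele ch := by
  intro h
  have := hd.1 (a₁ := ((0 : Fin 3), g, ch.1 g)) (a₂ := ((1 : Fin 3), ch.2)) h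
  simp at this

lemma conf_ne_hub (mn : Menu F M) (hd : mn.Distinct) (ch : Ch M) (g : Fin 2) :
    mn.conf ch g ≠ mn.hub ch := by
  intro h
  have := hd.1 (a₁ := ((0 : Fin 3), g, ch.1 g)) (a₂ := ((2 : Fin 3), ch.2)) h
  simp at this

lemma tele_ne_hub (mn : Menu F M) (hd : mn.Distinct) (ch : Ch M) : mn.tele ch ≠ mn.hub ch := by
  intro h
  have := hd.1 (a₁ := ((1 : Fin 3), ch.2)) (a₂ := ((2 : Fin 3), ch.2)) h
  simp at this

/-- `M` disjoint translates of the dead set of a height. -/
lemma dead_count_le (mn : Menu F M) (hd : mn.Distinct) (h : F) :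
    M * #(univ.filter fun ch : Ch M => mn.isDead ch h) ≤ Fintype.card (Ch M) := by
  classical
  by_cases h1 : ∃ (g : Fin 2) (i : Fin M), mn.kappa g i = h
  · -- conflict height: the value `ch.1 g` is forced
    obtain ⟨g, i, hgi⟩ := h1
    have hforce : ∀ ch : Ch M, mn.isDead ch h → ch.1 g = i := by
      intro ch hch
      rcases hch with hc | hc | hc | hc
      · have := hd.1 (a₁ := ((0 : Fin 3), g, i)) (a₂ := ((0 : Fin 3), (0 : Fin 2), ch.1 0)) (hgi.trans hc)
        simp only [Prod.mk.injEq, true_and] at this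
        rw [this.1]; exact this.2.symm
      · have := hd.1 (a₁ := ((0 : Fin 3), g, i)) (a₂ := ((0 : Fin 3), (1 : Fin 2), ch.1 1)) (hgi.trans hc)
        simp only [Prod.mk.injEq, true_and] at this
        rw [this.1]; exact this.2.symm
      · have := hd.1 (a₁ := ((0 : Fin 3), g, i)) (a₂ := ((1 : Fin 3), ch.2)) (hgi.trans hc)
        simp at this
      · have := hd.1 (a₁ := ((0 : Fin 3), g, i)) (a₂ := ((2 : Fin 3), ch.2)) (hgi.trans hc)
        simp at this
    have hinj : Set.InjOn (fun e : Fin M × Ch M => ((Function.update e.2.1 g e.1, e.2.2) : Ch M))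
        ((univ : Finset (Fin M)) ×ˢ (univ.filter fun ch : Ch M => mn.isDead ch h) : Finset _) := by
      rintro ⟨a, f, τ⟩ ha ⟨a', f', τ'⟩ ha' heq
      simp only [coe_product, coe_univ, coe_filter, mem_univ, true_and, Set.mem_prod, Set.mem_univ,
        Set.mem_setOf_eq] at ha ha'
      simp only [Prod.mk.injEq] at heq
      have h1 := hforce _ ha
      have h2 := hforce _ ha'
      simp only at h1 h2
      have hval : a = a' := by
        have := congrFun heq.1 g
        simpa using this
      have hf : f = f' := by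
        funext g'
        by_cases hg : g' = g
        · rw [hg, h1, h2]
        · have := congrFun heq.1 g'
          simpa [Function.update_of_ne hg] using this
      simp [hval, hf, heq.2]
    have := Finset.card_le_card_of_injOn _ (fun _ _ => mem_univ _) hinj
    simpa [card_product] using this
  · by_cases h2 : ∃ j : Fin 2 × Fin M, mn.beta j = h ∨ mn.eta j = h
    · obtain ⟨j, hj⟩ := h2
      have hforce : ∀ ch : Ch M, mn.isDead ch h → ch.2 = j := by
        intro ch hch
        rcases hch with hc | hc | hc | hc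
        · exact absurd ⟨0, ch.1 0, hc.symm⟩ h1
        · exact absurd ⟨1, ch.1 1, hc.symm⟩ h1
        · rcases hj with hj | hj
          · have := hd.1 (a₁ := ((1 : Fin 3), j)) (a₂ := ((1 : Fin 3), ch.2)) (hj.trans hc)
            simp only [Prod.mk.injEq, true_and] at this
            exact this.symm
          · have := hd.1 (a₁ := ((2 : Fin 3), j)) (a₂ := ((1 : Fin 3), ch.2)) (hj.trans hc)
            simp at this
        · rcases hj with hj | hj
          · have := hd.1 (a₁ := ((1 : Fin 3), j)) (a₂ := ((2 : Fin 3), ch.2)) (hj.trans hc)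
            simp at this
          · have := hd.1 (a₁ := ((2 : Fin 3), j)) (a₂ := ((2 : Fin 3), ch.2)) (hj.trans hc)
            simp only [Prod.mk.injEq, true_and] at this
            exact this.symm
      have hinj : Set.InjOn (fun e : Fin M × Ch M => ((e.2.1, (j.1, e.1)) : Ch M))
          ((univ : Finset (Fin M)) ×ˢ (univ.filter fun ch : Ch M => mn.isDead ch h) : Finset _) := by
        rintro ⟨a, f, τ⟩ ha ⟨a', f', τ'⟩ ha' heq
        simp only [coe_product, coe_univ, coe_filter, mem_univ, true_and, Set.mem_prod, Set.mem_univ,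
          Set.mem_setOf_eq] at ha ha'
        simp only [Prod.mk.injEq] at heq
        have h1 := hforce _ ha
        have h2 := hforce _ ha'
        simp only at h1 h2
        simp [heq.1, heq.2.2, h1, h2]
      have := Finset.card_le_card_of_injOn _ (fun _ _ => mem_univ _) hinj
      simpa [card_product] using this
    · have hempty : (univ.filter fun ch : Ch M => mn.isDead ch h) = ∅ := by
        rw [filter_eq_empty_iff]
        intro ch _ hch
        rcases hch with hc | hc | hc | hc
        · exact h1 ⟨0, ch.1 0, hc.symm⟩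
        · exact h1 ⟨1, ch.1 1, hc.symm⟩
        · exact h2 ⟨ch.2, Or.inl hc.symm⟩
        · exact h2 ⟨ch.2, Or.inr hc.symm⟩
      simp [hempty]

end DeadCount

/-- MODULE E1d. For a distinct menu `pH` is `1/M` on conflict heights, `1/(2M)` on teleport and hub
heights, `0` elsewhere; so `∑_h pH h = 4` and `pH h ≤ 1/M`. -/
theorem sum_pH (mn : Menu F M) (hM : 0 < M) (hd : mn.Distinct) : ∑ h : F, pH mn h = 4 := by
  haveI : NeZero M := ⟨hM.ne'⟩
  have hcardpos : (0 : ℝ) < (Fintype.card (Ch M) : ℝ) := by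
    exact_mod_cast Fintype.card_pos
  have h4 : ∀ ch : Ch M, #(univ.filter fun h : F => mn.isDead ch h) = 4 := by
    intro ch
    have hset : (univ.filter fun h : F => mn.isDead ch h)
        = {mn.conf ch 0, mn.conf ch 1, mn.tele ch, mn.hub ch} := by
      ext h; simp [Menu.isDead]
    have h01 : mn.conf ch 0 ≠ mn.conf ch 1 := conf_ne_conf mn hd ch
    have h0t : mn.conf ch 0 ≠ mn.tele ch := conf_ne_tele mn hd ch 0
    have h0h : mn.conf ch 0 ≠ mn.hub ch := conf_ne_hub mn hd ch 0
    have h1t : mn.conf ch 1 ≠ mn.tele ch := conf_ne_tele mn hd ch 1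
    have h1h : mn.conf ch 1 ≠ mn.hub ch := conf_ne_hub mn hd ch 1
    have hth : mn.tele ch ≠ mn.hub ch := tele_ne_hub mn hd ch
    rw [hset]
    rw [card_insert_of_notMem (by simp [h01, h0t, h0h]), card_insert_of_notMem (by simp [h1t, h1h]),
      card_insert_of_notMem (by simp [hth]), card_singleton]
  unfold pH
  rw [← Finset.sum_div]
  have hdc : ∑ h : F, (#(univ.filter fun ch : Ch M => mn.isDead ch h) : ℝ)
      = ∑ ch : Ch M, (#(univ.filter fun h : F => mn.isDead ch h) : ℝ) := by
    simp only [Finset.card_filter, Nat.cast_sum]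
    rw [Finset.sum_comm]
  rw [hdc]
  simp only [h4]
  simp only [sum_const, card_univ, nsmul_eq_mul]
  field_simp
  norm_num

theorem pH_le (mn : Menu F M) (hM : 0 < M) (hd : mn.Distinct) (h : F) : pH mn h ≤ 1 / M := by
  haveI : NeZero M := ⟨hM.ne'⟩
  have hMpos : (0 : ℝ) < M := by exact_mod_cast hM
  have hcardpos : (0 : ℝ) < (Fintype.card (Ch M) : ℝ) := by
    exact_mod_cast Fintype.card_pos
  unfold pH
  rw [div_le_div_iff₀ hcardpos hMpos, one_mul]
  have key : M * #(univ.filter fun ch : Ch M => mn.isDead ch h) ≤ Fintype.card (Ch M) :=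
    dead_count_le mn hd h
  have : ((M * #(univ.filter fun ch : Ch M => mn.isDead ch h) : ℕ) : ℝ) ≤ (Fintype.card (Ch M) : ℝ) := by
    exact_mod_cast key
  push_cast at this
  linarith

section Prob

variable {ι α : Type} [Fintype ι] [DecidableEq ι] [Fintype α] [Nonempty α] [DecidableEq α]

lemma uProb_congr {P Q : (ι → α) → Prop} (h : ∀ ω, P ω ↔ Q ω) : uProb P = uProb Q := by
  have : P = Q := funext fun ω => propext (h ω)
  rw [this]

/-- Union bound for `uProb`. -/
lemma uProb_exists_le_sum {κ : Type} (T : Finset κ) (B : κ → (ι → α) → Prop) :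
    uProb (fun ω => ∃ k ∈ T, B k ω) ≤ ∑ k ∈ T, uProb (B k) := by
  classical
  unfold uProb
  rw [← Finset.sum_div]
  have hc : (0 : ℝ) ≤ (Fintype.card (ι → α) : ℝ) := Nat.cast_nonneg _
  refine div_le_div_of_nonneg_right ?_ hc
  calc _ ≤ ((T.biUnion fun k => univ.filter (B k)).card : ℝ) := by
        refine Nat.cast_le.mpr (card_le_card ?_)
        intro ω hω
        simp only [mem_filter, mem_univ, true_and] at hω
        obtain ⟨k, hk, hb⟩ := hω
        exact mem_biUnion.mpr ⟨k, hk, by simp [hb]⟩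
    _ ≤ ((∑ k ∈ T, (univ.filter (B k)).card : ℕ) : ℝ) := by
        exact_mod_cast card_biUnion_le
    _ = ∑ k ∈ T, ((univ.filter (B k)).card : ℝ) := by push_cast; rfl

lemma uProb_mono {P Q : (ι → α) → Prop} (h : ∀ ω, P ω → Q ω) : uProb P ≤ uProb Q := by
  classical
  unfold uProb
  have hc : (0 : ℝ) ≤ (Fintype.card (ι → α) : ℝ) := Nat.cast_nonneg _
  refine div_le_div_of_nonneg_right ?_ hc
  exact_mod_cast card_le_card (fun ω hω => by
    simp only [mem_filter, mem_univ, true_and] at hω ⊢
    exact h ω hω)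

lemma uProb_le_one (P : (ι → α) → Prop) : uProb P ≤ 1 := by
  classical
  unfold uProb
  have hc : (0 : ℝ) < (Fintype.card (ι → α) : ℝ) := by exact_mod_cast Fintype.card_pos
  rw [div_le_one hc]
  exact_mod_cast card_le_univ _

lemma uProb_nonneg (P : (ι → α) → Prop) : 0 ≤ uProb P := by
  unfold uProb
  positivity

/-- Expectation of a sum of weighted indicators. -/
lemma uExp_sum_ite {κ : Type} (A : Finset κ) (E : κ → (ι → α) → Prop) (w : κ → ℝ) :
    uExp (fun ω => ∑ k ∈ A, if E k ω then w k else 0) = ∑ k ∈ A, w k * uProb (E k) := by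
  classical
  unfold uExp uProb
  rw [Finset.sum_comm, Finset.sum_div]
  refine Finset.sum_congr rfl fun k _ => ?_
  have : ∑ ω : ι → α, (if E k ω then w k else 0) = ((univ.filter (E k)).card : ℝ) * w k := by
    rw [← Finset.sum_filter, Finset.sum_const, nsmul_eq_mul]
  rw [this]
  ring

end Prob

/-- One coordinate probability that `h` is not dead. -/
lemma card_not_dead (mn : Menu F M) [NeZero M] (h : F) :
    ((univ.filter fun ch : Ch M => ¬ mn.isDead ch h).card : ℝ) / (Fintype.card (Ch M) : ℝ)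
      = 1 - pH mn h := by
  have hcardpos : (0 : ℝ) < (Fintype.card (Ch M) : ℝ) := by
    exact_mod_cast Fintype.card_pos
  unfold pH
  have h1 : #(univ.filter fun ch : Ch M => ¬ mn.isDead ch h) + #(univ.filter fun ch : Ch M => mn.isDead ch h)
      = Fintype.card (Ch M) := by
    rw [add_comm]
    exact Finset.card_filter_add_card_filter_not (s := univ) (fun ch : Ch M => mn.isDead ch h)
  have h2 : ((#(univ.filter fun ch : Ch M => ¬ mn.isDead ch h) : ℕ) : ℝ)
      = (Fintype.card (Ch M) : ℝ) - (#(univ.filter fun ch : Ch M => mn.isDead ch h) : ℕ) := by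
    rw [eq_sub_iff_add_eq]
    exact_mod_cast h1
  rw [h2]
  field_simp

/-- Exact probability of avoiding dead points on the parts selected by `Q`. -/
lemma uProb_avoid (mn : Menu F M) [NeZero M] (L : F × F) (Q : F → Prop) [DecidablePred Q] :
    uProb (fun ω : Env F M => ∀ x, Q x → ¬ mn.isDead (ω x) (ht L x))
      = ∏ x : F, (if Q x then 1 - pH mn (ht L x) else 1) := by
  have h := uProb_forall_coord (ι := F) (α := Ch M) (fun x ch => Q x → ¬ mn.isDead ch (ht L x))
  rw [show (fun ω : Env F M => ∀ x, Q x → ¬ mn.isDead (ω x) (ht L x))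
      = (fun ω : F → Ch M => ∀ i, (fun x ch => Q x → ¬ mn.isDead ch (ht L x)) i (ω i)) from rfl, h]
  refine Finset.prod_congr rfl fun x _ => ?_
  have hcardpos : (0 : ℝ) < (Fintype.card (Ch M) : ℝ) := by
    exact_mod_cast Fintype.card_pos
  split_ifs with hQ
  · rw [← card_not_dead mn (ht L x)]
    congr 3
    ext ch
    simp [hQ]
  · have : ∀ inst : DecidablePred (fun ch : Ch M => Q x → ¬ mn.isDead ch (ht L x)),
        @Finset.filter _ (fun ch : Ch M => Q x → ¬ mn.isDead ch (ht L x)) inst univ = univ := by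
      intro inst
      ext ch; simp [hQ]
    rw [this, card_univ]
    field_simp

/-- MODULE E2a. Exact probability: for slope `≠ t0`, the probability of `Alive'` is `fL`. -/
theorem uProb_alive (mn : Menu F M) [NeZero M] (t0 : F) (L : F × F) (hL : L.1 ≠ t0) :
    uProb (fun ω : Env F M => Alive' mn ω t0 L) = fL mn L := by
  have h := uProb_avoid mn L (fun _ => True)
  simp only [forall_const, if_true] at h
  unfold fL
  rw [← h]
  apply uProb_congr
  intro ω
  unfold Alive'
  simp [hL]

/-- `1 - p ≥ e^{-2p}` for `0 ≤ p ≤ 1/2`. -/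
lemma exp_neg_two_mul_le {p : ℝ} (h0 : 0 ≤ p) (h1 : p ≤ 1 / 2) : Real.exp (-(2 * p)) ≤ 1 - p := by
  have h2 : 1 + 2 * p ≤ Real.exp (2 * p) := by
    have := Real.add_one_le_exp (2 * p)
    linarith
  have h3 : Real.exp (-(2 * p)) = (Real.exp (2 * p))⁻¹ := Real.exp_neg _
  rw [h3]
  have h4 : (0 : ℝ) < 1 + 2 * p := by linarith
  have h5 : (Real.exp (2 * p))⁻¹ ≤ (1 + 2 * p)⁻¹ := inv_anti₀ h4 h2
  refine h5.trans ?_
  rw [inv_eq_one_div, div_le_iff₀ h4]
  nlinarith

lemma pH_nonneg (mn : Menu F M) (h : F) : 0 ≤ pH mn h := by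
  unfold pH
  positivity

/-- MODULE E2b. `fL L ≥ e^{-9}` for a balanced distinct menu, `M ≥ 4`. Uses: the number of `x` with
`ht L x = h` is `1 + χ(u_L - h)`, so `∑_x pH(ht L x) = 4 + Y(u_L)`; `1 - p ≥ e^{-2p}` for `p ≤ 1/2`. -/
theorem fL_lower (mn : Menu F M) (hM : 4 ≤ M) (hd : mn.Distinct) (hb : mn.Balanced)
    (hodd : ringChar F ≠ 2) (L : F × F) : Real.exp (-9) ≤ fL mn L := by
  have hM0 : 0 < M := by omega
  have hMr : (4 : ℝ) ≤ M := by exact_mod_cast hM
  have hple : ∀ h, pH mn h ≤ 1 / 2 := by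
    intro h
    refine (pH_le mn hM0 hd h).trans ?_
    rw [div_le_div_iff₀ (by linarith) (by norm_num)]
    linarith
  have hsum : ∑ x : F, pH mn (ht L x) = 4 + YY mn L.2 := by
    have := Crest.Agent.Lib.Ryser.sum_p_height (pH mn) hodd L.1 L.2
    rw [sum_pH mn hM0 hd] at this
    exact this
  have hY : YY mn L.2 ≤ 1 / 2 := (abs_le.mp (hb L.2)).2
  have hprod : Real.exp (-(2 * ∑ x : F, pH mn (ht L x))) ≤ fL mn L := by
    have : Real.exp (-(2 * ∑ x : F, pH mn (ht L x))) = ∏ x : F, Real.exp (-(2 * pH mn (ht L x))) := by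
      rw [← Real.exp_sum]
      congr 1
      rw [Finset.mul_sum, Finset.sum_neg_distrib]
    rw [this]
    unfold fL
    refine Finset.prod_le_prod (fun _ _ => (Real.exp_pos _).le) fun x _ => ?_
    exact exp_neg_two_mul_le (pH_nonneg mn _) (hple _)
  refine le_trans ?_ hprod
  apply Real.exp_le_exp.mpr
  rw [hsum]
  linarith

/-- MODULE E3. Weights, load bounds, lower bound for every point: the capacity part of a good
environment holds with probability `≥ 3/4`. `q` large in terms of `M` as stated. Lines of slope `≠ t0`.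
`ell s = ∑_{L ∋ s, L has no dead point outside the part of s} wt L`, `E ell s ≤ q + 8` by `sum_rho_shift`
(for a special height `k` the factor `1/(1 - pH k)` cancels), one part changes `≤ 8` lines through `s`;
`W = ∑_{L alive} wt L`, `E W = q(q-1)`, one part changes `≤ 8q` lines. Use `mcdiarmid_*`. -/
def CapGood (mn : Menu F M) (ω : Env F M) (t0 : F) : Prop :=
  (∀ s : Pt F, alivePt mn ω t0 s →
      ∑ L ∈ univ.filter (fun L : F × F => Alive' mn ω t0 L ∧ onL s L), wt mn L ≤
        (Fintype.card F : ℝ) + Real.sqrt (Fintype.card F) * M) ∧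
  ((Fintype.card F : ℝ) ^ 2 - Fintype.card F * Real.sqrt (Fintype.card F) * M ≤
      ∑ L ∈ univ.filter (fun L : F × F => Alive' mn ω t0 L), wt mn L) ∧
  (∀ s : Pt F, (s.1 = none → s.2 ≠ t0) → (Fintype.card F : ℝ) / 10 ^ 6 ≤
      #(univ.filter fun L : F × F => onL s L ∧ AliveOff mn ω t0 s.1 L))

/-- Standing numerical hypotheses on `q`, `M`, the characteristic. `s₀ = 101` is comfortable for the
small integers `1,3,5,7,12,16,24,36,48` to stay distinct. `C₁, A` are what the modules E3-E6 need:
`C₁ log q ≤ M`, `M^A ≤ q`. -/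
structure Regime (F : Type) [Field F] [Fintype F] (M C₁ A : ℕ) : Prop where
  char_large : 101 ≤ ringChar F
  M_large : 1000 ≤ M
  M_log : (C₁ : ℝ) * Real.log (Fintype.card F) ≤ M
  M_pow : M ^ A ≤ Fintype.card F

/-! ### Module E3: weights, expectations, bounded differences -/

section Capacity

/-- The weight cap `2 e⁹`. -/
def wMax : ℝ := 2 * Real.exp 9

lemma wMax_pos : 0 < wMax := by unfold wMax; positivity

lemma fL_pos (mn : Menu F M) (hM : 4 ≤ M) (hd : mn.Distinct) (hb : mn.Balanced)
    (hodd : ringChar F ≠ 2) (L : F × F) : 0 < fL mn L :=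
  lt_of_lt_of_le (Real.exp_pos _) (fL_lower mn hM hd hb hodd L)

lemma fL_le_one (mn : Menu F M) (hM : 4 ≤ M) (hd : mn.Distinct) (L : F × F) : fL mn L ≤ 1 := by
  have hM0 : 0 < M := by omega
  have hMr : (4 : ℝ) ≤ M := by exact_mod_cast hM
  unfold fL
  refine Finset.prod_le_one (fun x _ => ?_) (fun x _ => ?_)
  · have := pH_le mn hM0 hd (ht L x)
    have h2 : (1 : ℝ) / M ≤ 1 := by
      rw [div_le_one (by linarith)]; linarith
    linarith
  · have := pH_nonneg mn (ht L x)
    linarith

lemma wt_ge (mn : Menu F M) (hM : 4 ≤ M) (hd : mn.Distinct) (hb : mn.Balanced)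
    (hodd : ringChar F ≠ 2) (L : F × F) : 1 / 2 ≤ wt mn L := by
  have hf := fL_pos mn hM hd hb hodd L
  have hf1 := fL_le_one mn hM hd L
  have hY := (abs_le.mp (hb L.2)).2
  unfold wt
  rw [le_div_iff₀ hf]
  nlinarith

lemma wt_le (mn : Menu F M) (hM : 4 ≤ M) (hd : mn.Distinct) (hb : mn.Balanced)
    (hodd : ringChar F ≠ 2) (L : F × F) : wt mn L ≤ wMax := by
  have hf := fL_pos mn hM hd hb hodd L
  have hf2 := fL_lower mn hM hd hb hodd L
  have hY := (abs_le.mp (hb L.2)).1
  unfold wt wMax
  rw [div_le_iff₀ hf]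
  have hexp : 1 ≤ Real.exp 9 * Real.exp (-9) := by
    rw [← Real.exp_add]; simp
  have he : 0 < Real.exp 9 := Real.exp_pos _
  have : Real.exp 9 * Real.exp (-9) ≤ Real.exp 9 * fL mn L :=
    mul_le_mul_of_nonneg_left hf2 he.le
  nlinarith

/-- The event that `L` has no dead point outside the part `p`. -/
def offEvent (mn : Menu F M) (p : Option F) (L : F × F) (ω : Env F M) : Prop :=
  ∀ x, some x ≠ p → ¬ mn.isDead (ω x) (ht L x)

/-- The load of a point: total weight of the lines through it (slope `≠ t0`) with no dead point outside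
its part. -/
def ell (mn : Menu F M) (t0 : F) (s : Pt F) (ω : Env F M) : ℝ :=
  ∑ L ∈ univ.filter (fun L : F × F => onL s L ∧ L.1 ≠ t0),
    if offEvent mn s.1 L ω then wt mn L else 0

/-- The event that `L` has no dead point at all. -/
def allEvent (mn : Menu F M) (L : F × F) (ω : Env F M) : Prop :=
  ∀ x, ¬ mn.isDead (ω x) (ht L x)

/-- Total weight of the alive lines. -/
def bigW (mn : Menu F M) (t0 : F) (ω : Env F M) : ℝ :=
  ∑ L ∈ univ.filter (fun L : F × F => L.1 ≠ t0),
    if allEvent mn L ω then wt mn L else 0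

/-- The four dead heights as a finset. -/
def deadSet (mn : Menu F M) (ch : Ch M) : Finset F :=
  {mn.conf ch 0, mn.conf ch 1, mn.tele ch, mn.hub ch}

omit [Fintype F] in
lemma mem_deadSet (mn : Menu F M) (ch : Ch M) (h : F) : h ∈ deadSet mn ch ↔ mn.isDead ch h := by
  simp [deadSet, Menu.isDead]

omit [Fintype F] in
lemma card_deadSet_le (mn : Menu F M) (ch : Ch M) : #(deadSet mn ch) ≤ 4 := by
  unfold deadSet
  refine (card_insert_le _ _).trans ?_
  have h1 : #({mn.conf ch 1, mn.tele ch, mn.hub ch} : Finset F) ≤ 3 := by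
    refine (card_insert_le _ _).trans ?_
    have h2 : #({mn.tele ch, mn.hub ch} : Finset F) ≤ 2 := card_le_two
    omega
  omega

/-- Difference of two sums of indicators which agree off `B`. -/
lemma sum_ite_diff_le {κ : Type} (A B : Finset κ) (E E' : κ → Prop) [DecidablePred E] [DecidablePred E']
    (w : κ → ℝ) (W : ℝ) (hW : 0 ≤ W) (hw : ∀ k ∈ A, |w k| ≤ W) (hB : ∀ k ∈ A, (E k ↔ E' k) ∨ k ∈ B) :
    |∑ k ∈ A, (if E k then w k else 0) - ∑ k ∈ A, (if E' k then w k else 0)| ≤ #B * W := by
  classical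
  rw [← Finset.sum_sub_distrib]
  refine (Finset.abs_sum_le_sum_abs _ _).trans ?_
  have h1 : ∀ k ∈ A, |(if E k then w k else 0) - (if E' k then w k else 0)|
      ≤ if k ∈ B then W else 0 := by
    intro k hk
    rcases hB k hk with h | h
    · have : (if E k then w k else 0) - (if E' k then w k else 0) = 0 := by
        by_cases hE : E k
        · simp [hE, h.mp hE]
        · have : ¬ E' k := fun h' => hE (h.mpr h')
          simp [hE, this]
      rw [this, abs_zero]
      split_ifs
      · exact hW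
      · exact le_rfl
    · rw [if_pos h]
      by_cases hE : E k <;> by_cases hE' : E' k <;> simp [hE, hE', hw k hk, hW, abs_neg]
  refine (Finset.sum_le_sum h1).trans ?_
  rw [← Finset.sum_filter, Finset.sum_const, nsmul_eq_mul]
  refine mul_le_mul_of_nonneg_right ?_ hW
  have : #(A.filter fun k => k ∈ B) ≤ #B := by
    refine card_le_card fun k hk => ?_
    exact (mem_filter.mp hk).2
  exact_mod_cast this

/-- At most one line through `s` has height `h` at a part `i` other than the part of `s`. -/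
lemma line_unique (h2 : (2 : F) ≠ 0) (s : Pt F) (i h : F) (hi : some i ≠ s.1) {L L' : F × F}
    (hL : onL s L) (hL' : onL s L') (hh : ht L i = h) (hh' : ht L' i = h) : L = L' := by
  obtain ⟨p, k⟩ := s
  obtain ⟨t, u⟩ := L
  obtain ⟨t', u'⟩ := L'
  cases p with
  | none =>
    simp only [onL, ht] at hL hL' hh hh'
    subst hL hL'
    have : u = u' := by
      have := hh.trans hh'.symm
      linear_combination this
    simp [this]
  | some x =>
    simp only [onL, ht] at hL hL' hh hh'
    have hix : i - x ≠ 0 := by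
      intro h0
      apply hi
      rw [sub_eq_zero] at h0
      simp [h0]
    have e1 : (i - x) * (2 * (t - t')) = 0 := by
      linear_combination (hL' - hh') - (hL - hh)
    have ht' : t = t' := by
      have := (mul_eq_zero.mp e1).resolve_left hix
      have h3 := (mul_eq_zero.mp this).resolve_left h2
      exact sub_eq_zero.mp h3
    subst ht'
    have : u = u' := by linear_combination hL - hL'
    simp [this]

/-- Number of all lines with a given height at `i`. -/
lemma card_lines_height (i h : F) :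
    #(univ.filter fun L : F × F => ht L i = h) ≤ Fintype.card F := by
  have : Set.InjOn (fun L : F × F => L.1) (univ.filter fun L : F × F => ht L i = h : Finset _) := by
    rintro ⟨t, u⟩ hL ⟨t', u'⟩ hL' heq
    simp only [coe_filter, mem_univ, true_and, Set.mem_setOf_eq, ht] at hL hL'
    simp only at heq
    subst heq
    have : u = u' := by linear_combination hL - hL'
    simp [this]
  calc _ ≤ #(univ : Finset F) := card_le_card_of_injOn _ (fun _ _ => mem_univ _) this
    _ = _ := card_univ

/-- Bounded differences for `ell`. -/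
lemma ell_diff (mn : Menu F M) (hM : 4 ≤ M) (hd : mn.Distinct) (hb : mn.Balanced)
    (hodd : ringChar F ≠ 2) (h2 : (2 : F) ≠ 0) (t0 : F) (s : Pt F) (i : F) (ω ω' : Env F M)
    (hω : ∀ j, j ≠ i → ω j = ω' j) : |ell mn t0 s ω - ell mn t0 s ω'| ≤ 8 * wMax := by
  classical
  let A := univ.filter (fun L : F × F => onL s L ∧ L.1 ≠ t0)
  let D := deadSet mn (ω i) ∪ deadSet mn (ω' i)
  let B : Finset (F × F) := if some i = s.1 then ∅ else
    D.biUnion fun h => A.filter fun L => ht L i = h
  have hBcard : #B ≤ 8 := by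
    by_cases hi : some i = s.1
    · simp [B, hi]
    · simp only [B, hi, if_false]
      refine card_biUnion_le.trans ?_
      have h1 : ∀ h ∈ D, #(A.filter fun L => ht L i = h) ≤ 1 := by
        intro h _
        rw [card_le_one]
        intro L hL L' hL'
        simp only [A, mem_filter, mem_univ, true_and] at hL hL'
        exact line_unique h2 s i h hi hL.1.1 hL'.1.1 hL.2 hL'.2
      calc _ ≤ ∑ h ∈ D, 1 := Finset.sum_le_sum h1
        _ = #D := by simp
        _ ≤ _ := by
          have h3 := card_union_le (deadSet mn (ω i)) (deadSet mn (ω' i))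
          have h4 := card_deadSet_le mn (ω i)
          have h5 := card_deadSet_le mn (ω' i)
          simp only [D]
          omega
  have key := sum_ite_diff_le A B (fun L => offEvent mn s.1 L ω) (fun L => offEvent mn s.1 L ω')
    (wt mn) wMax wMax_pos.le
    (fun L _ => by
      rw [abs_of_nonneg (by linarith [wt_ge mn hM hd hb hodd L])]
      exact wt_le mn hM hd hb hodd L)
    (fun L hL => by
      by_cases hev : offEvent mn s.1 L ω ↔ offEvent mn s.1 L ω'
      · exact Or.inl hev
      · right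
        have hagree : ∀ x, x ≠ i → (mn.isDead (ω x) (ht L x) ↔ mn.isDead (ω' x) (ht L x)) := by
          intro x hx; rw [hω x hx]
        have hi : some i ≠ s.1 := by
          intro hi
          apply hev
          unfold offEvent
          constructor
          · intro h x hx
            have hxi : x ≠ i := by
              intro hxi; rw [hxi] at hx; exact hx hi
            rw [← hagree x hxi]; exact h x hx
          · intro h x hx
            have hxi : x ≠ i := by
              intro hxi; rw [hxi] at hx; exact hx hi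
            rw [hagree x hxi]; exact h x hx
        have hdead : mn.isDead (ω i) (ht L i) ∨ mn.isDead (ω' i) (ht L i) := by
          by_contra hnd
          push Not at hnd
          apply hev
          unfold offEvent
          constructor
          · intro _ x hx
            by_cases hxi : x = i
            · rw [hxi]; exact hnd.2
            · rw [← hagree x hxi]; exact ‹∀ x, some x ≠ s.1 → ¬ mn.isDead (ω x) (ht L x)› x hx
          · intro _ x hx
            by_cases hxi : x = i
            · rw [hxi]; exact hnd.1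
            · rw [hagree x hxi]; exact ‹∀ x, some x ≠ s.1 → ¬ mn.isDead (ω' x) (ht L x)› x hx
        simp only [B, hi, if_false, mem_biUnion, mem_filter]
        refine ⟨ht L i, ?_, hL, rfl⟩
        simp only [D, mem_union, mem_deadSet]
        exact hdead)
  have hB8 : (#B : ℝ) * wMax ≤ 8 * wMax := by
    refine mul_le_mul_of_nonneg_right ?_ wMax_pos.le
    exact_mod_cast hBcard
  exact key.trans hB8

/-- Bounded differences for `bigW`. -/
lemma bigW_diff (mn : Menu F M) (hM : 4 ≤ M) (hd : mn.Distinct) (hb : mn.Balanced)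
    (hodd : ringChar F ≠ 2) (t0 : F) (i : F) (ω ω' : Env F M)
    (hω : ∀ j, j ≠ i → ω j = ω' j) :
    |bigW mn t0 ω - bigW mn t0 ω'| ≤ 8 * (Fintype.card F : ℝ) * wMax := by
  classical
  let A := univ.filter (fun L : F × F => L.1 ≠ t0)
  let D := deadSet mn (ω i) ∪ deadSet mn (ω' i)
  let B : Finset (F × F) := D.biUnion fun h => univ.filter fun L => ht L i = h
  have hBcard : #B ≤ 8 * Fintype.card F := by
    refine card_biUnion_le.trans ?_
    calc _ ≤ ∑ h ∈ D, Fintype.card F := Finset.sum_le_sum fun h _ => card_lines_height i h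
      _ = #D * Fintype.card F := by simp
      _ ≤ _ := by
        have h3 := card_union_le (deadSet mn (ω i)) (deadSet mn (ω' i))
        have h4 := card_deadSet_le mn (ω i)
        have h5 := card_deadSet_le mn (ω' i)
        exact Nat.mul_le_mul_right _ (by simp only [D]; omega)
  have key := sum_ite_diff_le A B (fun L => allEvent mn L ω)
    (fun L => allEvent mn L ω')
    (wt mn) wMax wMax_pos.le
    (fun L _ => by
      rw [abs_of_nonneg (by linarith [wt_ge mn hM hd hb hodd L])]
      exact wt_le mn hM hd hb hodd L)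
    (fun L _ => by
      by_cases hev : allEvent mn L ω ↔ allEvent mn L ω'
      · exact Or.inl hev
      · right
        have hagree : ∀ x, x ≠ i → (mn.isDead (ω x) (ht L x) ↔ mn.isDead (ω' x) (ht L x)) := by
          intro x hx; rw [hω x hx]
        have hdead : mn.isDead (ω i) (ht L i) ∨ mn.isDead (ω' i) (ht L i) := by
          by_contra hnd
          push Not at hnd
          apply hev
          unfold allEvent
          constructor
          · intro h x
            by_cases hxi : x = i
            · rw [hxi]; exact hnd.2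
            · rw [← hagree x hxi]; exact h x
          · intro h x
            by_cases hxi : x = i
            · rw [hxi]; exact hnd.1
            · rw [hagree x hxi]; exact h x
        simp only [B, mem_biUnion, mem_filter, mem_univ, true_and]
        refine ⟨ht L i, ?_, rfl⟩
        simp only [D, mem_union, mem_deadSet]
        exact hdead)
  have hB8 : (#B : ℝ) * wMax ≤ 8 * (Fintype.card F : ℝ) * wMax := by
    refine mul_le_mul_of_nonneg_right ?_ wMax_pos.le
    exact_mod_cast hBcard
  exact key.trans hB8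

lemma rho_bounds (mn : Menu F M) (hb : mn.Balanced) (u : F) :
    1 / 2 ≤ 1 - YY mn u ∧ 1 - YY mn u ≤ 3 / 2 := by
  have := abs_le.mp (hb u)
  constructor <;> linarith [this.1, this.2]

lemma one_sub_pH_ge (mn : Menu F M) (hM : 4 ≤ M) (hd : mn.Distinct) (h : F) :
    1 / 2 ≤ 1 - pH mn h := by
  have hM0 : 0 < M := by omega
  have hMr : (4 : ℝ) ≤ M := by exact_mod_cast hM
  have h1 := pH_le mn hM0 hd h
  have h2 : (1 : ℝ) / M ≤ 1 / 4 := one_div_le_one_div_of_le (by norm_num) hMr
  linarith

/-- The probability of `offEvent` at a part. -/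
lemma uProb_off_some (mn : Menu F M) [NeZero M] (hM : 4 ≤ M) (hd : mn.Distinct) (hb : mn.Balanced)
    (hodd : ringChar F ≠ 2) (x0 : F) (L : F × F) :
    wt mn L * uProb (offEvent mn (some x0) L) = (1 - YY mn L.2) / (1 - pH mn (ht L x0)) := by
  have h1 : uProb (offEvent mn (some x0) L)
      = ∏ x : F, (if some x ≠ some x0 then 1 - pH mn (ht L x) else 1) :=
    uProb_avoid mn L (fun x => some x ≠ some x0)
  have h2 : ∏ x : F, (if some x ≠ some x0 then 1 - pH mn (ht L x) else 1)
      = ∏ x ∈ univ.erase x0, (1 - pH mn (ht L x)) := by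
    rw [← Finset.mul_prod_erase univ (fun x => if some x ≠ some x0 then 1 - pH mn (ht L x) else 1) (mem_univ x0)]
    simp only [ne_eq, not_true_eq_false, if_false, one_mul]
    refine Finset.prod_congr rfl fun x hx => ?_
    have hne : x ≠ x0 := ne_of_mem_erase hx
    simp [hne]
  have h3 : fL mn L = (1 - pH mn (ht L x0)) * ∏ x ∈ univ.erase x0, (1 - pH mn (ht L x)) :=
    (Finset.mul_prod_erase univ (fun x => 1 - pH mn (ht L x)) (mem_univ x0)).symm
  have hf := fL_pos mn hM hd hb hodd L
  have hp := one_sub_pH_ge mn hM hd (ht L x0)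
  have hP : ∏ x ∈ univ.erase x0, (1 - pH mn (ht L x)) ≠ 0 := by
    intro h0
    rw [h0, mul_zero] at h3
    linarith
  rw [h1, h2]
  unfold wt
  rw [h3]
  have hp0 : (1 - pH mn (ht L x0)) ≠ 0 := by
    have : 0 < 1 - pH mn (ht L x0) := by linarith
    exact this.ne'
  generalize (∏ x ∈ univ.erase x0, (1 - pH mn (ht L x))) = P at hP
  generalize (1 - pH mn (ht L x0)) = a at hp0
  generalize (1 - YY mn L.2) = r
  field_simp

lemma uProb_off_none (mn : Menu F M) [NeZero M] (hM : 4 ≤ M) (hd : mn.Distinct) (hb : mn.Balanced)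
    (hodd : ringChar F ≠ 2) (L : F × F) :
    wt mn L * uProb (offEvent mn none L) = 1 - YY mn L.2 := by
  have h1 : uProb (offEvent mn none L) = fL mn L := by
    have h := uProb_avoid mn L (fun _ => True)
    simp only [forall_const, if_true] at h
    unfold fL
    rw [← h]
    apply uProb_congr
    intro ω
    simp [offEvent]
  have hf := fL_pos mn hM hd hb hodd L
  rw [h1]
  unfold wt
  field_simp

/-- Expected load, affine point. -/
lemma uExp_ell_some (mn : Menu F M) [NeZero M] (hM : 4 ≤ M) (hd : mn.Distinct) (hb : mn.Balanced)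
    (hodd : ringChar F ≠ 2) (t0 x0 k : F) :
    uExp (ell mn t0 ((some x0, k) : Pt F)) =
      ((Fintype.card F : ℝ) * (1 - pH mn k) + 4 - (1 - YY mn (k + (x0 - t0) ^ 2))) / (1 - pH mn k) := by
  have hM0 : 0 < M := by omega
  have h0 : uExp (ell mn t0 ((some x0, k) : Pt F)) =
      ∑ L ∈ univ.filter (fun L : F × F => onL ((some x0, k) : Pt F) L ∧ L.1 ≠ t0),
        wt mn L * uProb (offEvent mn (some x0) L) :=
    uExp_sum_ite _ _ _
  rw [h0]
  have h1 : ∑ L ∈ univ.filter (fun L : F × F => onL ((some x0, k) : Pt F) L ∧ L.1 ≠ t0),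
        wt mn L * uProb (offEvent mn (some x0) L)
      = ∑ t ∈ univ.erase t0, (1 - YY mn (k + (x0 - t) ^ 2)) / (1 - pH mn k) := by
    refine Finset.sum_bij' (fun L _ => L.1) (fun t _ => (t, k + (x0 - t) ^ 2)) ?_ ?_ ?_ ?_ ?_
    · intro L hL
      simp only [mem_filter, mem_univ, true_and] at hL
      simp [hL.2]
    · intro t ht'
      simp only [mem_erase, mem_univ, and_true] at ht'
      simp only [mem_filter, mem_univ, true_and]
      refine ⟨?_, ht'⟩
      simp [onL, ht]
    · intro L hL
      simp only [mem_filter, mem_univ, true_and, onL, ht] at hL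
      ext
      · rfl
      · simp only
        linear_combination -hL.1
    · intro t _; rfl
    · intro L hL
      simp only [mem_filter, mem_univ, true_and] at hL
      have hk : ht L x0 = k := hL.1
      rw [uProb_off_some mn hM hd hb hodd x0 L, hk]
      have : L.2 = k + (x0 - L.1) ^ 2 := by
        rw [← hk]; unfold ht; ring
      rw [← this]
  rw [h1, ← Finset.sum_div]
  congr 1
  have h2 : ∑ t : F, (1 - YY mn (k + (x0 - t) ^ 2)) = ∑ v : F, (1 - YY mn (k + v ^ 2)) :=
    Fintype.sum_equiv (Equiv.subLeft x0) _ _ (fun _ => rfl)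
  have h3 := Finset.add_sum_erase univ (fun t : F => (1 - YY mn (k + (x0 - t) ^ 2))) (mem_univ t0)
  rw [h2, sum_rho_shift mn hodd k, sum_pH mn hM0 hd] at h3
  linarith

lemma uExp_ell_some_bounds (mn : Menu F M) [NeZero M] (hM : 4 ≤ M) (hd : mn.Distinct) (hb : mn.Balanced)
    (hodd : ringChar F ≠ 2) (t0 x0 k : F) :
    (Fintype.card F : ℝ) ≤ uExp (ell mn t0 ((some x0, k) : Pt F)) ∧
    uExp (ell mn t0 ((some x0, k) : Pt F)) ≤ (Fintype.card F : ℝ) + 8 := by
  rw [uExp_ell_some mn hM hd hb hodd]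
  have hp := one_sub_pH_ge mn hM hd k
  have hp1 : 1 - pH mn k ≤ 1 := by linarith [pH_nonneg mn k]
  have hpos : 0 < 1 - pH mn k := by linarith
  obtain ⟨hr1, hr2⟩ := rho_bounds mn hb (k + (x0 - t0) ^ 2)
  constructor
  · rw [le_div_iff₀ hpos]; linarith
  · rw [div_le_iff₀ hpos]
    nlinarith

/-- Expected load, point at infinity. -/
lemma uExp_ell_none (mn : Menu F M) [NeZero M] (hM : 4 ≤ M) (hd : mn.Distinct) (hb : mn.Balanced)
    (hodd : ringChar F ≠ 2) (t0 t : F) (ht0 : t ≠ t0) :
    uExp (ell mn t0 ((none, t) : Pt F)) = (Fintype.card F : ℝ) := by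
  have h0 : uExp (ell mn t0 ((none, t) : Pt F)) =
      ∑ L ∈ univ.filter (fun L : F × F => onL ((none, t) : Pt F) L ∧ L.1 ≠ t0),
        wt mn L * uProb (offEvent mn none L) :=
    uExp_sum_ite _ _ _
  rw [h0, ← sum_rho mn hodd]
  refine Finset.sum_bij' (fun L _ => L.2) (fun u _ => (t, u)) ?_ ?_ ?_ ?_ ?_
  · intro L _; simp
  · intro u _
    simp only [mem_filter, mem_univ, true_and]
    exact ⟨by simp [onL], ht0⟩
  · intro L hL
    simp only [mem_filter, mem_univ, true_and, onL] at hL
    ext
    · exact hL.1.symm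
    · rfl
  · intro u _; rfl
  · intro L _
    exact uProb_off_none mn hM hd hb hodd L

/-- Expected total weight. -/
lemma uExp_bigW (mn : Menu F M) [NeZero M] (hM : 4 ≤ M) (hd : mn.Distinct) (hb : mn.Balanced)
    (hodd : ringChar F ≠ 2) (t0 : F) :
    uExp (bigW mn t0) = ((Fintype.card F : ℝ) - 1) * (Fintype.card F : ℝ) := by
  have h0 : uExp (bigW mn t0) =
      ∑ L ∈ univ.filter (fun L : F × F => L.1 ≠ t0),
        wt mn L * uProb (allEvent mn L) :=
    uExp_sum_ite _ _ _
  rw [h0]
  have h1 : ∀ L : F × F, wt mn L * uProb (allEvent mn L)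
      = 1 - YY mn L.2 := by
    intro L
    rw [← uProb_off_none mn hM hd hb hodd L]
    congr 1
    apply uProb_congr
    intro ω
    simp [offEvent, allEvent]
  simp only [h1]
  have h2 : (univ.filter fun L : F × F => L.1 ≠ t0) = (univ.erase t0) ×ˢ (univ : Finset F) := by
    ext L; simp
  rw [h2, Finset.sum_product]
  simp only [sum_rho mn hodd, sum_const, card_erase_of_mem (mem_univ t0), card_univ, nsmul_eq_mul]
  have hpos : 1 ≤ Fintype.card F := Fintype.card_pos
  push_cast [Nat.cast_sub hpos]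
  ring

/-- Tail of `ell`, upper. -/
lemma ell_upper_tail (mn : Menu F M) [NeZero M] (hM : 4 ≤ M) (hd : mn.Distinct) (hb : mn.Balanced)
    (hodd : ringChar F ≠ 2) (h2 : (2 : F) ≠ 0) (t0 : F) (s : Pt F) {T : ℝ} (hT : 0 < T) :
    uProb (fun ω => uExp (ell mn t0 s) + T ≤ ell mn t0 s ω)
      ≤ Real.exp (-(T ^ 2) / (2 * ((Fintype.card F : ℝ) * (8 * wMax) ^ 2))) := by
  have hq : (0 : ℝ) < Fintype.card F := by exact_mod_cast Fintype.card_pos
  have hsum : ∑ _i : F, (8 * wMax) ^ 2 = (Fintype.card F : ℝ) * (8 * wMax) ^ 2 := by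
    simp
  have h := mcdiarmid_upper (ell mn t0 s) (fun _ : F => 8 * wMax) (fun _ => by have := wMax_pos; positivity)
    (fun i ω ω' hω => ell_diff mn hM hd hb hodd h2 t0 s i ω ω' hω) T hT
    (by rw [hsum]; have := wMax_pos; positivity)
  rwa [hsum] at h

/-- Tail of `ell`, lower. -/
lemma ell_lower_tail (mn : Menu F M) [NeZero M] (hM : 4 ≤ M) (hd : mn.Distinct) (hb : mn.Balanced)
    (hodd : ringChar F ≠ 2) (h2 : (2 : F) ≠ 0) (t0 : F) (s : Pt F) {T : ℝ} (hT : 0 < T) :
    uProb (fun ω => ell mn t0 s ω ≤ uExp (ell mn t0 s) - T)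
      ≤ Real.exp (-(T ^ 2) / (2 * ((Fintype.card F : ℝ) * (8 * wMax) ^ 2))) := by
  have hq : (0 : ℝ) < Fintype.card F := by exact_mod_cast Fintype.card_pos
  have hsum : ∑ _i : F, (8 * wMax) ^ 2 = (Fintype.card F : ℝ) * (8 * wMax) ^ 2 := by
    simp
  have h := mcdiarmid_lower (ell mn t0 s) (fun _ : F => 8 * wMax) (fun _ => by have := wMax_pos; positivity)
    (fun i ω ω' hω => ell_diff mn hM hd hb hodd h2 t0 s i ω ω' hω) T hT
    (by rw [hsum]; have := wMax_pos; positivity)
  rwa [hsum] at h

/-- Tail of `bigW`, lower. -/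
lemma bigW_lower_tail (mn : Menu F M) [NeZero M] (hM : 4 ≤ M) (hd : mn.Distinct) (hb : mn.Balanced)
    (hodd : ringChar F ≠ 2) (t0 : F) {T : ℝ} (hT : 0 < T) :
    uProb (fun ω => bigW mn t0 ω ≤ uExp (bigW mn t0) - T)
      ≤ Real.exp (-(T ^ 2) / (2 * ((Fintype.card F : ℝ) * (8 * (Fintype.card F : ℝ) * wMax) ^ 2))) := by
  have hq : (0 : ℝ) < Fintype.card F := by exact_mod_cast Fintype.card_pos
  have hsum : ∑ _i : F, (8 * (Fintype.card F : ℝ) * wMax) ^ 2
      = (Fintype.card F : ℝ) * (8 * (Fintype.card F : ℝ) * wMax) ^ 2 := by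
    simp
  have h := mcdiarmid_lower (bigW mn t0) (fun _ : F => 8 * (Fintype.card F : ℝ) * wMax)
    (fun _ => by have := wMax_pos; positivity)
    (fun i ω ω' hω => bigW_diff mn hM hd hb hodd t0 i ω ω' hω) T hT
    (by rw [hsum]; have := wMax_pos; positivity)
  rwa [hsum] at h

/-- For an alive point the load is the sum over alive lines through it. -/
lemma ell_eq_alive (mn : Menu F M) (t0 : F) (s : Pt F) (ω : Env F M) (hs : alivePt mn ω t0 s) :
    ∑ L ∈ univ.filter (fun L : F × F => Alive' mn ω t0 L ∧ onL s L), wt mn L = ell mn t0 s ω := by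
  unfold ell
  rw [← Finset.sum_filter, Finset.filter_filter]
  refine Finset.sum_congr ?_ fun _ _ => rfl
  ext L
  simp only [mem_filter, mem_univ, true_and]
  obtain ⟨p, k⟩ := s
  cases p with
  | none =>
    simp only [Alive', offEvent, onL]
    constructor
    · rintro ⟨⟨h1, h2⟩, h3⟩
      exact ⟨⟨h3, h1⟩, fun x _ => h2 x⟩
    · rintro ⟨⟨h3, h1⟩, h2⟩
      exact ⟨⟨h1, fun x => h2 x (by simp)⟩, h3⟩
  | some x0 =>
    simp only [alivePt] at hs
    simp only [Alive', offEvent, onL]
    constructor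
    · rintro ⟨⟨h1, h2⟩, h3⟩
      exact ⟨⟨h3, h1⟩, fun x _ => h2 x⟩
    · rintro ⟨⟨h3, h1⟩, h2⟩
      refine ⟨⟨h1, fun x => ?_⟩, h3⟩
      by_cases hx : x = x0
      · rw [hx, h3]; exact hs
      · exact h2 x (by simp [hx])

lemma bigW_eq_alive (mn : Menu F M) (t0 : F) (ω : Env F M) :
    ∑ L ∈ univ.filter (fun L : F × F => Alive' mn ω t0 L), wt mn L = bigW mn t0 ω := by
  unfold bigW
  rw [← Finset.sum_filter, Finset.filter_filter]
  refine Finset.sum_congr ?_ fun _ _ => rfl
  ext L
  simp only [mem_filter, mem_univ, true_and, Alive', allEvent]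

/-- The load is at most `wMax` times the number of lines. -/
lemma ell_le_card (mn : Menu F M) (hM : 4 ≤ M) (hd : mn.Distinct) (hb : mn.Balanced)
    (hodd : ringChar F ≠ 2) (t0 : F) (s : Pt F) (ω : Env F M) :
    ell mn t0 s ω ≤ #(univ.filter fun L : F × F => onL s L ∧ AliveOff mn ω t0 s.1 L) * wMax := by
  unfold ell
  rw [← Finset.sum_filter, Finset.filter_filter]
  have hset : (univ.filter fun L : F × F => (onL s L ∧ L.1 ≠ t0) ∧ offEvent mn s.1 L ω)
      = univ.filter fun L : F × F => onL s L ∧ AliveOff mn ω t0 s.1 L := by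
    ext L
    simp only [mem_filter, mem_univ, true_and, AliveOff, offEvent]
    tauto
  rw [hset]
  refine (Finset.sum_le_card_nsmul _ _ wMax fun L _ => wt_le mn hM hd hb hodd L).trans ?_
  rw [nsmul_eq_mul]

lemma exp_nine_le : Real.exp 9 ≤ 8104 := by
  have h1 : Real.exp 9 = Real.exp 1 ^ 9 := by
    rw [← Real.exp_nat_mul]; norm_num
  rw [h1]
  have h2 := Real.exp_one_lt_d9
  calc Real.exp 1 ^ 9 ≤ (2.7182818286 : ℝ) ^ 9 :=
        pow_le_pow_left₀ (Real.exp_pos _).le h2.le _
    _ ≤ 8104 := by norm_num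

lemma wMax_le : wMax ≤ 16208 := by
  unfold wMax
  linarith [exp_nine_le]

/-- The common small probability. -/
def capEps (M : ℕ) : ℝ := Real.exp (-((M : ℝ) ^ 2 / (512 * wMax ^ 2)))

lemma card_real_ge (hc : 101 ≤ ringChar F) : (101 : ℝ) ≤ Fintype.card F := by
  have h1 : ((Fintype.card F : ℕ) : F) = 0 := Nat.cast_card_eq_zero F
  have h2 : ringChar F ∣ Fintype.card F := (ringChar.spec F _).mp h1
  have h3 : ringChar F ≤ Fintype.card F := Nat.le_of_dvd Fintype.card_pos h2
  exact_mod_cast hc.trans h3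

/-- Union count and the numerics. -/
lemma capEps_bound (hc : 101 ≤ ringChar F) (hM : (10 ^ 6 : ℝ) * Real.log (Fintype.card F) ≤ M) :
    5 * (Fintype.card F : ℝ) ^ 3 * capEps M ≤ 1 / 8 := by
  have hq := card_real_ge (F := F) hc
  set q : ℝ := ((Fintype.card F : ℕ) : ℝ) with hq_def
  have hq0 : 0 < q := by linarith
  set ℓ := Real.log q with hℓ
  have hℓ4 : 4 ≤ ℓ := by
    rw [hℓ, Real.le_log_iff_exp_le hq0]
    have h1 : Real.exp 4 = Real.exp 1 ^ 4 := by
      rw [← Real.exp_nat_mul]; norm_num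
    rw [h1]
    have h2 := Real.exp_one_lt_d9
    calc Real.exp 1 ^ 4 ≤ (2.7182818286 : ℝ) ^ 4 :=
          pow_le_pow_left₀ (Real.exp_pos _).le h2.le _
      _ ≤ 101 := by norm_num
      _ ≤ q := hq
  -- the exponent
  have hw := wMax_le
  have hw0 := wMax_pos
  have hw2 : 512 * wMax ^ 2 ≤ 512 * 16208 ^ 2 := by
    have : wMax ^ 2 ≤ 16208 ^ 2 := pow_le_pow_left₀ hw0.le hw 2
    linarith
  have hMsq : (10 ^ 6 * ℓ) ^ 2 ≤ (M : ℝ) ^ 2 := pow_le_pow_left₀ (by positivity) hM 2
  have hexp : 7 * ℓ ^ 2 ≤ (M : ℝ) ^ 2 / (512 * wMax ^ 2) := by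
    rw [le_div_iff₀ (by positivity)]
    have h5 : 7 * ℓ ^ 2 * (512 * wMax ^ 2) ≤ 7 * ℓ ^ 2 * (512 * 16208 ^ 2) :=
      mul_le_mul_of_nonneg_left hw2 (by positivity)
    have h6 : 7 * ℓ ^ 2 * (512 * 16208 ^ 2) ≤ (10 ^ 6 * ℓ) ^ 2 := by
      have : 0 ≤ ℓ ^ 2 := by positivity
      nlinarith
    linarith
  have hε : capEps M ≤ Real.exp (-(7 * ℓ ^ 2)) := by
    unfold capEps
    exact Real.exp_le_exp.mpr (by linarith)
  -- `40 q³ ≤ exp(4ℓ)`
  have hq40 : 40 * q ^ 3 ≤ Real.exp (4 * ℓ) := by
    have h1 : Real.exp (4 * ℓ) = q ^ 4 := by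
      rw [show 4 * ℓ = (4 : ℕ) * ℓ by norm_num, Real.exp_nat_mul, hℓ, Real.exp_log hq0]
    rw [h1]
    have : q ^ 4 = q * q ^ 3 := by ring
    rw [this]
    exact mul_le_mul_of_nonneg_right (by linarith) (by positivity)
  have hprod : 40 * q ^ 3 * capEps M ≤ 1 := by
    calc 40 * q ^ 3 * capEps M ≤ Real.exp (4 * ℓ) * Real.exp (-(7 * ℓ ^ 2)) :=
          mul_le_mul hq40 hε (by unfold capEps; positivity) (by positivity)
      _ = Real.exp (4 * ℓ + -(7 * ℓ ^ 2)) := (Real.exp_add _ _).symm
      _ ≤ 1 := by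
          rw [Real.exp_le_one_iff]
          nlinarith
  linarith

end Capacity

/-- MODULE E3. -/
theorem capGood_prob : ∃ C₁ A : ℕ, ∀ (F : Type) [Field F] [Fintype F] [DecidableEq F] (M : ℕ) [NeZero M],
    Regime F M C₁ A → ∀ mn : Menu F M, mn.Distinct → mn.Balanced →
    uProb (fun ω : Env F M => ¬ ∀ t0, CapGood mn ω t0) ≤ 1 / 8 := by
  refine ⟨10 ^ 6, 2, ?_⟩
  intro F _ _ _ M _ hR mn hd hb
  have hodd : ringChar F ≠ 2 := by
    have := hR.char_large
    omega
  have h2 : (2 : F) ≠ 0 := Ring.two_ne_zero hodd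
  have hM4 : 4 ≤ M := by
    have := hR.M_large
    omega
  have hMr : (1000 : ℝ) ≤ M := by exact_mod_cast hR.M_large
  have hqge := card_real_ge (F := F) hR.char_large
  set q : ℝ := ((Fintype.card F : ℕ) : ℝ) with hq_def
  have hq0 : 0 < q := by linarith
  have hsq0 : 0 < Real.sqrt q := Real.sqrt_pos.mpr hq0
  have hsq1 : 1 ≤ Real.sqrt q := by
    rw [show (1 : ℝ) = Real.sqrt 1 by simp]
    exact Real.sqrt_le_sqrt (by linarith)
  have hsqsq : Real.sqrt q ^ 2 = q := Real.sq_sqrt hq0.le
  have hMsq : (M : ℝ) ^ 2 ≤ q := by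
    have : ((M ^ 2 : ℕ) : ℝ) ≤ ((Fintype.card F : ℕ) : ℝ) := by exact_mod_cast hR.M_pow
    push_cast at this
    exact this
  have hw0 := wMax_pos
  -- the thresholds
  set T1 : ℝ := Real.sqrt q * M / 2 with hT1
  set T2 : ℝ := q * Real.sqrt q * M / 2 with hT2
  set T3 : ℝ := q / 2 with hT3
  have hT1pos : 0 < T1 := by rw [hT1]; positivity
  have hT2pos : 0 < T2 := by rw [hT2]; positivity
  have hT3pos : 0 < T3 := by rw [hT3]; positivity
  -- the three tail bounds
  have tail1 : ∀ t0 s, uProb (fun ω => uExp (ell mn t0 s) + T1 ≤ ell mn t0 s ω) ≤ capEps M := by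
    intro t0 s
    refine (ell_upper_tail mn hM4 hd hb hodd h2 t0 s hT1pos).trans (le_of_eq ?_)
    unfold capEps
    congr 1
    rw [hT1, div_pow, mul_pow, hsqsq]
    field_simp
    ring
  have tail2 : ∀ t0 s, uProb (fun ω => ell mn t0 s ω ≤ uExp (ell mn t0 s) - T3) ≤ capEps M := by
    intro t0 s
    refine (ell_lower_tail mn hM4 hd hb hodd h2 t0 s hT3pos).trans ?_
    unfold capEps
    apply Real.exp_le_exp.mpr
    have e1 : -(T3 ^ 2) / (2 * (q * (8 * wMax) ^ 2)) = -(q / (512 * wMax ^ 2)) := by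
      rw [hT3]
      field_simp
      ring
    rw [e1]
    apply neg_le_neg
    exact div_le_div_of_nonneg_right hMsq (by positivity)
  have tail3 : ∀ t0, uProb (fun ω => bigW mn t0 ω ≤ uExp (bigW mn t0) - T2) ≤ capEps M := by
    intro t0
    refine (bigW_lower_tail mn hM4 hd hb hodd t0 hT2pos).trans (le_of_eq ?_)
    unfold capEps
    congr 1
    rw [hT2, div_pow, mul_pow, mul_pow, hsqsq]
    field_simp
    ring
  -- the union
  let κ := (F × Pt F) ⊕ (F × Pt F) ⊕ F
  let B : κ → Env F M → Prop := fun k ω =>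
    match k with
    | Sum.inl e => uExp (ell mn e.1 e.2) + T1 ≤ ell mn e.1 e.2 ω
    | Sum.inr (Sum.inl e) => ell mn e.1 e.2 ω ≤ uExp (ell mn e.1 e.2) - T3
    | Sum.inr (Sum.inr t0) => bigW mn t0 ω ≤ uExp (bigW mn t0) - T2
  have hBprob : ∀ k : κ, uProb (B k) ≤ capEps M := by
    intro k
    rcases k with e | e | t0
    · exact tail1 e.1 e.2
    · exact tail2 e.1 e.2
    · exact tail3 t0
  have hcardκ : (Fintype.card κ : ℝ) ≤ 5 * q ^ 3 := by
    have : Fintype.card κ = 2 * (Fintype.card F * ((Fintype.card F + 1) * Fintype.card F)) + Fintype.card F := by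
      simp [κ, Fintype.card_sum, Fintype.card_prod, Fintype.card_option]
      ring
    rw [this]
    push_cast
    rw [← hq_def]
    nlinarith [pow_pos hq0 2, pow_pos hq0 3, mul_pos hq0 hq0]
  have hsum : ∑ k : κ, uProb (B k) ≤ 5 * q ^ 3 * capEps M := by
    have hε : 0 ≤ capEps M := by unfold capEps; positivity
    calc ∑ k : κ, uProb (B k) ≤ ∑ _k : κ, capEps M := Finset.sum_le_sum fun k _ => hBprob k
      _ = (Fintype.card κ : ℝ) * capEps M := by simp
      _ ≤ _ := mul_le_mul_of_nonneg_right hcardκ hε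
  have hnum : 5 * q ^ 3 * capEps M ≤ 1 / 8 := capEps_bound (F := F) hR.char_large (M := M) (by
    have := hR.M_log
    push_cast at this
    norm_num
    exact this)
  -- good environments
  have hgood : ∀ ω : Env F M, ¬ (∃ k ∈ (univ : Finset κ), B k ω) → ∀ t0, CapGood mn ω t0 := by
    intro ω hω t0
    have h1 : ∀ s, ell mn t0 s ω < uExp (ell mn t0 s) + T1 := by
      intro s
      by_contra hc
      exact hω ⟨Sum.inl (t0, s), mem_univ _, not_lt.mp hc⟩
    have h3 : ∀ s, uExp (ell mn t0 s) - T3 < ell mn t0 s ω := by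
      intro s
      by_contra hc
      exact hω ⟨Sum.inr (Sum.inl (t0, s)), mem_univ _, not_lt.mp hc⟩
    have h2' : uExp (bigW mn t0) - T2 < bigW mn t0 ω := by
      by_contra hc
      exact hω ⟨Sum.inr (Sum.inr t0), mem_univ _, not_lt.mp hc⟩
    refine ⟨?_, ?_, ?_⟩
    · -- clause 1
      intro s hs
      rw [ell_eq_alive mn t0 s ω hs]
      have hU : uExp (ell mn t0 s) ≤ q + 8 := by
        obtain ⟨p, k⟩ := s
        cases p with
        | none =>
          rw [uExp_ell_none mn hM4 hd hb hodd t0 k hs]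
          linarith
        | some x0 => exact (uExp_ell_some_bounds mn hM4 hd hb hodd t0 x0 k).2
      have := h1 s
      have hbig : 8 ≤ T1 := by
        rw [hT1]
        nlinarith
      have hT1eq : Real.sqrt q * M = 2 * T1 := by rw [hT1]; ring
      rw [hT1eq]
      linarith
    · -- clause 2
      rw [bigW_eq_alive]
      rw [uExp_bigW mn hM4 hd hb hodd t0] at h2'
      have hT2eq : q * Real.sqrt q * M = 2 * T2 := by rw [hT2]; ring
      have hqT : q ≤ T2 := by
        rw [hT2]
        nlinarith [mul_pos hq0 hsq0]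
      rw [hT2eq]
      nlinarith
    · -- clause 3
      intro s hs
      have hL : q ≤ uExp (ell mn t0 s) := by
        obtain ⟨p, k⟩ := s
        cases p with
        | none => exact (uExp_ell_none mn hM4 hd hb hodd t0 k (hs rfl)).ge
        | some x0 => exact (uExp_ell_some_bounds mn hM4 hd hb hodd t0 x0 k).1
      have h4 := h3 s
      have h5 := ell_le_card mn hM4 hd hb hodd t0 s ω
      have hw := wMax_le
      have h6 : q / 2 ≤ (#(univ.filter fun L : F × F => onL s L ∧ AliveOff mn ω t0 s.1 L) : ℝ) * wMax := by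
        rw [hT3] at h4
        linarith
      have hc0 : (0 : ℝ) ≤ (#(univ.filter fun L : F × F => onL s L ∧ AliveOff mn ω t0 s.1 L) : ℝ) :=
        Nat.cast_nonneg _
      have h7 : q / 2 ≤ (#(univ.filter fun L : F × F => onL s L ∧ AliveOff mn ω t0 s.1 L) : ℝ) * 16208 :=
        h6.trans (mul_le_mul_of_nonneg_left hw hc0)
      rw [div_le_iff₀ (by norm_num)]
      linarith
  calc uProb (fun ω : Env F M => ¬ ∀ t0, CapGood mn ω t0)
      ≤ uProb (fun ω : Env F M => ∃ k ∈ (univ : Finset κ), B k ω) := by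
        apply uProb_mono
        intro ω hω
        by_contra hc
        exact hω (hgood ω hc)
    _ ≤ ∑ k : κ, uProb (B k) := uProb_exists_le_sum _ _
    _ ≤ 5 * q ^ 3 * capEps M := hsum
    _ ≤ 1 / 8 := hnum

end Crest.Agent.Ryser
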