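import Crest.Agent.Lib.Ryser.Env

/-!
Row 34. Definitions of the family of words (split from `Family.lean`, so that proof files can sit
between the definitions and the assembly).
-/

set_option autoImplicit false

noncomputable section

open Finset
open scoped Classical

namespace Crest.Agent.Ryser

variable {F : Type} [Field F] [Fintype F] [DecidableEq F] {M : ℕ}

/-- The gadget line `(c,ε)` of slot `g` of part `x`, for a selection `Sel` of options. -/
def gl (mn : Menu F M) (ω : Env F M) (Sel : F → Fin 2 → F) (x : F) (g : Fin 2) (c ε : Bool) : F × F :=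
  let j := cIdx ω x g
  gLine x (mn.kappa j.1 j.2) (mn.delta j.1 j.2) (Sel x g) c ε

/-- Vertex bound: for a line `m` and a plain point `v` not on `m`, at most `4` conflicts on `m` have a
gadget line through `v` (the conflict at infinity counted if `m` has slope `t0`). -/
def VB (mn : Menu F M) (ω : Env F M) (i0 : Fin M) (t0 : F) (Sel : F → Fin 2 → F) : Prop :=
  ∀ (m : F × F) (v : Pt F), ¬ onL v m →
    #(univ.filter fun e : F × Fin 2 => ht m e.1 = mn.conf (ω e.1) e.2 ∧ ∃ c ε, onL v (gl mn ω Sel e.1 e.2 c ε)) +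
      (if m.1 = t0 ∧ ∃ c ε, onL v (infLine mn i0 t0 c ε) then 1 else 0) ≤ 4

/-- The family of words. -/
def fam (mn : Menu F M) (ω : Env F M) (i0 : Fin M) (t0 : F) (Sel : F → Fin 2 → F) :
    Finset (Option F → Option F) :=
  ((univ.filter fun L : F × F => Ret mn ω t0 L).image (plainW mn ω)) ∪
  ((univ : Finset (F × Fin 2 × Bool × Bool)).image fun e =>
      gadW mn ω (Sel e.1 e.2.1) e.1 e.2.1 e.2.2.1 e.2.2.2) ∪
  ((univ : Finset (Bool × Bool)).image fun e => infW mn ω i0 t0 e.1 e.2)

/-- The standing hypotheses on an environment and a selection. -/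
structure Setup (h2 : (2 : F) ≠ 0) (mn : Menu F M) (i0 i1 : Fin M) (ω : Env F M) (t0 : F)
    (Sel : F → Fin 2 → F) : Prop where
  distinct : mn.Distinct
  balanced : mn.Balanced
  inf : GoodInf mn ω i0 i1 t0
  cap : CapGood mn ω t0
  grid : GridGood h2 mn ω t0
  sel : ∀ x g, GoodOpt mn ω t0 (infZ t0) x g (Sel x g)
  vb : VB mn ω i0 t0 Sel
  char_large : 101 ≤ ringChar F

/-- The plain alive points of a vertex set. -/
def plainAlive (mn : Menu F M) (ω : Env F M) (t0 : F) (S : Finset (Option F × Option F)) : Finset (Pt F) :=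
  univ.filter fun s : Pt F => (s.1, some s.2) ∈ S ∧ alivePt mn ω t0 s

/-- `S` covers the family. -/
def Covers (𝓦 : Finset (Option F → Option F)) (S : Finset (Option F × Option F)) : Prop :=
  ∀ W ∈ 𝓦, ∃ p, (p, W p) ∈ S

end Crest.Agent.Ryser
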