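import Crest.Agent.Lib.Ryser.FamDefs

/-!
Row 34. Steps 1 and 5(e)(f)(g) of finding #1707: the words of the family meet pairwise, every vertex is
used, a small cover contains the alive points of its near line, and this is impossible.
All the probabilistic input is in `Setup`.
-/

set_option autoImplicit false
set_option linter.unusedSectionVars false
set_option linter.unusedVariables false

noncomputable section

open Finset
open scoped Classical

namespace Crest.Agent.Ryser

variable {F : Type} [Field F] [Fintype F] [DecidableEq F] {M : ℕ}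

/-! ### Algebra of lines -/

lemma sg_sq (ε : Bool) (d : F) : (sg ε d) ^ 2 = d ^ 2 := by
  cases ε <;> simp [sg]

lemma d1_sq_sub_d2_sq (h2 : (2 : F) ≠ 0) (Δ w : F) (hw : w ≠ 0) :
    (d1 Δ w) ^ 2 - (d2 Δ w) ^ 2 = Δ := by
  unfold d1 d2
  field_simp
  ring

/-- MODULE F0 (identity, algebra). -/
theorem ht_gLine_arc_e (h2 : (2 : F) ≠ 0) (x κ Δ w : F) (hw : w ≠ 0) (ε ε' : Bool) :
    ht (gLine x κ Δ w false ε) (arc x Δ w ε ε') = κ + Δ := by
  have h := d1_sq_sub_d2_sq h2 Δ w hw
  have h3 := sg_sq ε' (d2 Δ w)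
  simp only [ht, gLine, arc, if_false, Bool.false_eq_true]
  have e : x - sg ε (d1 Δ w) - sg ε' (d2 Δ w) - (x - sg ε (d1 Δ w)) = - sg ε' (d2 Δ w) := by ring
  rw [e, neg_sq, h3]
  linear_combination h

theorem ht_gLine_arc_f (h2 : (2 : F) ≠ 0) (x κ Δ w : F) (hw : w ≠ 0) (ε ε' : Bool) :
    ht (gLine x κ Δ w true ε') (arc x Δ w ε ε') = κ - Δ := by
  have h := d1_sq_sub_d2_sq h2 Δ w hw
  have h3 := sg_sq ε (d1 Δ w)
  simp only [ht, gLine, arc, if_true]
  have e : x - sg ε (d1 Δ w) - sg ε' (d2 Δ w) - (x - sg ε' (d2 Δ w)) = - sg ε (d1 Δ w) := by ring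
  rw [e, neg_sq, h3]
  linear_combination -h

theorem ht_gLine_self (x κ Δ w : F) (c ε : Bool) : ht (gLine x κ Δ w c ε) x = κ := by
  cases c
  · simp only [ht, gLine, if_false, Bool.false_eq_true]
    have e : x - (x - sg ε (d1 Δ w)) = sg ε (d1 Δ w) := by ring
    rw [e, sg_sq]
    ring
  · simp only [ht, gLine, if_true]
    have e : x - (x - sg ε (d2 Δ w)) = sg ε (d2 Δ w) := by ring
    rw [e, sg_sq]
    ring

/-- Two lines with equal slope parameter and the same height at one part are equal. -/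
lemma line_eq_of_slope {L L' : F × F} {x : F} (h1 : L.1 = L'.1) (h : ht L x = ht L' x) : L = L' := by
  unfold ht at h
  rw [h1] at h
  have : L.2 = L'.2 := by linear_combination h
  exact Prod.ext h1 this

/-- Two lines with the same heights at two parts are equal. -/
lemma line_eq_of_two (h2 : (2 : F) ≠ 0) {L L' : F × F} {x y : F} (hxy : x ≠ y)
    (hx : ht L x = ht L' x) (hy : ht L y = ht L' y) : L = L' := by
  have h1 : L.1 = L'.1 := by
    unfold ht at hx hy
    have e : (y - x) * (2 * (L'.1 - L.1)) = 0 := by linear_combination hx - hy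
    have hne : y - x ≠ 0 := sub_ne_zero.2 hxy.symm
    have := (mul_eq_zero.1 e).resolve_left hne
    have h3 := (mul_eq_zero.1 this).resolve_left h2
    exact (sub_eq_zero.1 h3).symm
  exact line_eq_of_slope h1 hx

/-- Non-parallel lines meet at an affine part. -/
lemma exists_meet (h2 : (2 : F) ≠ 0) {L L' : F × F} (h : L.1 ≠ L'.1) : ∃ x, ht L x = ht L' x := by
  have hne : L.1 - L'.1 ≠ 0 := sub_ne_zero.2 h
  refine ⟨((L'.2 - L.2) / (L.1 - L'.1) + L.1 + L'.1) / 2, ?_⟩
  unfold ht
  field_simp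
  ring

/-- A point on two lines, another point in another part on both: the lines are equal. -/
lemma onL_uniq2 (h2 : (2 : F) ≠ 0) {s z : Pt F} {L L' : F × F} (hp : s.1 ≠ z.1) (h1 : onL s L)
    (h2' : onL z L) (h3 : onL s L') (h4 : onL z L') : L = L' := by
  rcases s with ⟨p, a⟩
  rcases z with ⟨p', b⟩
  cases p with
  | none =>
    cases p' with
    | none => exact absurd rfl hp
    | some y =>
      have e1 : L.1 = a := h1
      have e2 : L'.1 = a := h3
      have e3 : ht L y = b := h2'
      have e4 : ht L' y = b := h4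
      exact line_eq_of_slope (e1.trans e2.symm) (e3.trans e4.symm)
  | some x =>
    cases p' with
    | none =>
      have e1 : L.1 = b := h2'
      have e2 : L'.1 = b := h4
      have e3 : ht L x = a := h1
      have e4 : ht L' x = a := h3
      exact line_eq_of_slope (e1.trans e2.symm) (e3.trans e4.symm)
    | some y =>
      have hxy : x ≠ y := fun h => hp (by simp [h])
      have e3 : ht L x = a := h1
      have e4 : ht L' x = a := h3
      have e5 : ht L y = b := h2'
      have e6 : ht L' y = b := h4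
      exact line_eq_of_two h2 hxy (e3.trans e4.symm) (e5.trans e6.symm)


/-! ### The menu -/

/-- The dead heights of a choice are pairwise distinct. -/
lemma Menu.conf_ne_conf {mn : Menu F M} (hd : mn.Distinct) (ch : Ch M) {g g' : Fin 2} (h : g ≠ g') :
    mn.conf ch g ≠ mn.conf ch g' := by
  intro e
  have := hd.1 (a₁ := (0, g, ch.1 g)) (a₂ := (0, g', ch.1 g')) e
  simp only [Prod.mk.injEq, true_and] at this
  exact h this.1

lemma Menu.conf_ne_tele {mn : Menu F M} (hd : mn.Distinct) (ch : Ch M) (g : Fin 2) :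
    mn.conf ch g ≠ mn.tele ch := by
  intro e
  have := hd.1 (a₁ := (0, g, ch.1 g)) (a₂ := (1, ch.2)) e
  simp at this

lemma Menu.conf_ne_hub {mn : Menu F M} (hd : mn.Distinct) (ch : Ch M) (g : Fin 2) :
    mn.conf ch g ≠ mn.hub ch := by
  intro e
  have := hd.1 (a₁ := (0, g, ch.1 g)) (a₂ := (2, ch.2)) e
  simp at this

lemma Menu.tele_ne_hub {mn : Menu F M} (hd : mn.Distinct) (ch : Ch M) : mn.tele ch ≠ mn.hub ch := by
  intro e
  have := hd.1 (a₁ := (1, ch.2)) (a₂ := (2, ch.2)) e
  simp at this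

/-! ### Small integers -/

lemma natCast_ne_zero_of_char {n : ℕ} (hc : 101 ≤ ringChar F) (h0 : 0 < n) (h1 : n < 101) :
    (n : F) ≠ 0 := by
  intro e
  have := (CharP.cast_eq_zero_iff F (ringChar F) n).1 e
  have := Nat.le_of_dvd h0 this
  omega

/-! ### Unified notation for the gadgets -/

/-- The conflicts: `some (x,g)` slot `g` of part `x`, `none` the conflict at infinity. -/
abbrev Cf (F : Type) := Option (F × Fin 2)

/-- The part of a conflict. -/
def cpart : Cf F → Option F
  | some e => some e.1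
  | none => none

/-- The conflict point. -/
def confPt (mn : Menu F M) (ω : Env F M) (t0 : F) : Cf F → Pt F
  | some e => (some e.1, mn.conf (ω e.1) e.2)
  | none => (none, t0)

lemma confPt_fst (mn : Menu F M) (ω : Env F M) (t0 : F) (e : Cf F) :
    (confPt mn ω t0 e).1 = cpart e := by
  cases e <;> rfl

/-- The gadget lines. -/
def ln (mn : Menu F M) (ω : Env F M) (i0 : Fin M) (t0 : F) (Sel : F → Fin 2 → F) :
    Cf F → Bool → Bool → F × F
  | some e, c, ε => gl mn ω Sel e.1 e.2 c ε
  | none, c, ε => infLine mn i0 t0 c ε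

/-- The gadget words. -/
def wd (mn : Menu F M) (ω : Env F M) (i0 : Fin M) (t0 : F) (Sel : F → Fin 2 → F) :
    Cf F → Bool → Bool → Option F → Option F
  | some e, c, ε => gadW mn ω (Sel e.1 e.2) e.1 e.2 c ε
  | none, c, ε => infW mn ω i0 t0 c ε

/-- The labels. -/
def lab (mn : Menu F M) (ω : Env F M) (t0 : F) : Cf F → Bool → Option F
  | some e, c => label mn ω e.1 e.2 c
  | none, c => if c then none else some t0

lemma wd_of_ne (mn : Menu F M) (ω : Env F M) (i0 : Fin M) (t0 : F) (Sel : F → Fin 2 → F) (e : Cf F)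
    (c ε : Bool) {p : Option F} (hp : p ≠ cpart e) :
    wd mn ω i0 t0 Sel e c ε p = plainW mn ω (ln mn ω i0 t0 Sel e c ε) p := by
  cases e with
  | none => exact Function.update_of_ne hp _ _
  | some e => exact Function.update_of_ne hp _ _

lemma wd_cpart (mn : Menu F M) (ω : Env F M) (i0 : Fin M) (t0 : F) (Sel : F → Fin 2 → F) (e : Cf F)
    (c ε : Bool) : wd mn ω i0 t0 Sel e c ε (cpart e) = lab mn ω t0 e c := by
  cases e with
  | none => simp [wd, lab, cpart, infW]
  | some e => simp [wd, lab, cpart, gadW]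

lemma wd_mem_fam (mn : Menu F M) (ω : Env F M) (i0 : Fin M) (t0 : F) (Sel : F → Fin 2 → F) (e : Cf F)
    (c ε : Bool) : wd mn ω i0 t0 Sel e c ε ∈ fam mn ω i0 t0 Sel := by
  unfold fam
  cases e with
  | none =>
    refine mem_union_right _ (mem_image.2 ⟨(c, ε), mem_univ _, rfl⟩)
  | some e =>
    refine mem_union_left _ (mem_union_right _ (mem_image.2 ⟨(e.1, e.2, c, ε), mem_univ _, rfl⟩))

lemma plainW_mem_fam (mn : Menu F M) (ω : Env F M) (i0 : Fin M) (t0 : F) (Sel : F → Fin 2 → F)
    {L : F × F} (hL : Ret mn ω t0 L) : plainW mn ω L ∈ fam mn ω i0 t0 Sel := by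
  unfold fam
  refine mem_union_left _ (mem_union_left _ (mem_image.2 ⟨L, mem_filter.2 ⟨mem_univ _, hL⟩, rfl⟩))

/-- Description of `plainW`. -/
lemma plainW_some_eq (mn : Menu F M) (ω : Env F M) (L : F × F) (y : F) :
    plainW mn ω L (some y) = if ht L y = mn.tele (ω y) then some (mn.hub (ω y)) else some (ht L y) := rfl

lemma plainW_ne_none (mn : Menu F M) (ω : Env F M) (L : F × F) (p : Option F) :
    plainW mn ω L p ≠ none := by
  cases p with
  | none => simp [plainW]
  | some y =>
    rw [plainW_some_eq]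
    split_ifs <;> simp

/-- Same height, same value. -/
lemma plainW_congr (mn : Menu F M) (ω : Env F M) {L L' : F × F} {y : F} (h : ht L y = ht L' y) :
    plainW mn ω L (some y) = plainW mn ω L' (some y) := by
  rw [plainW_some_eq, plainW_some_eq, h]

/-- Value `some h` of a word at a part. -/
lemma plainW_eq_some (mn : Menu F M) (ω : Env F M) {L : F × F} {y h : F}
    (e : plainW mn ω L (some y) = some h) :
    (ht L y = mn.tele (ω y) ∧ h = mn.hub (ω y)) ∨ (ht L y ≠ mn.tele (ω y) ∧ ht L y = h) := by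
  rw [plainW_some_eq] at e
  split_ifs at e with h1
  · exact Or.inl ⟨h1, (Option.some.inj e).symm⟩
  · exact Or.inr ⟨h1, Option.some.inj e⟩

section setup

variable {h2 : (2 : F) ≠ 0} {mn : Menu F M} {i0 i1 : Fin M} {ω : Env F M} {t0 : F}
  {Sel : F → Fin 2 → F}

/-! ### The gadgets of the affine parts -/

lemma gl_eq (mn : Menu F M) (ω : Env F M) (Sel : F → Fin 2 → F) (x : F) (g : Fin 2) (c ε : Bool) :
    gl mn ω Sel x g c ε = gLine x (mn.kappa g ((ω x).1 g)) (mn.delta g ((ω x).1 g)) (Sel x g) c ε := rfl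

lemma gl_self (mn : Menu F M) (ω : Env F M) (Sel : F → Fin 2 → F) (x : F) (g : Fin 2) (c ε : Bool) :
    ht (gl mn ω Sel x g c ε) x = mn.conf (ω x) g := by
  rw [gl_eq, ht_gLine_self]
  rfl

/-- Unpacking `GoodOpt`. -/
structure GO (mn : Menu F M) (ω : Env F M) (t0 : F) (Sel : F → Fin 2 → F) (x : F) (g : Fin 2) : Prop where
  w0 : Sel x g ≠ 0
  d10 : d1 (mn.delta g ((ω x).1 g)) (Sel x g) ≠ 0
  d20 : d2 (mn.delta g ((ω x).1 g)) (Sel x g) ≠ 0
  d12 : d1 (mn.delta g ((ω x).1 g)) (Sel x g) ≠ d2 (mn.delta g ((ω x).1 g)) (Sel x g)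
  d12' : d1 (mn.delta g ((ω x).1 g)) (Sel x g) ≠ - d2 (mn.delta g ((ω x).1 g)) (Sel x g)
  arcs : ∀ ε ε', (ω (arc x (mn.delta g ((ω x).1 g)) (Sel x g) ε ε')).2 = (g, (ω x).1 g) ∧
    arc x (mn.delta g ((ω x).1 g)) (Sel x g) ε ε' ∉ infZ t0
  slope : ∀ c ε, (gl mn ω Sel x g c ε).1 ≠ t0
  clean : ∀ c ε y g', y ≠ x → ht (gl mn ω Sel x g c ε) y ≠ mn.conf (ω y) g'
  dE : ∀ ε y, (ht (gl mn ω Sel x g false ε) y = mn.tele (ω y) ∨ ht (gl mn ω Sel x g false ε) y = mn.hub (ω y))
      → ∃ ε', y = arc x (mn.delta g ((ω x).1 g)) (Sel x g) ε ε'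
  dF : ∀ ε' y, (ht (gl mn ω Sel x g true ε') y = mn.tele (ω y) ∨ ht (gl mn ω Sel x g true ε') y = mn.hub (ω y))
      → ∃ ε, y = arc x (mn.delta g ((ω x).1 g)) (Sel x g) ε ε'

lemma go_of_setup (hS : Setup h2 mn i0 i1 ω t0 Sel) (x : F) (g : Fin 2) : GO mn ω t0 Sel x g := by
  obtain ⟨a, b, c, d, e, f, g1, g2, g3, g4⟩ := hS.sel x g
  exact ⟨a, b, c, d, e, f, g1, g2, g3, g4⟩

lemma arc_ne {x : F} {g : Fin 2} (hG : GO mn ω t0 Sel x g) (ε ε' : Bool) :
    arc x (mn.delta g ((ω x).1 g)) (Sel x g) ε ε' ≠ x := by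
  intro e
  unfold arc at e
  have e' : sg ε (d1 (mn.delta g ((ω x).1 g)) (Sel x g)) = - sg ε' (d2 (mn.delta g ((ω x).1 g)) (Sel x g)) := by
    linear_combination -e
  cases ε <;> cases ε' <;> simp only [sg, if_true, if_false, Bool.false_eq_true] at e'
  · exact hG.d12' (by linear_combination -e')
  · exact hG.d12 (by linear_combination -e')
  · exact hG.d12 (by linear_combination e')
  · exact hG.d12' e'


/-- The teleport and hub values at an arc. -/
lemma gl_arc (h2 : (2 : F) ≠ 0) {x : F} {g : Fin 2} (hG : GO mn ω t0 Sel x g) (ε ε' : Bool) :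
    ht (gl mn ω Sel x g false ε) (arc x (mn.delta g ((ω x).1 g)) (Sel x g) ε ε')
        = mn.tele (ω (arc x (mn.delta g ((ω x).1 g)) (Sel x g) ε ε')) ∧
    ht (gl mn ω Sel x g true ε') (arc x (mn.delta g ((ω x).1 g)) (Sel x g) ε ε')
        = mn.hub (ω (arc x (mn.delta g ((ω x).1 g)) (Sel x g) ε ε')) := by
  have h := (hG.arcs ε ε').1
  constructor
  · rw [gl_eq, ht_gLine_arc_e h2 _ _ _ _ hG.w0]
    unfold Menu.tele
    rw [h]
    rfl
  · rw [gl_eq, ht_gLine_arc_f h2 _ _ _ _ hG.w0]
    unfold Menu.hub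
    rw [h]
    rfl

/-- An `e`-line is never on a hub, an `f`-line never on a teleport. -/
lemma gl_e_not_hub (h2 : (2 : F) ≠ 0) (hd : mn.Distinct) {x : F} {g : Fin 2} (hG : GO mn ω t0 Sel x g)
    (ε : Bool) (y : F) : ht (gl mn ω Sel x g false ε) y ≠ mn.hub (ω y) := by
  intro e
  obtain ⟨ε', rfl⟩ := hG.dE ε y (Or.inr e)
  exact mn.tele_ne_hub hd _ (((gl_arc h2 hG ε ε').1).symm.trans e)

lemma gl_f_not_tele (h2 : (2 : F) ≠ 0) (hd : mn.Distinct) {x : F} {g : Fin 2} (hG : GO mn ω t0 Sel x g)
    (ε' : Bool) (y : F) : ht (gl mn ω Sel x g true ε') y ≠ mn.tele (ω y) := by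
  intro e
  obtain ⟨ε, rfl⟩ := hG.dF ε' y (Or.inl e)
  exact mn.tele_ne_hub hd _ (e.symm.trans ((gl_arc h2 hG ε ε').2))

/-- The gadget lines are distinct. -/
lemma gl_inj (h2 : (2 : F) ≠ 0) {x : F} {g : Fin 2} (hG : GO mn ω t0 Sel x g) {c ε c' ε' : Bool}
    (e : gl mn ω Sel x g c ε = gl mn ω Sel x g c' ε') : c = c' ∧ ε = ε' := by
  have h1 := congrArg Prod.fst e
  rw [gl_eq, gl_eq] at h1
  have d1ne : d1 (mn.delta g ((ω x).1 g)) (Sel x g) ≠ - d1 (mn.delta g ((ω x).1 g)) (Sel x g) := by
    intro h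
    have : 2 * d1 (mn.delta g ((ω x).1 g)) (Sel x g) = 0 := by linear_combination h
    exact hG.d10 ((mul_eq_zero.1 this).resolve_left h2)
  have d2ne : d2 (mn.delta g ((ω x).1 g)) (Sel x g) ≠ - d2 (mn.delta g ((ω x).1 g)) (Sel x g) := by
    intro h
    have : 2 * d2 (mn.delta g ((ω x).1 g)) (Sel x g) = 0 := by linear_combination h
    exact hG.d20 ((mul_eq_zero.1 this).resolve_left h2)
  have d12 := hG.d12
  have d12' := hG.d12'
  cases c <;> cases c' <;> cases ε <;> cases ε' <;>
    first
    | exact ⟨rfl, rfl⟩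
    | (exfalso
       simp only [gLine, sg, if_true, if_false, Bool.false_eq_true] at h1
       first
       | exact d1ne (by linear_combination h1)
       | exact d1ne (by linear_combination -h1)
       | exact d2ne (by linear_combination h1)
       | exact d2ne (by linear_combination -h1)
       | exact d12 (by linear_combination h1)
       | exact d12 (by linear_combination -h1)
       | exact d12' (by linear_combination h1)
       | exact d12' (by linear_combination -h1))


/-! ### The gadget at infinity -/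

/-- Unpacking `GoodInf`, with the small integers of the characteristic. -/
lemma inf_line_eq (mn : Menu F M) (i0 : Fin M) (t0 : F) (c ε : Bool) :
    infLine mn i0 t0 c ε = (t0, (1 + mn.beta (0, i0)) +
      (if c then (if ε then -24 else 24) else (if ε then 0 else 48))) := by
  cases c <;> cases ε <;> simp [infLine, sub_eq_add_neg]

lemma inf_slope (mn : Menu F M) (i0 : Fin M) (t0 : F) (c ε : Bool) : (infLine mn i0 t0 c ε).1 = t0 := by
  rw [inf_line_eq]

/-- The four offsets. -/
def off (F : Type) [Field F] (c ε : Bool) : F := if c then (if ε then -24 else 24) else (if ε then 0 else 48)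

lemma ht_inf (mn : Menu F M) (i0 : Fin M) (t0 : F) (c ε : Bool) (y : F) :
    ht (infLine mn i0 t0 c ε) y = (1 + mn.beta (0, i0)) + off F c ε - (y - t0) ^ 2 := by
  rw [inf_line_eq]
  rfl

/-- The offsets are distinct. -/
lemma off_inj (hc : 101 ≤ ringChar F) {c ε c' ε' : Bool} (e : off F c ε = off F c' ε') :
    c = c' ∧ ε = ε' := by
  have h24 : (24 : F) ≠ 0 := by exact_mod_cast natCast_ne_zero_of_char (F := F) (n := 24) hc (by norm_num) (by norm_num)
  have h48 : (48 : F) ≠ 0 := by exact_mod_cast natCast_ne_zero_of_char (F := F) (n := 48) hc (by norm_num) (by norm_num)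
  have h72 : (72 : F) ≠ 0 := by exact_mod_cast natCast_ne_zero_of_char (F := F) (n := 72) hc (by norm_num) (by norm_num)
  cases c <;> cases c' <;> cases ε <;> cases ε' <;>
    first
    | exact ⟨rfl, rfl⟩
    | (exfalso
       simp only [off, if_true, if_false, Bool.false_eq_true] at e
       first
       | exact h24 (by linear_combination e)
       | exact h24 (by linear_combination -e)
       | exact h48 (by linear_combination e)
       | exact h48 (by linear_combination -e)
       | exact h72 (by linear_combination e)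
       | exact h72 (by linear_combination -e))

lemma inf_inj (hc : 101 ≤ ringChar F) (mn : Menu F M) (i0 : Fin M) (t0 : F) {c ε c' ε' : Bool} {y : F}
    (e : ht (infLine mn i0 t0 c ε) y = ht (infLine mn i0 t0 c' ε') y) : c = c' ∧ ε = ε' := by
  rw [ht_inf, ht_inf] at e
  exact off_inj hc (by linear_combination e)

/-- Values of the heights at the designated parts. -/
lemma inf_values (hGI : GoodInf mn ω i0 i1 t0) :
    (ω (t0 + 1)).2 = (0, i0) ∧ (ω (t0 + 5)).2 = (0, i0) ∧ (ω (t0 + 7)).2 = (0, i0) ∧ (ω (t0 + 3)).2 = (0, i1) ∧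
    mn.delta 0 i0 = 12 ∧ mn.delta 0 i1 = 36 ∧ mn.kappa 0 i1 = mn.kappa 0 i0 + 16 :=
  ⟨hGI.2.2.2.1, hGI.2.2.2.2.1, hGI.2.2.2.2.2.1, hGI.2.2.2.2.2.2.1, hGI.1, hGI.2.1, hGI.2.2.1⟩

lemma tele_at {ω : Env F M} {y : F} {j : Fin 2 × Fin M} (h : (ω y).2 = j) :
    mn.tele (ω y) = mn.kappa j.1 j.2 + mn.delta j.1 j.2 := by
  unfold Menu.tele Menu.beta
  rw [h]

lemma hub_at {ω : Env F M} {y : F} {j : Fin 2 × Fin M} (h : (ω y).2 = j) :
    mn.hub (ω y) = mn.kappa j.1 j.2 - mn.delta j.1 j.2 := by
  unfold Menu.hub Menu.eta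
  rw [h]

/-- The table of the gadget at infinity: at each designated part, a teleport line and a hub line. -/
lemma inf_table (hGI : GoodInf mn ω i0 i1 t0) :
    (ht (infLine mn i0 t0 false true) (t0 + 1) = mn.tele (ω (t0 + 1)) ∧
      ht (infLine mn i0 t0 true true) (t0 + 1) = mn.hub (ω (t0 + 1))) ∧
    (ht (infLine mn i0 t0 true false) (t0 + 5) = mn.tele (ω (t0 + 5)) ∧
      ht (infLine mn i0 t0 false true) (t0 + 5) = mn.hub (ω (t0 + 5))) ∧
    (ht (infLine mn i0 t0 false false) (t0 + 7) = mn.tele (ω (t0 + 7)) ∧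
      ht (infLine mn i0 t0 true false) (t0 + 7) = mn.hub (ω (t0 + 7))) ∧
    (ht (infLine mn i0 t0 false false) (t0 + 3) = mn.tele (ω (t0 + 3)) ∧
      ht (infLine mn i0 t0 true true) (t0 + 3) = mn.hub (ω (t0 + 3))) := by
  obtain ⟨h1, h5, h7, h3, d0, d1', k⟩ := inf_values hGI
  have hb : mn.beta (0, i0) = mn.kappa 0 i0 + 12 := by
    unfold Menu.beta
    simp only [d0]
  refine ⟨⟨?_, ?_⟩, ⟨?_, ?_⟩, ⟨?_, ?_⟩, ⟨?_, ?_⟩⟩
  · rw [ht_inf, tele_at h1, hb, d0]; simp only [off, if_true, if_false, Bool.false_eq_true]; ring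
  · rw [ht_inf, hub_at h1, hb, d0]; simp only [off, if_true, if_false, Bool.false_eq_true]; ring
  · rw [ht_inf, tele_at h5, hb, d0]; simp only [off, if_true, if_false, Bool.false_eq_true]; ring
  · rw [ht_inf, hub_at h5, hb, d0]; simp only [off, if_true, if_false, Bool.false_eq_true]; ring
  · rw [ht_inf, tele_at h7, hb, d0]; simp only [off, if_true, if_false, Bool.false_eq_true]; ring
  · rw [ht_inf, hub_at h7, hb, d0]; simp only [off, if_true, if_false, Bool.false_eq_true]; ring
  · rw [ht_inf, tele_at h3, hb, d1', k]; simp only [off, if_true, if_false, Bool.false_eq_true]; ring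
  · rw [ht_inf, hub_at h3, hb, d1', k]; simp only [off, if_true, if_false, Bool.false_eq_true]; ring


/-! ### Uniform facts on the gadget lines -/

lemma GoodInf.clean (hGI : GoodInf mn ω i0 i1 t0) (c ε : Bool) (y : F) (g : Fin 2) :
    ht (infLine mn i0 t0 c ε) y ≠ mn.conf (ω y) g :=
  hGI.2.2.2.2.2.2.2.1 c ε y g

lemma GoodInf.des (hGI : GoodInf mn ω i0 i1 t0) (c ε : Bool) (y : F)
    (h : ht (infLine mn i0 t0 c ε) y = mn.tele (ω y) ∨ ht (infLine mn i0 t0 c ε) y = mn.hub (ω y)) :
    infDesignated t0 c ε y :=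
  hGI.2.2.2.2.2.2.2.2 c ε y h

/-- The conflict point is on its gadget lines. -/
lemma ln_through (hS : Setup h2 mn i0 i1 ω t0 Sel) (e : Cf F) (c ε : Bool) :
    onL (confPt mn ω t0 e) (ln mn ω i0 t0 Sel e c ε) := by
  cases e with
  | none => exact inf_slope mn i0 t0 c ε
  | some e => exact gl_self mn ω Sel e.1 e.2 c ε

lemma ln_inj (hS : Setup h2 mn i0 i1 ω t0 Sel) (e : Cf F) {c ε c' ε' : Bool}
    (h : ln mn ω i0 t0 Sel e c ε = ln mn ω i0 t0 Sel e c' ε') : c = c' ∧ ε = ε' := by
  cases e with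
  | none => exact inf_inj hS.char_large mn i0 t0 (y := 0) (congrArg (fun L => ht L 0) h)
  | some e => exact gl_inj h2 (go_of_setup hS e.1 e.2) h

/-- A gadget line contains only its own conflict point. -/
lemma ln_clean (hS : Setup h2 mn i0 i1 ω t0 Sel) {e e' : Cf F} {c ε : Bool}
    (h : onL (confPt mn ω t0 e') (ln mn ω i0 t0 Sel e c ε)) : e' = e := by
  cases e with
  | none =>
    cases e' with
    | none => rfl
    | some e' => exact absurd h (hS.inf.clean c ε e'.1 e'.2)
  | some e =>
    have hG := go_of_setup hS e.1 e.2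
    cases e' with
    | none => exact absurd h (hG.slope c ε)
    | some e' =>
      have h' : ht (gl mn ω Sel e.1 e.2 c ε) e'.1 = mn.conf (ω e'.1) e'.2 := h
      by_cases hx : e'.1 = e.1
      · have h3 := gl_self mn ω Sel e.1 e.2 c ε
        rw [hx] at h'
        have h4 : mn.conf (ω e.1) e.2 = mn.conf (ω e.1) e'.2 := h3.symm.trans h'
        have hg : e.2 = e'.2 := by
          by_contra hne
          exact mn.conf_ne_conf hS.distinct _ hne h4
        have : e' = e := Prod.ext hx hg.symm
        rw [this]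
      · exact absurd h' (hG.clean c ε e'.1 e'.2 hx)

/-- Lines of one gadget through a second point in another part are equal. -/
lemma ln_eq_of_pt (hS : Setup h2 mn i0 i1 ω t0 Sel) {e : Cf F} {c ε c' ε' : Bool} {s : Pt F}
    (hp : s.1 ≠ cpart e) (h1 : onL s (ln mn ω i0 t0 Sel e c ε)) (h2' : onL s (ln mn ω i0 t0 Sel e c' ε')) :
    c = c' ∧ ε = ε' := by
  refine ln_inj hS e (onL_uniq2 h2 (s := confPt mn ω t0 e) (z := s) ?_ (ln_through hS e c ε) h1
    (ln_through hS e c' ε') h2')
  rw [confPt_fst]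
  exact hp.symm

/-- A line through a conflict point and another point of a gadget line of this conflict is this
gadget line. -/
lemma eq_ln_of_pt (hS : Setup h2 mn i0 i1 ω t0 Sel) {e : Cf F} {c ε : Bool} {s : Pt F} {m : F × F}
    (hp : s.1 ≠ cpart e) (hm : onL (confPt mn ω t0 e) m) (h1 : onL s m)
    (h2' : onL s (ln mn ω i0 t0 Sel e c ε)) : m = ln mn ω i0 t0 Sel e c ε := by
  refine onL_uniq2 h2 (s := confPt mn ω t0 e) (z := s) ?_ hm h1 (ln_through hS e c ε) h2'
  rw [confPt_fst]
  exact hp.symm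

/-- If a gadget line is on a teleport or a hub of a part, the gadget has a line on the teleport and
a line on the hub of this part. -/
lemma ln_pair (hS : Setup h2 mn i0 i1 ω t0 Sel) {e : Cf F} {c ε : Bool} {y : F} (hy : some y ≠ cpart e)
    (h : ht (ln mn ω i0 t0 Sel e c ε) y = mn.tele (ω y) ∨ ht (ln mn ω i0 t0 Sel e c ε) y = mn.hub (ω y)) :
    (∃ c' ε', ht (ln mn ω i0 t0 Sel e c' ε') y = mn.tele (ω y)) ∧
    (∃ c' ε', ht (ln mn ω i0 t0 Sel e c' ε') y = mn.hub (ω y)) := by
  cases e with
  | none =>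
    have hd := hS.inf.des c ε y h
    obtain ⟨⟨t1, h1⟩, ⟨t5, h5⟩, ⟨t7, h7⟩, ⟨t3, h3⟩⟩ := inf_table hS.inf
    have key : y = t0 + 1 ∨ y = t0 + 5 ∨ y = t0 + 7 ∨ y = t0 + 3 := by
      cases c <;> cases ε <;> simp only [infDesignated, if_true, if_false, Bool.false_eq_true] at hd <;> tauto
    rcases key with rfl | rfl | rfl | rfl
    · exact ⟨⟨_, _, t1⟩, ⟨_, _, h1⟩⟩
    · exact ⟨⟨_, _, t5⟩, ⟨_, _, h5⟩⟩
    · exact ⟨⟨_, _, t7⟩, ⟨_, _, h7⟩⟩
    · exact ⟨⟨_, _, t3⟩, ⟨_, _, h3⟩⟩
  | some e =>
    have hG := go_of_setup hS e.1 e.2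
    cases c with
    | false =>
      obtain ⟨ε', rfl⟩ := hG.dE ε y h
      exact ⟨⟨false, ε, (gl_arc h2 hG ε ε').1⟩, ⟨true, ε', (gl_arc h2 hG ε ε').2⟩⟩
    | true =>
      obtain ⟨ε', rfl⟩ := hG.dF ε y h
      exact ⟨⟨false, ε', (gl_arc h2 hG ε' ε).1⟩, ⟨true, ε, (gl_arc h2 hG ε' ε).2⟩⟩

/-- Two lines of one class of a gadget are not both on teleports or hubs of a part. -/
lemma ln_same_class (hS : Setup h2 mn i0 i1 ω t0 Sel) {e : Cf F} {c ε ε' : Bool} {y : F}
    (hy : some y ≠ cpart e) (hne : ε ≠ ε')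
    (h : ht (ln mn ω i0 t0 Sel e c ε) y = mn.tele (ω y) ∨ ht (ln mn ω i0 t0 Sel e c ε) y = mn.hub (ω y))
    (h' : ht (ln mn ω i0 t0 Sel e c ε') y = mn.tele (ω y) ∨ ht (ln mn ω i0 t0 Sel e c ε') y = mn.hub (ω y)) :
    False := by
  cases e with
  | none =>
    have hd := hS.inf.des c ε y h
    have hd' := hS.inf.des c ε' y h'
    have hc := hS.char_large
    have n2 : (2 : F) ≠ 0 := by exact_mod_cast natCast_ne_zero_of_char (F := F) (n := 2) hc (by norm_num) (by norm_num)
    have n4 : (4 : F) ≠ 0 := by exact_mod_cast natCast_ne_zero_of_char (F := F) (n := 4) hc (by norm_num) (by norm_num)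
    have n6 : (6 : F) ≠ 0 := by exact_mod_cast natCast_ne_zero_of_char (F := F) (n := 6) hc (by norm_num) (by norm_num)
    cases c <;> cases ε <;> cases ε' <;> first | exact hne rfl | skip
    all_goals
      simp only [infDesignated, if_true, if_false, Bool.false_eq_true] at hd hd'
      rcases hd with rfl | rfl <;> rcases hd' with e1 | e1 <;>
        first
        | exact n2 (by linear_combination e1)
        | exact n2 (by linear_combination -e1)
        | exact n4 (by linear_combination e1)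
        | exact n4 (by linear_combination -e1)
        | exact n6 (by linear_combination e1)
        | exact n6 (by linear_combination -e1)
  | some e =>
    have hG := go_of_setup hS e.1 e.2
    have hd := hS.distinct
    have hyx : y ≠ e.1 := fun h => hy (by rw [h]; rfl)
    have key : ht (gl mn ω Sel e.1 e.2 c ε) y = ht (gl mn ω Sel e.1 e.2 c ε') y := by
      cases c with
      | false =>
        have h1 := h.resolve_right (gl_e_not_hub h2 hd hG ε y)
        have h2' := h'.resolve_right (gl_e_not_hub h2 hd hG ε' y)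
        exact h1.trans h2'.symm
      | true =>
        have h1 := h.resolve_left (gl_f_not_tele h2 hd hG ε y)
        have h2' := h'.resolve_left (gl_f_not_tele h2 hd hG ε' y)
        exact h1.trans h2'.symm
    have := line_eq_of_two h2 hyx key ((gl_self mn ω Sel e.1 e.2 c ε).trans (gl_self mn ω Sel e.1 e.2 c ε').symm)
    exact hne (gl_inj h2 hG this).2

/-- A teleport line and a hub line share the hub vertex. -/
lemma plainW_tele_hub (hd : mn.Distinct) {L L' : F × F} {y : F} (h : ht L y = mn.tele (ω y))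
    (h' : ht L' y = mn.hub (ω y)) : plainW mn ω L (some y) = plainW mn ω L' (some y) := by
  rw [plainW_some_eq, plainW_some_eq, if_pos h, if_neg, h']
  rw [h']
  exact (mn.tele_ne_hub hd _).symm

/-- Class `e` and class `f` words of one conflict share a vertex. -/
lemma arc_exists (hS : Setup h2 mn i0 i1 ω t0 Sel) (e : Cf F) (ε ε' : Bool) :
    ∃ y, some y ≠ cpart e ∧ plainW mn ω (ln mn ω i0 t0 Sel e false ε) (some y)
      = plainW mn ω (ln mn ω i0 t0 Sel e true ε') (some y) := by
  have hd := hS.distinct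
  cases e with
  | none =>
    obtain ⟨⟨t1, h1⟩, ⟨t5, h5⟩, ⟨t7, h7⟩, ⟨t3, h3⟩⟩ := inf_table hS.inf
    cases ε <;> cases ε'
    · exact ⟨t0 + 7, by simp [cpart], plainW_tele_hub hd t7 h7⟩
    · exact ⟨t0 + 3, by simp [cpart], plainW_tele_hub hd t3 h3⟩
    · exact ⟨t0 + 5, by simp [cpart], (plainW_tele_hub hd t5 h5).symm⟩
    · exact ⟨t0 + 1, by simp [cpart], plainW_tele_hub hd t1 h1⟩
  | some e =>
    have hG := go_of_setup hS e.1 e.2
    refine ⟨arc e.1 (mn.delta e.2 ((ω e.1).1 e.2)) (Sel e.1 e.2) ε ε', ?_, ?_⟩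
    · intro h
      exact arc_ne hG ε ε' (Option.some.inj h)
    · exact plainW_tele_hub hd (gl_arc h2 hG ε ε').1 (gl_arc h2 hG ε ε').2

/-! ### F1: the family is intersecting -/

/-- The form of a word. -/
structure IsWord (mn : Menu F M) (ω : Env F M) (t0 : F) (W : Option F → Option F) (L : F × F)
    (oe : Option (Cf F)) : Prop where
  agree : ∀ p, (∀ e, oe = some e → p ≠ cpart e) → W p = plainW mn ω L p
  only : ∀ e', onL (confPt mn ω t0 e') L → oe = some e'

lemma isWord_ret {L : F × F} (hL : Ret mn ω t0 L) : IsWord mn ω t0 (plainW mn ω L) L none := by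
  refine ⟨fun p _ => rfl, ?_⟩
  intro e' he'
  cases e' with
  | none => exact absurd he' hL.1
  | some e' => exact absurd he' (hL.2 e'.1 e'.2)

lemma isWord_wd (hS : Setup h2 mn i0 i1 ω t0 Sel) (e : Cf F) (c ε : Bool) :
    IsWord mn ω t0 (wd mn ω i0 t0 Sel e c ε) (ln mn ω i0 t0 Sel e c ε) (some e) := by
  refine ⟨fun p hp => wd_of_ne mn ω i0 t0 Sel e c ε (hp e rfl), ?_⟩
  intro e' he'
  rw [ln_clean hS he']

/-- Two words not of the same conflict meet. -/
lemma IsWord.meet (h2 : (2 : F) ≠ 0) {W W' : Option F → Option F} {L L' : F × F} {oe oe' : Option (Cf F)}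
    (hW : IsWord mn ω t0 W L oe) (hW' : IsWord mn ω t0 W' L' oe')
    (hth : ∀ e, oe = some e → onL (confPt mn ω t0 e) L) (hth' : ∀ e, oe' = some e → onL (confPt mn ω t0 e) L')
    (hne : ∀ e, oe = some e → oe' ≠ some e) : ∃ p, W p = W' p := by
  by_cases hs : L.1 = L'.1
  · refine ⟨none, ?_⟩
    rw [hW.agree none, hW'.agree none]
    · simp only [plainW, hs]
    · intro e he hp
      cases e with
      | some e => simp [cpart] at hp
      | none =>
        have h1 : L'.1 = t0 := hth' none he
        have h3 : onL (confPt mn ω t0 none) L := hs.trans h1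
        exact hne none (hW.only none h3) he
    · intro e he hp
      cases e with
      | some e => simp [cpart] at hp
      | none =>
        have h1 : L.1 = t0 := hth none he
        have h3 : onL (confPt mn ω t0 none) L' := hs.symm.trans h1
        exact hne none he (hW'.only none h3)
  · obtain ⟨y, hy⟩ := exists_meet h2 hs
    refine ⟨some y, ?_⟩
    rw [hW.agree (some y), hW'.agree (some y)]
    · exact plainW_congr mn ω hy
    · intro e he hp
      cases e with
      | none => simp [cpart] at hp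
      | some e =>
        have hy' : e.1 = y := (Option.some.inj hp).symm
        have h1 : ht L' e.1 = mn.conf (ω e.1) e.2 := hth' (some e) he
        have h3 : onL (confPt mn ω t0 (some e)) L := by
          change ht L e.1 = mn.conf (ω e.1) e.2
          rw [hy', hy, ← hy']
          exact h1
        exact hne (some e) (hW.only _ h3) he
    · intro e he hp
      cases e with
      | none => simp [cpart] at hp
      | some e =>
        have hy' : e.1 = y := (Option.some.inj hp).symm
        have h1 : ht L e.1 = mn.conf (ω e.1) e.2 := hth (some e) he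
        have h3 : onL (confPt mn ω t0 (some e)) L' := by
          change ht L' e.1 = mn.conf (ω e.1) e.2
          rw [hy', ← hy, ← hy']
          exact h1
        exact hne (some e) he (hW'.only _ h3)

/-- The words of the family. -/
lemma fam_cases {W : Option F → Option F} (h : W ∈ fam mn ω i0 t0 Sel) :
    (∃ L, Ret mn ω t0 L ∧ W = plainW mn ω L) ∨ ∃ e c ε, W = wd mn ω i0 t0 Sel e c ε := by
  unfold fam at h
  rcases mem_union.1 h with h | h
  · rcases mem_union.1 h with h | h
    · obtain ⟨L, hL, rfl⟩ := mem_image.1 h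
      exact Or.inl ⟨L, (mem_filter.1 hL).2, rfl⟩
    · obtain ⟨e, -, rfl⟩ := mem_image.1 h
      exact Or.inr ⟨some (e.1, e.2.1), e.2.2.1, e.2.2.2, rfl⟩
  · obtain ⟨e, -, rfl⟩ := mem_image.1 h
    exact Or.inr ⟨none, e.1, e.2, rfl⟩

/-- Two words of one conflict meet. -/
lemma wd_meet_same (hS : Setup h2 mn i0 i1 ω t0 Sel) (e : Cf F) (c ε c' ε' : Bool) :
    ∃ p, wd mn ω i0 t0 Sel e c ε p = wd mn ω i0 t0 Sel e c' ε' p := by
  by_cases hc : c = c'
  · subst hc
    exact ⟨cpart e, by rw [wd_cpart, wd_cpart]⟩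
  · cases c <;> cases c'
    · exact absurd rfl hc
    · obtain ⟨y, hy, h⟩ := arc_exists hS e ε ε'
      exact ⟨some y, by rw [wd_of_ne _ _ _ _ _ _ _ _ hy, wd_of_ne _ _ _ _ _ _ _ _ hy]; exact h⟩
    · obtain ⟨y, hy, h⟩ := arc_exists hS e ε' ε
      exact ⟨some y, by rw [wd_of_ne _ _ _ _ _ _ _ _ hy, wd_of_ne _ _ _ _ _ _ _ _ hy]; exact h.symm⟩
    · exact absurd rfl hc

/-- MODULE F1. The family is pairwise intersecting (Step 1 of #1707). -/
theorem fam_intersect (hS : Setup h2 mn i0 i1 ω t0 Sel) :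
    ∀ W ∈ fam mn ω i0 t0 Sel, ∀ W' ∈ fam mn ω i0 t0 Sel, ∃ p, W p = W' p := by
  intro W hW W' hW'
  rcases fam_cases hW with ⟨L, hL, rfl⟩ | ⟨e, c, ε, rfl⟩ <;>
    rcases fam_cases hW' with ⟨L', hL', rfl⟩ | ⟨e', c', ε', rfl⟩
  · exact IsWord.meet h2 (isWord_ret hL) (isWord_ret hL') (by simp) (by simp) (by simp)
  · refine IsWord.meet h2 (isWord_ret hL) (isWord_wd hS e' c' ε') (by simp) ?_ (by simp)
    intro e he
    obtain rfl := Option.some.inj he
    exact ln_through hS _ c' ε'
  · refine IsWord.meet h2 (isWord_wd hS e c ε) (isWord_ret hL') ?_ (by simp) (by simp)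
    intro e' he
    obtain rfl := Option.some.inj he
    exact ln_through hS _ c ε
  · by_cases he : e = e'
    · subst he
      exact wd_meet_same hS e c ε c' ε'
    · refine IsWord.meet h2 (isWord_wd hS e c ε) (isWord_wd hS e' c' ε') ?_ ?_ ?_
      · intro e'' h
        obtain rfl := Option.some.inj h
        exact ln_through hS _ c ε
      · intro e'' h
        obtain rfl := Option.some.inj h
        exact ln_through hS _ c' ε'
      · intro e'' h h'
        obtain rfl := Option.some.inj h
        exact he (Option.some.inj h').symm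

/-! ### F2: every vertex is used -/

lemma isDead_conf (mn : Menu F M) (ch : Ch M) (g : Fin 2) : mn.isDead ch (mn.conf ch g) := by
  fin_cases g
  · exact Or.inl rfl
  · exact Or.inr (Or.inl rfl)

lemma aliveOff_ret {s : Pt F} {L : F × F} (h : onL s L) (hL : AliveOff mn ω t0 s.1 L)
    (hs : ∀ y g, s.1 = some y → s.2 ≠ mn.conf (ω y) g) : Ret mn ω t0 L := by
  refine ⟨hL.1, fun x g he => ?_⟩
  by_cases hx : some x = s.1
  · have h' : ht L x = s.2 := by
      rcases s with ⟨p, k⟩
      simp only at hx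
      subst hx
      exact h
    exact hs x g hx.symm (h'.symm.trans he)
  · exact hL.2 x hx (he ▸ isDead_conf mn _ g)

lemma aliveOff_count (hS : Setup h2 mn i0 i1 ω t0 Sel) (s : Pt F) (hs : s.1 = none → s.2 ≠ t0) :
    (Fintype.card F : ℝ) / 10 ^ 6 ≤ #(univ.filter fun L : F × F => onL s L ∧ AliveOff mn ω t0 s.1 L) :=
  hS.cap.2.2 s hs

lemma exists_aliveOff (hS : Setup h2 mn i0 i1 ω t0 Sel) (s : Pt F) (hs : s.1 = none → s.2 ≠ t0) :
    ∃ L, onL s L ∧ AliveOff mn ω t0 s.1 L := by
  have h := aliveOff_count hS s hs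
  have hq : (0 : ℝ) < Fintype.card F := by exact_mod_cast Fintype.card_pos
  have h3 : (0 : ℝ) < #(univ.filter fun L : F × F => onL s L ∧ AliveOff mn ω t0 s.1 L) :=
    lt_of_lt_of_le (by positivity) h
  have h4 : 0 < #(univ.filter fun L : F × F => onL s L ∧ AliveOff mn ω t0 s.1 L) := by exact_mod_cast h3
  obtain ⟨L, hL⟩ := card_pos.1 h4
  exact ⟨L, (mem_filter.1 hL).2⟩

/-- MODULE F2. Every vertex is used. -/
theorem fam_used (hS : Setup h2 mn i0 i1 ω t0 Sel) :
    ∀ (p : Option F) (v : Option F), ∃ W ∈ fam mn ω i0 t0 Sel, W p = v := by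
  have hd := hS.distinct
  intro p v
  cases p with
  | none =>
    cases v with
    | none =>
      refine ⟨wd mn ω i0 t0 Sel none true true, wd_mem_fam _ _ _ _ _ _ _ _, ?_⟩
      exact wd_cpart mn ω i0 t0 Sel none true true
    | some t =>
      by_cases ht0 : t = t0
      · refine ⟨wd mn ω i0 t0 Sel none false true, wd_mem_fam _ _ _ _ _ _ _ _, ?_⟩
        rw [ht0]
        exact wd_cpart mn ω i0 t0 Sel none false true
      · obtain ⟨L, hL, hA⟩ := exists_aliveOff hS ((none : Option F), t) (fun _ => ht0)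
        refine ⟨plainW mn ω L, plainW_mem_fam _ _ _ _ _ (aliveOff_ret hL hA (by simp)), ?_⟩
        have e : L.1 = t := hL
        simp [plainW, e]
  | some y =>
    cases v with
    | none =>
      refine ⟨wd mn ω i0 t0 Sel (some (y, 0)) true true, wd_mem_fam _ _ _ _ _ _ _ _, ?_⟩
      have := wd_cpart mn ω i0 t0 Sel (some (y, 0)) true true
      simpa [cpart, lab, label] using this
    | some k =>
      by_cases h0 : k = mn.conf (ω y) 0
      · refine ⟨wd mn ω i0 t0 Sel (some (y, 0)) false true, wd_mem_fam _ _ _ _ _ _ _ _, ?_⟩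
        have := wd_cpart mn ω i0 t0 Sel (some (y, 0)) false true
        simpa [cpart, lab, label, h0] using this
      by_cases h1 : k = mn.conf (ω y) 1
      · refine ⟨wd mn ω i0 t0 Sel (some (y, 1)) false true, wd_mem_fam _ _ _ _ _ _ _ _, ?_⟩
        have := wd_cpart mn ω i0 t0 Sel (some (y, 1)) false true
        simpa [cpart, lab, label, h1] using this
      by_cases h3 : k = mn.tele (ω y)
      · refine ⟨wd mn ω i0 t0 Sel (some (y, 1)) true true, wd_mem_fam _ _ _ _ _ _ _ _, ?_⟩
        have := wd_cpart mn ω i0 t0 Sel (some (y, 1)) true true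
        simpa [cpart, lab, label, h3] using this
      · obtain ⟨L, hL, hA⟩ := exists_aliveOff hS ((some y : Option F), k) (by simp)
        have hk : ht L y = k := hL
        refine ⟨plainW mn ω L, plainW_mem_fam _ _ _ _ _ (aliveOff_ret hL hA ?_), ?_⟩
        · intro y' g hy'
          obtain rfl := Option.some.inj hy'
          fin_cases g
          · exact h0
          · exact h1
        · rw [plainW_some_eq, hk, if_neg h3]

/-! ### F5: a small cover contains the alive points of its near line -/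

/-- Numerics of F5. -/
lemma num_contra {q : ℝ} {M : ℕ} (hM : 10 ^ 6 ≤ M) (hq : 0 ≤ q) (hMq : (M : ℝ) ^ 100 ≤ Real.sqrt q) :
    (M : ℝ) ^ 9 * Real.sqrt q + 1 < q / 10 ^ 6 := by
  have hM' : ((10 : ℝ) ^ 6) ≤ M := by exact_mod_cast hM
  have hM1 : (1 : ℝ) ≤ M := le_trans (by norm_num) hM'
  have hM0 : (0 : ℝ) < M := by linarith
  set x := Real.sqrt q with hx
  have hxx : q = x * x := (Real.mul_self_sqrt hq).symm
  set B := (M : ℝ) ^ 9 with hB
  have hB1 : 1 ≤ B := one_le_pow₀ hM1
  have h100 : B * M * M ≤ (M : ℝ) ^ 100 := by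
    have : (M : ℝ) ^ 100 = B * M * M * (M : ℝ) ^ 89 := by rw [hB]; ring
    rw [this]
    have h89 : 1 ≤ (M : ℝ) ^ 89 := one_le_pow₀ hM1
    have h0 : 0 ≤ B * M * M := by positivity
    nlinarith
  have hx1 : B * M * M ≤ x := le_trans h100 hMq
  have hx0 : 0 < x := by
    have : 0 < B * M * M := by positivity
    linarith
  have hBM : B * 10 ^ 6 * M ≤ B * M * M := by
    have : 0 ≤ B * M := by positivity
    nlinarith
  have h3 : x * (B * 10 ^ 6 * M) ≤ x * x := by
    apply mul_le_mul_of_nonneg_left _ hx0.le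
    linarith
  have h4 : x * B * M ≤ q / 10 ^ 6 := by
    rw [hxx, le_div_iff₀ (by norm_num)]
    nlinarith
  have h5 : 2 * (x * B) + 1 ≤ x * B * M := by
    have h6 : 1 ≤ x * B := by
      have : 1 ≤ x := by nlinarith [mul_nonneg (mul_nonneg (by linarith : (0 : ℝ) ≤ B) hM0.le) hM0.le]
      nlinarith
    nlinarith
  have h6 : 0 < x * B := by positivity
  nlinarith

/-- The key of F5. -/
lemma key_contains (hS : Setup h2 mn i0 i1 ω t0 Sel) (hM : 10 ^ 6 ≤ M)
    (hMq : (M : ℝ) ^ 100 ≤ Real.sqrt (Fintype.card F))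
    (S : Finset (Option F × Option F)) (hcov : Covers (fam mn ω i0 t0 Sel) S)
    (m : PlaneLn F) (hm : (#((plainAlive mn ω t0 S).filter fun s => ¬ planeInc s m) : ℝ) ≤
      (M : ℝ) ^ 9 * Real.sqrt (Fintype.card F))
    (s : Pt F) (v : Option F) (hs : s.1 = none → s.2 ≠ t0)
    (hv : ∀ L, onL s L → plainW mn ω L s.1 = v)
    (hR : ∀ L, onL s L → AliveOff mn ω t0 s.1 L → Ret mn ω t0 L)
    (hinc : planeInc s m) : (s.1, v) ∈ S := by
  by_contra hnot
  set 𝓛 := univ.filter fun L : F × F => onL s L ∧ AliveOff mn ω t0 s.1 L with h𝓛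
  -- each line has a point of the cover
  have hz : ∀ L ∈ 𝓛, ∃ z : Pt F, z ∈ plainAlive mn ω t0 S ∧ onL z L ∧ z.1 ≠ s.1 := by
    intro L hL
    obtain ⟨hon, hA⟩ := (mem_filter.1 hL).2
    obtain ⟨p, hp⟩ := hcov _ (plainW_mem_fam mn ω i0 t0 Sel (hR L hon hA))
    have hps : p ≠ s.1 := by
      rintro rfl
      exact hnot (by rwa [hv L hon] at hp)
    cases p with
    | none =>
      refine ⟨(none, L.1), mem_filter.2 ⟨mem_univ _, hp, hA.1⟩, rfl, hps⟩
    | some y =>
      have hdead := hA.2 y hps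
      have hne : ht L y ≠ mn.tele (ω y) := fun h => hdead (Or.inr (Or.inr (Or.inl h)))
      rw [plainW_some_eq, if_neg hne] at hp
      exact ⟨(some y, ht L y), mem_filter.2 ⟨mem_univ _, hp, hdead⟩, rfl, hps⟩
  choose! z hz1 hz2 hz3 using hz
  -- lines other than `m`
  have hsub : ∃ 𝓛' ⊆ 𝓛, #𝓛 ≤ #𝓛' + 1 ∧ ∀ L ∈ 𝓛', ¬ planeInc (z L) m := by
    cases m with
    | inl L0 =>
      refine ⟨𝓛.erase L0, erase_subset _ _, ?_, ?_⟩
      · have := pred_card_le_card_erase (s := 𝓛) (a := L0)
        omega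
      · intro L hL hinc'
        have hLm := mem_of_mem_erase hL
        have hne := ne_of_mem_erase hL
        exact hne (onL_uniq2 h2 (hz3 L hLm).symm (mem_filter.1 hLm).2.1 (hz2 L hLm) hinc hinc')
    | inr p0 =>
      refine ⟨𝓛, Subset.refl _, by omega, ?_⟩
      intro L hL hinc'
      have e1 : (z L).1 = p0 := hinc'
      have e2 : s.1 = p0 := hinc
      exact hz3 L hL (e1.trans e2.symm)
  obtain ⟨𝓛', h𝓛', hc, hnm⟩ := hsub
  have hinj : #𝓛' ≤ #((plainAlive mn ω t0 S).filter fun s => ¬ planeInc s m) := by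
    refine card_le_card_of_injOn z ?_ ?_
    · intro L hL
      exact mem_coe.2 (mem_filter.2 ⟨hz1 L (h𝓛' (mem_coe.1 hL)), hnm L (mem_coe.1 hL)⟩)
    · intro L hL L' hL' he
      have hL1 := h𝓛' (mem_coe.1 hL)
      have hL2 := h𝓛' (mem_coe.1 hL')
      have h3 := hz2 L' hL2
      rw [← he] at h3
      exact onL_uniq2 h2 (hz3 L hL1).symm (mem_filter.1 hL1).2.1 (hz2 L hL1) (mem_filter.1 hL2).2.1 h3
  have h1 := aliveOff_count hS s hs
  have h3 := num_contra (q := (Fintype.card F : ℝ)) hM (by positivity) hMq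
  have h4 : (#𝓛 : ℝ) ≤ #((plainAlive mn ω t0 S).filter fun s => ¬ planeInc s m) + 1 := by
    exact_mod_cast (by omega : #𝓛 ≤ #((plainAlive mn ω t0 S).filter fun s => ¬ planeInc s m) + 1)
  linarith

/-- MODULE F5 (contains the line, Step 5(e)). -/
theorem contains_line (hS : Setup h2 mn i0 i1 ω t0 Sel) (hM : 10 ^ 6 ≤ M)
    (hMq : (M : ℝ) ^ 100 ≤ Real.sqrt (Fintype.card F))
    (S : Finset (Option F × Option F)) (hcov : Covers (fam mn ω i0 t0 Sel) S) (hcard : #S ≤ Fintype.card F)
    (m : PlaneLn F) (hm : (#((plainAlive mn ω t0 S).filter fun s => ¬ planeInc s m) : ℝ) ≤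
      (M : ℝ) ^ 9 * Real.sqrt (Fintype.card F)) :
    (∀ z : Pt F, alivePt mn ω t0 z → planeInc z m → (z.1, some z.2) ∈ S) ∧
    (∀ (y : F) (k : F), planeInc ((some y, k) : Pt F) m → (k = mn.tele (ω y) ∨ k = mn.hub (ω y)) →
      (some y, some (mn.hub (ω y))) ∈ S) := by
  have hd := hS.distinct
  constructor
  · intro z hz hinc
    refine key_contains hS hM hMq S hcov m hm z (some z.2) ?_ ?_ ?_ hinc
    · intro h
      rcases z with ⟨p, k⟩
      simp only at h
      subst h
      exact hz
    · intro L hL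
      rcases z with ⟨p, k⟩
      cases p with
      | none =>
        have e : L.1 = k := hL
        simp [plainW, e]
      | some y =>
        have e : ht L y = k := hL
        have hdead : ¬ mn.isDead (ω y) k := hz
        have hne : k ≠ mn.tele (ω y) := fun h => hdead (Or.inr (Or.inr (Or.inl h)))
        simp only
        rw [plainW_some_eq, e, if_neg hne]
    · intro L hL hA
      refine aliveOff_ret hL hA ?_
      intro y g hy
      rcases z with ⟨p, k⟩
      simp only at hy
      subst hy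
      have hdead : ¬ mn.isDead (ω y) k := hz
      intro h
      have h' : k = mn.conf (ω y) g := h
      exact hdead (h' ▸ isDead_conf mn _ g)
  · intro y k hinc hk
    refine key_contains hS hM hMq S hcov m hm (some y, k) (some (mn.hub (ω y))) (by simp) ?_ ?_ hinc
    · intro L hL
      have e : ht L y = k := hL
      simp only
      rw [plainW_some_eq, e]
      rcases hk with rfl | rfl
      · rw [if_pos rfl]
      · rw [if_neg (mn.tele_ne_hub hd _).symm]
    · intro L hL hA
      refine aliveOff_ret hL hA ?_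
      intro y' g hy'
      obtain rfl := Option.some.inj hy'
      rcases hk with rfl | rfl
      · exact (mn.conf_ne_tele hd _ g).symm
      · exact (mn.conf_ne_hub hd _ g).symm

/-! ### Fibres -/

lemma wd_eq_cases (mn : Menu F M) (ω : Env F M) (i0 : Fin M) (t0 : F) (Sel : F → Fin 2 → F) {e : Cf F}
    {c ε : Bool} {p : Option F} {o : Option F} (h : wd mn ω i0 t0 Sel e c ε p = o) :
    (p = cpart e ∧ lab mn ω t0 e c = o) ∨ (p ≠ cpart e ∧ plainW mn ω (ln mn ω i0 t0 Sel e c ε) p = o) := by
  by_cases hp : p = cpart e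
  · left
    subst hp
    exact ⟨rfl, by rw [← wd_cpart mn ω i0 t0 Sel e c ε]; exact h⟩
  · right
    exact ⟨hp, by rw [← wd_of_ne mn ω i0 t0 Sel e c ε hp]; exact h⟩

/-- Lines of one class with one value are equal. -/
lemma fib_same_class (hS : Setup h2 mn i0 i1 ω t0 Sel) {e : Cf F} {c ε ε' : Bool} {p : Option F}
    (hp : p ≠ cpart e)
    (h : plainW mn ω (ln mn ω i0 t0 Sel e c ε) p = plainW mn ω (ln mn ω i0 t0 Sel e c ε') p) : ε = ε' := by
  cases p with
  | none =>
    have e1 : (ln mn ω i0 t0 Sel e c ε).1 = (ln mn ω i0 t0 Sel e c ε').1 := Option.some.inj h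
    exact (ln_eq_of_pt hS (s := ((none : Option F), (ln mn ω i0 t0 Sel e c ε).1)) hp rfl e1.symm).2
  | some y =>
    by_contra hne
    rw [plainW_some_eq, plainW_some_eq] at h
    split_ifs at h with h1 h3 h3
    · exact hne (ln_eq_of_pt hS (s := ((some y : Option F), mn.tele (ω y))) hp h1 h3).2
    · exact ln_same_class hS hp hne (Or.inl h1) (Or.inr (Option.some.inj h).symm)
    · exact ln_same_class hS hp hne (Or.inr (Option.some.inj h)) (Or.inl h3)
    · exact hne (ln_eq_of_pt hS (s := ((some y : Option F), ht (ln mn ω i0 t0 Sel e c ε') y)) hp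
        (Option.some.inj h) rfl).2

/-- A line through a conflict with the value of a gadget line at another part is a gadget line. -/
lemma plainW_eq_gadget (hS : Setup h2 mn i0 i1 ω t0 Sel) {e : Cf F} {c ε : Bool} {m : F × F} {p : Option F}
    (hp : p ≠ cpart e) (hm : onL (confPt mn ω t0 e) m)
    (h : plainW mn ω (ln mn ω i0 t0 Sel e c ε) p = plainW mn ω m p) :
    ∃ c' ε', m = ln mn ω i0 t0 Sel e c' ε' := by
  cases p with
  | none =>
    have e1 : (ln mn ω i0 t0 Sel e c ε).1 = m.1 := Option.some.inj h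
    exact ⟨c, ε, eq_ln_of_pt hS (s := ((none : Option F), m.1)) hp hm rfl e1⟩
  | some y =>
    rw [plainW_some_eq, plainW_some_eq] at h
    split_ifs at h with h1 h3 h3
    · exact ⟨c, ε, eq_ln_of_pt hS (s := ((some y : Option F), mn.tele (ω y))) hp hm h3 h1⟩
    · obtain ⟨-, c', ε', h5⟩ := ln_pair hS hp (Or.inl h1)
      exact ⟨c', ε', eq_ln_of_pt hS (s := ((some y : Option F), mn.hub (ω y))) hp hm
        (Option.some.inj h).symm h5⟩
    · obtain ⟨⟨c', ε', h5⟩, -⟩ := ln_pair hS hp (Or.inr (Option.some.inj h))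
      exact ⟨c', ε', eq_ln_of_pt hS (s := ((some y : Option F), mn.tele (ω y))) hp hm h3 h5⟩
    · exact ⟨c, ε, eq_ln_of_pt hS (s := ((some y : Option F), ht m y)) hp hm rfl (Option.some.inj h)⟩

/-- Value of a word not at a hub: the point is on the line. -/
lemma onL_of_plainW {L : F × F} {p : Option F} {h : F} (e : plainW mn ω L p = some h)
    (hh : ∀ y, p = some y → h ≠ mn.hub (ω y)) : onL (p, h) L := by
  cases p with
  | none => exact Option.some.inj e
  | some y =>
    rcases plainW_eq_some mn ω e with ⟨-, h3⟩ | ⟨-, h3⟩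
    · exact absurd h3 (hh y rfl)
    · exact h3

/-- The designated parts are the arcs. -/
lemma des_mem_infZ {c ε : Bool} {y : F} (h : infDesignated t0 c ε y) : y ∈ infZ t0 := by
  cases c <;> cases ε <;> simp only [infDesignated, if_true, if_false, Bool.false_eq_true] at h <;>
    simp only [infZ, mem_insert, mem_singleton] <;> tauto

lemma gl_hub_facts (hS : Setup h2 mn i0 i1 ω t0 Sel) (x : F) (g : Fin 2) (c ε : Bool) (y : F)
    (h : ht (gl mn ω Sel x g c ε) y = mn.tele (ω y) ∨ ht (gl mn ω Sel x g c ε) y = mn.hub (ω y)) :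
    (ω y).2 = (g, (ω x).1 g) ∧ y ∉ infZ t0 := by
  have hG := go_of_setup hS x g
  cases c with
  | false =>
    obtain ⟨ε', rfl⟩ := hG.dE ε y h
    exact hG.arcs ε ε'
  | true =>
    obtain ⟨ε0, rfl⟩ := hG.dF ε y h
    exact hG.arcs ε0 ε

/-- Value of a plain word at a part. -/
lemma plain_value (hS : Setup h2 mn i0 i1 ω t0 Sel) {e : Cf F} {c ε : Bool} {y h : F}
    (hy : some y ≠ cpart e) (hv : plainW mn ω (ln mn ω i0 t0 Sel e c ε) (some y) = some h) :
    (∀ g, h ≠ mn.conf (ω y) g) ∧ h ≠ mn.tele (ω y) ∧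
      ((ht (ln mn ω i0 t0 Sel e c ε) y = mn.tele (ω y) ∧ h = mn.hub (ω y)) ∨
        ht (ln mn ω i0 t0 Sel e c ε) y = h) := by
  have hd := hS.distinct
  rcases plainW_eq_some mn ω hv with ⟨h1, h3⟩ | ⟨h1, h3⟩
  · subst h3
    exact ⟨fun g => (mn.conf_ne_hub hd _ g).symm, (mn.tele_ne_hub hd _).symm, Or.inl ⟨h1, rfl⟩⟩
  · subst h3
    refine ⟨fun g hg => hy ?_, h1, Or.inr rfl⟩
    have := ln_clean hS (e' := some (y, g)) (e := e) (c := c) (ε := ε) hg
    rw [← this]
    rfl

lemma lab_some_eq {x : F} {g : Fin 2} {c : Bool} {h : F} (e : lab mn ω t0 (some (x, g)) c = some h) :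
    (c = false ∧ h = mn.conf (ω x) g) ∨ (c = true ∧ g = 1 ∧ h = mn.tele (ω x)) := by
  cases c
  · left
    simp only [lab, label, if_false, Bool.false_eq_true] at e
    exact ⟨rfl, (Option.some.inj e).symm⟩
  · right
    simp only [lab, label, if_true] at e
    by_cases hg : g = 0
    · simp [hg] at e
    · rw [if_neg hg] at e
      refine ⟨rfl, ?_, (Option.some.inj e).symm⟩
      have : g ≠ 0 := hg
      omega

lemma lab_none_eq {e : Cf F} {c : Bool} {x : F} (he : some x = cpart e)
    (h : lab mn ω t0 e c = none) : c = true ∧ e = some (x, 0) := by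
  cases e with
  | none => simp [cpart] at he
  | some e =>
    have hx : e.1 = x := (Option.some.inj he).symm
    rcases e with ⟨x', g⟩
    simp only at hx
    subst hx
    cases c
    · simp [lab, label] at h
    · simp only [lab, label, if_true] at h
      by_cases hg : g = 0
      · exact ⟨rfl, by rw [hg]⟩
      · rw [if_neg hg] at h
        simp at h

/-- All conflicts of a line are on a small number of parts -/
lemma card_ht_le (h2 : (2 : F) ≠ 0) (m : F × F) (κ : F) : #(univ.filter fun x : F => ht m x = κ) ≤ 2 := by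
  rcases (univ.filter fun x : F => ht m x = κ).eq_empty_or_nonempty with h | ⟨x0, hx0⟩
  · rw [h]; simp
  · have h0 : ht m x0 = κ := (mem_filter.1 hx0).2
    have hsub : (univ.filter fun x : F => ht m x = κ) ⊆ {x0, 2 * m.1 - x0} := by
      intro x hx
      have h3 : ht m x = κ := (mem_filter.1 hx).2
      have h4 : (x - x0) * (x + x0 - 2 * m.1) = 0 := by
        have : ht m x = ht m x0 := h3.trans h0.symm
        unfold ht at this
        linear_combination -this
      simp only [mem_insert, mem_singleton]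
      rcases mul_eq_zero.1 h4 with h5 | h5
      · left; exact sub_eq_zero.1 h5
      · right; linear_combination h5
    exact le_trans (card_le_card hsub) card_le_two

/-! ### The vertex bound, in unified notation -/

lemma vb_cf (hS : Setup h2 mn i0 i1 ω t0 Sel) (m : F × F) (v : Pt F) (hv : ¬ onL v m) :
    #(univ.filter fun e : Cf F => onL (confPt mn ω t0 e) m ∧ ∃ c ε, onL v (ln mn ω i0 t0 Sel e c ε)) ≤ 4 := by
  have h := hS.vb m v hv
  set A := univ.filter fun e : F × Fin 2 => ht m e.1 = mn.conf (ω e.1) e.2 ∧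
    ∃ c ε, onL v (gl mn ω Sel e.1 e.2 c ε) with hA
  by_cases hc : m.1 = t0 ∧ ∃ c ε, onL v (infLine mn i0 t0 c ε)
  · rw [if_pos hc] at h
    have hsub : (univ.filter fun e : Cf F => onL (confPt mn ω t0 e) m ∧ ∃ c ε, onL v (ln mn ω i0 t0 Sel e c ε))
        ⊆ insert none (A.image some) := by
      intro e he
      cases e with
      | none => exact mem_insert_self _ _
      | some e =>
        obtain ⟨h3, c, ε, h4⟩ := (mem_filter.1 he).2
        exact mem_insert_of_mem (mem_image_of_mem _ (mem_filter.2 ⟨mem_univ _, h3, c, ε, h4⟩))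
    refine le_trans (card_le_card hsub) (le_trans (card_insert_le _ _) ?_)
    have := card_image_le (s := A) (f := (some : F × Fin 2 → Cf F))
    omega
  · rw [if_neg hc] at h
    have hsub : (univ.filter fun e : Cf F => onL (confPt mn ω t0 e) m ∧ ∃ c ε, onL v (ln mn ω i0 t0 Sel e c ε))
        ⊆ A.image some := by
      intro e he
      cases e with
      | none =>
        obtain ⟨h3, c, ε, h4⟩ := (mem_filter.1 he).2
        exact absurd ⟨h3, c, ε, h4⟩ hc
      | some e =>
        obtain ⟨h3, c, ε, h4⟩ := (mem_filter.1 he).2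
        exact mem_image_of_mem _ (mem_filter.2 ⟨mem_univ _, h3, c, ε, h4⟩)
    refine le_trans (card_le_card hsub) ?_
    have := card_image_le (s := A) (f := (some : F × Fin 2 → Cf F))
    omega

lemma fixed_le {A : Finset (Cf F × Bool × Bool)} {e0 : Cf F} {c0 : Bool}
    (h : ∀ j ∈ A, j.1 = e0 ∧ j.2.1 = c0) : #A ≤ 4 := by
  have h3 : #A ≤ #(univ : Finset Bool) := by
    refine card_le_card_of_injOn (fun j => j.2.2) (fun _ _ => mem_coe.2 (mem_univ _)) ?_
    intro a ha b hb hab
    have h1 := h a (mem_coe.1 ha)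
    have h2' := h b (mem_coe.1 hb)
    exact Prod.ext (h1.1.trans h2'.1.symm) (Prod.ext (h1.2.trans h2'.2.symm) hab)
  have h4 : #(univ : Finset Bool) = 2 := rfl
  omega

lemma plain_fib_le (hS : Setup h2 mn i0 i1 ω t0 Sel) (m : F × F) (v : Pt F) (hv : ¬ onL v m)
    {A : Finset (Cf F × Bool × Bool)}
    (hA : ∀ j ∈ A, onL (confPt mn ω t0 j.1) m ∧ v.1 ≠ cpart j.1 ∧
      onL v (ln mn ω i0 t0 Sel j.1 j.2.1 j.2.2)) : #A ≤ 4 := by
  refine le_trans (card_le_card_of_injOn (fun j => j.1) ?_ ?_) (vb_cf hS m v hv)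
  · intro j hj
    obtain ⟨a, b, c⟩ := hA j (mem_coe.1 hj)
    exact mem_coe.2 (mem_filter.2 ⟨mem_univ _, a, _, _, c⟩)
  · intro j hj j' hj' he
    obtain ⟨a, b, c⟩ := hA j (mem_coe.1 hj)
    obtain ⟨a', b', c'⟩ := hA j' (mem_coe.1 hj')
    rcases j with ⟨e, c1, ε1⟩
    rcases j' with ⟨e', c2, ε2⟩
    simp only at he
    subst he
    obtain ⟨x, y⟩ := ln_eq_of_pt hS b c c'
    exact Prod.ext rfl (Prod.ext x y)

lemma hub_fib_le (hS : Setup h2 mn i0 i1 ω t0 Sel) (m : F × F) (y : F)
    {A : Finset (Cf F × Bool × Bool)}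
    (hA : ∀ j ∈ A, onL (confPt mn ω t0 j.1) m ∧ some y ≠ cpart j.1 ∧
      (ht (ln mn ω i0 t0 Sel j.1 j.2.1 j.2.2) y = mn.tele (ω y) ∨
        ht (ln mn ω i0 t0 Sel j.1 j.2.1 j.2.2) y = mn.hub (ω y))) : #A ≤ 4 := by
  have hD : ∃ D : Finset (Cf F), #D ≤ 2 ∧ ∀ j ∈ A, j.1 ∈ D := by
    by_cases hy : y ∈ infZ t0
    · refine ⟨{none}, by simp, ?_⟩
      rintro ⟨e, c, ε⟩ hj
      obtain ⟨-, -, h3⟩ := hA _ hj
      cases e with
      | none => exact mem_singleton_self _
      | some e =>
        exact absurd hy (gl_hub_facts hS e.1 e.2 c ε y h3).2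
    · refine ⟨((univ.filter fun x : F => ht m x = mn.kappa (ω y).2.1 (ω y).2.2)).image
        (fun x => some (x, (ω y).2.1)), le_trans card_image_le (card_ht_le h2 _ _), ?_⟩
      rintro ⟨e, c, ε⟩ hj
      obtain ⟨h4, -, h3⟩ := hA _ hj
      cases e with
      | none =>
        exact absurd (des_mem_infZ (hS.inf.des c ε y h3)) hy
      | some e =>
        rcases e with ⟨x, g⟩
        have h5 := (gl_hub_facts hS x g c ε y h3).1
        have h6 : ht m x = mn.conf (ω x) g := h4
        have hg : (ω y).2.1 = g := by rw [h5]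
        have hi : (ω y).2.2 = (ω x).1 g := by rw [h5]
        refine mem_image.2 ⟨x, mem_filter.2 ⟨mem_univ _, ?_⟩, ?_⟩
        · rw [h6, hg, hi]
          rfl
        · rw [hg]
  obtain ⟨D, hD2, hD⟩ := hD
  have h3 : #A ≤ #(D ×ˢ (univ : Finset Bool)) := by
    refine card_le_card_of_injOn (fun j => (j.1, j.2.1)) ?_ ?_
    · intro j hj
      exact mem_coe.2 (mem_product.2 ⟨hD j (mem_coe.1 hj), mem_univ _⟩)
    · rintro ⟨e, c, ε⟩ hj ⟨e', c', ε'⟩ hj' he
      simp only [Prod.mk.injEq] at he
      obtain ⟨rfl, rfl⟩ := he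
      obtain ⟨-, h4, h5⟩ := hA _ (mem_coe.1 hj)
      obtain ⟨-, -, h6⟩ := hA _ (mem_coe.1 hj')
      by_cases hne : ε = ε'
      · rw [hne]
      · exact absurd (ln_same_class hS h4 hne h5 h6) id
  rw [card_product] at h3
  have h4 : #(univ : Finset Bool) = 2 := rfl
  rw [h4] at h3
  omega

/-- Main fibre bound of F7. -/
lemma fiber_le (hS : Setup h2 mn i0 i1 ω t0 Sel) (m : F × F) (p : Option F) (o : Option F)
    (hnot : ∀ h, o = some h → alivePt mn ω t0 (p, h) → ¬ onL (p, h) m) :
    #(univ.filter fun j : Cf F × Bool × Bool => onL (confPt mn ω t0 j.1) m ∧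
      wd mn ω i0 t0 Sel j.1 j.2.1 j.2.2 p = o) ≤ 4 := by
  have hd := hS.distinct
  cases p with
  | none =>
    cases o with
    | none =>
      refine fixed_le (e0 := none) (c0 := true) ?_
      rintro ⟨e, c, ε⟩ hj
      have h3 := (mem_filter.1 hj).2.2
      rcases wd_eq_cases mn ω i0 t0 Sel h3 with ⟨h4, h5⟩ | ⟨h4, h5⟩
      · cases e with
        | some e => simp [cpart] at h4
        | none =>
          refine ⟨rfl, ?_⟩
          cases c
          · simp [lab] at h5
          · rfl
      · exact absurd h5 (plainW_ne_none mn ω _ _)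
    | some t =>
      by_cases ht0 : t = t0
      · rw [ht0]
        refine fixed_le (e0 := none) (c0 := false) ?_
        rintro ⟨e, c, ε⟩ hj
        have h3 := (mem_filter.1 hj).2.2
        rcases wd_eq_cases mn ω i0 t0 Sel h3 with ⟨h4, h5⟩ | ⟨h4, h5⟩
        · cases e with
          | some e => simp [cpart] at h4
          | none =>
            refine ⟨rfl, ?_⟩
            cases c
            · rfl
            · simp [lab] at h5
        · cases e with
          | none => exact absurd rfl h4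
          | some e =>
            exact absurd (Option.some.inj h5) ((go_of_setup hS e.1 e.2).slope c ε)
      · refine plain_fib_le hS m (none, t) (hnot t rfl ht0) ?_
        rintro ⟨e, c, ε⟩ hj
        obtain ⟨h1, h3⟩ := (mem_filter.1 hj).2
        refine ⟨h1, ?_⟩
        rcases wd_eq_cases mn ω i0 t0 Sel h3 with ⟨h4, h5⟩ | ⟨h4, h5⟩
        · exfalso
          cases e with
          | some e => simp [cpart] at h4
          | none =>
            cases c
            · simp only [lab, if_false, Bool.false_eq_true] at h5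
              exact ht0 (Option.some.inj h5).symm
            · simp [lab] at h5
        · exact ⟨h4, Option.some.inj h5⟩
  | some y =>
    cases o with
    | none =>
      refine fixed_le (e0 := some (y, 0)) (c0 := true) ?_
      rintro ⟨e, c, ε⟩ hj
      have h3 := (mem_filter.1 hj).2.2
      rcases wd_eq_cases mn ω i0 t0 Sel h3 with ⟨h4, h5⟩ | ⟨h4, h5⟩
      · obtain ⟨rfl, rfl⟩ := lab_none_eq h4 h5
        exact ⟨rfl, rfl⟩
      · exact absurd h5 (plainW_ne_none mn ω _ _)
    | some h =>
      -- label type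
      have hlab : ∀ e c, some y = cpart e → lab mn ω t0 e c = some h →
          ∃ g, e = some (y, g) ∧ ((c = false ∧ h = mn.conf (ω y) g) ∨ (c = true ∧ g = 1 ∧ h = mn.tele (ω y))) := by
        intro e c he hl
        cases e with
        | none => simp [cpart] at he
        | some e =>
          rcases e with ⟨x, g⟩
          have hx : y = x := Option.some.inj he
          subst hx
          exact ⟨g, rfl, lab_some_eq hl⟩
      by_cases h0 : ∃ g0, h = mn.conf (ω y) g0
      · obtain ⟨g0, rfl⟩ := h0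
        refine fixed_le (e0 := some (y, g0)) (c0 := false) ?_
        rintro ⟨e, c, ε⟩ hj
        have h3 := (mem_filter.1 hj).2.2
        rcases wd_eq_cases mn ω i0 t0 Sel h3 with ⟨h4, h5⟩ | ⟨h4, h5⟩
        · obtain ⟨g, rfl, ⟨rfl, h6⟩ | ⟨-, -, h6⟩⟩ := hlab _ _ h4 h5
          · have hg : g0 = g := by
              by_contra hne
              exact mn.conf_ne_conf hd _ hne h6
            subst hg
            exact ⟨rfl, rfl⟩
          · exact absurd h6 (mn.conf_ne_tele hd _ _)
        · exact absurd rfl ((plain_value hS h4 h5).1 g0)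
      have h0 : ∀ g0, h ≠ mn.conf (ω y) g0 := fun g0 e => h0 ⟨g0, e⟩
      by_cases h1 : h = mn.tele (ω y)
      · subst h1
        refine fixed_le (e0 := some (y, 1)) (c0 := true) ?_
        rintro ⟨e, c, ε⟩ hj
        have h3 := (mem_filter.1 hj).2.2
        rcases wd_eq_cases mn ω i0 t0 Sel h3 with ⟨h4, h5⟩ | ⟨h4, h5⟩
        · obtain ⟨g, rfl, ⟨rfl, h6⟩ | ⟨rfl, rfl, -⟩⟩ := hlab _ _ h4 h5
          · exact absurd h6 (h0 g)
          · exact ⟨rfl, rfl⟩
        · exact absurd rfl (plain_value hS h4 h5).2.1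
      by_cases h3' : h = mn.hub (ω y)
      · subst h3'
        refine hub_fib_le hS m y ?_
        rintro ⟨e, c, ε⟩ hj
        obtain ⟨h5, h3⟩ := (mem_filter.1 hj).2
        refine ⟨h5, ?_⟩
        rcases wd_eq_cases mn ω i0 t0 Sel h3 with ⟨h4, h6⟩ | ⟨h4, h6⟩
        · obtain ⟨g, rfl, ⟨-, h7⟩ | ⟨-, -, h7⟩⟩ := hlab _ _ h4 h6
          · exact absurd h7 (h0 g)
          · exact absurd h7 h1
        · refine ⟨h4, ?_⟩
          rcases (plain_value hS h4 h6).2.2 with ⟨h7, -⟩ | h7
          · exact Or.inl h7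
          · exact Or.inr h7
      · -- alive value
        have hal : alivePt mn ω t0 (some y, h) := by
          rintro (e | e | e | e)
          · exact h0 0 e
          · exact h0 1 e
          · exact h1 e
          · exact h3' e
        refine plain_fib_le hS m (some y, h) (hnot h rfl hal) ?_
        rintro ⟨e, c, ε⟩ hj
        obtain ⟨h5, h3⟩ := (mem_filter.1 hj).2
        refine ⟨h5, ?_⟩
        rcases wd_eq_cases mn ω i0 t0 Sel h3 with ⟨h4, h6⟩ | ⟨h4, h6⟩
        · obtain ⟨g, rfl, ⟨-, h7⟩ | ⟨-, -, h7⟩⟩ := hlab _ _ h4 h6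
          · exact absurd h7 (h0 g)
          · exact absurd h7 h1
        · refine ⟨h4, ?_⟩
          rcases (plain_value hS h4 h6).2.2 with ⟨-, h7⟩ | h7
          · exact absurd h7 h3'
          · exact h7

/-! ### F7 -/

/-- MODULE F7 (Step 5(g): `m` is not a part). -/
theorem no_cover_line (hS : Setup h2 mn i0 i1 ω t0 Sel)
    (S : Finset (Option F × Option F)) (hcov : Covers (fam mn ω i0 t0 Sel) S) (hcard : #S ≤ Fintype.card F)
    (m : F × F)
    (h1 : ∀ z : Pt F, alivePt mn ω t0 z → onL z m → (z.1, some z.2) ∈ S)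
    (h2' : ∀ (y : F) (k : F), onL ((some y, k) : Pt F) m → (k = mn.tele (ω y) ∨ k = mn.hub (ω y)) →
      (some y, some (mn.hub (ω y))) ∈ S) : False := by
  have hd := hS.distinct
  set C := univ.filter (fun e : Cf F => onL (confPt mn ω t0 e) m) with hC
  have hinjC : Set.InjOn cpart (C : Set (Cf F)) := by
    intro e he e' he' h
    have h3 : onL (confPt mn ω t0 e) m := (mem_filter.1 (mem_coe.1 he)).2
    have h4 : onL (confPt mn ω t0 e') m := (mem_filter.1 (mem_coe.1 he')).2
    cases e with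
    | none =>
      cases e' with
      | none => rfl
      | some e' => simp [cpart] at h
    | some e =>
      cases e' with
      | none => simp [cpart] at h
      | some e' =>
        rcases e with ⟨x, g⟩
        rcases e' with ⟨x', g'⟩
        have hx : x = x' := Option.some.inj h
        subst hx
        have h5 : ht m x = mn.conf (ω x) g := h3
        have h6 : ht m x = mn.conf (ω x) g' := h4
        have hg : g = g' := by
          by_contra hne
          exact mn.conf_ne_conf hd _ hne (h5.symm.trans h6)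
        rw [hg]
  set P0 := (univ : Finset (Option F)) \ C.image cpart with hP0
  set Lb := P0.image (fun p => (p, plainW mn ω m p)) with hLb
  -- `P0`: the parts where `m` has no conflict point
  have hP0_mem : ∀ p, p ∈ P0 ↔ ∀ e, onL (confPt mn ω t0 e) m → p ≠ cpart e := by
    intro p
    simp only [hP0, mem_sdiff, mem_univ, true_and, mem_image, not_exists, not_and]
    constructor
    · intro h e he hp
      exact h e (mem_filter.2 ⟨mem_univ _, he⟩) hp.symm
    · intro h e he hp
      exact h e (mem_filter.1 he).2 hp.symm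
  have hLb_mem : ∀ p o, (p, o) ∈ Lb ↔ p ∈ P0 ∧ plainW mn ω m p = o := by
    intro p o
    simp only [hLb, mem_image, Prod.mk.injEq]
    constructor
    · rintro ⟨p', h3, rfl, rfl⟩
      exact ⟨h3, rfl⟩
    · rintro ⟨h3, h4⟩
      exact ⟨p, h3, rfl, h4⟩
  have hLbS : Lb ⊆ S := by
    rintro ⟨p, o⟩ h
    obtain ⟨h3, rfl⟩ := (hLb_mem p o).1 h
    have h4 := (hP0_mem p).1 h3
    cases p with
    | none =>
      have h5 : m.1 ≠ t0 := fun e => h4 none e rfl
      exact h1 (none, m.1) h5 rfl
    | some y =>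
      have h5 : ∀ g, ht m y ≠ mn.conf (ω y) g := fun g e => h4 (some (y, g)) e rfl
      rw [plainW_some_eq]
      split_ifs with h6
      · exact h2' y _ rfl (Or.inl h6)
      · by_cases h7 : ht m y = mn.hub (ω y)
        · have := h2' y _ rfl (Or.inr h7)
          rw [h7]
          exact this
        · have hal : alivePt mn ω t0 (some y, ht m y) := by
            rintro (e | e | e | e)
            · exact h5 0 e
            · exact h5 1 e
            · exact h6 e
            · exact h7 e
          exact h1 (some y, ht m y) hal rfl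
  have hcardLb : #Lb + #C = Fintype.card F + 1 := by
    have h3 : #Lb = #P0 := card_image_of_injective _ (fun a b h => (Prod.mk.inj h).1)
    have h4 : #(C.image cpart) = #C := card_image_of_injOn hinjC
    have h5 : #P0 + #(C.image cpart) = Fintype.card (Option F) := by
      rw [hP0]
      have := card_sdiff_add_card_eq_card (subset_univ (C.image cpart))
      rw [card_univ] at this
      exact this
    rw [Fintype.card_option] at h5
    omega
  set T := S \ Lb with hT
  have hTc : #T + #Lb = #S := card_sdiff_add_card_eq_card hLbS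
  have hTk : #T + 1 ≤ #C := by omega
  -- alive points on `m` are in `Lb`
  have halive : ∀ p h, alivePt mn ω t0 (p, h) → onL (p, h) m → (p, some h) ∈ Lb := by
    intro p h hal hon
    refine (hLb_mem _ _).2 ⟨(hP0_mem p).2 ?_, ?_⟩
    · intro e he hp
      subst hp
      cases e with
      | none =>
        have e1 : m.1 = t0 := he
        have e2 : m.1 = h := hon
        exact hal (e2.symm.trans e1)
      | some e =>
        rcases e with ⟨x, g⟩
        have e1 : ht m x = mn.conf (ω x) g := he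
        have e2 : ht m x = h := hon
        have hal' : ¬ mn.isDead (ω x) h := hal
        exact hal' (by rw [← e2, e1]; exact isDead_conf mn _ g)
    · cases p with
      | none =>
        have e2 : m.1 = h := hon
        simp [plainW, e2]
      | some y =>
        have e2 : ht m y = h := hon
        have hal' : ¬ mn.isDead (ω y) h := hal
        have hne : h ≠ mn.tele (ω y) := fun e => hal' (Or.inr (Or.inr (Or.inl e)))
        rw [plainW_some_eq, e2, if_neg hne]
  by_cases hgad : ∃ e c ε, m = ln mn ω i0 t0 Sel e c ε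
  · obtain ⟨e, c, ε, rfl⟩ := hgad
    have hCe : C ⊆ {e} := by
      intro e' he'
      exact mem_singleton.2 (ln_clean hS (mem_filter.1 he').2)
    have hC1 : #C ≤ 1 := by
      have := card_le_card hCe
      simpa using this
    have hT0 : #T = 0 := by omega
    have hSLb : S ⊆ Lb := by
      intro v hv
      by_contra hn
      have : v ∈ T := mem_sdiff.2 ⟨hv, hn⟩
      rw [card_eq_zero] at hT0
      rw [hT0] at this
      simp at this
    obtain ⟨p, hp⟩ := hcov _ (wd_mem_fam mn ω i0 t0 Sel e c (!ε))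
    obtain ⟨h3, h4⟩ := (hLb_mem _ _).1 (hSLb hp)
    have hpe : p ≠ cpart e := (hP0_mem p).1 h3 e (ln_through hS e c ε)
    rw [wd_of_ne mn ω i0 t0 Sel e c _ hpe] at h4
    have := fib_same_class hS hpe h4
    cases ε <;> simp at this
  · have hgad' : ∀ e c ε, m ≠ ln mn ω i0 t0 Sel e c ε := by
      intro e c ε h
      exact hgad ⟨e, c, ε, h⟩
    set J := C ×ˢ (univ : Finset (Bool × Bool)) with hJ
    have hJc : #J = #C * 4 := by
      rw [hJ, card_product]
      rfl
    have hφ : ∀ j ∈ J, ∃ p, (p, wd mn ω i0 t0 Sel j.1 j.2.1 j.2.2 p) ∈ T := by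
      rintro ⟨e, c, ε⟩ hj
      obtain ⟨p, hp⟩ := hcov _ (wd_mem_fam mn ω i0 t0 Sel e c ε)
      refine ⟨p, mem_sdiff.2 ⟨hp, ?_⟩⟩
      intro hn
      obtain ⟨h3, h4⟩ := (hLb_mem _ _).1 hn
      have heC : onL (confPt mn ω t0 e) m := (mem_filter.1 (mem_product.1 hj).1).2
      have hpe : p ≠ cpart e := (hP0_mem p).1 h3 e heC
      have h4' : wd mn ω i0 t0 Sel e c ε p = plainW mn ω m p := h4.symm
      rw [wd_of_ne mn ω i0 t0 Sel e c ε hpe] at h4'
      obtain ⟨c', ε', h5⟩ := plainW_eq_gadget hS hpe heC h4'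
      exact hgad' _ _ _ h5
    choose! φ hφ using hφ
    have hcount := card_le_mul_card_image_of_maps_to (s := J) (t := T)
      (f := fun j => (φ j, wd mn ω i0 t0 Sel j.1 j.2.1 j.2.2 (φ j))) hφ 4 ?_
    · rw [hJc] at hcount
      omega
    · rintro ⟨p, o⟩ hv
      have hnot : ∀ h, o = some h → alivePt mn ω t0 (p, h) → ¬ onL (p, h) m := by
        rintro h rfl hal hon
        exact (mem_sdiff.1 hv).2 (halive p h hal hon)
      refine le_trans (card_le_card ?_) (fiber_le hS m p o hnot)
      intro j hj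
      obtain ⟨h3, h4⟩ := mem_filter.1 hj
      simp only [Prod.mk.injEq] at h4
      obtain ⟨rfl, h5⟩ := h4
      exact mem_filter.2 ⟨mem_univ _, (mem_filter.1 (mem_product.1 h3).1).2, h5⟩

/-! ### F6 -/

lemma card_bool : #(univ : Finset Bool) = 2 := rfl

lemma lab_inj (hd : mn.Distinct) {y : F} {g g' : Fin 2} {c c' : Bool}
    (h : lab mn ω t0 (some (y, g)) c = lab mn ω t0 (some (y, g')) c') : g = g' ∧ c = c' := by
  have e1 := mn.conf_ne_conf hd (ω y) (g := 0) (g' := 1) (by decide)
  have e2 := mn.conf_ne_tele hd (ω y) 0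
  have e3 := mn.conf_ne_tele hd (ω y) 1
  fin_cases g <;> fin_cases g' <;> cases c <;> cases c' <;>
    simp [lab, label, e1, e1.symm, e2, e2.symm, e3, e3.symm] at h ⊢

/-- Fibres at infinity. -/
lemma fiber_inf (hS : Setup h2 mn i0 i1 ω t0 Sel) (p o : Option F) :
    #(univ.filter fun j : Bool × Bool => wd mn ω i0 t0 Sel none j.1 j.2 p = o) ≤ 2 := by
  cases p with
  | none =>
    refine le_trans (card_le_card_of_injOn (fun j => j.2) (t := univ) (fun _ _ => mem_coe.2 (mem_univ _)) ?_) (le_of_eq card_bool)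
    rintro ⟨c, ε⟩ hj ⟨c', ε'⟩ hj' he
    have h3 := (mem_filter.1 (mem_coe.1 hj)).2
    have h4 := (mem_filter.1 (mem_coe.1 hj')).2
    rw [← h4] at h3
    have e3 := wd_cpart mn ω i0 t0 Sel none c ε
    have e4 := wd_cpart mn ω i0 t0 Sel none c' ε'
    have e5 : lab mn ω t0 none c = lab mn ω t0 none c' := e3.symm.trans (h3.trans e4)
    have hc : c = c' := by
      cases c <;> cases c' <;> simp [lab] at e5 ⊢
    exact Prod.ext hc he
  | some y =>
    refine le_trans (card_le_card_of_injOn (fun j => j.1) (t := univ) (fun _ _ => mem_coe.2 (mem_univ _)) ?_) (le_of_eq card_bool)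
    rintro ⟨c, ε⟩ hj ⟨c', ε'⟩ hj' he
    simp only at he
    subst he
    have hy : (some y : Option F) ≠ cpart none := by simp [cpart]
    have h3 := (mem_filter.1 (mem_coe.1 hj)).2
    have h4 := (mem_filter.1 (mem_coe.1 hj')).2
    rw [← h4, wd_of_ne _ _ _ _ _ _ _ _ hy, wd_of_ne _ _ _ _ _ _ _ _ hy] at h3
    exact Prod.ext rfl (fib_same_class hS hy h3)

/-- Fibres at a part. -/
lemma fiber_part (hS : Setup h2 mn i0 i1 ω t0 Sel) (y : F) (p o : Option F) :
    #(univ.filter fun j : Fin 2 × Bool × Bool => wd mn ω i0 t0 Sel (some (y, j.1)) j.2.1 j.2.2 p = o) ≤ 2 := by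
  have hd := hS.distinct
  have hcF2 : #(univ : Finset (Fin 2)) = 2 := rfl
  by_cases hpy : p = some y
  · subst hpy
    refine le_trans (card_le_card_of_injOn (fun j => j.2.2) (t := univ) (fun _ _ => mem_coe.2 (mem_univ _)) ?_) (le_of_eq card_bool)
    rintro ⟨g, c, ε⟩ hj ⟨g', c', ε'⟩ hj' he
    simp only at he
    have h3 := (mem_filter.1 (mem_coe.1 hj)).2
    have h4 := (mem_filter.1 (mem_coe.1 hj')).2
    rw [← h4] at h3
    have e3 := wd_cpart mn ω i0 t0 Sel (some (y, g)) c ε
    have e4 := wd_cpart mn ω i0 t0 Sel (some (y, g')) c' ε'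
    have e5 : lab mn ω t0 (some (y, g)) c = lab mn ω t0 (some (y, g')) c' := e3.symm.trans (h3.trans e4)
    obtain ⟨rfl, rfl⟩ := lab_inj hd e5
    exact Prod.ext rfl (Prod.ext rfl he)
  · have hne : ∀ g : Fin 2, p ≠ cpart (some (y, g)) := fun g => hpy
    cases o with
    | none =>
      have : (univ.filter fun j : Fin 2 × Bool × Bool => wd mn ω i0 t0 Sel (some (y, j.1)) j.2.1 j.2.2 p = none) = ∅ := by
        refine filter_eq_empty_iff.2 ?_
        rintro ⟨g, c, ε⟩ -
        simp only
        rw [wd_of_ne mn ω i0 t0 Sel _ c ε (hne g)]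
        exact plainW_ne_none mn ω _ _
      rw [this]
      simp
    | some h =>
      by_cases hh : ∀ y', p = some y' → h ≠ mn.hub (ω y')
      · refine le_trans (card_le_card_of_injOn (fun j => j.1) (t := univ) (fun _ _ => mem_coe.2 (mem_univ _)) ?_) (le_of_eq hcF2)
        rintro ⟨g, c, ε⟩ hj ⟨g', c', ε'⟩ hj' he
        simp only at he
        subst he
        have h3 := (mem_filter.1 (mem_coe.1 hj)).2
        have h4 := (mem_filter.1 (mem_coe.1 hj')).2
        simp only at h3 h4
        rw [wd_of_ne mn ω i0 t0 Sel _ c ε (hne g)] at h3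
        rw [wd_of_ne mn ω i0 t0 Sel _ c' ε' (hne g)] at h4
        obtain ⟨rfl, rfl⟩ := ln_eq_of_pt hS (s := (p, h)) (hne g) (onL_of_plainW h3 hh) (onL_of_plainW h4 hh)
        rfl
      · simp only [not_forall, not_not] at hh
        obtain ⟨y', rfl, rfl⟩ := hh
        have hfact : ∀ g c ε, wd mn ω i0 t0 Sel (some (y, g)) c ε (some y') = some (mn.hub (ω y')) →
            g = (ω y').2.1 := by
          intro g c ε h3
          rw [wd_of_ne mn ω i0 t0 Sel _ c ε (hne g)] at h3
          have h5 : ht (ln mn ω i0 t0 Sel (some (y, g)) c ε) y' = mn.tele (ω y') ∨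
              ht (ln mn ω i0 t0 Sel (some (y, g)) c ε) y' = mn.hub (ω y') := by
            rcases (plain_value hS (hne g) h3).2.2 with ⟨h7, -⟩ | h7
            · exact Or.inl h7
            · exact Or.inr h7
          have := (gl_hub_facts hS y g c ε y' h5).1
          rw [this]
        refine le_trans (card_le_card_of_injOn (fun j => j.2.1) (t := univ) (fun _ _ => mem_coe.2 (mem_univ _)) ?_) (le_of_eq card_bool)
        rintro ⟨g, c, ε⟩ hj ⟨g', c', ε'⟩ hj' he
        simp only at he
        subst he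
        have h3 := (mem_filter.1 (mem_coe.1 hj)).2
        have h4 := (mem_filter.1 (mem_coe.1 hj')).2
        simp only at h3 h4
        have e1 := hfact g c ε h3
        have e2 := hfact g' c ε' h4
        have e3 : g = g' := e1.trans e2.symm
        subst e3
        rw [← h4, wd_of_ne mn ω i0 t0 Sel _ c ε (hne g), wd_of_ne mn ω i0 t0 Sel _ c ε' (hne g)] at h3
        exact Prod.ext rfl (Prod.ext rfl (fib_same_class hS (hne g) h3))

/-- MODULE F6 (Step 5(f): `m` is a part). -/
theorem no_cover_part (hS : Setup h2 mn i0 i1 ω t0 Sel)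
    (S : Finset (Option F × Option F)) (hcov : Covers (fam mn ω i0 t0 Sel) S) (hcard : #S ≤ Fintype.card F)
    (p : Option F)
    (h1 : ∀ z : Pt F, alivePt mn ω t0 z → z.1 = p → (z.1, some z.2) ∈ S)
    (h2' : ∀ (y : F), p = some y → (some y, some (mn.hub (ω y))) ∈ S) : False := by
  have hd := hS.distinct
  cases p with
  | none =>
    set A0 := (univ.erase t0).image (fun k => ((none : Option F), some k)) with hA0
    have hA0S : A0 ⊆ S := by
      intro v hv
      obtain ⟨k, hk, rfl⟩ := mem_image.1 hv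
      exact h1 (none, k) (ne_of_mem_erase hk) rfl
    have hA0c : #A0 + 1 = Fintype.card F := by
      rw [hA0, card_image_of_injective _ (fun a b h => by simpa using h), card_erase_of_mem (mem_univ _),
        card_univ]
      have := Fintype.card_pos (α := F)
      omega
    set T := S \ A0 with hT
    have hTc : #T + #A0 = #S := card_sdiff_add_card_eq_card hA0S
    have hT1 : #T ≤ 1 := by omega
    have hφ : ∀ j : Bool × Bool, ∃ p, (p, wd mn ω i0 t0 Sel none j.1 j.2 p) ∈ T := by
      rintro ⟨c, ε⟩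
      obtain ⟨p, hp⟩ := hcov _ (wd_mem_fam mn ω i0 t0 Sel none c ε)
      refine ⟨p, mem_sdiff.2 ⟨hp, ?_⟩⟩
      intro hn
      obtain ⟨k, hk, he⟩ := mem_image.1 hn
      have e1 : none = p := congrArg Prod.fst he
      subst e1
      have e2 : some k = wd mn ω i0 t0 Sel none c ε none := congrArg Prod.snd he
      have e3 := wd_cpart mn ω i0 t0 Sel none c ε
      have e4 : some k = lab mn ω t0 none c := e2.trans e3
      cases c
      · simp only [lab, if_false, Bool.false_eq_true] at e4
        exact ne_of_mem_erase hk (Option.some.inj e4)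
      · simp [lab] at e4
    choose φ hφ using hφ
    have hcount := card_le_mul_card_image_of_maps_to (s := (univ : Finset (Bool × Bool))) (t := T)
      (f := fun j => (φ j, wd mn ω i0 t0 Sel none j.1 j.2 (φ j))) (fun j _ => hφ j) 2 ?_
    · have h4 : #(univ : Finset (Bool × Bool)) = 4 := rfl
      omega
    · rintro ⟨p, o⟩ -
      refine le_trans (card_le_card ?_) (fiber_inf hS p o)
      intro j hj
      obtain ⟨-, h4⟩ := mem_filter.1 hj
      simp only [Prod.mk.injEq] at h4
      obtain ⟨rfl, h5⟩ := h4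
      exact mem_filter.2 ⟨mem_univ _, h5⟩
  | some y =>
    set D : Finset F := {mn.conf (ω y) 0, mn.conf (ω y) 1, mn.tele (ω y)} with hD
    set A0 := (univ \ D).image (fun k => ((some y : Option F), some k)) with hA0
    have hA0S : A0 ⊆ S := by
      intro v hv
      obtain ⟨k, hk, rfl⟩ := mem_image.1 hv
      have hk' : k ≠ mn.conf (ω y) 0 ∧ k ≠ mn.conf (ω y) 1 ∧ k ≠ mn.tele (ω y) := by
        have := (mem_sdiff.1 hk).2
        simpa [hD] using this
      by_cases hh : k = mn.hub (ω y)
      · rw [hh]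
        exact h2' y rfl
      · refine h1 (some y, k) ?_ rfl
        rintro (e | e | e | e)
        · exact hk'.1 e
        · exact hk'.2.1 e
        · exact hk'.2.2 e
        · exact hh e
    have hA0c : Fintype.card F ≤ #A0 + 3 := by
      rw [hA0, card_image_of_injective _ (fun a b h => by simpa using h)]
      have h3 := le_card_sdiff D (univ : Finset F)
      rw [card_univ] at h3
      have h4 : #D ≤ 3 := card_le_three
      omega
    set T := S \ A0 with hT
    have hTc : #T + #A0 = #S := card_sdiff_add_card_eq_card hA0S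
    have hT1 : #T ≤ 3 := by omega
    have hφ : ∀ j : Fin 2 × Bool × Bool, ∃ p, (p, wd mn ω i0 t0 Sel (some (y, j.1)) j.2.1 j.2.2 p) ∈ T := by
      rintro ⟨g, c, ε⟩
      obtain ⟨p, hp⟩ := hcov _ (wd_mem_fam mn ω i0 t0 Sel (some (y, g)) c ε)
      refine ⟨p, mem_sdiff.2 ⟨hp, ?_⟩⟩
      intro hn
      obtain ⟨k, hk, he⟩ := mem_image.1 hn
      have e1 : some y = p := congrArg Prod.fst he
      subst e1
      have e2 : some k = wd mn ω i0 t0 Sel (some (y, g)) c ε (some y) := congrArg Prod.snd he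
      have e3 := wd_cpart mn ω i0 t0 Sel (some (y, g)) c ε
      have e4 : lab mn ω t0 (some (y, g)) c = some k := (e2.trans e3).symm
      have hk' : k ∉ D := (mem_sdiff.1 hk).2
      apply hk'
      rcases lab_some_eq e4 with ⟨-, h5⟩ | ⟨-, -, h5⟩
      · fin_cases g
        · simp [hD, h5]
        · simp [hD, h5]
      · simp [hD, h5]
    choose φ hφ using hφ
    have hcount := card_le_mul_card_image_of_maps_to (s := (univ : Finset (Fin 2 × Bool × Bool))) (t := T)
      (f := fun j => (φ j, wd mn ω i0 t0 Sel (some (y, j.1)) j.2.1 j.2.2 (φ j))) (fun j _ => hφ j) 2 ?_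
    · have h4 : #(univ : Finset (Fin 2 × Bool × Bool)) = 8 := rfl
      omega
    · rintro ⟨p, o⟩ -
      refine le_trans (card_le_card ?_) (fiber_part hS y p o)
      intro j hj
      obtain ⟨-, h4⟩ := mem_filter.1 hj
      simp only [Prod.mk.injEq] at h4
      obtain ⟨rfl, h5⟩ := h4
      exact mem_filter.2 ⟨mem_univ _, h5⟩

end setup

end Crest.Agent.Ryser
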