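import Mathlib

/-!
Row 34 (S0045/S0046), module S1, abstract part (helper86): first moment for a selection of options.
-/

set_option autoImplicit false

open Finset
open scoped Classical

namespace Crest.Agent.Ryser.SelectionCore

variable {E O I : Type} [Fintype E]

/-- Number of selections in which all of `T` take a bad option. -/
lemma card_sel_bad_le (G : E → Finset O) (T : Finset E) (B : E → O → Prop) (b g : ℝ)
    (hb0 : 0 ≤ b) (hg0 : 0 < g) (hg : ∀ e, g ≤ #(G e)) (hb : ∀ e ∈ T, (#((G e).filter (B e)) : ℝ) ≤ b) :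
    (#((Fintype.piFinset G).filter (fun s => ∀ e ∈ T, B e (s e))) : ℝ)
      ≤ (b / g) ^ #T * #(Fintype.piFinset G) := by
  let G' : E → Finset O := fun e => if e ∈ T then (G e).filter (B e) else G e
  have h1 : (Fintype.piFinset G).filter (fun s => ∀ e ∈ T, B e (s e)) = Fintype.piFinset G' := by
    ext s
    simp only [mem_filter, Fintype.mem_piFinset, G']
    constructor
    · rintro ⟨h, h'⟩ e
      by_cases he : e ∈ T
      · simp [he, h e, h' e he]
      · simp [he, h e]
    · intro h
      refine ⟨fun e => ?_, fun e he => ?_⟩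
      · by_cases he : e ∈ T
        · have := h e; simp only [he, if_true, mem_filter] at this; exact this.1
        · have := h e; simpa [he] using this
      · have := h e; simp only [he, if_true, mem_filter] at this; exact this.2
  rw [h1, Fintype.card_piFinset, Fintype.card_piFinset]
  push_cast
  have h2 : ∀ e, (#(G' e) : ℝ) ≤ (if e ∈ T then (b / g) else 1) * #(G e) := by
    intro e
    by_cases he : e ∈ T
    · simp only [G', he, if_true]
      have hge : g ≤ #(G e) := hg e
      calc (#((G e).filter (B e)) : ℝ) ≤ b := hb e he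
        _ = (b / g) * g := by field_simp
        _ ≤ (b / g) * #(G e) := by
            apply mul_le_mul_of_nonneg_left hge; positivity
    · simp [G', he]
  calc ∏ e, (#(G' e) : ℝ) ≤ ∏ e, ((if e ∈ T then (b / g) else 1) * #(G e)) :=
        Finset.prod_le_prod (fun e _ => by positivity) (fun e _ => h2 e)
    _ = (b / g) ^ #T * ∏ e, (#(G e) : ℝ) := by
        rw [Finset.prod_mul_distrib]
        congr 1
        rw [Finset.prod_ite]
        simp only [prod_const, one_pow, mul_one]
        have : (univ.filter (fun e => e ∈ T)) = T := by ext e; simp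
        rw [this]

/-- Selection by first moment: tests `i ∈ tests`, a set `C i` of at most `c` conflicts, a bad
relation with at most `b` bad options per conflict; if `∑ (c b / g)^(r i) < 1` then some selection
has fewer than `r i` bad conflicts in `C i`, for every test `i`. -/
theorem exists_selection_abs [Nonempty O] (G : E → Finset O) (tests : Finset I) (r : I → ℕ)
    (C : I → Finset E) (B : I → E → O → Prop) (c b g : ℝ)
    (hb0 : 0 ≤ b) (hg0 : 0 < g) (hc0 : 0 ≤ c) (hg : ∀ e, g ≤ #(G e))
    (hc : ∀ i ∈ tests, (#(C i) : ℝ) ≤ c)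
    (hb : ∀ i ∈ tests, ∀ e ∈ C i, (#((G e).filter (B i e)) : ℝ) ≤ b)
    (hsum : ∑ i ∈ tests, (c * (b / g)) ^ r i < 1) :
    ∃ s : E → O, (∀ e, s e ∈ G e) ∧
      ∀ i ∈ tests, #((C i).filter (fun e => B i e (s e))) < r i := by
  have hne : ∀ e, (G e).Nonempty := by
    intro e
    rw [← Finset.card_pos]
    have : (0 : ℝ) < #(G e) := lt_of_lt_of_le hg0 (hg e)
    exact_mod_cast this
  set PP := Fintype.piFinset G with hPP
  have htot : (0 : ℝ) < #PP := by
    have : PP.Nonempty := by
      rw [hPP, Fintype.piFinset_nonempty]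
      exact hne
    exact_mod_cast Finset.card_pos.mpr this
  let BS : I → Finset (E → O) := fun i =>
    PP.filter (fun s => r i ≤ #((C i).filter (fun e => B i e (s e))))
  have hBS : ∀ i ∈ tests, (#(BS i) : ℝ) ≤ (c * (b / g)) ^ r i * #PP := by
    intro i hi
    have hsub : BS i ⊆ ((C i).powersetCard (r i)).biUnion
        (fun T => PP.filter (fun s => ∀ e ∈ T, B i e (s e))) := by
      intro s hs
      simp only [BS, mem_filter] at hs
      obtain ⟨T, hT, hTc⟩ := Finset.exists_subset_card_eq hs.2
      simp only [mem_biUnion, mem_powersetCard, mem_filter]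
      refine ⟨T, ⟨fun e he => (mem_filter.mp (hT he)).1, hTc⟩, hs.1, fun e he => (mem_filter.mp (hT he)).2⟩
    have h1 : (#(BS i) : ℝ) ≤ ∑ T ∈ (C i).powersetCard (r i),
        (#(PP.filter (fun s => ∀ e ∈ T, B i e (s e))) : ℝ) := by
      have := (Finset.card_le_card hsub).trans Finset.card_biUnion_le
      exact_mod_cast this
    have h2 : ∀ T ∈ (C i).powersetCard (r i),
        (#(PP.filter (fun s => ∀ e ∈ T, B i e (s e))) : ℝ) ≤ (b / g) ^ r i * #PP := by
      intro T hT
      obtain ⟨hT1, hT2⟩ := mem_powersetCard.mp hT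
      have := card_sel_bad_le G T (B i) b g hb0 hg0 hg (fun e he => hb i hi e (hT1 he))
      rwa [hT2] at this
    have h3 : ((C i).powersetCard (r i)).card ≤ #(C i) ^ r i := by
      rw [Finset.card_powersetCard]
      exact Nat.choose_le_pow _ _
    calc (#(BS i) : ℝ) ≤ ∑ T ∈ (C i).powersetCard (r i), ((b / g) ^ r i * #PP) := by
          exact h1.trans (Finset.sum_le_sum h2)
      _ = (#((C i).powersetCard (r i)) : ℝ) * ((b / g) ^ r i * #PP) := by
          rw [Finset.sum_const, nsmul_eq_mul]
      _ ≤ (c ^ r i) * ((b / g) ^ r i * #PP) := by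
          apply mul_le_mul_of_nonneg_right _ (by positivity)
          calc (#((C i).powersetCard (r i)) : ℝ) ≤ ((#(C i) ^ r i : ℕ) : ℝ) := by exact_mod_cast h3
            _ = (#(C i) : ℝ) ^ r i := by push_cast; ring
            _ ≤ c ^ r i := pow_le_pow_left₀ (by positivity) (hc i hi) _
      _ = (c * (b / g)) ^ r i * #PP := by rw [mul_pow]; ring
  -- the union of the bad sets misses a selection
  have hU : ((tests.biUnion BS).card : ℝ) < #PP := by
    calc ((tests.biUnion BS).card : ℝ) ≤ ∑ i ∈ tests, (#(BS i) : ℝ) := by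
          exact_mod_cast Finset.card_biUnion_le
      _ ≤ ∑ i ∈ tests, (c * (b / g)) ^ r i * #PP := Finset.sum_le_sum hBS
      _ = (∑ i ∈ tests, (c * (b / g)) ^ r i) * #PP := by rw [Finset.sum_mul]
      _ < 1 * #PP := mul_lt_mul_of_pos_right hsum htot
      _ = #PP := one_mul _
  have hex : ∃ s ∈ PP, s ∉ tests.biUnion BS := by
    by_contra hcon
    push_neg at hcon
    have : #PP ≤ (tests.biUnion BS).card := Finset.card_le_card hcon
    have h' : ((#PP : ℕ) : ℝ) ≤ ((tests.biUnion BS).card : ℝ) := by exact_mod_cast this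
    linarith
  obtain ⟨s, hs, hs'⟩ := hex
  refine ⟨s, fun e => ?_, fun i hi => ?_⟩
  · exact (Fintype.mem_piFinset.mp hs) e
  · by_contra hcon
    push_neg at hcon
    apply hs'
    simp only [mem_biUnion]
    exact ⟨i, hi, by simp only [BS, mem_filter]; exact ⟨hs, hcon⟩⟩

end Crest.Agent.Ryser.SelectionCore
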