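import Crest.Agent.Lib.Ryser.Defs
import Crest.Agent.Lib.Ryser.SelectionCore

/-!
Row 34 (S0045/S0046), module S1 (helper86): selection of good options, first moment, vertex bound.
-/

set_option autoImplicit false

noncomputable section

open Finset
open scoped Classical

namespace Crest.Agent.Ryser

variable {F : Type} [Field F] [Fintype F] [DecidableEq F] {M : ℕ}

namespace SelectionS1

lemma card_sq_le (t c : F) : #(univ.filter fun x : F => (x - t) ^ 2 = c) ≤ 2 := by
  have hsub : (univ.filter fun x : F => (x - t) ^ 2 = c) ⊆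
      ((Polynomial.nthRoots 2 c).toFinset).image (fun y => y + t) := by
    intro x hx
    simp only [mem_filter, mem_univ, true_and] at hx
    simp only [mem_image, Multiset.mem_toFinset]
    refine ⟨x - t, ?_, by ring⟩
    rw [Polynomial.mem_nthRoots (by norm_num)]
    exact hx
  calc _ ≤ _ := Finset.card_le_card hsub
    _ ≤ _ := Finset.card_image_le
    _ ≤ Multiset.card (Polynomial.nthRoots 2 c) := Multiset.toFinset_card_le _
    _ ≤ 2 := Polynomial.card_nthRoots 2 c

lemma card_d1_le (h2 : (2 : F) ≠ 0) (Δ d : F) :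
    #(univ.filter fun w : F => w ≠ 0 ∧ d1 Δ w = d) ≤ 2 := by
  refine le_trans (Finset.card_le_card ?_) (card_sq_le d (d ^ 2 - Δ))
  intro w hw
  simp only [mem_filter, mem_univ, true_and] at hw ⊢
  obtain ⟨hw0, hd⟩ := hw
  unfold d1 at hd
  have h3 : w + Δ / w = 2 * d := by
    rw [← hd]; field_simp
  have h4 : w * w + Δ = 2 * d * w := by
    have : (w + Δ / w) * w = 2 * d * w := by rw [h3]
    rwa [add_mul, div_mul_cancel₀ _ hw0] at this
  linear_combination h4

lemma card_d2_le (h2 : (2 : F) ≠ 0) (Δ d : F) :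
    #(univ.filter fun w : F => w ≠ 0 ∧ d2 Δ w = d) ≤ 2 := by
  refine le_trans (Finset.card_le_card ?_) (card_sq_le d (d ^ 2 + Δ))
  intro w hw
  simp only [mem_filter, mem_univ, true_and] at hw ⊢
  obtain ⟨hw0, hd⟩ := hw
  unfold d2 at hd
  have h3 : w - Δ / w = 2 * d := by
    rw [← hd]; field_simp
  have h4 : w * w - Δ = 2 * d * w := by
    have : (w - Δ / w) * w = 2 * d * w := by rw [h3]
    rwa [sub_mul, div_mul_cancel₀ _ hw0] at this
  linear_combination h4

lemma sq_sg (ε : Bool) (d : F) : (sg ε d) ^ 2 = d ^ 2 := by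
  cases ε <;> simp [sg]

/-- The line parameter of a gadget line through a point, away from the conflict. -/
lemma line_param (h2 : (2 : F) ≠ 0) (x κ Δ : F) (v : Pt F)
    (hv : ¬ (v.1 = some x ∧ v.2 = κ)) :
    ∃ d : F, ∀ (w : F) (c ε : Bool), onL v (gLine x κ Δ w c ε) →
      sg ε (if c then d2 Δ w else d1 Δ w) = d := by
  rcases hv1 : v.1 with _ | y
  · -- infinity
    refine ⟨x - v.2, fun w c ε hon => ?_⟩
    unfold onL at hon
    rw [hv1] at hon
    simp only at hon
    cases c <;> simp only [gLine, if_true, if_false, Bool.false_eq_true] at hon ⊢ <;>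
      rw [← hon] <;> ring
  · by_cases hy : y = x
    · subst hy
      -- same part: no gadget line passes through `v`
      refine ⟨0, fun w c ε hon => ?_⟩
      exfalso
      apply hv
      refine ⟨hv1, ?_⟩
      unfold onL at hon
      rw [hv1] at hon
      simp only at hon
      rw [← hon]
      unfold ht
      cases c <;> simp only [gLine, if_true, if_false, Bool.false_eq_true]
      · have : y - (y - sg ε (d1 Δ w)) = sg ε (d1 Δ w) := by ring
        rw [this, sq_sg]; ring
      · have : y - (y - sg ε (d2 Δ w)) = sg ε (d2 Δ w) := by ring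
        rw [this, sq_sg]; ring
    · have hyx : y - x ≠ 0 := sub_ne_zero.mpr hy
      have h2yx : 2 * (y - x) ≠ 0 := mul_ne_zero h2 hyx
      refine ⟨(κ - (y - x) ^ 2 - v.2) / (2 * (y - x)), fun w c ε hon => ?_⟩
      unfold onL at hon
      rw [hv1] at hon
      simp only at hon
      rw [eq_div_iff h2yx, ← hon]
      unfold ht
      cases c <;> simp only [gLine, if_true, if_false, Bool.false_eq_true]
      · have := sq_sg ε (d1 Δ w)
        linear_combination (-1 : F) * this
      · have := sq_sg ε (d2 Δ w)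
        linear_combination (-1 : F) * this

/-- At most `8` options have a gadget line through a given point other than the conflict. -/
lemma card_bad_le (h2 : (2 : F) ≠ 0) (x κ Δ : F) (v : Pt F) (hv : ¬ (v.1 = some x ∧ v.2 = κ))
    (G : Finset F) (hG : ∀ w ∈ G, w ≠ 0) :
    #(G.filter fun w => ∃ c ε, onL v (gLine x κ Δ w c ε)) ≤ 8 := by
  obtain ⟨d, hd⟩ := line_param h2 x κ Δ v hv
  have hsub : (G.filter fun w => ∃ c ε, onL v (gLine x κ Δ w c ε)) ⊆
      ((univ.filter fun w : F => w ≠ 0 ∧ d1 Δ w = d) ∪ (univ.filter fun w : F => w ≠ 0 ∧ d1 Δ w = -d)) ∪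
      ((univ.filter fun w : F => w ≠ 0 ∧ d2 Δ w = d) ∪ (univ.filter fun w : F => w ≠ 0 ∧ d2 Δ w = -d)) := by
    intro w hw
    simp only [mem_filter] at hw
    obtain ⟨hwG, c, ε, hon⟩ := hw
    have hw0 := hG w hwG
    have := hd w c ε hon
    simp only [mem_union, mem_filter, mem_univ, true_and]
    cases c <;> cases ε <;> simp only [sg, if_true, if_false, Bool.false_eq_true] at this
    · left; right; exact ⟨hw0, by rw [← this]; ring⟩
    · left; left; exact ⟨hw0, this⟩
    · right; right; exact ⟨hw0, by rw [← this]; ring⟩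
    · right; left; exact ⟨hw0, this⟩
  refine le_trans (Finset.card_le_card hsub) ?_
  have h1 := card_d1_le h2 Δ d
  have h2' := card_d1_le h2 Δ (-d)
  have h3 := card_d2_le h2 Δ d
  have h4 := card_d2_le h2 Δ (-d)
  refine le_trans (Finset.card_union_le _ _) ?_
  have h5 := Finset.card_union_le (univ.filter fun w : F => w ≠ 0 ∧ d1 Δ w = d)
    (univ.filter fun w : F => w ≠ 0 ∧ d1 Δ w = -d)
  have h6 := Finset.card_union_le (univ.filter fun w : F => w ≠ 0 ∧ d2 Δ w = d)
    (univ.filter fun w : F => w ≠ 0 ∧ d2 Δ w = -d)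
  omega

/-- A line carries at most `4M` conflicts. -/
lemma card_conf_le (mn : Menu F M) (ω : Env F M) (m : F × F) :
    #(univ.filter fun e : F × Fin 2 => ht m e.1 = mn.conf (ω e.1) e.2) ≤ 4 * M := by
  have hsub : (univ.filter fun e : F × Fin 2 => ht m e.1 = mn.conf (ω e.1) e.2) ⊆
      (univ : Finset (Fin 2 × Fin M)).biUnion (fun a =>
        (univ.filter fun x : F => (x - m.1) ^ 2 = m.2 - mn.kappa a.1 a.2).image (fun x => (x, a.1))) := by
    intro e he
    simp only [mem_filter, mem_univ, true_and] at he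
    simp only [mem_biUnion, mem_univ, true_and, mem_image, mem_filter]
    refine ⟨(e.2, (ω e.1).1 e.2), e.1, ?_, rfl⟩
    unfold ht Menu.conf at he
    simp only at he ⊢
    rw [← he]; ring
  refine le_trans (Finset.card_le_card hsub) (le_trans Finset.card_biUnion_le ?_)
  calc _ ≤ ∑ _a : Fin 2 × Fin M, 2 := by
        apply Finset.sum_le_sum
        intro a _
        exact le_trans Finset.card_image_le (card_sq_le _ _)
    _ = 4 * M := by
        simp only [sum_const, card_univ, Fintype.card_prod, Fintype.card_fin, smul_eq_mul]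
        ring

end SelectionS1

open SelectionS1 in
/-- MODULE S1, unfolded form (used by `Family.exists_selection`). -/
theorem selection_core [NeZero M] (mn : Menu F M) (i0 : Fin M) (ω : Env F M) (t0 : F)
    (hM : 1000 ≤ M) (hq : M ^ 48 ≤ Fintype.card F) (hodd : ringChar F ≠ 2)
    (hgood : ∀ x g, (Fintype.card F : ℝ) / (M : ℝ) ^ 8 ≤ #(univ.filter (GoodOpt mn ω t0 (infZ t0) x g))) :
    ∃ Sel : F → Fin 2 → F, (∀ x g, GoodOpt mn ω t0 (infZ t0) x g (Sel x g)) ∧
      ∀ (m : F × F) (v : Pt F), ¬ onL v m →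
        #(univ.filter fun e : F × Fin 2 => ht m e.1 = mn.conf (ω e.1) e.2 ∧
            ∃ c ε, onL v (gLine e.1 (mn.kappa (cIdx ω e.1 e.2).1 (cIdx ω e.1 e.2).2)
              (mn.delta (cIdx ω e.1 e.2).1 (cIdx ω e.1 e.2).2) (Sel e.1 e.2) c ε)) +
          (if m.1 = t0 ∧ ∃ c ε, onL v (infLine mn i0 t0 c ε) then 1 else 0) ≤ 4 := by
  classical
  have h2 : (2 : F) ≠ 0 := Ring.two_ne_zero hodd
  have hMpos : (0 : ℝ) < M := by
    have : 0 < M := by omega
    exact_mod_cast this
  set q : ℝ := (Fintype.card F : ℝ) with hqdef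
  have hqpos : 0 < q := by
    have : 0 < Fintype.card F := Fintype.card_pos
    rw [hqdef]; exact_mod_cast this
  let G : F × Fin 2 → Finset F := fun e => univ.filter (GoodOpt mn ω t0 (infZ t0) e.1 e.2)
  let tests : Finset ((F × F) × Pt F) := univ.filter fun i => ¬ onL i.2 i.1
  let r : (F × F) × Pt F → ℕ := fun i => if i.1.1 = t0 then 4 else 5
  let C : (F × F) × Pt F → Finset (F × Fin 2) := fun i =>
    univ.filter fun e : F × Fin 2 => ht i.1 e.1 = mn.conf (ω e.1) e.2
  let B : (F × F) × Pt F → F × Fin 2 → F → Prop := fun i e w =>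
    ∃ c ε, onL i.2 (gLine e.1 (mn.kappa (cIdx ω e.1 e.2).1 (cIdx ω e.1 e.2).2)
      (mn.delta (cIdx ω e.1 e.2).1 (cIdx ω e.1 e.2).2) w c ε)
  have hgpos : 0 < q / (M : ℝ) ^ 8 := by positivity
  have hsum : ∑ i ∈ tests, ((4 * (M : ℝ)) * (8 / (q / (M : ℝ) ^ 8))) ^ r i < 1 := by
    -- the main numerics
    set ρ : ℝ := (4 * (M : ℝ)) * (8 / (q / (M : ℝ) ^ 8)) with hρ
    have hρ' : ρ = 32 * (M : ℝ) ^ 9 / q := by
      rw [hρ]; field_simp; ring
    have hρ0 : 0 < ρ := by rw [hρ']; positivity
    have hqM : (M : ℝ) ^ 48 ≤ q := by rw [hqdef]; exact_mod_cast hq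
    have hM1000 : (1000 : ℝ) ≤ M := by exact_mod_cast hM
    -- split the sum
    have hsplit : ∑ i ∈ tests, ρ ^ r i ≤
        ∑ i ∈ (univ : Finset ((F × F) × Pt F)), ((if i.1.1 = t0 then ρ ^ 4 else 0) + ρ ^ 5) := by
      refine le_trans (Finset.sum_le_sum (f := fun i => ρ ^ r i)
        (g := fun i => (if i.1.1 = t0 then ρ ^ 4 else 0) + ρ ^ 5) ?_) ?_
      · intro i _
        simp only [r]
        by_cases hi : i.1.1 = t0
        · simp only [hi, if_true]; have : 0 ≤ ρ ^ 5 := by positivity
          linarith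
        · simp [hi]
      · exact Finset.sum_le_sum_of_subset_of_nonneg (subset_univ _) (fun i _ _ => by
          have : 0 ≤ ρ ^ 5 := by positivity
          split_ifs
          · have : 0 ≤ ρ ^ 4 := by positivity
            linarith
          · linarith)
    refine lt_of_le_of_lt hsplit ?_
    rw [Finset.sum_add_distrib, Finset.sum_ite, Finset.sum_const_zero, add_zero, Finset.sum_const,
      Finset.sum_const, nsmul_eq_mul, nsmul_eq_mul]
    -- counting
    have hqge : (1 : ℝ) ≤ q := by
      have : 0 < Fintype.card F := Fintype.card_pos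
      rw [hqdef]; exact_mod_cast this
    have hcardPt : (Fintype.card (Pt F) : ℝ) = (q + 1) * q := by
      simp only [Pt, Fintype.card_prod, Fintype.card_option]
      push_cast
      rw [hqdef]
    have hcardU : ((univ : Finset ((F × F) × Pt F)).card : ℝ) = q * q * ((q + 1) * q) := by
      rw [Finset.card_univ, Fintype.card_prod, Fintype.card_prod]
      push_cast
      rw [hcardPt, hqdef]
    have hcardT : ((univ.filter fun i : (F × F) × Pt F => i.1.1 = t0).card : ℝ) ≤ q * ((q + 1) * q) := by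
      have hsub : (univ.filter fun i : (F × F) × Pt F => i.1.1 = t0) ⊆
          ((univ : Finset (F × Pt F)).image (fun a => (((t0, a.1) : F × F), a.2))) := by
        intro i hi
        simp only [mem_filter, mem_univ, true_and] at hi
        simp only [mem_image, mem_univ, true_and]
        refine ⟨(i.1.2, i.2), ?_⟩
        ext <;> simp [hi]
      have h1 := (Finset.card_le_card hsub).trans Finset.card_image_le
      rw [Finset.card_univ, Fintype.card_prod] at h1
      have h1' : ((univ.filter fun i : (F × F) × Pt F => i.1.1 = t0).card : ℝ)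
          ≤ (Fintype.card F : ℝ) * (Fintype.card (Pt F) : ℝ) := by exact_mod_cast h1
      rw [hcardPt, ← hqdef] at h1'
      exact h1'
    rw [hcardU]
    -- now numbers
    set N : ℝ := 32 * (M : ℝ) ^ 9 with hN
    have hρN : ρ = N / q := hρ'
    have hNpos : 0 < N := by positivity
    have hN1 : 1 ≤ N := by
      have : (1 : ℝ) ≤ (M : ℝ) ^ 9 := one_le_pow₀ (by linarith)
      rw [hN]; linarith
    have h4N5 : 4 * N ^ 5 < q := by
      have h1 : 4 * N ^ 5 = 2 ^ 27 * (M : ℝ) ^ 45 := by rw [hN]; ring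
      have h2' : (2 : ℝ) ^ 27 < (M : ℝ) ^ 3 := by
        have : (1000 : ℝ) ^ 3 ≤ (M : ℝ) ^ 3 := pow_le_pow_left₀ (by norm_num) hM1000 3
        norm_num at this ⊢
        linarith
      have h3 : (M : ℝ) ^ 48 = (M : ℝ) ^ 3 * (M : ℝ) ^ 45 := by ring
      have hpos45 : 0 < (M : ℝ) ^ 45 := by positivity
      rw [h1]
      calc 2 ^ 27 * (M : ℝ) ^ 45 < (M : ℝ) ^ 3 * (M : ℝ) ^ 45 := mul_lt_mul_of_pos_right h2' hpos45
        _ = (M : ℝ) ^ 48 := h3.symm
        _ ≤ q := hqM
    have e1 : q * ((q + 1) * q) * ρ ^ 4 ≤ 2 * N ^ 4 / q := by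
      rw [hρN, div_pow, le_div_iff₀ hqpos]
      have hq4 : q ^ 4 ≠ 0 := by positivity
      have : q * ((q + 1) * q) * (N ^ 4 / q ^ 4) * q = (q + 1) * N ^ 4 / q := by
        field_simp
      rw [this, div_le_iff₀ hqpos]
      have hN4 : 0 ≤ N ^ 4 := by positivity
      nlinarith
    have e2 : q * q * ((q + 1) * q) * ρ ^ 5 ≤ 2 * N ^ 5 / q := by
      rw [hρN, div_pow, le_div_iff₀ hqpos]
      have : q * q * ((q + 1) * q) * (N ^ 5 / q ^ 5) * q = (q + 1) * N ^ 5 / q := by
        field_simp
      rw [this, div_le_iff₀ hqpos]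
      have hN5 : 0 ≤ N ^ 5 := by positivity
      nlinarith
    have hN45 : N ^ 4 ≤ N ^ 5 := pow_le_pow_right₀ hN1 (by norm_num)
    have hρ4 : 0 ≤ ρ ^ 4 := by positivity
    calc _ ≤ q * ((q + 1) * q) * ρ ^ 4 + q * q * ((q + 1) * q) * ρ ^ 5 := by
          have := mul_le_mul_of_nonneg_right hcardT hρ4
          linarith
      _ ≤ 2 * N ^ 4 / q + 2 * N ^ 5 / q := add_le_add e1 e2
      _ ≤ 4 * N ^ 5 / q := by
          rw [← add_div]
          apply div_le_div_of_nonneg_right _ hqpos.le
          linarith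
      _ < 1 := by rw [div_lt_one hqpos]; exact h4N5
  obtain ⟨s, hsG, hsT⟩ := SelectionCore.exists_selection_abs (O := F) G tests r C B
    (4 * (M : ℝ)) 8 (q / (M : ℝ) ^ 8) (by norm_num) hgpos (by positivity)
    (fun e => hgood e.1 e.2)
    (fun i _ => by
      have := card_conf_le mn ω i.1
      have h' : (#(C i) : ℝ) ≤ ((4 * M : ℕ) : ℝ) := by exact_mod_cast this
      simpa using h')
    (fun i hi e he => by
      -- at most `8` bad options
      have hi' : ¬ onL i.2 i.1 := by simpa [tests] using hi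
      have he' : ht i.1 e.1 = mn.conf (ω e.1) e.2 := by simpa [C] using he
      have hv : ¬ (i.2.1 = some e.1 ∧ i.2.2 = mn.kappa (cIdx ω e.1 e.2).1 (cIdx ω e.1 e.2).2) := by
        rintro ⟨h1, h2'⟩
        apply hi'
        unfold onL
        rw [h1]
        simp only
        rw [he', h2']
        rfl
      have hG0 : ∀ w ∈ G e, w ≠ 0 := by
        intro w hw
        have : GoodOpt mn ω t0 (infZ t0) e.1 e.2 w := by simpa [G] using hw
        exact this.1
      have := card_bad_le h2 e.1 _ (mn.delta (cIdx ω e.1 e.2).1 (cIdx ω e.1 e.2).2) i.2 hv (G e) hG0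
      have h4 : ∀ (inst : DecidablePred (B i e)), #(@Finset.filter _ (B i e) inst (G e)) ≤ 8 :=
        fun inst => by
          refine le_trans (le_of_eq ?_) this
          congr 1
          ext w
          simp only [mem_filter, B]
      exact_mod_cast h4 _)
    hsum
  refine ⟨fun x g => s (x, g), fun x g => ?_, fun m v hmv => ?_⟩
  · have := hsG (x, g)
    simpa [G] using this
  · have hT := hsT (m, v) (by simpa [tests] using hmv)
    have hcount : #(univ.filter fun e : F × Fin 2 => ht m e.1 = mn.conf (ω e.1) e.2 ∧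
        ∃ c ε, onL v (gLine e.1 (mn.kappa (cIdx ω e.1 e.2).1 (cIdx ω e.1 e.2).2)
          (mn.delta (cIdx ω e.1 e.2).1 (cIdx ω e.1 e.2).2) (s (e.1, e.2)) c ε)) < r (m, v) := by
      refine lt_of_le_of_lt (le_of_eq ?_) hT
      congr 1
      ext e
      simp only [C, B, mem_filter, mem_univ, true_and, Prod.mk.eta]
    simp only [r] at hcount
    dsimp only
    by_cases hmt : m.1 = t0
    · simp only [hmt, if_true] at hcount
      split_ifs <;> omega
    · simp only [hmt, if_false] at hcount
      rw [if_neg (fun h => hmt h.1)]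
      omega

end Crest.Agent.Ryser
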