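import Crest.Agent.Lib.Ryser.FamWords
import Crest.Agent.Lib.Ryser.Selection

/-!
Row 34. THE FAMILY OF WORDS and its cover number (Steps 1, 2, 5 of finding #1707).
-/

set_option autoImplicit false

noncomputable section

open Finset
open scoped Classical

namespace Crest.Agent.Ryser

variable {F : Type} [Field F] [Fintype F] [DecidableEq F] {M : ℕ}

/-- MODULE S1 (selection, first moment; Step 2 of #1707). Each conflict picks a good option uniformly;
given line through a conflict lies in at most `8` options. `q⁴ polylog (polylog/q)^5 → 0`. -/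
theorem exists_selection : ∃ A : ℕ, ∀ (F : Type) [Field F] [Fintype F] [DecidableEq F] (M : ℕ) [NeZero M]
    (mn : Menu F M) (i0 : Fin M) (ω : Env F M) (t0 : F), 1000 ≤ M → M ^ A ≤ Fintype.card F →
    ringChar F ≠ 2 → mn.Distinct → OptGood mn ω t0 →
    ∃ Sel : F → Fin 2 → F, (∀ x g, GoodOpt mn ω t0 (infZ t0) x g (Sel x g)) ∧ VB mn ω i0 t0 Sel := by
  refine ⟨48, ?_⟩
  intro F _ _ _ M _ mn i0 ω t0 hM hq hodd _ hopt
  obtain ⟨Sel, h1, h2⟩ := selection_core mn i0 ω t0 hM hq hodd hopt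
  exact ⟨Sel, h1, fun m v hv => h2 m v hv⟩

/-- MODULE F3 (capacity, Step 3 consequence + Step 5 start). -/
theorem capacity_bound {h2 : (2 : F) ≠ 0} {mn : Menu F M} {i0 i1 : Fin M} {ω : Env F M} {t0 : F}
    {Sel : F → Fin 2 → F} (hS : Setup h2 mn i0 i1 ω t0 Sel) (hM : 1000 ≤ M)
    (S1 : Finset (Pt F)) (hS1 : #S1 ≤ Fintype.card F) (hal : ∀ s ∈ S1, alivePt mn ω t0 s)
    (hcov : ∀ L, Alive' mn ω t0 L → ∃ s ∈ S1, onL s L) :
    ∑ L ∈ univ.filter (fun L : F × F => Alive' mn ω t0 L), (((planeI h2).x S1 (Sum.inl L) : ℝ) - 1) ≤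
        4 * M * (Fintype.card F * Real.sqrt (Fintype.card F)) ∧
      (Fintype.card F : ℝ) - 4 * M * Real.sqrt (Fintype.card F) ≤ #S1 := by
  have hd := hS.distinct
  have hb := hS.balanced
  have hodd : ringChar F ≠ 2 := by
    have := hS.char_large
    omega
  have hM4 : 4 ≤ M := by omega
  obtain ⟨hcap1, hcap2, -⟩ := hS.cap
  set q : ℝ := ((Fintype.card F : ℕ) : ℝ) with hq_def
  have hq0 : 0 < q := by
    have : 0 < Fintype.card F := Fintype.card_pos
    rw [hq_def]; exact_mod_cast this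
  set r : ℝ := Real.sqrt q with hr_def
  have hr0 : 0 ≤ r := Real.sqrt_nonneg _
  have hM0 : (0 : ℝ) ≤ M := Nat.cast_nonneg _
  set R := univ.filter (fun L : F × F => Alive' mn ω t0 L) with hR
  set xx : F × F → ℝ := fun L => (((planeI h2).x S1 (Sum.inl L) : ℕ) : ℝ) with hxx
  -- double counting
  have hdc : ∑ L ∈ R, wt mn L * xx L
      = ∑ s ∈ S1, ∑ L ∈ univ.filter (fun L : F × F => Alive' mn ω t0 L ∧ onL s L), wt mn L := by
    have h1 : ∀ L ∈ R, wt mn L * xx L = ∑ s ∈ S1, if onL s L then wt mn L else 0 := by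
      intro L _
      simp only [hxx, IncStr.x]
      rw [← Finset.sum_filter, Finset.sum_const, nsmul_eq_mul, mul_comm]
      rfl
    rw [Finset.sum_congr rfl h1, Finset.sum_comm]
    refine Finset.sum_congr rfl fun s _ => ?_
    rw [← Finset.sum_filter, hR, Finset.filter_filter]
  have hA : ∑ L ∈ R, wt mn L * xx L ≤ (#S1 : ℝ) * (q + r * M) := by
    rw [hdc]
    calc _ ≤ ∑ _s ∈ S1, (q + r * M) := Finset.sum_le_sum fun s hs => hcap1 s (hal s hs)
      _ = _ := by rw [Finset.sum_const, nsmul_eq_mul]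
  have hxL : ∀ L ∈ R, 1 ≤ xx L := by
    intro L hL
    obtain ⟨s, hs, hsL⟩ := hcov L (mem_filter.mp hL).2
    have : 0 < (planeI h2).x S1 (Sum.inl L) := by
      unfold IncStr.x
      exact card_pos.mpr ⟨s, mem_filter.mpr ⟨hs, hsL⟩⟩
    simp only [hxx]
    exact_mod_cast this
  have hW := hcap2
  have hqr : q + r * M > 0 := by positivity
  have hS1r : (#S1 : ℝ) ≤ q := by
    rw [hq_def]; exact_mod_cast hS1
  have hsub : ∑ L ∈ R, wt mn L * (xx L - 1) = ∑ L ∈ R, wt mn L * xx L - ∑ L ∈ R, wt mn L := by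
    rw [← Finset.sum_sub_distrib]
    exact Finset.sum_congr rfl fun L _ => by ring
  have hexcess : ∑ L ∈ R, wt mn L * (xx L - 1) ≤ 2 * (q * r * M) := by
    rw [hsub]
    have : (#S1 : ℝ) * (q + r * M) ≤ q * (q + r * M) := mul_le_mul_of_nonneg_right hS1r hqr.le
    nlinarith
  constructor
  · have hlow : ∑ L ∈ R, (1 / 2 : ℝ) * (xx L - 1) ≤ ∑ L ∈ R, wt mn L * (xx L - 1) :=
      Finset.sum_le_sum fun L hL =>
        mul_le_mul_of_nonneg_right (wt_ge mn hM4 hd hb hodd L) (by linarith [hxL L hL])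
    rw [← Finset.mul_sum] at hlow
    have : ∑ L ∈ R, (xx L - 1) ≤ 4 * (q * r * M) := by linarith
    calc ∑ L ∈ R, (xx L - 1) ≤ 4 * (q * r * M) := this
      _ = 4 * M * (q * r) := by ring
  · have hWle : ∑ L ∈ R, wt mn L ≤ ∑ L ∈ R, wt mn L * xx L :=
      Finset.sum_le_sum fun L hL => by
        have h1 := wt_ge mn hM4 hd hb hodd L
        nlinarith [hxL L hL]
    have h3 : (q - 4 * M * r) * (q + r * M) ≤ (#S1 : ℝ) * (q + r * M) := by
      have hrr : r * r = q := Real.mul_self_sqrt hq0.le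
      have hMM : 0 ≤ (M : ℝ) * M := by positivity
      have : 0 ≤ q * r * M := by positivity
      nlinarith
    exact le_of_mul_le_mul_right h3 hqr

/-- MODULE F4 (near line, application of `chain_near_line`, `plane_IT`). Numeric hypotheses: see Final. -/
theorem near_line {h2 : (2 : F) ≠ 0} {mn : Menu F M} {i0 i1 : Fin M} {ω : Env F M} {t0 : F}
    {Sel : F → Fin 2 → F} (hS : Setup h2 mn i0 i1 ω t0 Sel) (hM : 10 ^ 6 ≤ M)
    (hMq : (M : ℝ) ^ 100 ≤ Real.sqrt (Fintype.card F)) (hlog : Nat.log 2 (Fintype.card F) + 1 ≤ M)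
    (hIT : ∀ (S : Finset (Pt F)) (𝓛 : Finset (PlaneLn F)) (X : ℝ), #S ≤ Fintype.card F →
      Real.sqrt (Fintype.card F) / (M : ℝ) ^ 10 ≤ X → X ≤ 2 * Real.sqrt (Fintype.card F) →
      (∀ l ∈ 𝓛, X ≤ ((planeI h2).x S l : ℝ) ∧ ((planeI h2).x S l : ℝ) < 2 * X) →
      (#𝓛 : ℝ) * X ^ 2 < (Fintype.card F : ℝ) ^ 2 / (M : ℝ) ^ 10)
    (S : Finset (Option F × Option F)) (hcov : Covers (fam mn ω i0 t0 Sel) S) (hcard : #S ≤ Fintype.card F) :
    ∃ m : PlaneLn F, (#((plainAlive mn ω t0 S).filter fun s => ¬ planeInc s m) : ℝ) ≤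
      (M : ℝ) ^ 9 * Real.sqrt (Fintype.card F) := by
  set S1 := plainAlive mn ω t0 S with hS1def
  -- `#S1 ≤ q`
  have hS1card : #S1 ≤ Fintype.card F := by
    refine le_trans ?_ hcard
    refine card_le_card_of_injOn (fun s => (s.1, some s.2)) ?_ ?_
    · intro s hs
      exact (mem_filter.mp (mem_coe.mp hs)).2.1
    · intro a _ b _ hab
      simp only [Prod.mk.injEq, Option.some.injEq] at hab
      exact Prod.ext hab.1 hab.2
  have hS1al : ∀ s ∈ S1, alivePt mn ω t0 s := fun s hs => (mem_filter.mp hs).2.2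
  -- `S1` meets every alive line
  have hS1cov : ∀ L, Alive' mn ω t0 L → ∃ s ∈ S1, onL s L := by
    intro L hL
    have hRet : Ret mn ω t0 L := by
      refine ⟨hL.1, fun x g hg => hL.2 x ?_⟩
      fin_cases g
      · exact Or.inl hg
      · exact Or.inr (Or.inl hg)
    have hmem : plainW mn ω L ∈ fam mn ω i0 t0 Sel := by
      simp only [fam, mem_union]
      left; left
      exact mem_image_of_mem _ (mem_filter.mpr ⟨mem_univ _, hRet⟩)
    obtain ⟨p, hp⟩ := hcov _ hmem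
    cases p with
    | none =>
      refine ⟨(none, L.1), mem_filter.mpr ⟨mem_univ _, ?_, hL.1⟩, rfl⟩
      simpa [plainW] using hp
    | some y =>
      have hne : ht L y ≠ mn.tele (ω y) := fun h => hL.2 y (Or.inr (Or.inr (Or.inl h)))
      refine ⟨(some y, ht L y), mem_filter.mpr ⟨mem_univ _, ?_, hL.2 y⟩, rfl⟩
      simpa [plainW, hne] using hp
  obtain ⟨hB, hlow⟩ := capacity_bound hS (by omega) S1 hS1card hS1al hS1cov
  have hMpos : (0 : ℝ) < M := by
    have : 0 < M := by omega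
    exact_mod_cast this
  have hM1 : (1 : ℝ) ≤ M := by
    have : 1 ≤ M := by omega
    exact_mod_cast this
  have hsq0 : 0 ≤ Real.sqrt (Fintype.card F) := Real.sqrt_nonneg _
  have hsqsq : Real.sqrt (Fintype.card F) * Real.sqrt (Fintype.card F) = Fintype.card F :=
    Real.mul_self_sqrt (by positivity)
  have h8M : 8 * (M : ℝ) ≤ Real.sqrt (Fintype.card F) := by
    have h10 : (M : ℝ) ^ 2 ≤ (M : ℝ) ^ 100 := pow_le_pow_right₀ hM1 (by norm_num)
    have hM8 : (8 : ℝ) ≤ M := by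
      have : 8 ≤ M := by omega
      exact_mod_cast this
    nlinarith
  have hhalf : (Fintype.card F : ℝ) / 2 ≤ #S1 := by
    nlinarith
  classical
  have hmain := chain_near_line (planeI h2) (Fintype.card F) M hM hMq hlog S1
    ((univ.filter fun L : F × F => Alive' mn ω t0 L).image Sum.inl) parLines
    hS1card hhalf ?_ ?_ ?_ ?_ (fun 𝓛 X h1 h2' h3 => hIT S1 𝓛 X hS1card h1 h2' h3)
  · obtain ⟨m, hm⟩ := hmain
    refine ⟨m, ?_⟩
    convert hm using 3
    rfl
  · intro l hl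
    obtain ⟨L, hL, rfl⟩ := mem_image.mp hl
    obtain ⟨s, hs, hon⟩ := hS1cov L (mem_filter.mp hL).2
    exact ⟨s, hs, hon⟩
  · rw [sum_image (fun a _ b _ h => Sum.inl_injective h)]
    convert hB using 2
  · intro s l hl l' hl' h1 h1'
    simp only [parLines, mem_filter, mem_univ, true_and] at hl hl'
    cases l with
    | inl L => simp at hl
    | inr p =>
      cases l' with
      | inl L => simp at hl'
      | inr p' =>
        have e1 : s.1 = p := h1
        have e2 : s.1 = p' := h1'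
        rw [← e1, ← e2]
  · intro U hU V hV hUc hVc hGP
    obtain ⟨L, hL, u, hu, v, hv, hu', hv'⟩ := hS.grid U V hUc hVc
      (fun u hu => hS1al u (hU hu)) (fun v hv => hS1al v (hV hv)) hGP
    exact ⟨Sum.inl L, mem_image_of_mem _ (mem_filter.mpr ⟨mem_univ _, hL⟩), u, hu, v, hv, hu', hv'⟩

/-- Cover number (assembly of F4-F7). -/
theorem fam_cover {h2 : (2 : F) ≠ 0} {mn : Menu F M} {i0 i1 : Fin M} {ω : Env F M} {t0 : F}
    {Sel : F → Fin 2 → F} (hS : Setup h2 mn i0 i1 ω t0 Sel) (hM : 10 ^ 6 ≤ M)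
    (hMq : (M : ℝ) ^ 100 ≤ Real.sqrt (Fintype.card F)) (hlog : Nat.log 2 (Fintype.card F) + 1 ≤ M)
    (hIT : ∀ (S : Finset (Pt F)) (𝓛 : Finset (PlaneLn F)) (X : ℝ), #S ≤ Fintype.card F →
      Real.sqrt (Fintype.card F) / (M : ℝ) ^ 10 ≤ X → X ≤ 2 * Real.sqrt (Fintype.card F) →
      (∀ l ∈ 𝓛, X ≤ ((planeI h2).x S l : ℝ) ∧ ((planeI h2).x S l : ℝ) < 2 * X) →
      (#𝓛 : ℝ) * X ^ 2 < (Fintype.card F : ℝ) ^ 2 / (M : ℝ) ^ 10)
    (S : Finset (Option F × Option F)) (hcov : Covers (fam mn ω i0 t0 Sel) S) :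
    Fintype.card F + 1 ≤ #S := by
  by_contra hlt
  have hcard : #S ≤ Fintype.card F := by omega
  obtain ⟨m, hm⟩ := near_line hS hM hMq hlog hIT S hcov hcard
  obtain ⟨hz, hh⟩ := contains_line hS hM hMq S hcov hcard m hm
  cases m with
  | inl L => exact no_cover_line hS S hcov hcard L (fun z a b => hz z a b) (fun y k a b => hh y k a b)
  | inr p =>
    refine no_cover_part hS S hcov hcard p (fun z a b => hz z a b) ?_
    intro y hy
    subst hy
    have hk := hh y (mn.hub (ω y)) rfl (Or.inr rfl)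
    exact hk

end Crest.Agent.Ryser
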