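import Mathlib

/-!
Row 34. From a family of words `Option F → Option F` (edges = graphs) to the hypergraph form of the
statements S0045, S0046.  Generic; no dependence on the construction.
-/

set_option autoImplicit false

noncomputable section

open Finset

namespace Crest.Agent.Ryser

/-- Transfer to `Fin N`. `X` is a finite type with `q + 1` elements. -/
theorem transfer_hyper {X : Type} [Fintype X] [DecidableEq X] (q : ℕ) (hX : Fintype.card X = q + 1)
    (𝓦 : Finset (X → X)) (hne : 𝓦.Nonempty)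
    (hint : ∀ W ∈ 𝓦, ∀ W' ∈ 𝓦, ∃ p, W p = W' p)
    (hused : ∀ p v, ∃ W ∈ 𝓦, W p = v)
    (hcov : ∀ S : Finset (X × X), (∀ W ∈ 𝓦, ∃ p, (p, W p) ∈ S) → q + 1 ≤ #S) :
    ∃ (N : ℕ) (part : Fin N → Fin (q + 1)) (E : Finset (Finset (Fin N))),
        E.Nonempty ∧
        (∀ e ∈ E, ∀ i : Fin (q + 1), (e.filter (fun v => part v = i)).card = 1) ∧
        (∀ e ∈ E, ∀ f ∈ E, (e ∩ f).Nonempty) ∧
        (∀ i : Fin (q + 1), (Finset.univ.filter (fun v => part v = i)).card = q + 1) ∧
        (∀ v : Fin N, ∃ e ∈ E, v ∈ e) ∧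
        (∀ S : Finset (Fin N), (∀ e ∈ E, (e ∩ S).Nonempty) → q + 1 ≤ S.card) := by
  classical
  have hcard : Fintype.card (X × X) = (q + 1) * (q + 1) := by
    rw [Fintype.card_prod, hX]
  let φ : Fin ((q + 1) * (q + 1)) ≃ X × X := (Fintype.equivFinOfCardEq hcard).symm
  let ε : X ≃ Fin (q + 1) := Fintype.equivFinOfCardEq hX
  -- an edge: graph of a word
  let gr : (X → X) → Finset (Fin ((q + 1) * (q + 1))) := fun W =>
    univ.image fun p => φ.symm (p, W p)
  have hmem : ∀ W v, v ∈ gr W ↔ (φ v).2 = W (φ v).1 := by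
    intro W v
    simp only [gr, mem_image, mem_univ, true_and]
    constructor
    · rintro ⟨p, rfl⟩
      simp
    · intro h
      refine ⟨(φ v).1, ?_⟩
      rw [← h]
      simp
  refine ⟨(q + 1) * (q + 1), fun v => ε (φ v).1, 𝓦.image gr, hne.image _, ?_, ?_, ?_, ?_, ?_⟩
  · intro e he i
    obtain ⟨W, -, rfl⟩ := mem_image.mp he
    rw [card_eq_one]
    refine ⟨φ.symm (ε.symm i, W (ε.symm i)), ?_⟩
    ext v
    simp only [mem_filter, mem_singleton, hmem]
    constructor
    · rintro ⟨h1, h2⟩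
      have h3 : (φ v).1 = ε.symm i := by rw [← h2]; simp
      apply φ.injective
      simp only [Equiv.apply_symm_apply]
      rw [← h3]
      exact Prod.ext rfl h1
    · rintro rfl
      simp
  · intro e he f hf
    obtain ⟨W, hW, rfl⟩ := mem_image.mp he
    obtain ⟨W', hW', rfl⟩ := mem_image.mp hf
    obtain ⟨p, hp⟩ := hint W hW W' hW'
    refine ⟨φ.symm (p, W p), ?_⟩
    simp [hmem, hp]
  · intro i
    have : (univ.filter fun v : Fin ((q + 1) * (q + 1)) => ε (φ v).1 = i) =
        (univ : Finset X).image (fun k => φ.symm (ε.symm i, k)) := by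
      ext v
      simp only [mem_filter, mem_univ, true_and, mem_image]
      constructor
      · intro h
        refine ⟨(φ v).2, ?_⟩
        apply φ.injective
        simp only [Equiv.apply_symm_apply]
        have : (φ v).1 = ε.symm i := by rw [← h]; simp
        rw [← this]
      · rintro ⟨k, rfl⟩
        simp
    rw [this, card_image_of_injective, card_univ, hX]
    intro a b hab
    have := φ.symm.injective hab
    exact (Prod.ext_iff.mp this).2
  · intro v
    obtain ⟨W, hW, h⟩ := hused (φ v).1 (φ v).2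
    exact ⟨gr W, mem_image_of_mem _ hW, (hmem _ _).mpr h.symm⟩
  · intro S hS
    have hc := hcov (S.image φ) ?_
    · exact hc.trans card_image_le
    · intro W hW
      obtain ⟨v, hv⟩ := hS (gr W) (mem_image_of_mem _ hW)
      rw [mem_inter, hmem] at hv
      refine ⟨(φ v).1, ?_⟩
      rw [mem_image]
      exact ⟨v, hv.2, Prod.ext rfl hv.1⟩

/-- The numeric choice of `M`: for all constants there is `Q₀` such that from `Q₀` on there is `M`
with `10⁶ ≤ M`, `C₁ log q ≤ M`, `log₂ q + 1 ≤ M`, `M^A ≤ q`. -/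
theorem exists_M (C₁ A : ℕ) (M₀ : ℕ) : ∃ Q₀ : ℕ, ∀ q : ℕ, Q₀ ≤ q →
    ∃ M : ℕ, M₀ ≤ M ∧ (C₁ : ℝ) * Real.log q ≤ M ∧ Nat.log 2 q + 1 ≤ M ∧ M ^ A ≤ q := by
  -- WLOG `A ≥ 1`: work with `B = A + 1`
  set B := A + 1 with hB
  -- `C log (M+1) ≤ M` eventually.
  have hlog : ∀ᶠ n : ℕ in Filter.atTop, ((C₁ : ℝ) + 2) * B * Real.log (n + 1 : ℕ) + 2 ≤ n := by
    have h1 : Filter.Tendsto (fun n : ℕ => ((n : ℝ) + 1)) Filter.atTop Filter.atTop :=
      Filter.tendsto_atTop_add_const_right _ _ tendsto_natCast_atTop_atTop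
    have h2 : (fun x : ℝ => Real.log x) =o[Filter.atTop] (fun x : ℝ => x) := Real.isLittleO_log_id_atTop
    have h3 := (h2.comp_tendsto h1)
    have hc : (0 : ℝ) < 1 / (2 * (((C₁ : ℝ) + 2) * B)) := by
      have : (0 : ℝ) < B := by rw [hB]; positivity
      positivity
    have h4 := h3.def hc
    filter_upwards [h4, Filter.eventually_ge_atTop 6] with n hn h6
    simp only [Function.comp_apply, Real.norm_eq_abs] at hn
    have hBpos : (0 : ℝ) < ((C₁ : ℝ) + 2) * B := by
      have : (0 : ℝ) < B := by rw [hB]; positivity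
      positivity
    have hn1 : (0 : ℝ) ≤ (n : ℝ) + 1 := by positivity
    rw [abs_of_nonneg hn1] at hn
    have hl := (le_abs_self _).trans hn
    have h5 : (((C₁ : ℝ) + 2) * B) * Real.log ((n : ℝ) + 1) ≤ ((n : ℝ) + 1) / 2 := by
      calc _ ≤ (((C₁ : ℝ) + 2) * B) * (1 / (2 * (((C₁ : ℝ) + 2) * B)) * ((n : ℝ) + 1)) := by
            exact mul_le_mul_of_nonneg_left hl hBpos.le
        _ = ((n : ℝ) + 1) / 2 := by
            have hB0 : (B : ℝ) ≠ 0 := by rw [hB]; positivity
            field_simp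
    have h6' : (6 : ℝ) ≤ n := by exact_mod_cast h6
    push_cast
    nlinarith
  obtain ⟨M₁, hM₁⟩ := Filter.eventually_atTop.mp hlog
  set M₂ := max (max M₀ M₁) 2 with hM₂
  refine ⟨M₂ ^ B, fun q hq => ?_⟩
  -- largest `M` with `M ^ B ≤ q`
  have hex : M₂ ^ B ≤ q := hq
  let M := Nat.findGreatest (fun m => m ^ B ≤ q) q
  have hle : M₂ ≤ q := by
    refine le_trans ?_ hq
    exact Nat.le_self_pow (by omega) _
  have hM : M ^ B ≤ q := by
    have := Nat.findGreatest_spec (P := fun m => m ^ B ≤ q) hle hex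
    exact this
  have hMge : M₂ ≤ M := Nat.le_findGreatest hle hex
  have hM2 : 2 ≤ M := le_trans (le_max_right _ _) hMge
  have hM0 : M₀ ≤ M := le_trans (le_trans (le_max_left _ _) (le_max_left _ _)) hMge
  have hM1 : M₁ ≤ M := le_trans (le_trans (le_max_right _ _) (le_max_left _ _)) hMge
  have hMlt : q < (M + 1) ^ B := by
    by_contra hcon
    push Not at hcon
    have hMq : M + 1 ≤ q := by
      refine le_trans ?_ hcon
      exact Nat.le_self_pow (by omega) _
    have := Nat.le_findGreatest (P := fun m => m ^ B ≤ q) hMq hcon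
    omega
  have hlogq : Real.log q ≤ B * Real.log (M + 1 : ℕ) := by
    have hq0 : 0 < q := lt_of_lt_of_le (by positivity) hex
    have : Real.log q ≤ Real.log (((M + 1 : ℕ) : ℝ) ^ B) :=
      Real.log_le_log (by exact_mod_cast hq0) (by exact_mod_cast hMlt.le)
    rwa [Real.log_pow] at this
  have hkey := hM₁ M hM1
  have hlogM : 0 ≤ Real.log (M + 1 : ℕ) := Real.log_natCast_nonneg _
  have hBpos : (0 : ℝ) < B := by rw [hB]; positivity
  refine ⟨M, hM0, ?_, ?_, ?_⟩
  · -- `C₁ log q ≤ M`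
    calc (C₁ : ℝ) * Real.log q ≤ (C₁ : ℝ) * (B * Real.log (M + 1 : ℕ)) :=
          mul_le_mul_of_nonneg_left hlogq (by positivity)
      _ ≤ ((C₁ : ℝ) + 2) * B * Real.log (M + 1 : ℕ) + 2 := by nlinarith [mul_nonneg hBpos.le hlogM]
      _ ≤ M := hkey
  · -- `log₂ q + 1 ≤ M`: `q < 2 ^ (M - 1)` since `log₂ q ≤ (3/2) log q`
    have hq0 : q ≠ 0 := by
      intro h0
      rw [h0] at hex
      have : 0 < M₂ ^ B := by
        have : 0 < M₂ := by
          have := le_max_right (max M₀ M₁) 2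
          omega
        positivity
      omega
    have hlog2 : (Nat.log 2 q : ℝ) * Real.log 2 ≤ Real.log q := by
      have h2 : 2 ^ Nat.log 2 q ≤ q := Nat.pow_log_le_self 2 hq0
      have : Real.log ((2 : ℝ) ^ Nat.log 2 q) ≤ Real.log q :=
        Real.log_le_log (by positivity) (by exact_mod_cast h2)
      rwa [Real.log_pow] at this
    have hl2 : (1 / 2 : ℝ) ≤ Real.log 2 := by
      have := Real.log_two_gt_d9
      linarith
    have hlq : 0 ≤ Real.log q := Real.log_natCast_nonneg _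
    have : (Nat.log 2 q : ℝ) ≤ 2 * Real.log q := by
      have h0 : (0:ℝ) ≤ Nat.log 2 q := by positivity
      nlinarith
    have h8 : (Nat.log 2 q : ℝ) + 1 ≤ M := by
      have h9 : 2 * Real.log q ≤ ((C₁ : ℝ) + 2) * B * Real.log (M + 1 : ℕ) := by
        calc 2 * Real.log q ≤ 2 * (B * Real.log (M + 1 : ℕ)) := by linarith
          _ ≤ ((C₁ : ℝ) + 2) * B * Real.log (M + 1 : ℕ) := by
            have : 0 ≤ B * Real.log (M + 1 : ℕ) := by positivity
            have hC : (0 : ℝ) ≤ C₁ := by positivity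
            nlinarith
      linarith
    exact_mod_cast h8
  · -- `M ^ A ≤ q`
    have hMpos : 1 ≤ M := by omega
    exact le_trans (Nat.pow_le_pow_right hMpos (by omega)) hM

end Crest.Agent.Ryser
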