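import Crest.Agent.Lib.Ryser.Family
import Crest.Agent.Lib.Ryser.Transfer

/-!
Row 34. Assembly: choice of `M`, main theorem, and the field facts used in S0045, S0046.
-/

set_option autoImplicit false

noncomputable section

open Finset

namespace Crest.Agent.Ryser

/-- MAIN THEOREM of row 34. -/
theorem main_theorem : ∃ Q₀ : ℕ, ∀ (F : Type) [Field F] [Fintype F] [DecidableEq F],
    Q₀ ≤ Fintype.card F → 101 ≤ ringChar F → ¬ IsSquare (Fintype.card F) →
    ∃ 𝓦 : Finset (Option F → Option F), 𝓦.Nonempty ∧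
      (∀ W ∈ 𝓦, ∀ W' ∈ 𝓦, ∃ p, W p = W' p) ∧
      (∀ p v, ∃ W ∈ 𝓦, W p = v) ∧
      (∀ S : Finset (Option F × Option F), (∀ W ∈ 𝓦, ∃ p, (p, W p) ∈ S) →
        Fintype.card F + 1 ≤ #S) := by
  obtain ⟨C₁, A₁, henv⟩ := exists_env
  obtain ⟨A₂, hsel⟩ := exists_selection
  obtain ⟨C₃, hIT⟩ := plane_IT
  set A := A₁ + A₂ + 200 + 20 * C₃ with hA
  obtain ⟨Q₀, hQ₀⟩ := exists_M C₁ A (10 ^ 6)
  refine ⟨Q₀, ?_⟩
  intro F _ _ _ hq hchar hsq
  obtain ⟨M, hM, hlog1, hlog2, hpow⟩ := hQ₀ _ hq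
  have hM0 : 0 < M := by omega
  have : NeZero M := ⟨by omega⟩
  have hM1 : 1 ≤ M := hM0
  have hMA : ∀ B, B ≤ A → M ^ B ≤ Fintype.card F := fun B hB =>
    le_trans (Nat.pow_le_pow_right hM1 hB) hpow
  have h2 : (2 : F) ≠ 0 := by
    intro h0
    have hc : ringChar F ∣ 2 := (ringChar.spec F 2).mp (by exact_mod_cast h0)
    have := Nat.le_of_dvd (by norm_num) hc
    omega
  have hchar2 : ringChar F ≠ 2 := by omega
  have hreg : Regime F M C₁ A₁ := ⟨hchar, by omega, hlog1, hMA _ (by omega)⟩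
  obtain ⟨mn, i0, i1, ω, t0, hdist, hbal, hinf, hcap, hgrid, hopt⟩ := henv F h2 M hreg
  obtain ⟨Sel, hS1, hS2⟩ := hsel F M mn i0 ω t0 (by omega) (hMA _ (by omega)) hchar2 hdist hopt
  have hSetup : Setup h2 mn i0 i1 ω t0 Sel := ⟨hdist, hbal, hinf, hcap, hgrid, hS1, hS2, hchar⟩
  have hsqrt : ∀ B : ℕ, 2 * B ≤ A → (M : ℝ) ^ B ≤ Real.sqrt (Fintype.card F) := by
    intro B hB
    apply Real.le_sqrt_of_sq_le
    rw [← pow_mul]
    have : M ^ (B * 2) ≤ Fintype.card F := hMA _ (by omega)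
    exact_mod_cast this
  have hcover := fam_cover hSetup hM (hsqrt 100 (by omega)) hlog2 ?_
  · refine ⟨fam mn ω i0 t0 Sel, ?_, fam_intersect hSetup, fam_used hSetup, fun S hS => hcover S hS⟩
    obtain ⟨W, hW, -⟩ := fam_used hSetup none none
    exact ⟨W, hW⟩
  · intro S 𝓛 X hS hX1 hX2 hX3
    have hK1 : (2 : ℝ) ≤ (M : ℝ) ^ 10 := by
      have hM2 : (2 : ℝ) ≤ M := by exact_mod_cast (by omega : 2 ≤ M)
      calc (2 : ℝ) ≤ M := hM2
        _ = (M : ℝ) ^ 1 := by ring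
        _ ≤ (M : ℝ) ^ 10 := pow_le_pow_right₀ (by linarith) (by norm_num)
    refine hIT F h2 ((M : ℝ) ^ 10) hK1 ?_ hsq S 𝓛 X hS hX1 hX2 hX3
    rw [← pow_mul]
    exact hsqrt _ (by omega)

/-- Not a square: an odd power of a prime. -/
theorem not_isSquare_prime_pow {s n : ℕ} (hs : s.Prime) (hn : Odd n) : ¬ IsSquare (s ^ n) := by
  rintro ⟨a, ha⟩
  have h1 : (s ^ n).factorization s = n := by simp [hs.factorization_self]
  have hne : a ≠ 0 := by
    rintro rfl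
    simp at ha
    exact hs.ne_zero ha.1
  have h2 : (a * a).factorization s = 2 * a.factorization s := by
    rw [Nat.factorization_mul hne hne]
    simp [two_mul]
  rw [ha] at h1
  rw [h2] at h1
  rcases hn with ⟨k, rfl⟩
  omega

/-- Not a square: a prime. -/
theorem not_isSquare_prime {q : ℕ} (hq : q.Prime) : ¬ IsSquare q := by
  have := not_isSquare_prime_pow hq (n := 1) (by decide)
  simpa using this

end Crest.Agent.Ryser
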