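import Crest.Agent.Lib.Ryser.Defs
import Crest.Agent.Lib.Ryser.Chain
import Crest.Agent.Lib.NearBaer.IT

/-!
Row 34. The concrete plane `Pt F` (plane minus `O`) with all its lines not through... and through `O`:
`PlaneLn F = (F × F) ⊕ Option F`; `inl L` a line not through `O`; `inr p` the part `p` (vertical line, or
the line at infinity). Embedding in `PG(2,F)`:
point `(some x,k) ↦ (x, x²+k, 1)`, `(none,t) ↦ (1, 2t, 0)`;
line `inl (t,u) ↦ (2t, -1, u - t²)`, `inr (some x) ↦ (1, 0, -x)`, `inr none ↦ (0,0,1)`.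
-/

set_option autoImplicit false

noncomputable section

open Finset

namespace Crest.Agent.Ryser

variable {F : Type} [Field F] [Fintype F] [DecidableEq F]

/-- All lines of the plane except none: `inl` not through `O`, `inr` the parts. -/
abbrev PlaneLn (F : Type) := (F × F) ⊕ Option F

/-- Incidence in the plane. -/
def planeInc (s : Pt F) : PlaneLn F → Prop
  | Sum.inl L => onL s L
  | Sum.inr p => s.1 = p

omit [Fintype F] [DecidableEq F] in
/-- Two lines not through `O` with two common plain points coincide (char ≠ 2). -/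
theorem onL_uniq (h2 : (2 : F) ≠ 0) {s s' : Pt F} {L L' : F × F} (hs : s ≠ s')
    (h1 : onL s L) (h1' : onL s' L) (h2' : onL s L') (h3 : onL s' L') : L = L' := by
  obtain ⟨p, k⟩ := s
  obtain ⟨p', k'⟩ := s'
  obtain ⟨t, u⟩ := L
  obtain ⟨t', u'⟩ := L'
  cases p with
  | none =>
    cases p' with
    | none =>
      simp only [onL] at h1 h1' h2' h3
      exact absurd (by rw [← h1, ← h1']) hs
    | some x' =>
      simp only [onL, ht] at h1 h1' h2' h3
      have ht' : t = t' := h1.trans h2'.symm
      subst ht'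
      have : u = u' := by linear_combination h1' - h3
      rw [this]
  | some x =>
    cases p' with
    | none =>
      simp only [onL, ht] at h1 h1' h2' h3
      have ht' : t = t' := h1'.trans h3.symm
      subst ht'
      have : u = u' := by linear_combination h1 - h2'
      rw [this]
    | some x' =>
      simp only [onL, ht] at h1 h1' h2' h3
      by_cases hx : x = x'
      · subst hx
        exact absurd (by rw [← h1, ← h1']) hs
      · have hsub : x - x' ≠ 0 := sub_ne_zero.mpr hx
        have e : (x - x') * (2 * (t' - t)) = 0 := by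
          linear_combination h2' - h3 - h1 + h1'
        have ht0 : t' - t = 0 := by
          rcases mul_eq_zero.mp e with h | h
          · exact absurd h hsub
          · rcases mul_eq_zero.mp h with h | h
            · exact absurd h h2
            · exact h
        have ht' : t = t' := (sub_eq_zero.mp ht0).symm
        subst ht'
        have : u = u' := by linear_combination h1 - h2'
        rw [this]

omit [Fintype F] [DecidableEq F] in
/-- Two points in different parts are joined by a line not through `O` (char ≠ 2). -/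
theorem exists_onL (h2 : (2 : F) ≠ 0) {s s' : Pt F} (hp : s.1 ≠ s'.1) :
    ∃ L : F × F, onL s L ∧ onL s' L := by
  obtain ⟨p, k⟩ := s
  obtain ⟨p', k'⟩ := s'
  cases p with
  | none =>
    cases p' with
    | none => exact absurd rfl hp
    | some x' =>
      refine ⟨(k, k' + (x' - k) ^ 2), rfl, ?_⟩
      simp only [onL, ht]
      ring
  | some x =>
    cases p' with
    | none =>
      refine ⟨(k', k + (x - k') ^ 2), ?_, rfl⟩
      simp only [onL, ht]
      ring
    | some x' =>
      have hx : x' - x ≠ 0 := by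
        intro h
        apply hp
        rw [sub_eq_zero.mp h]
      refine ⟨(((x' + x) - (k - k') / (x' - x)) / 2,
        k + (x - ((x' + x) - (k - k') / (x' - x)) / 2) ^ 2), ?_, ?_⟩
      · simp only [onL, ht]
        ring
      · simp only [onL, ht]
        field_simp
        ring

/-- MODULE A1. The plane is a linear space (char ≠ 2). -/
def planeI (h2 : (2 : F) ≠ 0) : IncStr (Pt F) (PlaneLn F) where
  Inc := planeInc
  uniq := by
    intro s s' l l' hs h1 h1' h2' h3
    cases l with
    | inl L =>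
      cases l' with
      | inl L' => rw [onL_uniq h2 hs h1 h1' h2' h3]
      | inr p =>
        exfalso
        obtain ⟨q, k⟩ := s
        obtain ⟨q', k'⟩ := s'
        simp only [planeInc] at h1 h1' h2' h3
        subst h2'
        subst h3
        apply hs
        cases q' with
        | none =>
          simp only [onL] at h1 h1'
          rw [← h1, ← h1']
        | some x =>
          simp only [onL] at h1 h1'
          rw [← h1, ← h1']
    | inr p =>
      cases l' with
      | inl L' =>
        exfalso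
        obtain ⟨q, k⟩ := s
        obtain ⟨q', k'⟩ := s'
        simp only [planeInc] at h1 h1' h2' h3
        subst h1
        subst h1'
        apply hs
        cases q' with
        | none =>
          simp only [onL] at h2' h3
          rw [← h2', ← h3]
        | some x =>
          simp only [onL] at h2' h3
          rw [← h2', ← h3]
      | inr p' =>
        simp only [planeInc] at h1 h2'
        rw [← h1, ← h2']
  join := by
    intro s s' _
    by_cases hp : s.1 = s'.1
    · exact ⟨Sum.inr s.1, rfl, hp.symm⟩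
    · obtain ⟨L, h1, h1'⟩ := exists_onL h2 hp
      exact ⟨Sum.inl L, h1, h1'⟩

/-- The lines through `O`. -/
def parLines : Finset (PlaneLn F) := univ.filter fun l => Sum.isRight l = true

/-- The statement of helper39's incidence theorem (finding #1721). -/
def IncidenceOrSubfield (C E : ℝ) : Prop :=
  ∀ (F : Type) [Field F] [Fintype F] [DecidableEq F]
    (K : ℝ) (X : ℕ) (P L : Finset (F × F)), 1 ≤ K →
    (P.card : ℝ) ≤ Fintype.card F →
    (∀ l ∈ L, X ≤ (P.filter (fun p => p.2 = l.1 * p.1 + l.2)).card) →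
    (Fintype.card F : ℝ) ^ 2 ≤ K * L.card * X ^ 2 →
    (X : ℝ) ^ 2 ≤ 4 * Fintype.card F →
    Real.sqrt (Fintype.card F) ≤ K * X →
    Real.sqrt (Fintype.card F) ≤ C * K ^ E ∨
      ∃ T : Subfield F, T ≠ ⊤ ∧ Real.sqrt (Fintype.card F) ≤ C * K ^ E * Nat.card T

omit [DecidableEq F] in
/-- A proper subfield of a field of non-square order has at most `q^{1/3}` elements. -/
theorem subfield_cube_le (hq : ¬ IsSquare (Fintype.card F)) (T : Subfield F) (hT : T ≠ ⊤) :
    (Nat.card T) ^ 3 ≤ Fintype.card F := by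
  classical
  have : Fintype T := Fintype.ofFinite T
  have hcard := Module.card_eq_pow_finrank (K := T) (V := F)
  rw [Nat.card_eq_fintype_card]
  set d := Module.finrank T F with hd
  obtain ⟨a, ha⟩ : ∃ a, a ∉ T := by
    by_contra hcon
    push Not at hcon
    exact hT (by
      ext x
      simp [hcon x])
  have hlt : Fintype.card T < Fintype.card F :=
    Fintype.card_subtype_lt (p := fun x => x ∈ T) ha
  have hpos : 0 < Fintype.card T := Fintype.card_pos
  rcases d with _ | _ | _ | d
  · rw [pow_zero] at hcard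
    have : Fintype.card T ≤ 1 := by omega
    have h1 : 1 < Fintype.card T := Fintype.one_lt_card
    omega
  · rw [zero_add, pow_one] at hcard
    omega
  · exact absurd ⟨Fintype.card T, by rw [hcard]; ring⟩ hq
  · rw [hcard]
    exact Nat.pow_le_pow_right hpos (by omega)

/-- Affine coordinates of a plain point. -/
def affPt (s : Pt F) : F × F :=
  match s.1 with
  | some x => (x, x ^ 2 + s.2)
  | none => (0, 0)

/-- Slope-intercept coordinates of a line. -/
def affLn (L : F × F) : F × F := (2 * L.1, L.2 - L.1 ^ 2)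

omit [Fintype F] [DecidableEq F] in
theorem affLn_injective (h2 : (2 : F) ≠ 0) : Function.Injective (affLn : F × F → F × F) := by
  rintro ⟨t, u⟩ ⟨t', u'⟩ h
  simp only [affLn, Prod.mk.injEq] at h
  have h3 : t = t' := mul_left_cancel₀ h2 h.1
  subst h3
  have h4 : u = u' := by linear_combination h.2
  rw [h4]

/-- MODULE A4, from the statement of helper39. -/
theorem plane_IT_of {C E : ℝ} (hC : 1 ≤ C) (hE : 1 ≤ E) (hIO : IncidenceOrSubfield C E) :
    ∃ A : ℕ, ∀ (F : Type) [Field F] [Fintype F] [DecidableEq F] (h2 : (2 : F) ≠ 0) (K : ℝ), 2 ≤ K →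
    K ^ A ≤ Real.sqrt (Fintype.card F) → ¬ IsSquare (Fintype.card F) →
    ∀ (S : Finset (Pt F)) (𝓛 : Finset (PlaneLn F)) (X : ℝ), #S ≤ Fintype.card F →
    Real.sqrt (Fintype.card F) / K ≤ X → X ≤ 2 * Real.sqrt (Fintype.card F) →
    (∀ l ∈ 𝓛, X ≤ ((planeI h2).x S l : ℝ) ∧ ((planeI h2).x S l : ℝ) < 2 * X) →
    (#𝓛 : ℝ) * X ^ 2 < (Fintype.card F : ℝ) ^ 2 / K := by
  classical
  set c0 : ℝ := C ^ 3 * ((8 : ℝ) ^ E) ^ 3 with hc0
  set a : ℕ := ⌈3 * E⌉₊ with ha
  set b : ℕ := ⌈c0⌉₊ with hb
  refine ⟨a + b + 3, ?_⟩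
  intro F _ _ _ h2 K hK hKA hsq S 𝓛 X hS hX1 hX2 hx
  by_contra hcon
  push Not at hcon
  set q : ℝ := (Fintype.card F : ℝ) with hq
  set y : ℝ := Real.sqrt q with hy
  have hq0 : 0 ≤ q := Nat.cast_nonneg _
  have hyy : y ^ 2 = q := Real.sq_sqrt hq0
  have hK1 : (1 : ℝ) ≤ K := by linarith
  have hK0 : (0 : ℝ) < K := by linarith
  -- `y ≥ K^3 ≥ 4K`
  have hyK : K ^ 3 ≤ y := by
    refine le_trans ?_ hKA
    exact pow_le_pow_right₀ hK1 (by omega)
  have hy4 : 4 * K ≤ y := by
    have h4K : 4 ≤ K ^ 2 := by nlinarith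
    have : 4 * K ≤ K ^ 3 := by
      calc 4 * K ≤ K ^ 2 * K := mul_le_mul_of_nonneg_right h4K hK0.le
        _ = K ^ 3 := by ring
    linarith
  have hypos : 0 < y := by linarith
  have hX4 : 4 ≤ X := by
    have h4 : 4 ≤ y / K := by
      rw [le_div_iff₀ hK0]
      linarith
    linarith
  have hXpos : 0 < X := by linarith
  -- split the lines
  set L1 := 𝓛.toLeft with hL1
  set L2 := 𝓛.toRight with hL2
  have hsplit : (#𝓛 : ℝ) = #L1 + #L2 := by
    have := Finset.card_toLeft_add_card_toRight (u := 𝓛)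
    rw [hL1, hL2]
    exact_mod_cast this.symm
  -- lines through `O`
  have hL2X : (#L2 : ℝ) * X ≤ q := by
    have h1 : ∑ p ∈ L2, #(S.filter (fun s => s.1 = p)) ≤ #S := by
      rw [Finset.sum_card_fiberwise_eq_card_filter]
      exact Finset.card_filter_le _ _
    have h2' : (#L2 : ℝ) * X ≤ ((∑ p ∈ L2, #(S.filter (fun s => s.1 = p)) : ℕ) : ℝ) := by
      push_cast
      rw [← nsmul_eq_mul, ← Finset.sum_const]
      apply Finset.sum_le_sum
      intro p hp
      have h3 := (hx (Sum.inr p) (Finset.mem_toRight.mp hp)).1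
      have h4 : (planeI h2).x S (Sum.inr p) = #(S.filter (fun s => s.1 = p)) := by
        unfold IncStr.x
        congr 1
        ext s
        simp only [Finset.mem_filter]
        rfl
      rwa [h4] at h3
    have h3 : ((∑ p ∈ L2, #(S.filter (fun s => s.1 = p)) : ℕ) : ℝ) ≤ q := by
      rw [hq]
      exact_mod_cast h1.trans hS
    linarith
  have hL2XX : (#L2 : ℝ) * X ^ 2 ≤ 2 * q * y := by
    have h1 : (#L2 : ℝ) * X ^ 2 = (#L2 * X) * X := by ring
    rw [h1]
    calc (#L2 * X) * X ≤ q * (2 * y) := by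
          apply mul_le_mul hL2X hX2 hXpos.le hq0
      _ = 2 * q * y := by ring
  have hq2 : q ^ 2 / (2 * K) ≤ #L1 * X ^ 2 := by
    have h1 : q ^ 2 / K ≤ (#L1 + #L2) * X ^ 2 := by
      rw [← hsplit]
      exact hcon
    have h2' : q ^ 2 / K - 2 * q * y ≤ #L1 * X ^ 2 := by
      nlinarith
    have h3 : q ^ 2 / (2 * K) ≤ q ^ 2 / K - 2 * q * y := by
      have h4 : q ^ 2 / K - q ^ 2 / (2 * K) = q ^ 2 / (2 * K) := by
        field_simp
        ring
      have h5 : 2 * q * y ≤ q ^ 2 / (2 * K) := by
        rw [le_div_iff₀ (by positivity)]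
        have h6 : q * (y * (4 * K)) ≤ q * (y * y) := by
          apply mul_le_mul_of_nonneg_left _ hq0
          exact mul_le_mul_of_nonneg_left hy4 hypos.le
        have h7 : y * y = q := by rw [← hyy]; ring
        rw [h7] at h6
        nlinarith
      linarith
    linarith
  -- natural number X'
  set X' : ℕ := ⌈X⌉₊ - 1 with hX'
  have hceil : 1 ≤ ⌈X⌉₊ := Nat.one_le_ceil_iff.mpr hXpos
  have hX'R : (X' : ℝ) = (⌈X⌉₊ : ℝ) - 1 := by
    rw [hX', Nat.cast_sub hceil]
    simp
  have hX'le : (X' : ℝ) ≤ X := by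
    have := Nat.ceil_lt_add_one hXpos.le
    rw [hX'R]
    linarith
  have hX'ge : X / 2 ≤ X' := by
    have := Nat.le_ceil X
    rw [hX'R]
    linarith
  have hX'0 : (0 : ℝ) ≤ X' := Nat.cast_nonneg _
  -- the affine configuration
  set P : Finset (F × F) := (S.filter (fun s => s.1 ≠ none)).image affPt with hP
  set L' : Finset (F × F) := L1.image affLn with hL'
  have hPc : (#P : ℝ) ≤ q := by
    have h1 : #P ≤ #S := (Finset.card_image_le).trans (Finset.card_filter_le _ _)
    rw [hq]
    exact_mod_cast h1.trans hS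
  have hL'c : #L' = #L1 := Finset.card_image_of_injective _ (affLn_injective h2)
  have hinc : ∀ l ∈ L', X' ≤ #(P.filter (fun p => p.2 = l.1 * p.1 + l.2)) := by
    intro l hl
    obtain ⟨L, hL, rfl⟩ := Finset.mem_image.mp hl
    have hxL := (hx (Sum.inl L) (Finset.mem_toLeft.mp hL)).1
    -- the points on `L`
    have h1 : (planeI h2).x S (Sum.inl L) = #(S.filter (fun s => onL s L)) := by
      unfold IncStr.x
      congr 1
    rw [h1] at hxL
    have hceil2 : ⌈X⌉₊ ≤ #(S.filter (fun s => onL s L)) := Nat.ceil_le.mpr hxL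
    -- remove the point at infinity
    have h2' : ((S.filter (fun s => onL s L)).erase (none, L.1)) ⊆ (S.filter (fun s => s.1 ≠ none ∧ onL s L)) := by
      intro s hs
      rw [Finset.mem_erase, Finset.mem_filter] at hs
      rw [Finset.mem_filter]
      obtain ⟨hne, hsS, hon⟩ := hs
      refine ⟨hsS, ?_, hon⟩
      intro hnone
      apply hne
      obtain ⟨p, k⟩ := s
      simp only at hnone
      subst hnone
      simp only [onL] at hon
      rw [hon]
    have h3 : #(S.filter (fun s => onL s L)) - 1 ≤ #(S.filter (fun s => s.1 ≠ none ∧ onL s L)) := by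
      refine le_trans ?_ (Finset.card_le_card h2')
      rw [Finset.card_erase_eq_ite]
      split_ifs <;> omega
    have hinj : Set.InjOn affPt ((S.filter (fun s => s.1 ≠ none ∧ onL s L)) : Set (Pt F)) := by
      rintro ⟨p, k⟩ hs ⟨p', k'⟩ hs' heq
      have hs1 := (Finset.mem_filter.mp hs).2.1
      have hs2 := (Finset.mem_filter.mp hs').2.1
      simp only at hs1 hs2
      obtain ⟨x, rfl⟩ := Option.ne_none_iff_exists'.mp hs1
      obtain ⟨x', rfl⟩ := Option.ne_none_iff_exists'.mp hs2
      simp only [affPt, Prod.mk.injEq] at heq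
      obtain ⟨rfl, h5⟩ := heq
      have h6 : k = k' := add_left_cancel h5
      rw [h6]
    have hsub : (S.filter (fun s => s.1 ≠ none ∧ onL s L)).image affPt ⊆
        P.filter (fun p => p.2 = (affLn L).1 * p.1 + (affLn L).2) := by
      intro z hz
      obtain ⟨s, hs, rfl⟩ := Finset.mem_image.mp hz
      rw [Finset.mem_filter] at hs
      obtain ⟨hsS, hne, hon⟩ := hs
      rw [Finset.mem_filter]
      refine ⟨Finset.mem_image.mpr ⟨s, Finset.mem_filter.mpr ⟨hsS, hne⟩, rfl⟩, ?_⟩
      obtain ⟨p, k⟩ := s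
      simp only at hne
      obtain ⟨x, rfl⟩ := Option.ne_none_iff_exists'.mp hne
      simp only [onL, ht] at hon
      simp only [affPt, affLn]
      rw [← hon]
      ring
    have h4 := Finset.card_le_card hsub
    rw [Finset.card_image_of_injOn hinj] at h4
    omega
  have hX'sq : (X' : ℝ) ^ 2 ≤ 4 * q := by
    have h1 : (X' : ℝ) ^ 2 ≤ (2 * y) ^ 2 := pow_le_pow_left₀ hX'0 (hX'le.trans hX2) 2
    nlinarith
  have hmain : q ^ 2 ≤ (8 * K) * (#L' : ℝ) * (X' : ℝ) ^ 2 := by
    rw [hL'c]
    have h1 : X ^ 2 ≤ 4 * (X' : ℝ) ^ 2 := by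
      have := pow_le_pow_left₀ (by linarith : (0 : ℝ) ≤ X / 2) hX'ge 2
      nlinarith
    have h2' : (#L1 : ℝ) * X ^ 2 ≤ #L1 * (4 * (X' : ℝ) ^ 2) :=
      mul_le_mul_of_nonneg_left h1 (Nat.cast_nonneg _)
    have h3 : q ^ 2 / (2 * K) ≤ #L1 * (4 * (X' : ℝ) ^ 2) := hq2.trans h2'
    rw [div_le_iff₀ (by positivity)] at h3
    nlinarith
  have hK8 : (1 : ℝ) ≤ 8 * K := by linarith
  -- apply the incidence theorem
  have hyX : y ≤ 8 * K * (X' : ℝ) := by
    have h1 : y ≤ K * X := by
      rw [div_le_iff₀ hK0] at hX1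
      linarith
    have h2' : K * X ≤ K * (2 * (X' : ℝ)) := mul_le_mul_of_nonneg_left (by linarith) hK0.le
    nlinarith
  have hres := hIO F (8 * K) X' P L' hK8 hPc hinc hmain hX'sq hyX
  set D : ℝ := C * (8 * K) ^ E with hD
  have hK8E : 1 ≤ (8 * K) ^ E := Real.one_le_rpow hK8 (by linarith)
  have hD1 : 1 ≤ D := by
    rw [hD]
    nlinarith
  have hbound : y ≤ D ^ 3 := by
    rcases hres with h | ⟨T, hT, h⟩
    · have : D ≤ D ^ 3 := by
        calc D = D ^ 1 := by ring
          _ ≤ D ^ 3 := pow_le_pow_right₀ hD1 (by norm_num)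
      linarith
    · have hTc := subfield_cube_le hsq T hT
      have hTcR : (Nat.card T : ℝ) ^ 3 ≤ q := by
        rw [hq]
        exact_mod_cast hTc
      have hT0 : (0 : ℝ) ≤ Nat.card T := Nat.cast_nonneg _
      have h3 : y ^ 3 ≤ (D * Nat.card T) ^ 3 := pow_le_pow_left₀ hypos.le h _
      rw [mul_pow] at h3
      have h4 : y ^ 3 ≤ D ^ 3 * q := by
        refine h3.trans (mul_le_mul_of_nonneg_left hTcR (by positivity))
      rw [← hyy] at h4
      have h5 : y * y ^ 2 ≤ D ^ 3 * y ^ 2 := by
        calc y * y ^ 2 = y ^ 3 := by ring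
          _ ≤ _ := h4
      exact le_of_mul_le_mul_right h5 (by positivity)
  -- contradiction
  have hD3 : D ^ 3 ≤ c0 * K ^ a := by
    have h1 : D ^ 3 = C ^ 3 * ((8 : ℝ) ^ E) ^ 3 * (K ^ E) ^ 3 := by
      rw [hD, Real.mul_rpow (by norm_num) hK0.le]
      ring
    rw [h1, hc0]
    apply mul_le_mul_of_nonneg_left _ (by positivity)
    have h2' : (K ^ E) ^ 3 = K ^ (3 * E) := by
      rw [← Real.rpow_natCast, ← Real.rpow_mul hK0.le]
      congr 1
      push_cast
      ring
    rw [h2', ← Real.rpow_natCast K a]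
    exact Real.rpow_le_rpow_of_exponent_le hK1 (Nat.le_ceil _)
  have hbig : c0 < K ^ (b + 3) := by
    have h1 : c0 ≤ b := Nat.le_ceil _
    have h2' : (b : ℝ) < 2 ^ b := by exact_mod_cast Nat.lt_two_pow_self
    have h3 : (2 : ℝ) ^ b ≤ K ^ (b + 3) := by
      calc (2 : ℝ) ^ b ≤ K ^ b := pow_le_pow_left₀ (by norm_num) hK _
        _ ≤ K ^ (b + 3) := pow_le_pow_right₀ hK1 (by omega)
    linarith
  have hfin : K ^ (a + b + 3) ≤ c0 * K ^ a := hKA.trans (hbound.trans hD3)
  have hsplitK : K ^ (a + b + 3) = K ^ a * K ^ (b + 3) := by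
    rw [← pow_add]
    congr 1
  rw [hsplitK] at hfin
  have hKa : 0 < K ^ a := by positivity
  nlinarith

/-- MODULE A4. The incidence theorem in the plane model, as needed by `chain_near_line`.
To be closed by `plane_IT_of` as soon as `incidence_or_subfield` (#1721) lands. -/
theorem plane_IT : ∃ C : ℕ, ∀ (F : Type) [Field F] [Fintype F] [DecidableEq F] (h2 : (2 : F) ≠ 0) (K : ℝ), 2 ≤ K →
    K ^ C ≤ Real.sqrt (Fintype.card F) → ¬ IsSquare (Fintype.card F) →
    ∀ (S : Finset (Pt F)) (𝓛 : Finset (PlaneLn F)) (X : ℝ), #S ≤ Fintype.card F →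
    Real.sqrt (Fintype.card F) / K ≤ X → X ≤ 2 * Real.sqrt (Fintype.card F) →
    (∀ l ∈ 𝓛, X ≤ ((planeI h2).x S l : ℝ) ∧ ((planeI h2).x S l : ℝ) < 2 * X) →
    (#𝓛 : ℝ) * X ^ 2 < (Fintype.card F : ℝ) ^ 2 / K := by
  obtain ⟨C, E, hC, hE, h⟩ := Crest.Agent.Lib.NearBaer.incidence_or_subfield
  exact plane_IT_of hC hE h

end Crest.Agent.Ryser
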